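import Vale.Agent.P137.CBase

open MeasureTheory Metric Set Filter
open scoped ENNReal NNReal RealInnerProductSpace Topology Pointwise

namespace Vale.Agent.P137

variable {d : ℕ}

namespace Ab

noncomputable def om (d : ℕ) : ℝ := (volume (ball (0 : E d) 1)).toReal

lemma om_pos : 0 < om d :=
  ENNReal.toReal_pos (measure_ball_pos _ _ one_pos).ne' measure_ball_lt_top.ne

lemma pw_pos (hd : 2 ≤ d) {t : ℝ} (ht : 1 < t) : 0 < t ^ d - 1 :=
  sub_pos.2 (one_lt_pow₀ ht (by omega))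

lemma vol_pos (hd : 2 ≤ d) {t : ℝ} (ht : 1 < t) : 0 < (volume (Sh0 d t)).toReal := by
  rw [Sh0_vol ht.le]; exact mul_pos (pw_pos hd ht) om_pos

lemma sa_mono {φ ψ : E d → ℝ} {t : ℝ} (h1 : IntegrableOn φ (Sh0 d t))
    (h2 : IntegrableOn ψ (Sh0 d t)) (h : ∀ z ∈ Sh0 d t, φ z ≤ ψ z) : sa φ t ≤ sa ψ t :=
  div_le_div_of_nonneg_right (setIntegral_mono_on h1 h2 (Sh0_meas t) h) ENNReal.toReal_nonneg

lemma sa_sub {φ ψ : E d → ℝ} {t : ℝ} (h1 : IntegrableOn φ (Sh0 d t))
    (h2 : IntegrableOn ψ (Sh0 d t)) : sa (fun z => φ z - ψ z) t = sa φ t - sa ψ t := by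
  rw [sa, integral_sub h1 h2, sub_div]; rfl

lemma sa_add {φ ψ : E d → ℝ} {t : ℝ} (h1 : BM φ) (h2 : BM ψ) :
    sa (fun z => φ z + ψ z) t = sa φ t + sa ψ t := by
  rw [sa, integral_add (h1.integrableOn (Sh0_lt t)) (h2.integrableOn (Sh0_lt t)), add_div]; rfl

lemma sa_mul (c : ℝ) (φ : E d → ℝ) (t : ℝ) : sa (fun z => c * φ z) t = c * sa φ t := by
  rw [sa, integral_const_mul, mul_div_assoc]; rfl

lemma sa_const (hd : 2 ≤ d) {t : ℝ} (ht : 1 < t) (c : ℝ) : sa (fun _ : E d => c) t = c := by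
  rw [sa, setIntegral_const, smul_eq_mul, Measure.real, mul_div_cancel_left₀ _ (vol_pos hd ht).ne']

lemma sa_sum {s : Finset ℕ} {φ : ℕ → E d → ℝ} (h : ∀ i, BM (φ i)) (t : ℝ) :
    sa (fun z => ∑ i ∈ s, φ i z) t = ∑ i ∈ s, sa (φ i) t := by
  rw [sa, integral_finsetSum _ fun i _ => (h i).integrableOn (Sh0_lt t), Finset.sum_div]; rfl

lemma bm_aff {φ : E d → ℝ} (h : BM φ) (x : E d) (a : ℝ) : BM fun z => φ (x + a • z) :=
  h.comp (by fun_prop)

lemma shell (φ : E d → ℝ) (x : E d) {a : ℝ} (ha : 0 < a) (t : ℝ) :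
    ∫ y in ball x (a * t) \ ball x a, φ y = a ^ d * ∫ z in Sh0 d t, φ (x + a • z) := by
  have hS : MeasurableSet (ball x (a * t) \ ball x a) := measurableSet_ball.diff measurableSet_ball
  have e1 : (Sh0 d t).indicator (fun z => φ (x + a • z)) =
      fun z => (fun u => (ball x (a * t) \ ball x a).indicator φ (x + u)) (a • z) := by
    funext z
    have : x + a • z ∈ ball x (a * t) \ ball x a ↔ z ∈ Sh0 d t := by
      rw [mem_Sh0, Set.mem_sdiff, mem_ball_iff_norm, mem_ball_iff_norm, add_sub_cancel_left,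
        norm_smul, Real.norm_of_nonneg ha.le, mul_lt_mul_iff_right₀ ha, not_lt,
        le_mul_iff_one_le_right ha]
    by_cases hz : z ∈ Sh0 d t
    · simp only [indicator_of_mem hz, indicator_of_mem (this.2 hz)]
    · simp only [indicator_of_notMem hz, indicator_of_notMem (mt this.1 hz)]
  rw [← integral_indicator (Sh0_meas t), e1, Measure.integral_comp_smul, integral_add_left_eq_self,
    integral_indicator hS, finrank_euclideanSpace_fin, abs_of_pos (by positivity), smul_eq_mul,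
    mul_inv_cancel_left₀ (by positivity)]

lemma key0 (hd : 2 ≤ d) (φ : E d → ℝ) (x : E d) {a t : ℝ} (ha : 0 < a) (ht : 1 < t) :
    sP φ x a t * (a ^ d * (t ^ d - 1) * om d) = ∫ y in ball x (a * t) \ ball x a, φ y := by
  have h1 := pw_pos hd ht
  have h2 : 0 < om d := om_pos
  rw [shell φ x ha, sP, sa, Sh0_vol ht.le, ← om]
  field_simp

lemma key (hd : 2 ≤ d) {φ : E d → ℝ} (hφ : BM φ) (x : E d) {a t : ℝ} (ha : 0 < a) (ht : 1 < t) :
    sP φ x a t * (a ^ d * (t ^ d - 1) * om d) =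
      (∫ y in ball x (a * t), φ y) - ∫ y in ball x a, φ y := by
  rw [key0 hd φ x ha ht, setIntegral_sdiff measurableSet_ball
    (hφ.integrableOn measure_ball_lt_top.ne) (ball_subset_ball (by nlinarith))]

lemma split (hd : 2 ≤ d) {φ : E d → ℝ} (hφ : BM φ) (x : E d) {a s : ℝ} (ha : 0 < a) (hs : 1 < s) :
    sP φ x a (s * s) * (s ^ d + 1) = sP φ x a s + s ^ d * sP φ x (a * s) s := by
  have h1 := key hd hφ x ha (t := s * s) (by nlinarith)
  have h2 := key hd hφ x ha hs
  have h3 := key hd hφ x (a := a * s) (by positivity) hs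
  have p : 0 < a ^ d * (s ^ d - 1) * om d := by
    have := pw_pos hd hs
    have : 0 < om d := om_pos
    positivity
  rw [← mul_assoc a s s, mul_pow] at h1
  rw [mul_pow] at h3
  refine mul_right_cancel₀ p.ne' ?_
  linear_combination h1 - h2 - h3

lemma split_le (hd : 2 ≤ d) {φ : E d → ℝ} (hφ : BM φ) (x : E d) {a s M : ℝ} (ha : 0 < a)
    (hs : 1 < s) (h1 : sP φ x a s ≤ M) (h2 : sP φ x (a * s) s ≤ M) : sP φ x a (s * s) ≤ M := by
  have p : 0 < s ^ d := by positivity
  refine le_of_mul_le_mul_right ?_ (by linarith : 0 < s ^ d + 1)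
  rw [split hd hφ x ha hs]
  nlinarith

lemma le_split (hd : 2 ≤ d) {φ : E d → ℝ} (hφ : BM φ) (x : E d) {a s M : ℝ} (ha : 0 < a)
    (hs : 1 < s) (h1 : M ≤ sP φ x a s) (h2 : M ≤ sP φ x (a * s) s) : M ≤ sP φ x a (s * s) := by
  have p : 0 < s ^ d := by positivity
  refine le_of_mul_le_mul_right ?_ (by linarith : 0 < s ^ d + 1)
  rw [split hd hφ x ha hs]
  nlinarith

lemma exp_lo (w : ℝ) : 1 + w ≤ Real.exp w := by linarith [Real.add_one_le_exp w]

lemma exp_hi {w : ℝ} (h0 : 0 < w) (h1 : w ≤ 1 / 100) : Real.exp w ≤ 1 + 101 / 100 * w := by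
  have := Real.abs_exp_sub_one_sub_id_le (x := w) (by rw [abs_of_pos h0]; linarith)
  nlinarith [le_abs_self (Real.exp w - 1 - w)]

/-- admissible inner radii -/
def Rg (r w a : ℝ) : Prop := r - 4 * w ≤ a ∧ a ≤ r + 5 / 2 * w

lemma rg_div {r w u : ℝ} (hr : r ∈ Icc (1 : ℝ) 2) (h0 : 0 ≤ u) (h1 : u ≤ 2 * w) :
    Rg r w (r / Real.exp u) := by
  have e := Real.exp_pos u
  have h2 := exp_lo u
  have h3 := exp_lo (-u)
  constructor
  · rw [div_eq_mul_inv, ← Real.exp_neg]; nlinarith [hr.1, hr.2]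
  · have : r / Real.exp u ≤ r := div_le_self (by linarith [hr.1]) (by linarith)
    linarith

lemma rg_self {r w : ℝ} (h0 : 0 < w) : Rg r w r := ⟨by linarith, by linarith⟩

lemma rg_mul {r w : ℝ} (hr : r ∈ Icc (1 : ℝ) 2) (h0 : 0 < w) (h1 : w ≤ 1 / 100) :
    Rg r w (r * Real.exp w) := by
  have h2 := exp_lo w
  have h3 := exp_hi h0 h1
  constructor <;> nlinarith [hr.1, hr.2]

lemma Rg.half {r w a : ℝ} (h : Rg r w a) (hr : r ∈ Icc (1 : ℝ) 2) (h1 : w ≤ 1 / 100) :
    1 / 2 ≤ a := by linarith [h.1, hr.1]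

lemma Rg.top {r w a : ℝ} (h : Rg r w a) (hr : r ∈ Icc (1 : ℝ) 2) (h0 : 0 < w) (h1 : w ≤ 1 / 100) :
    a * Real.exp w ≤ r + 5 * w := by
  have h3 := exp_hi h0 h1
  have h4 := h.half hr h1
  calc a * Real.exp w ≤ (r + 5 / 2 * w) * (1 + 101 / 100 * w) :=
        mul_le_mul h.2 h3 (Real.exp_pos w).le (by linarith [h.2])
    _ ≤ _ := by nlinarith [hr.2]

lemma Rg.near {r w a a' : ℝ} (h : Rg r w a) (h' : Rg r w a') (h0 : 0 < w) (h1 : w ≤ 1 / 100)
    (x : E d) {z : E d} (hz : z ∈ Sh0 d (Real.exp w)) : ‖(x + a • z) - (x + a' • z)‖ ≤ 8 * w := by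
  have h3 := exp_hi h0 h1
  rw [add_sub_add_left_eq_sub, ← sub_smul, norm_smul, Real.norm_eq_abs]
  have h4 : |a - a'| ≤ 13 / 2 * w := abs_le.2 ⟨by linarith [h.1, h'.2], by linarith [h.2, h'.1]⟩
  calc |a - a'| * ‖z‖ ≤ (13 / 2 * w) * (1 + 101 / 100 * w) :=
        mul_le_mul h4 ((mem_Sh0.1 hz).1.le.trans h3) (norm_nonneg _) (by positivity)
    _ ≤ _ := by nlinarith

lemma ann_sub (x : E d) (r δ : ℝ) : ann x r δ ⊆ closedBall x (r + δ) := fun y hy => by
  rw [mem_closedBall_iff_norm]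
  linarith [(abs_le.1 (show |‖y - x‖ - r| ≤ δ from hy)).2]

lemma toInt (hd : 2 ≤ d) {φ : E d → ℝ} (hφ : BM φ) (h0 : ∀ y, 0 ≤ φ y) (x : E d) {r w a : ℝ}
    (hr : r ∈ Icc (1 : ℝ) 2) (hw : 0 < w) (h1 : w ≤ 1 / 100) (ha : Rg r w a) {S : Set (E d)}
    (hS : volume S ≠ ∞) (hs : ann x r (5 * w) ⊆ S) :
    sP φ x a (Real.exp w) ≤ 2 ^ d / om d / w * ∫ y in S, φ y := by
  have h2 := exp_lo w
  have h3 := ha.half hr h1
  have h4 := ha.top hr hw h1
  have ho : 0 < om d := om_pos
  have h5 : 0 ≤ sP φ x a (Real.exp w) :=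
    div_nonneg (integral_nonneg fun _ => h0 _) ENNReal.toReal_nonneg
  have h6 : sP φ x a (Real.exp w) * (a ^ d * (Real.exp w ^ d - 1) * om d) ≤ ∫ y in S, φ y := by
    rw [key0 hd φ x (by linarith) (by linarith)]
    refine setIntegral_mono_set (hφ.integrableOn hS) (Eventually.of_forall h0)
      (LE.le.eventuallyLE fun y hy => hs ?_)
    have h7 : ‖y - x‖ < a * Real.exp w := mem_ball_iff_norm.1 hy.1
    have h8 : a ≤ ‖y - x‖ := not_lt.1 (mt mem_ball_iff_norm.2 hy.2)
    change |‖y - x‖ - r| ≤ 5 * w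
    exact abs_le.2 ⟨by linarith [ha.1], by linarith⟩
  have h7 : w ≤ Real.exp w ^ d - 1 := by
    linarith [le_self_pow₀ (show 1 ≤ Real.exp w by linarith) (show d ≠ 0 by omega)]
  have h8 : (1 / 2) ^ d * w * om d ≤ a ^ d * (Real.exp w ^ d - 1) * om d := by gcongr
  have h9 := (mul_le_mul_of_nonneg_left h8 h5).trans h6
  calc sP φ x a (Real.exp w) =
        2 ^ d / om d / w * (sP φ x a (Real.exp w) * ((1 / 2) ^ d * w * om d)) := by
        rw [one_div, inv_pow]; field_simp
    _ ≤ _ := by gcongr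

lemma close {φ b : E d → ℝ} (hφ : BM φ) (hb : BM b) (x : E d) {a a' s : ℝ}
    (h : ∀ z ∈ Sh0 d s, φ (x + a • z) - φ (x + a' • z) ≤ b z) :
    sP φ x a s ≤ sP φ x a' s + sa b s := by
  have i1 := (bm_aff hφ x a).integrableOn (Sh0_lt s)
  have i2 := (bm_aff hφ x a').integrableOn (Sh0_lt s)
  have := sa_mono (i1.sub i2) (hb.integrableOn (Sh0_lt s)) h
  have e := sa_sub i1 i2
  unfold sP
  exact sub_le_iff_le_add'.1 (e.ge.trans this)

lemma exp2 (w : ℝ) : Real.exp (2 * w) = Real.exp w * Real.exp w := by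
  rw [two_mul, Real.exp_add]

lemma div2 (r w : ℝ) : r / Real.exp (2 * w) * Real.exp w = r / Real.exp w := by
  have := Real.exp_pos w
  rw [exp2]; field_simp

lemma ann_fin (x : E d) (r δ : ℝ) : volume (ann x r δ) ≠ ∞ :=
  ((measure_mono (ann_sub x r δ)).trans_lt measure_closedBall_lt_top).ne

lemma opt (hd : 2 ≤ d) {γ : E d → ℝ} (hγ : BM γ) (x : E d) {r t : ℝ} (hr : r ∈ Icc (1 : ℝ) 2)
    (hm : ∀ r' ∈ Icc (1 : ℝ) 2, av γ x r' ≤ av γ x r) (ht : 1 < t) (h1 : 1 ≤ r / t)
    (h2 : r * t ≤ 2) : sP γ x r t ≤ av γ x r ∧ av γ x r ≤ sP γ x (r / t) t := by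
  have ho : 0 < om d := om_pos
  have hp := pw_pos hd ht
  have r0 : 0 < r := by linarith [hr.1]
  have e : ∀ u : ℝ, 0 < u → ∫ y in ball x u, γ y = av γ x u * (u ^ d * om d) := fun u hu => by
    rw [av, TU.vol_ball x hu, ← om, div_mul_cancel₀ _ (by positivity)]
  constructor
  · refine le_of_mul_le_mul_right ?_ (show 0 < r ^ d * (t ^ d - 1) * om d by positivity)
    rw [key hd hγ x r0 ht, e r r0, e (r * t) (by positivity), mul_pow]
    have := mul_le_mul_of_nonneg_right (hm (r * t) ⟨by nlinarith [hr.1], h2⟩)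
      (show 0 ≤ r ^ d * t ^ d * om d by positivity)
    linarith
  · have t0 : 0 < t := by linarith
    refine le_of_mul_le_mul_right ?_ (show 0 < (r / t) ^ d * (t ^ d - 1) * om d by positivity)
    have e2 : r ^ d = (r / t) ^ d * t ^ d := by rw [← mul_pow, div_mul_cancel₀ _ t0.ne']
    rw [key hd hγ x (by positivity) ht, div_mul_cancel₀ _ t0.ne', e r r0, e (r / t) (by positivity),
      e2]
    have := mul_le_mul_of_nonneg_right
      (hm (r / t) ⟨h1, (div_le_self r0.le ht.le).trans hr.2⟩)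
      (show 0 ≤ (r / t) ^ d * om d by positivity)
    linarith

lemma th_spec {p q : ℝ} (hp : 0 ≤ p) (hq : q ≤ 0) :
    0 ≤ -q / (p - q) ∧ -q / (p - q) ≤ 1 ∧ -q / (p - q) * p + (1 - -q / (p - q)) * q = 0 := by
  refine ⟨div_nonneg (by linarith) (by linarith), div_le_one_of_le₀ (by linarith) (by linarith), ?_⟩
  rcases eq_or_lt_of_le (show 0 ≤ p - q by linarith) with h | h
  · have : q = 0 := by linarith
    simp [this]
  · field_simp; ring

/-- the weighted function whose shell averages are `sF - χ sP` -/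
noncomputable def G (γ : E d → ℝ) (ξ x : E d) (χ : ℝ) (y : E d) : ℝ := γ y * (cs ξ (y - x) - χ)

lemma cs_aff (ξ x z : E d) {a : ℝ} (ha : 0 < a) : cs ξ (x + a • z - x) = cs ξ z := by
  rw [add_sub_cancel_left, cs_smul ξ z ha]

lemma wt_bm {ξ : E d} (hξ : ‖ξ‖ = 1) (x : E d) (χ : ℝ) : BM fun y => cs ξ (y - x) - χ :=
  ((cs_bm hξ).comp (by fun_prop)).sub (BM.const χ)

lemma sP_G {γ : E d → ℝ} (hγ : BM γ) {ξ : E d} (hξ : ‖ξ‖ = 1) (x : E d) (χ : ℝ) {a : ℝ}
    (ha : 0 < a) (t : ℝ) : sP (G γ ξ x χ) x a t = sF γ ξ x a t - χ * sP γ x a t := by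
  have b1 := bm_aff hγ x a
  rw [sP, sF, sP, ← sa_mul, ← sa_sub ((b1.mul (cs_bm hξ)).integrableOn (Sh0_lt t))
    (((BM.const χ).mul b1).integrableOn (Sh0_lt t))]
  congr 1
  funext z
  rw [G, cs_aff ξ x z ha]; ring

def strip (ν : E d) (h σ : ℝ) : Set (E d) := {y | |⟪y, ν⟫ - h| ≤ 3 * σ}

lemma strip_meas (ν : E d) (h σ : ℝ) : MeasurableSet (strip ν h σ) :=
  measurableSet_le (by fun_prop) (by fun_prop)

lemma side {F : Set (E d)} {ν : E d} {h σ : ℝ} (hσ : 0 < σ) (y : E d) :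
    (h + 2 * σ ≤ ⟪y, ν⟫ → F.indicator (fun _ => (1 : ℝ)) y = 1 - kk F ν h σ y) ∧
    (⟪y, ν⟫ ≤ h - 2 * σ → F.indicator (fun _ => (1 : ℝ)) y = kk F ν h σ y) := by
  by_cases hy : y ∈ F
  · refine ⟨fun h1 => ?_, fun h1 => ?_⟩
    · have : y ∉ dev F ν h σ := by
        rintro (⟨a, _⟩ | ⟨_, b⟩)
        exacts [a hy, by linarith]
      simp [kk, indicator_of_notMem this, hy]
    · simp [kk_eq_one hσ (Or.inr ⟨hy, h1⟩), hy]
  · refine ⟨fun h1 => ?_, fun h1 => ?_⟩
    · simp [kk_eq_one hσ (Or.inl ⟨hy, h1⟩), hy]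
    · have : y ∉ dev F ν h σ := by
        rintro (⟨_, b⟩ | ⟨a, _⟩)
        exacts [by linarith, hy a]
      simp [kk, indicator_of_notMem this, hy]

lemma jump {F : Set (E d)} (hF : MeasurableSet F) {ν : E d} (hν : ‖ν‖ = 1) {h σ W : ℝ}
    (hW : 0 < W) (hσ : W ≤ σ) {y y' : E d} (hy : ‖y - y'‖ ≤ W) :
    |F.indicator (fun _ => (1 : ℝ)) y - F.indicator (fun _ => (1 : ℝ)) y'| ≤
      (strip ν h σ).indicator (fun _ => (1 : ℝ)) y +
        (osc (kk F ν h σ) W y + osc (kk F ν h σ) W y') := by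
  have s0 : 0 < σ := hW.trans_le hσ
  by_cases hs : y ∈ strip ν h σ
  · have := osc_nonneg (kk F ν h σ) W y
    have := osc_nonneg (kk F ν h σ) W y'
    rw [indicator_of_mem hs]
    by_cases h1 : y ∈ F <;> by_cases h2 : y' ∈ F <;> simp [h1, h2] <;> linarith
  · have h1 := osc_tri (kk_bm hF ν h s0) hW hy
    have h2 := abs_le.1 ((abs_inner_le hν (y - y')).trans hy)
    rw [inner_sub_left] at h2
    rw [indicator_of_notMem hs, zero_add]
    rcases lt_abs.1 (not_le.1 (show ¬ |⟪y, ν⟫ - h| ≤ 3 * σ from hs)) with h3 | h3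
    · rw [(side s0 y).1 (by linarith), (side s0 y').1 (by linarith [h2.2]), abs_sub_comm]
      simpa using h1
    · rw [(side s0 y).2 (by linarith), (side s0 y').2 (by linarith [h2.1])]
      exact h1

end Ab

open Ab

theorem kStmt (hd : 2 ≤ d) : KStmt d := by
  have ho : 0 < om d := om_pos
  refine ⟨2 * (2 ^ d / om d), by positivity, fun x r w hr hw h1 => ⟨fun K o hK hO h0 hKo => ?_,
    fun K hK h0 hx => ?_, fun γ Kl ξ hγ hξ => ?_⟩⟩
  · have hs : 1 < Real.exp w := by linarith [exp_lo w]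
    have cl : ∀ a a', Rg r w a → Rg r w a' → sP K x a (Real.exp w) -
        2 * (2 ^ d / om d) / w * ∫ y in ann x r (5 * w), o y ≤ sP K x a' (Real.exp w) := by
      intro a a' ha ha'
      have c1 := close hK ((bm_aff hO x a).add (bm_aff hO x a')) x (a := a) (a' := a')
        (s := Real.exp w) fun z hz => (le_abs_self _).trans (hKo _ _ (ha.near ha' hw h1 x hz))
      rw [sa_add (bm_aff hO x a) (bm_aff hO x a')] at c1
      have c2 := toInt hd hO h0 x hr hw h1 ha (ann_fin x r _) subset_rfl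
      have c3 := toInt hd hO h0 x hr hw h1 ha' (ann_fin x r _) subset_rfl
      unfold sP at *
      rw [mul_div_assoc]
      linarith
    have r1 : Rg r w (r / Real.exp w) := rg_div hr hw.le (by linarith)
    have r2 : Rg r w (r / Real.exp (2 * w)) := rg_div hr (by linarith) le_rfl
    have fin : ∀ a, Rg r w a → sP K x a (Real.exp w) ≤
        max (sP K x (r / Real.exp (2 * w)) (Real.exp (2 * w))) (sP K x r (Real.exp (2 * w))) +
          2 * (2 ^ d / om d) / w * ∫ y in ann x r (5 * w), o y := by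
      intro a ha
      have := le_split hd hK x (by linarith [r2.half hr h1]) hs (cl a _ ha r2)
        (by rw [div2]; exact cl a _ ha r1)
      rw [← exp2] at this
      linarith [le_max_left (sP K x (r / Real.exp (2 * w)) (Real.exp (2 * w)))
        (sP K x r (Real.exp (2 * w)))]
    exact max_le (fin _ r1) (fin _ (rg_self hw))
  · have sub : ann x r (5 * w) ⊆ ball (0 : E d) 3 := (ann_sub x r _).trans
      (closedBall_subset_ball' (by linarith [mem_ball.1 hx, hr.2]))
    have p : 0 ≤ 2 ^ d / om d / w * ∫ y in ball (0 : E d) 3, K y :=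
      mul_nonneg (by positivity) (integral_nonneg h0)
    have fin : ∀ a, Rg r w a → sP K x a (Real.exp w) ≤
        2 * (2 ^ d / om d) / w * ∫ y in ball (0 : E d) 3, K y := fun a ha => by
      have := toInt hd hK h0 x hr hw h1 ha measure_ball_lt_top.ne sub
      rw [mul_div_assoc]
      linarith
    exact max_le (fin _ (rg_div hr hw.le (by linarith))) (fin _ (rg_self hw))
  · have hs : 1 < Real.exp w := by linarith [exp_lo w]
    have io : ∀ a : ℝ, IntegrableOn (fun z => γ (x + a • z) * cs ξ z) (Sh0 d (Real.exp w)) := by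
      intro a
      have c : Continuous fun z : E d => γ (x + a • z) := hγ.continuous.comp (by fun_prop)
      exact Integrable.mul_bdd ((c.continuousOn.integrableOn_compact
        (isCompact_closedBall (0 : E d) (Real.exp w))).mono_set
        (sdiff_subset.trans ball_subset_closedBall)) (cs_bm hξ).1.aestronglyMeasurable
        (Eventually.of_forall (abs_cs_le hξ))
    have := sa_mono ((io r).sub (io (r / Real.exp w)))
      ((BM.const (4 * Kl * w)).integrableOn (Sh0_lt _)) fun z hz => by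
        have h2 := hγ.dist_le_mul (x + r • z) (x + (r / Real.exp w) • z)
        have h3 : r / Real.exp w ≤ r := div_le_self (by linarith [hr.1]) hs.le
        rw [Real.dist_eq, dist_eq_norm, add_sub_add_left_eq_sub, ← sub_smul, norm_smul,
          Real.norm_of_nonneg (sub_nonneg.2 h3)] at h2
        have h4 : (r - r / Real.exp w) * ‖z‖ ≤ 4 * w := by
          calc (r - r / Real.exp w) * ‖z‖ ≤ (r - r / Real.exp w) * Real.exp w := by
                gcongr; exact (mem_Sh0.1 hz).1.le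
            _ = r * (Real.exp w - 1) := by field_simp
            _ ≤ _ := by nlinarith [exp_hi hw h1, hr.1, hr.2]
        have h5 : |γ (x + r • z) - γ (x + (r / Real.exp w) • z)| * |cs ξ z| ≤ Kl * (4 * w) * 1 :=
          mul_le_mul (h2.trans (by gcongr)) (abs_cs_le hξ z) (abs_nonneg _) (by positivity)
        rw [← abs_mul, sub_mul] at h5
        simp only [Pi.sub_apply]
        linarith [le_abs_self (γ (x + r • z) * cs ξ z - γ (x + (r / Real.exp w) • z) * cs ξ z)]
    rw [sa_const hd hs] at this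
    exact sub_le_iff_le_add'.1 ((sa_sub (io r) (io _)).ge.trans this)

theorem abStmt (hd : 2 ≤ d) (hG : GeoStmt d) : AbStmt d := by
  obtain ⟨C0, c0, -, -, geo⟩ := hG
  have ho : 0 < om d := om_pos
  refine ⟨2 * C0 + 2 * (2 ^ d / om d), by positivity, fun γ ξ x r hγ hξ hr hm => ?_⟩
  have r0 : 0 < r := by linarith [hr.1]
  set lam := av γ x r with hlam
  let th : ℝ → ℝ := fun w => -(sP γ x r (Real.exp w) - lam) /
    (sP γ x (r / Real.exp w) (Real.exp w) - lam - (sP γ x r (Real.exp w) - lam))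
  have hth : ∀ w, 0 < w → 1 ≤ r / Real.exp w → r * Real.exp w ≤ 2 → 0 ≤ th w ∧ th w ≤ 1 ∧
      th w * (sP γ x (r / Real.exp w) (Real.exp w) - lam) +
        (1 - th w) * (sP γ x r (Real.exp w) - lam) = 0 := by
    intro w hw h1 h2
    have := opt hd hγ x hr hm (by linarith [exp_lo w]) h1 h2
    exact th_spec (sub_nonneg.2 this.2) (sub_nonpos.2 this.1)
  refine ⟨fun w => th w * sF γ ξ x (r / Real.exp w) (Real.exp w) +
    (1 - th w) * sF γ ξ x r (Real.exp w), fun w hw h1 h2 => ?_,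
    fun n F ν h ψ w χ hF hν hc p0 p1 hw hwψ hχ h1 h2 => ?_⟩
  · obtain ⟨t0, t1, -⟩ := hth w hw h1 h2
    have a1 := min_le_left (sF γ ξ x (r / Real.exp w) (Real.exp w)) (sF γ ξ x r (Real.exp w))
    have a2 := min_le_right (sF γ ξ x (r / Real.exp w) (Real.exp w)) (sF γ ξ x r (Real.exp w))
    have a3 := le_max_left (sF γ ξ x (r / Real.exp w) (Real.exp w)) (sF γ ξ x r (Real.exp w))
    have a4 := le_max_right (sF γ ξ x (r / Real.exp w) (Real.exp w)) (sF γ ξ x r (Real.exp w))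
    constructor <;> nlinarith
  have ψ4 : ψ ^ 4 ≤ 1 / 16 := by
    calc ψ ^ 4 ≤ (1 / 2) ^ 4 := by gcongr
      _ = _ := by norm_num
  have w1 : w ≤ 1 / 100 := by linarith
  have hs : 1 < Real.exp w := by linarith [exp_lo w]
  have zG : ∀ u, 0 < u → 1 ≤ r / Real.exp u → r * Real.exp u ≤ 2 → 0 ≤ th u ∧ th u ≤ 1 ∧
      th u * sF γ ξ x (r / Real.exp u) (Real.exp u) + (1 - th u) * sF γ ξ x r (Real.exp u) =
        th u * sP (G γ ξ x χ) x (r / Real.exp u) (Real.exp u) +
          (1 - th u) * sP (G γ ξ x χ) x r (Real.exp u) + χ * lam := by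
    intro u hu a1 a2
    obtain ⟨t0, t1, t2⟩ := hth u hu a1 a2
    refine ⟨t0, t1, ?_⟩
    rw [sP_G hγ hξ x χ (by linarith), sP_G hγ hξ x χ r0]
    linear_combination χ * t2
  set O : E d → ℝ := fun y => (∑ i ∈ Finset.range n, osc (kk (F i) (ν i) (h i) (ψ ^ 4)) (8 * w) y) *
    |cs ξ (y - x) - χ| with hO
  have bO : BM O := (BM.sum _ fun i _ => osc_bm (kk_bm (hF i) _ _ (by positivity)) _).mul
    (wt_bm hξ x χ).abs
  have O0 : ∀ y, 0 ≤ O y := fun y =>
    mul_nonneg (Finset.sum_nonneg fun i _ => osc_nonneg _ _ _) (abs_nonneg _)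
  have bS : ∀ i, BM ((strip (ν i) (h i) (ψ ^ 4)).indicator fun _ => (1 : ℝ)) := fun i =>
    BM.indicator (strip_meas _ _ _)
  have bG : BM (G γ ξ x χ) := hγ.mul (wt_bm hξ x χ)
  set N := nr ν h (Finset.range n) x (r + 4 * ψ ^ 4) with hN
  set I := ∫ y in ann x r (5 * w), O y with hI
  have I0 : 0 ≤ I := integral_nonneg O0
  have N0 : 0 ≤ N := Nat.cast_nonneg _
  have cl : ∀ a a', Rg r w a → Rg r w a' → sP (G γ ξ x χ) x a (Real.exp w) ≤
      sP (G γ ξ x χ) x a' (Real.exp w) + (4 + 2 * (C0 * ψ * N) + 2 * (2 ^ d / om d / w * I)) := by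
    intro a a' ha ha'
    have a0 := ha.half hr w1
    have a1 := ha'.half hr w1
    have b1 : BM fun z : E d => ∑ i ∈ Finset.range n,
        (strip (ν i) (h i) (ψ ^ 4)).indicator (fun _ => (1 : ℝ)) (x + a • z) :=
      BM.sum _ fun i _ => bm_aff (bS i) x a
    have b2 := (BM.const 4).add ((BM.const 2).mul b1)
    have b3 := (bm_aff bO x a).add (bm_aff bO x a')
    have c1 := close bG (b2.add b3) x (a := a) (a' := a') (s := Real.exp w) fun z hz => by
      have hn := ha.near ha' hw w1 x hz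
      have j1 := Finset.sum_le_sum fun i (_ : i ∈ Finset.range n) =>
        jump (hF i) (hν i) (h := h i) (σ := ψ ^ 4) (by positivity) (by linarith) hn
      have j2 := (Finset.abs_sum_le_sum_abs _ _).trans j1
      rw [Finset.sum_sub_distrib, Finset.sum_add_distrib, Finset.sum_add_distrib] at j2
      have j3 : |γ (x + a • z) - γ (x + a' • z)| ≤
          2 + |cnt F n (x + a • z) - cnt F n (x + a' • z)| := by
        have k1 := abs_le.1 (hc (x + a • z))
        have k2 := abs_le.1 (hc (x + a' • z))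
        have k3 := le_abs_self (cnt F n (x + a • z) - cnt F n (x + a' • z))
        have k4 := neg_abs_le (cnt F n (x + a • z) - cnt F n (x + a' • z))
        exact abs_le.2 ⟨by linarith, by linarith⟩
      have q2 : |cs ξ z - χ| ≤ 2 := by
        linarith [abs_sub (cs ξ z) χ, abs_cs_le hξ z]
      have s0 : 0 ≤ ∑ i ∈ Finset.range n,
          (strip (ν i) (h i) (ψ ^ 4)).indicator (fun _ => (1 : ℝ)) (x + a • z) :=
        Finset.sum_nonneg fun i _ => indicator_nonneg (fun _ _ => zero_le_one) _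
      have j4 := mul_le_mul_of_nonneg_right (j3.trans (add_le_add le_rfl j2))
        (abs_nonneg (cs ξ z - χ))
      have j5 := mul_le_mul_of_nonneg_left q2 (add_nonneg zero_le_two s0)
      have j6 := le_abs_self ((γ (x + a • z) - γ (x + a' • z)) * (cs ξ z - χ))
      rw [abs_mul] at j6
      simp only [G, hO, cs_aff ξ x z (show 0 < a by linarith), cs_aff ξ x z (show 0 < a' by linarith)]
      linarith
    rw [sa_add b2 b3, sa_add (BM.const 4) ((BM.const 2).mul b1), sa_add (bm_aff bO x a)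
      (bm_aff bO x a'), sa_const hd hs, sa_mul, sa_sum fun i => bm_aff (bS i) x a] at c1
    have c2 := toInt hd bO O0 x hr hw w1 ha (ann_fin x r _) subset_rfl
    have c3 := toInt hd bO O0 x hr hw w1 ha' (ann_fin x r _) subset_rfl
    have c4 : ∑ i ∈ Finset.range n, sa (fun z => (strip (ν i) (h i) (ψ ^ 4)).indicator
        (fun _ => (1 : ℝ)) (x + a • z)) (Real.exp w) ≤ C0 * ψ * N := by
      rw [hN, nr, Finset.card_filter, Nat.cast_sum, Finset.mul_sum]
      refine Finset.sum_le_sum fun i _ => ?_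
      split_ifs with hi
      · rw [Nat.cast_one, mul_one]
        exact geo (ν i) x (h i) a (Real.exp w) ψ (hν i) p0 p1 a0 hs (by linarith [exp_hi hw w1])
      · have := sa_mono ((bm_aff (bS i) x a).integrableOn (Sh0_lt (Real.exp w)))
          ((BM.const 0).integrableOn (Sh0_lt _)) fun z hz => by
            refine (indicator_of_notMem (fun hy => hi ?_) _).le
            have k1 := abs_le.1 (show |⟪x + a • z, ν i⟫ - h i| ≤ 3 * ψ ^ 4 from hy)
            have k2 := abs_le.1 (abs_inner_le (hν i) (a • z))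
            have k3 : ‖a • z‖ ≤ r + 5 * w := by
              rw [norm_smul, Real.norm_of_nonneg (by linarith)]
              refine le_trans ?_ (ha.top hr hw w1)
              gcongr
              exact (mem_Sh0.1 hz).1.le
            rw [inner_add_left] at k1
            exact abs_le.2 ⟨by linarith, by linarith⟩
        rw [sa_const hd hs] at this
        simpa using this
    unfold sP at c2 c3
    linarith
  have r1 : Rg r w (r / Real.exp w) := rg_div hr hw.le (by linarith)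
  have r2 : Rg r w (r / Real.exp (2 * w)) := rg_div hr (by linarith) le_rfl
  have e12 : Real.exp w ≤ Real.exp (2 * w) := Real.exp_le_exp.2 (by linarith)
  obtain ⟨t0, t1, t2⟩ := zG w hw (h1.trans (by gcongr)) (le_trans (by gcongr) h2)
  obtain ⟨u0, u1, u2⟩ := zG (2 * w) (by linarith) h1 h2
  set e := 4 + 2 * (C0 * ψ * N) + 2 * (2 ^ d / om d / w * I) with he
  set M := th w * sP (G γ ξ x χ) x (r / Real.exp w) (Real.exp w) +
    (1 - th w) * sP (G γ ξ x χ) x r (Real.exp w) + e with hM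
  have bd : ∀ a, Rg r w a → sP (G γ ξ x χ) x a (Real.exp w) ≤ M := fun a ha => by
    have k1 := mul_le_mul_of_nonneg_left (cl a _ ha r1) t0
    have k2 := mul_le_mul_of_nonneg_left (cl a _ ha (rg_self hw)) (sub_nonneg.2 t1)
    linarith
  have m1 := split_le hd bG x (by linarith) hs (bd _ r2) (by rw [div2]; exact bd _ r1)
  have m2 := split_le hd bG x r0 hs (bd _ (rg_self hw)) (bd _ (rg_mul hr hw w1))
  rw [← exp2] at m1 m2
  have m3 := mul_le_mul_of_nonneg_left m1 u0
  have m4 := mul_le_mul_of_nonneg_left m2 (sub_nonneg.2 u1)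
  have m5 : 0 ≤ 2 ^ d / om d * ψ * N := by positivity
  have m6 : 0 ≤ C0 / w * I := by positivity
  have m7 : (2 * C0 + 2 * (2 ^ d / om d)) / w * I =
      2 * (C0 / w * I) + 2 * (2 ^ d / om d / w * I) := by ring
  simp only
  rw [t2, u2, m7]
  linarith

end Vale.Agent.P137
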