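import Vale.Agent.P137.Lam

open MeasureTheory Metric Set Filter Topology
open scoped ENNReal NNReal RealInnerProductSpace

namespace Vale.Agent.P137

variable {d : ℕ}

lemma area0 {u : E d → ℝ} {A : Set (E d)} (hA : MeasurableSet A) {q e : E d} {l m η : ℝ}
    (hl : 0 < l) (hη : 0 < η) (he : ‖e‖ = 1) (h1 : A ⊆ ball q l)
    (h2 : ∀ x ∈ A, DifferentiableAt ℝ u x)
    (h3 : ∀ x ∈ A, ∀ s ∈ Icc 0 (2 * l), u x ≤ u (x + s • e)) (h4 : ∀ x ∈ A, |u x - m| ≤ η) :
    ∫⁻ x in A, ENNReal.ofReal (fderiv ℝ u x e) ≤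
      ENNReal.ofReal η * (ENNReal.ofReal (2 ^ d / l) * volume (ball (0 : E d) l)) := by
  set κ := l / η with hκ
  have hκ0 : 0 < κ := by positivity
  let f : E d → E d := fun x => x + (κ * (u x - m)) • e
  let f' : E d → E d →L[ℝ] E d := fun x =>
    ContinuousLinearMap.id ℝ _ + (κ • fderiv ℝ u x).smulRight e
  have hf : ∀ x ∈ A, HasFDerivWithinAt f (f' x) A x := fun x hx =>
    ((hasFDerivAt_id x).add
      ((((h2 x hx).hasFDerivAt.sub_const m).const_mul κ).smul_const e)).hasFDerivWithinAt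
  have hdet : ∀ x, (f' x).det = 1 + κ * fderiv ℝ u x e := by
    intro x
    have : ((f' x : E d →L[ℝ] E d) : E d →ₗ[ℝ] E d) =
        LinearMap.transvection (κ • fderiv ℝ u x : E d →L[ℝ] ℝ).toLinearMap e := rfl
    rw [ContinuousLinearMap.det, this, LinearMap.transvection.det]
    simp
  have hinj : InjOn f A := by
    have key : ∀ x ∈ A, ∀ y ∈ A, f x = f y → u y ≤ u x → x = y := by
      intro x hx y hy hxy hu
      have a1 : y = x + (κ * (u x - u y)) • e := by
        have : y = f x - (κ * (u y - m)) • e := by rw [hxy]; simp [f]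
        refine this.trans ?_
        simp only [f]; module
      have a2 : 0 ≤ κ * (u x - u y) := mul_nonneg hκ0.le (by linarith)
      have a3 : κ * (u x - u y) ≤ 2 * l := by
        have b1 : ‖y - x‖ = κ * (u x - u y) := by
          conv_lhs => rw [a1]
          rw [add_sub_cancel_left, norm_smul, he, mul_one, Real.norm_of_nonneg a2]
        have b2 := h1 hx
        have b3 := h1 hy
        rw [mem_ball, dist_eq_norm] at b2 b3
        linarith [norm_sub_le_norm_sub_add_norm_sub y q x, norm_sub_rev q x]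
      have a4 := h3 x hx _ ⟨a2, a3⟩
      rw [← a1] at a4
      rw [a1, le_antisymm hu a4]; simp
    intro x hx y hy hxy
    rcases le_total (u y) (u x) with h | h
    · exact key x hx y hy hxy h
    · exact (key y hy x hx hxy.symm h).symm
  have him : f '' A ⊆ ball q (2 * l) := by
    rintro _ ⟨x, hx, rfl⟩
    have b2 := h1 hx
    rw [mem_ball, dist_eq_norm] at b2 ⊢
    have b3 : ‖(κ * (u x - m)) • e‖ ≤ l := by
      rw [norm_smul, he, mul_one, Real.norm_eq_abs, abs_mul, abs_of_pos hκ0]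
      calc _ ≤ κ * η := by gcongr; exact h4 x hx
        _ = l := by rw [hκ]; field_simp
    have : f x - q = (x - q) + (κ * (u x - m)) • e := by simp only [f]; abel
    rw [this]
    linarith [norm_add_le (x - q) ((κ * (u x - m)) • e)]
  have h5 := (lintegral_abs_det_fderiv_le_addHaar_image volume hA hf hinj).trans (measure_mono him)
  rw [Measure.addHaar_ball_mul_of_pos _ _ two_pos, finrank_euclideanSpace, Fintype.card_fin] at h5
  calc _ ≤ ∫⁻ x in A, ENNReal.ofReal κ⁻¹ * ENNReal.ofReal |(f' x).det| := by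
        refine lintegral_mono fun x => ?_
        rw [← ENNReal.ofReal_mul (by positivity), hdet]
        refine ENNReal.ofReal_le_ofReal ?_
        rw [le_inv_mul_iff₀ hκ0]
        linarith [le_abs_self (1 + κ * fderiv ℝ u x e)]
    _ ≤ ENNReal.ofReal κ⁻¹ * (ENNReal.ofReal (2 ^ d) * volume (ball (0 : E d) l)) := by
        rw [lintegral_const_mul' _ _ ENNReal.ofReal_ne_top]; gcongr
    _ = _ := by
        rw [← mul_assoc, ← mul_assoc, ← ENNReal.ofReal_mul (by positivity),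
          ← ENNReal.ofReal_mul hη.le, hκ]
        congr 2; field_simp

lemma area {u : E d → ℝ} {A : Set (E d)} (hA : MeasurableSet A) {q e : E d} {l m : ℝ} {η : ℝ≥0∞}
    (hl : 0 < l) (he : ‖e‖ = 1) (h1 : A ⊆ ball q l) (h2 : ∀ x ∈ A, DifferentiableAt ℝ u x)
    (h3 : ∀ x ∈ A, ∀ s ∈ Icc 0 (2 * l), u x ≤ u (x + s • e)) (h4 : ∀ x ∈ A, ‖u x - m‖ₑ ≤ η) :
    ∫⁻ x in A, ENNReal.ofReal (fderiv ℝ u x e) ≤
      η * (ENNReal.ofReal (2 ^ d / l) * volume (ball (0 : E d) l)) := by
  refine ENNReal.le_mul_of_forall_lt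
    (Or.inr (ENNReal.mul_ne_top ENNReal.ofReal_ne_top measure_ball_lt_top.ne))
    (Or.inr (mul_ne_zero (by simp; positivity) (measure_ball_pos _ _ hl).ne')) fun a ha b hb => ?_
  by_cases h : a = ∞
  · rw [h, ENNReal.top_mul (zero_le.trans_lt hb).ne']; exact le_top
  refine (area0 hA hl (ENNReal.toReal_pos (zero_le.trans_lt ha).ne' h) he h1 h2 h3 (m := m)
    fun x hx => ?_).trans ?_
  · rw [← ENNReal.ofReal_le_iff_le_toReal h, ← Real.enorm_eq_ofReal_abs]
    exact (h4 x hx).trans ha.le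
  · rw [ENNReal.ofReal_toReal h]; gcongr

/-- coordinate directions -/
noncomputable def dir (j : Fin d × Bool) : E d := EuclideanSpace.single j.1 (if j.2 then 1 else -1)

lemma dir_norm (j : Fin d × Bool) : ‖dir j‖ = 1 := by
  obtain ⟨j, _ | _⟩ := j <;> simp [dir]

lemma exists_dir (hd : 1 ≤ d) (n : E d) : ∃ j, ‖n‖ / d ≤ ⟪dir j, n⟫ := by
  have hd' : (1 : ℝ) ≤ d := by exact_mod_cast hd
  have : ∃ j, ‖n‖ / d ≤ |n j| := by
    by_contra hc
    push Not at hc
    have h1 : ‖n‖ ^ 2 < ∑ _j : Fin d, (‖n‖ / d) ^ 2 := by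
      rw [EuclideanSpace.norm_sq_eq]
      refine Finset.sum_lt_sum_of_nonempty ⟨⟨0, hd⟩, Finset.mem_univ _⟩ fun j _ => ?_
      rw [Real.norm_eq_abs]
      gcongr
      exact hc j
    rw [Finset.sum_const, Finset.card_univ, Fintype.card_fin, nsmul_eq_mul] at h1
    have h2 : (d : ℝ) * (‖n‖ / d) ^ 2 = ‖n‖ ^ 2 / d := by field_simp
    rw [h2] at h1
    exact absurd (div_le_self (sq_nonneg _) hd') (not_le.2 h1)
  obtain ⟨j, hj⟩ := this
  rcases le_total 0 (n j) with h | h
  · exact ⟨(j, true), by simpa [dir, EuclideanSpace.inner_single_left, abs_of_nonneg h] using hj⟩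
  · exact ⟨(j, false), by simpa [dir, EuclideanSpace.inner_single_left, abs_of_nonpos h] using hj⟩

lemma mem_cb {x c v : E d} {s : ℝ} (hs : 0 ≤ s) (h : s * ‖v‖ ^ 2 ≤ 2 * ⟪v, c - x⟫) :
    ‖c - (x + s • v)‖ ≤ ‖c - x‖ := by
  refine (abs_le_of_sq_le_sq' ?_ (norm_nonneg _)).2
  rw [← sub_sub, norm_sub_sq_real, real_inner_smul_right, norm_smul, Real.norm_of_nonneg hs,
    real_inner_comm]
  nlinarith [mul_le_mul_of_nonneg_left h hs]

lemma grad_dir (hd : 1 ≤ d) {u : E d → ℝ} {x c e : E d} (hu : DifferentiableAt ℝ u x)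
    (hmin : ∀ y, ‖c - y‖ ≤ ‖c - x‖ → u x ≤ u y) (hc : 0 < ‖c - x‖)
    (hce : ‖c - x‖ / d ≤ ⟪e, c - x⟫) : ‖fderiv ℝ u x‖ ≤ (d + 1) * fderiv ℝ u x e := by
  have hd' : (1 : ℝ) ≤ d := by exact_mod_cast hd
  have key : ∀ v, 0 < ⟪v, c - x⟫ → 0 ≤ fderiv ℝ u x v := by
    intro v hv
    set s := ⟪v, c - x⟫ / (‖v‖ ^ 2 + 1) with hs
    have hs0 : 0 < s := by positivity
    have h1 : IsLocalMinOn u (closedBall c ‖c - x‖) x :=
      IsMinOn.localize fun y hy => hmin y (by rwa [mem_closedBall', dist_eq_norm] at hy)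
    have h2 := h1.hasFDerivWithinAt_nonneg hu.hasFDerivAt.hasFDerivWithinAt (y := s • v)
      (mem_posTangentConeAt_of_segment_subset ((convex_closedBall _ _).segment_subset
        (by rw [mem_closedBall', dist_eq_norm]) (by
          rw [mem_closedBall', dist_eq_norm]
          refine mem_cb hs0.le ?_
          have : s * (‖v‖ ^ 2 + 1) = ⟪v, c - x⟫ := by rw [hs]; field_simp
          nlinarith)))
    rw [map_smul, smul_eq_mul] at h2
    exact nonneg_of_mul_nonneg_right h2 hs0 |> fun h => h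
  have he0 : 0 ≤ fderiv ℝ u x e := key e (lt_of_lt_of_le (by positivity) hce)
  refine ContinuousLinearMap.opNorm_le_bound _ (by positivity) fun v => ?_
  by_cases hv : v = 0
  · simp [hv]
  have hv0 : 0 < ‖v‖ := norm_pos_iff.2 hv
  have h1 := abs_le.1 (abs_real_inner_le_norm v (c - x))
  have h2 : ‖v‖ * ‖c - x‖ < (d + 1) * ‖v‖ * ⟪e, c - x⟫ := by
    have a1 : ‖c - x‖ ≤ d * ⟪e, c - x⟫ := by rwa [div_le_iff₀' (by linarith)] at hce
    have a2 : 0 < ⟪e, c - x⟫ := lt_of_lt_of_le (by positivity) hce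
    nlinarith [mul_le_mul_of_nonneg_left a1 hv0.le, mul_pos hv0 a2]
  have h3 := key (((d + 1) * ‖v‖) • e + v) (by
    rw [inner_add_left, real_inner_smul_left]; linarith [h1.1])
  have h4 := key (((d + 1) * ‖v‖) • e - v) (by
    rw [inner_sub_left, real_inner_smul_left]; linarith [h1.2])
  rw [map_add, map_smul, smul_eq_mul] at h3
  rw [map_sub, map_smul, smul_eq_mul] at h4
  rw [Real.norm_eq_abs, abs_le]
  constructor <;> linarith

lemma quant (hd : 1 ≤ d) {g : E d → ℝ} (hg : Measurable g) (hi : Integrable g)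
    (h0 : ∀ x, 0 ≤ g x) {r : ℝ} (hr : 0 < r) : ∃ (M : ℝ) (m : E d → ℝ), ∀ q, |m q| ≤ M ∧
      (∀ t, m q < t → 4 * volume ({y | t < g y} ∩ ball q (r * 6)) ≤ volume (ball (0 : E d) r)) ∧
      (∀ s, s < m q → volume (ball (0 : E d) r) ≤ 4 * volume ({y | s < g y} ∩ ball q (r * 6))) := by
  have hb : 0 < volume (ball (0 : E d) r) := measure_ball_pos _ _ hr
  obtain ⟨M, hM⟩ : ∃ M : ℝ, 4 * volume {y | M < g y} ≤ volume (ball (0 : E d) r) := by
    have h1 : Tendsto (fun n : ℕ => volume {y | (n + 1 : ℝ) < g y}) atTop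
        (𝓝 (volume (⋂ n : ℕ, {y | (n + 1 : ℝ) < g y}))) := by
      refine tendsto_measure_iInter_atTop
        (fun n => (measurableSet_lt measurable_const hg).nullMeasurableSet)
        (fun a b hab y (hy : (b + 1 : ℝ) < g y) => show (a + 1 : ℝ) < g y from
          lt_of_le_of_lt (by gcongr) hy) ⟨0, ?_⟩
      exact (hi.measure_gt_lt_top (by norm_num)).ne
    rw [(_ : ⋂ n : ℕ, {y | (n + 1 : ℝ) < g y} = ∅), measure_empty] at h1
    · have h2 := ENNReal.Tendsto.const_mul (a := 4) h1 (Or.inr (by norm_num))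
      rw [mul_zero] at h2
      obtain ⟨n, hn⟩ := (h2.eventually (eventually_le_nhds hb)).exists
      exact ⟨_, hn⟩
    · refine eq_empty_of_forall_notMem fun y hy => ?_
      obtain ⟨n, hn⟩ := exists_nat_gt (g y)
      have : (n + 1 : ℝ) < g y := mem_iInter.1 hy n
      linarith
  let T : E d → Set ℝ := fun q =>
    {t | 4 * volume ({y | t < g y} ∩ ball q (r * 6)) ≤ volume (ball (0 : E d) r)}
  have hT1 : ∀ q, M ∈ T q := fun q =>
    le_trans (mul_le_mul' le_rfl (measure_mono inter_subset_left)) hM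
  have hT2 : ∀ q, ∀ t ∈ T q, 0 ≤ t := by
    intro q t ht
    by_contra hc
    have a1 : volume (ball (0 : E d) r) ≤ volume ({y | t < g y} ∩ ball q (r * 6)) := by
      rw [← Measure.addHaar_ball_center volume q]
      exact measure_mono fun y hy => ⟨(not_le.1 hc).trans_le (h0 y),
        ball_subset_ball (by linarith) hy⟩
    have a2 : 4 * volume (ball (0 : E d) r) ≤ 1 * volume (ball (0 : E d) r) := by
      rw [one_mul]; exact (mul_le_mul' le_rfl a1).trans ht
    rw [ENNReal.mul_le_mul_iff_left hb.ne' measure_ball_lt_top.ne] at a2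
    norm_num at a2
  refine ⟨M, fun q => sInf (T q), fun q => ⟨?_, fun t ht => ?_, fun s hs => ?_⟩⟩
  · rw [abs_of_nonneg (le_csInf ⟨M, hT1 q⟩ (hT2 q))]
    exact csInf_le ⟨0, hT2 q⟩ (hT1 q)
  · obtain ⟨t', h1, h2⟩ := exists_lt_of_csInf_lt ⟨M, hT1 q⟩ ht
    exact le_trans (mul_le_mul' le_rfl (measure_mono (inter_subset_inter_left _
      fun y (hy : t < g y) => h2.trans hy))) h1
  · have : s ∉ T q := notMem_of_lt_csInf hs ⟨0, hT2 q⟩
    exact (not_le.1 this).le

lemma pick {y : ℝ≥0∞} (hy : y ≠ ∞) {a : ℕ → ℝ≥0∞} (h : y ≤ ∑' i, a i) :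
    ∃ i, y ≤ ENNReal.ofReal (8 * (4 / 3) ^ i) * a i := by
  by_contra hc
  push Not at hc
  have hy0 : y ≠ 0 := (zero_le.trans_lt (hc 0)).ne'
  have h1 : ∀ i, a i ≤ ENNReal.ofReal (1 / 8 * (3 / 4) ^ i) * y := fun i => by
    calc a i = ENNReal.ofReal (1 / 8 * (3 / 4) ^ i) * (ENNReal.ofReal (8 * (4 / 3) ^ i) * a i) := by
          rw [← mul_assoc, ← ENNReal.ofReal_mul (by positivity), mul_mul_mul_comm, ← mul_pow]
          norm_num
      _ ≤ _ := mul_le_mul' le_rfl (hc i).le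
  have h2 : ∑' i : ℕ, ENNReal.ofReal (1 / 8 * (3 / 4) ^ i) = ENNReal.ofReal (1 / 2) := by
    rw [← ENNReal.ofReal_tsum_of_nonneg (fun i => by positivity)
      ((summable_geometric_of_lt_one (by norm_num) (by norm_num)).mul_left _), tsum_mul_left,
      tsum_geometric_of_lt_one (by norm_num) (by norm_num)]
    norm_num
  have h3 : 1 * y ≤ ENNReal.ofReal (1 / 2) * y := by
    rw [one_mul, ← h2, ← ENNReal.tsum_mul_right]
    exact h.trans (ENNReal.tsum_le_tsum h1)
  rw [ENNReal.mul_le_mul_iff_left hy0 hy, ENNReal.one_le_ofReal] at h3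
  norm_num at h3

end Vale.Agent.P137
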