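import Vale.Agent.P137.Spec

open MeasureTheory Metric Set
open scoped ENNReal NNReal

namespace Vale.Agent.P137

variable {d : ℕ}

lemma bad_meas {F : Set (E d)} (hF : MeasurableSet F) : MeasurableSet (Bad F) := by
  have h1 : MeasurableSet {p : E d × E d | p.1 + p.2 ∈ F} :=
    (measurable_fst.add measurable_snd) hF
  have h2 : MeasurableSet {p : E d × E d | p.1 - p.2 ∈ F} :=
    (measurable_fst.sub measurable_snd) hF
  have h3 : MeasurableSet {p : E d × E d | p.1 ∈ F} := measurable_fst hF
  have : Bad F = ((({p : E d × E d | p.1 + p.2 ∈ F} ∩ {p | p.1 - p.2 ∈ F}) ∩ {p | p.1 ∈ F}ᶜ) ∪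
      (({p : E d × E d | p.1 + p.2 ∈ F}ᶜ ∩ {p | p.1 - p.2 ∈ F}ᶜ) ∩ {p | p.1 ∈ F})) := by
    ext p
    simp only [Bad, mem_ofPred_eq, mem_union, mem_inter_iff, mem_compl_iff]
    tauto
  rw [this]
  exact ((h1.inter h2).inter h3.compl).union ((h1.compl.inter h2.compl).inter h3)

lemma bad_compl (F : Set (E d)) : Bad Fᶜ = Bad F := by
  ext p
  simp only [Bad, mem_ofPred_eq, mem_compl_iff]
  tauto

lemma bb_compl (F : Set (E d)) (r : ℝ) : bb Fᶜ r = bb F r := by
  rw [bb, bb, bad_compl]

lemma bb_mono (F : Set (E d)) {r s : ℝ} (h : r ≤ s) : bb F r ≤ bb F s :=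
  measure_mono (inter_subset_inter_right _ (prod_mono (ball_subset_ball h) (ball_subset_ball h)))

/-- slices: a lower bound on every slice gives a lower bound on the product measure -/
lemma slice_le {S : Set (E d × E d)} (hS : MeasurableSet S) {A : Set (E d)} (hA : MeasurableSet A)
    {c : ℝ≥0∞} (h : ∀ z ∈ A, c ≤ volume {v | (z, v) ∈ S}) : volume A * c ≤ volume S := by
  rw [Measure.volume_eq_prod, Measure.prod_apply hS]
  calc volume A * c = ∫⁻ _ in A, c := by rw [setLIntegral_const, mul_comm]
    _ ≤ ∫⁻ z in A, volume (Prod.mk z ⁻¹' S) := setLIntegral_mono' hA h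
    _ ≤ _ := setLIntegral_le_lintegral _ _

lemma vol_add (z : E d) (A : Set (E d)) : volume {v | z + v ∈ A} = volume A :=
  measure_preimage_add volume z A

lemma vol_sub (z : E d) (A : Set (E d)) : volume {v | z - v ∈ A} = volume A :=
  (Measure.measurePreserving_sub_left volume z).measure_preimage_equiv (f := MeasurableEquiv.subLeft z) A

/-- L1: a set which is small in `W` is controlled by the bad triples a little inside `W` -/
lemma l1 {F U W : Set (E d)} (hF : MeasurableSet F) (hU : MeasurableSet U) {s r : ℝ}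
    (hUW : ∀ z ∈ U, ∀ v ∈ ball (0 : E d) s, z + v ∈ W)
    (hW : 4 * volume (F ∩ W) ≤ volume (ball (0 : E d) s)) (hUr : U ⊆ ball 0 r) (hs : s ≤ r) :
    volume (F ∩ U) * volume (ball (0 : E d) s) ≤ 2 * bb F r := by
  have hS : MeasurableSet (Bad F ∩ ball (0 : E d) r ×ˢ ball (0 : E d) r) :=
    (bad_meas hF).inter (measurableSet_ball.prod measurableSet_ball)
  have key : ∀ z ∈ F ∩ U, volume (ball (0 : E d) s) / 2 ≤
      volume {v | (z, v) ∈ Bad F ∩ ball (0 : E d) r ×ˢ ball (0 : E d) r} := by
    intro z hz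
    set X := volume {v | (z, v) ∈ Bad F ∩ ball (0 : E d) r ×ˢ ball (0 : E d) r}
    have h1 : volume (ball (0 : E d) s) ≤ X + volume (F ∩ W) + volume (F ∩ W) := by
      calc volume (ball (0 : E d) s) ≤ volume
            ({v | (z, v) ∈ Bad F ∩ ball (0 : E d) r ×ˢ ball (0 : E d) r} ∪ {v | z + v ∈ F ∩ W} ∪
              {v | z - v ∈ F ∩ W}) := by
            refine measure_mono fun v hv => ?_
            by_cases h1 : z + v ∈ F
            · exact Or.inl (Or.inr ⟨h1, hUW z hz.2 v hv⟩)
            by_cases h2 : z - v ∈ F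
            · refine Or.inr ⟨h2, ?_⟩
              rw [sub_eq_add_neg]
              exact hUW z hz.2 _ (by simpa using hv)
            refine Or.inl (Or.inl ⟨⟨?_, ?_⟩, hUr hz.2, ball_subset_ball hs hv⟩)
            · exact iff_of_false h1 h2
            · exact fun h => h1 (h.1 hz.1)
        _ ≤ _ := by
            refine (measure_union_le _ _).trans ?_
            rw [vol_sub]
            gcongr
            refine (measure_union_le _ _).trans ?_
            rw [vol_add]
    have hfin : volume (ball (0 : E d) s) ≠ ∞ := measure_ball_lt_top.ne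
    have h2 : volume (ball (0 : E d) s) + volume (ball (0 : E d) s) ≤
        2 * X + volume (ball (0 : E d) s) := by
      calc _ ≤ (X + volume (F ∩ W) + volume (F ∩ W)) + (X + volume (F ∩ W) + volume (F ∩ W)) :=
            add_le_add h1 h1
        _ = 2 * X + 4 * volume (F ∩ W) := by ring
        _ ≤ _ := by gcongr
    have h3 := (ENNReal.add_le_add_iff_right hfin).1 h2
    rw [ENNReal.div_le_iff (by norm_num) (by norm_num), mul_comm]
    exact h3
  have := slice_le hS (hF.inter hU) key
  calc volume (F ∩ U) * volume (ball (0 : E d) s)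
      = 2 * (volume (F ∩ U) * (volume (ball (0 : E d) s) / 2)) := by
        rw [mul_left_comm, ENNReal.mul_div_cancel (by norm_num) (by norm_num)]
    _ ≤ 2 * bb F r := by gcongr; exact this

end Vale.Agent.P137
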