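import Vale.Agent.P137.Spec2

open MeasureTheory Metric Set Filter
open scoped ENNReal NNReal RealInnerProductSpace Topology Pointwise

namespace Vale.Agent.P137

variable {d : ℕ}

lemma BM.integrableOn {φ : E d → ℝ} (h : BM φ) {S : Set (E d)} (hS : volume S ≠ ∞) :
    IntegrableOn φ S := by
  obtain ⟨h1, B, h2⟩ := h
  exact Measure.integrableOn_of_bounded hS h1.aestronglyMeasurable (M := B)
    (Eventually.of_forall h2)

lemma BM.const (c : ℝ) : BM fun _ : E d => c := ⟨measurable_const, |c|, fun _ => le_rfl⟩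

lemma BM.add {φ ψ : E d → ℝ} (h : BM φ) (h' : BM ψ) : BM fun y => φ y + ψ y := by
  obtain ⟨h1, B, h2⟩ := h
  obtain ⟨h3, B', h4⟩ := h'
  exact ⟨h1.add h3, B + B', fun y => (abs_add_le _ _).trans (add_le_add (h2 y) (h4 y))⟩

lemma BM.mul {φ ψ : E d → ℝ} (h : BM φ) (h' : BM ψ) : BM fun y => φ y * ψ y := by
  obtain ⟨h1, B, h2⟩ := h
  obtain ⟨h3, B', h4⟩ := h'
  refine ⟨h1.mul h3, B * B', fun y => ?_⟩
  rw [abs_mul]
  exact mul_le_mul (h2 y) (h4 y) (abs_nonneg _) ((abs_nonneg _).trans (h2 y))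

lemma BM.sub {φ ψ : E d → ℝ} (h : BM φ) (h' : BM ψ) : BM fun y => φ y - ψ y := by
  simpa [sub_eq_add_neg] using h.add ((BM.const (-1)).mul h')

lemma BM.abs {φ : E d → ℝ} (h : BM φ) : BM fun y => |φ y| := by
  obtain ⟨h1, B, h2⟩ := h
  exact ⟨h1.abs, B, fun y => by rw [abs_abs]; exact h2 y⟩

lemma BM.sum {ι : Type*} (s : Finset ι) {φ : ι → E d → ℝ} (h : ∀ i ∈ s, BM (φ i)) :
    BM fun y => ∑ i ∈ s, φ i y := by
  classical
  induction s using Finset.induction_on with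
  | empty => simpa using BM.const 0
  | insert a s ha ih =>
    simp only [Finset.sum_insert ha]
    exact (h a (Finset.mem_insert_self _ _)).add (ih fun i hi => h i (Finset.mem_insert_of_mem hi))

lemma BM.comp {φ : E d → ℝ} (h : BM φ) {f : E d → E d} (hf : Measurable f) : BM fun y => φ (f y) :=
  ⟨h.1.comp hf, h.2.imp fun _ hB _ => hB _⟩

lemma BM.indicator {S : Set (E d)} (hS : MeasurableSet S) : BM (S.indicator fun _ => (1 : ℝ)) :=
  ⟨measurable_const.indicator hS, 1, fun y => by by_cases h : y ∈ S <;> simp [h]⟩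

lemma cnt_bm {F : ℕ → Set (E d)} (hF : ∀ i, MeasurableSet (F i)) (n : ℕ) : BM (cnt F n) :=
  BM.sum _ fun i _ => BM.indicator (hF i)

lemma abs_cs_le {ξ : E d} (hξ : ‖ξ‖ = 1) (z : E d) : |cs ξ z| ≤ 1 := by
  rw [cs, abs_div, abs_norm]
  exact div_le_one_of_le₀ (abs_inner_le hξ z) (norm_nonneg _)

lemma cs_bm {ξ : E d} (hξ : ‖ξ‖ = 1) : BM (cs ξ) :=
  ⟨by unfold cs; fun_prop, 1, abs_cs_le hξ⟩

lemma cs_smul (ξ z : E d) {s : ℝ} (hs : 0 < s) : cs ξ (s • z) = cs ξ z := by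
  rw [cs, cs, real_inner_smul_left, norm_smul, Real.norm_of_nonneg hs.le, mul_div_mul_left _ _ hs.ne']

lemma dev_meas {F : Set (E d)} (hF : MeasurableSet F) (ν : E d) (h σ : ℝ) :
    MeasurableSet (dev F ν h σ) :=
  (hF.compl.inter (measurableSet_lt (f := fun _ => h + σ) (g := fun y : E d => ⟪y, ν⟫)
    (by fun_prop) (by fun_prop))).union
    (hF.inter (measurableSet_lt (f := fun y : E d => ⟪y, ν⟫) (g := fun _ => h - σ)
      (by fun_prop) (by fun_prop)))

lemma dev_anti (F : Set (E d)) (ν : E d) (h : ℝ) {σ σ' : ℝ} (hσ : σ ≤ σ') :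
    dev F ν h σ' ⊆ dev F ν h σ := by
  rintro y (⟨a, b⟩ | ⟨a, b⟩)
  · exact Or.inl ⟨a, by linarith⟩
  · exact Or.inr ⟨a, by linarith⟩

lemma kk_nonneg (F : Set (E d)) (ν : E d) (h : ℝ) {σ : ℝ} (hσ : 0 < σ) (y : E d) :
    0 ≤ kk F ν h σ y := by
  refine indicator_nonneg (fun y hy => le_min zero_le_one (div_nonneg ?_ hσ.le)) y
  rcases hy with ⟨_, b⟩ | ⟨_, b⟩
  · linarith [le_abs_self (⟪y, ν⟫ - h)]
  · linarith [neg_abs_le (⟪y, ν⟫ - h)]

lemma kk_le (F : Set (E d)) (ν : E d) (h σ : ℝ) (y : E d) :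
    kk F ν h σ y ≤ (dev F ν h σ).indicator (fun _ => (1 : ℝ)) y :=
  indicator_le_indicator (min_le_left _ _)

lemma kk_le_one (F : Set (E d)) (ν : E d) (h σ : ℝ) (y : E d) : kk F ν h σ y ≤ 1 :=
  (kk_le F ν h σ y).trans (indicator_le_self' (fun _ _ => zero_le_one) y)

lemma kk_eq_one {F : Set (E d)} {ν : E d} {h σ : ℝ} (hσ : 0 < σ) {y : E d}
    (hy : (y ∉ F ∧ h + 2 * σ ≤ ⟪y, ν⟫) ∨ (y ∈ F ∧ ⟪y, ν⟫ ≤ h - 2 * σ)) : kk F ν h σ y = 1 := by
  have h1 : y ∈ dev F ν h σ := hy.imp (fun a => ⟨a.1, by linarith [a.2]⟩) fun a => ⟨a.1, by linarith [a.2]⟩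
  rw [kk, indicator_of_mem h1, min_eq_left]
  rw [le_div_iff₀ hσ]
  rcases hy with ⟨_, b⟩ | ⟨_, b⟩
  · linarith [le_abs_self (⟪y, ν⟫ - h)]
  · linarith [neg_abs_le (⟪y, ν⟫ - h)]

lemma kk_bm {F : Set (E d)} (hF : MeasurableSet F) (ν : E d) (h : ℝ) {σ : ℝ} (hσ : 0 < σ) :
    BM (kk F ν h σ) :=
  ⟨Measurable.indicator (by fun_prop) (dev_meas hF ν h σ), 1, fun y => by
    rw [abs_of_nonneg (kk_nonneg F ν h hσ y)]; exact kk_le_one F ν h σ y⟩

lemma osc_nonneg (k : E d → ℝ) (w : ℝ) (y : E d) : 0 ≤ osc k w y :=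
  div_nonneg (integral_nonneg fun _ => abs_nonneg _) ENNReal.toReal_nonneg

lemma osc_bm {k : E d → ℝ} (hk : BM k) (w : ℝ) : BM (osc k w) := by
  obtain ⟨h1, B, h2⟩ := hk
  refine ⟨Measurable.div_const ?_ _, (2 * B) * (volume (ball (0 : E d) (2 * w))).toReal /
    (volume (ball (0 : E d) w)).toReal, fun y => ?_⟩
  · exact (StronglyMeasurable.integral_prod_right' (f := fun p : E d × E d => |k (p.1 + p.2) - k p.1|)
      (Measurable.stronglyMeasurable (by fun_prop))).measurable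
  · rw [abs_of_nonneg (osc_nonneg k w y), osc]
    gcongr
    refine (Real.le_norm_self _).trans (norm_setIntegral_le_of_norm_le_const (C := 2 * B)
      measure_ball_lt_top fun v _ => ?_)
    rw [Real.norm_eq_abs, abs_abs]
    linarith [abs_sub (k (y + v)) (k y), h2 (y + v), h2 y]

lemma osc_tri {k : E d → ℝ} (hk : BM k) {w : ℝ} (hw : 0 < w) {y y' : E d} (h : ‖y - y'‖ ≤ w) :
    |k y - k y'| ≤ osc k w y + osc k w y' := by
  have hv : 0 < (volume (ball (0 : E d) w)).toReal :=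
    ENNReal.toReal_pos (measure_ball_pos _ _ hw).ne' measure_ball_lt_top.ne
  have key : ∀ p : E d, ‖y - p‖ ≤ w → ∫ v in ball (0 : E d) w, |k (y + v) - k p| ≤
      ∫ v in ball (0 : E d) (2 * w), |k (p + v) - k p| := by
    intro p hp
    have e1 : ∫ v in ball (0 : E d) w, |k (y + v) - k p| =
        ∫ v in ball (y - p) w, |k (p + v) - k p| := by
      rw [← (measurePreserving_add_left volume (y - p)).setIntegral_preimage_emb
        (measurableEmbedding_addLeft (y - p)) (fun v => |k (p + v) - k p|) (ball (y - p) w)]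
      simp [← add_assoc]
    rw [e1]
    refine setIntegral_mono_set ((((hk.comp (by fun_prop)).sub (BM.const _)).abs).integrableOn
      measure_ball_lt_top.ne) (Eventually.of_forall fun _ => abs_nonneg _)
      (LE.le.eventuallyLE (ball_subset_ball' ?_))
    rw [dist_zero_right]; linarith
  have i1 : ∀ p : E d, IntegrableOn (fun v => |k (y + v) - k p|) (ball (0 : E d) w) := fun p =>
    (((hk.comp (by fun_prop)).sub (BM.const _)).abs).integrableOn measure_ball_lt_top.ne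
  rw [osc, osc, ← add_div, le_div_iff₀ hv]
  refine le_trans ?_ (add_le_add (key y (by simpa using hw.le)) (key y' h))
  rw [← integral_add (i1 y) (i1 y')]
  have e2 : |k y - k y'| * (volume (ball (0 : E d) w)).toReal =
      ∫ _ in ball (0 : E d) w, |k y - k y'| := by
    rw [setIntegral_const, smul_eq_mul, mul_comm]; rfl
  rw [e2]
  refine setIntegral_mono ((BM.const _).integrableOn measure_ball_lt_top.ne) ((i1 y).add (i1 y'))
    fun v => ?_
  have := abs_sub_le (k y) (k (y + v)) (k y')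
  rw [abs_sub_comm (k y) (k (y + v))] at this
  exact this

lemma Sh0_meas (t : ℝ) : MeasurableSet (Sh0 d t) := measurableSet_ball.diff measurableSet_ball

lemma Sh0_lt (t : ℝ) : volume (Sh0 d t) ≠ ∞ :=
  ((measure_mono sdiff_subset).trans_lt measure_ball_lt_top).ne

lemma mem_Sh0 {t : ℝ} {z : E d} : z ∈ Sh0 d t ↔ ‖z‖ < t ∧ 1 ≤ ‖z‖ := by
  simp [Sh0]

/-- a cone has the same density in every shell -/
lemma cone_frac {S : Set (E d)} (hS : MeasurableSet S) (h : ∀ z, ∀ s : ℝ, 0 < s → (s • z ∈ S ↔ z ∈ S))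
    {t : ℝ} (ht : 1 ≤ t) :
    (volume (S ∩ Sh0 d t)).toReal = (t ^ d - 1) * (volume (S ∩ ball 0 1)).toReal := by
  have ht0 : 0 < t := by linarith
  have e1 : S ∩ ball 0 t = t • (S ∩ ball (0 : E d) 1) := by
    ext z
    rw [mem_smul_set_iff_inv_smul_mem₀ ht0.ne', mem_inter_iff, mem_inter_iff,
      h z _ (inv_pos.2 ht0), mem_ball_zero_iff, mem_ball_zero_iff, norm_smul, norm_inv,
      Real.norm_of_nonneg ht0.le, inv_mul_lt_iff₀ ht0, mul_one]
  have e2 : S ∩ Sh0 d t = (S ∩ ball 0 t) \ (S ∩ ball 0 1) := by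
    ext z; simp only [Sh0, mem_inter_iff, Set.mem_sdiff]; tauto
  have f1 : volume (S ∩ ball (0 : E d) 1) ≠ ∞ :=
    ((measure_mono inter_subset_right).trans_lt measure_ball_lt_top).ne
  rw [e2, measure_sdiff (inter_subset_inter_right _ (ball_subset_ball ht))
    (hS.inter measurableSet_ball).nullMeasurableSet f1, ENNReal.toReal_sub_of_le
    (measure_mono (inter_subset_inter_right _ (ball_subset_ball ht)))
    ((measure_mono inter_subset_right).trans_lt measure_ball_lt_top).ne, e1, Measure.addHaar_smul,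
    ENNReal.toReal_mul, ENNReal.toReal_ofReal (abs_nonneg _), finrank_euclideanSpace_fin,
    abs_of_pos (by positivity)]
  ring

lemma Sh0_vol {t : ℝ} (ht : 1 ≤ t) :
    (volume (Sh0 d t)).toReal = (t ^ d - 1) * (volume (ball (0 : E d) 1)).toReal := by
  simpa using cone_frac (d := d) MeasurableSet.univ (by simp) ht

lemma line_avg {f : E d → ℝ≥0∞} (hf : Measurable f) (e : E d) (l : ℝ) :
    ∫⁻ x, ∫⁻ t in Icc 0 l, f (x + t • e) = ENNReal.ofReal l * ∫⁻ x, f x := by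
  rw [lintegral_lintegral_swap (Measurable.aemeasurable (by fun_prop))]
  simp only [lintegral_add_right_eq_self]
  rw [setLIntegral_const, Real.volume_Icc, sub_zero, mul_comm]

lemma hit_closed {u g : E d → ℝ} (hu : Continuous u) (hg : Continuous g) (e : E d) (T : ℝ) :
    IsClosed (Hit u g e T) := by
  have : CompactSpace (Icc (0 : ℝ) T) := isCompact_iff_compactSpace.1 isCompact_Icc
  have e1 : Hit u g e T = Prod.fst '' ({p : E d × Icc (0 : ℝ) T | u p.1 ≤ g (p.1 + p.2.1 • e)} ∩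
      ⋂ θ ∈ Icc (0 : ℝ) 1, {p : E d × Icc (0 : ℝ) T | u p.1 ≤ u (p.1 + (θ * p.2.1) • e)}) := by
    ext x
    constructor
    · rintro ⟨τ, h1, h2, h3⟩
      refine ⟨(x, ⟨τ, h1⟩), ⟨h2, mem_iInter₂.2 fun θ hθ => h3 _ ⟨mul_nonneg hθ.1 h1.1, ?_⟩⟩, rfl⟩
      exact mul_le_of_le_one_left h1.1 hθ.2
    · rintro ⟨⟨x, τ, h1⟩, ⟨h2, h3⟩, rfl⟩
      refine ⟨τ, h1, h2, fun t ht => ?_⟩
      rcases eq_or_lt_of_le h1.1 with h0 | h0
      · have : t = 0 := le_antisymm (h0 ▸ ht.2) ht.1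
        simp [this]
      · have := mem_iInter₂.1 h3 (t / τ) ⟨div_nonneg ht.1 h0.le, div_le_one_of_le₀ ht.2 h0.le⟩
        simpa [div_mul_cancel₀ _ h0.ne'] using this
  rw [e1]
  refine isClosedMap_fst_of_compactSpace _ ((isClosed_le (by fun_prop) (by fun_prop)).inter
    (isClosed_biInter fun θ _ => isClosed_le (by fun_prop) (by fun_prop)))

lemma hit_meas {u g : E d → ℝ} (hu : Continuous u) (hg : Continuous g) (e : E d) (T : ℝ) :
    MeasurableSet (Hit u g e T) := (hit_closed hu hg e T).measurableSet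

lemma TG_mono (g : E d → ℝ) (ϑ : ℝ) {L L' : ℝ} (h : L ≤ L') : TG g ϑ L ≤ TG g ϑ L' := by
  refine ENNReal.tsum_le_tsum fun m => mul_le_mul' le_rfl ?_
  exact (lintegral_mono fun _ => lintegral_mono_set (ball_subset_ball (by gcongr))).trans
    (lintegral_mono_set (ball_subset_ball h))

lemma Lam_le_TG (g : E d → ℝ) (ϑ L : ℝ) : Lam g 0 L ≤ TG g ϑ L := by
  refine le_trans ?_ (ENNReal.le_tsum 0)
  simp [Lam]

end Vale.Agent.P137
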