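import Vale.Agent.P137.CBase

open MeasureTheory Metric Set Filter
open scoped ENNReal NNReal RealInnerProductSpace Topology

namespace Vale.Agent.P137

variable {d : ℕ}

namespace CSx

lemma mass {o : E d → ℝ} {μ : ℝ} (ho : BM o) (h0 : ∀ y, 0 ≤ o y)
    (hμ : ∫ y in ball (0 : E d) 3, o y ≤ μ) :
    ∫⁻ y in ball (0 : E d) 3, ENNReal.ofReal (o y) ≤ ENNReal.ofReal μ := by
  rw [← ofReal_integral_eq_lintegral_ofReal (ho.integrableOn measure_ball_lt_top.ne)
    (Eventually.of_forall h0)]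
  exact ENNReal.ofReal_le_ofReal hμ

lemma wbd {o : E d → ℝ} {μ : ℝ} (ho : BM o) (h0 : ∀ y, 0 ≤ o y)
    (hμ : ∫ y in ball (0 : E d) 3, o y ≤ μ) {f : E d → ℝ≥0∞} {c : ℝ≥0∞}
    (hf : ∀ y ∈ ball (0 : E d) 3, f y ≤ c) :
    ∫⁻ y in ball (0 : E d) 3, ENNReal.ofReal (o y) * f y ≤ ENNReal.ofReal μ * c := by
  calc _ ≤ ∫⁻ y in ball (0 : E d) 3, ENNReal.ofReal (o y) * c :=
        setLIntegral_mono' measurableSet_ball fun y hy => mul_le_mul' le_rfl (hf y hy)
    _ = (∫⁻ y in ball (0 : E d) 3, ENNReal.ofReal (o y)) * c :=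
        lintegral_mul_const _ ho.1.ennreal_ofReal
    _ ≤ _ := mul_le_mul' (mass ho h0 hμ) le_rfl

lemma swp {o : E d → ℝ} {μ : ℝ} (ho : BM o) (h0 : ∀ y, 0 ≤ o y)
    (hμ : ∫ y in ball (0 : E d) 3, o y ≤ μ) {k : E d → E d → ℝ≥0∞} {c : ℝ≥0∞}
    (hk : Measurable (Function.uncurry k))
    (hc : ∀ y ∈ ball (0 : E d) 3, ∫⁻ x in ball (0 : E d) (1 / 10), k x y ≤ c) :
    ∫⁻ x in ball (0 : E d) (1 / 10), ∫⁻ y in ball (0 : E d) 3, ENNReal.ofReal (o y) * k x y ≤
      ENNReal.ofReal μ * c := by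
  have h1 := ho.1
  rw [lintegral_lintegral_swap (f := fun x y => ENNReal.ofReal (o y) * k x y)
    (Measurable.aemeasurable (Measurable.mul (by fun_prop) hk))]
  refine le_trans (le_of_eq (lintegral_congr fun y => ?_)) (wbd ho h0 hμ hc)
  exact lintegral_const_mul _ (hk.comp (measurable_id.prodMk measurable_const))

lemma ann_sub {x : E d} {r δ : ℝ} (hx : x ∈ ball (0 : E d) (1 / 10)) (hr : r ∈ Icc (1 : ℝ) 2)
    (hδ : δ ≤ 1 / 2) : ann x r δ ⊆ ball 0 3 := by
  intro y hy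
  rw [mem_ball_zero_iff] at hx ⊢
  have h1 := (abs_le.1 (show |‖y - x‖ - r| ≤ δ from hy)).2
  have h2 : ‖y‖ ≤ ‖y - x‖ + ‖x‖ := by simpa using norm_add_le (y - x) x
  linarith [hr.2]

lemma ann_meas (x : E d) (r δ : ℝ) : MeasurableSet (ann x r δ) :=
  measurableSet_le (f := fun y : E d => |‖y - x‖ - r|) (g := fun _ => δ) (by fun_prop)
    (by fun_prop)

lemma cs_sub {ξ u v : E d} (hξ : ‖ξ‖ = 1) (hu : 1 / 2 ≤ ‖u‖) (hv : 1 / 2 ≤ ‖v‖) :
    |cs ξ u - cs ξ v| ≤ 4 * ‖u - v‖ := by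
  have hu0 : 0 < ‖u‖ := by linarith
  have hv0 : 0 < ‖v‖ := by linarith
  have e : cs ξ u - cs ξ v = (⟪u - v, ξ⟫ + cs ξ v * (‖v‖ - ‖u‖)) / ‖u‖ := by
    rw [cs, cs, inner_sub_left]; field_simp; ring
  have h1 := abs_inner_le hξ (u - v)
  have h2 : |cs ξ v * (‖v‖ - ‖u‖)| ≤ ‖u - v‖ := by
    rw [abs_mul, norm_sub_rev]
    exact (mul_le_of_le_one_left (abs_nonneg _) (abs_cs_le hξ v)).trans (abs_norm_sub_norm_le v u)
  rw [e, abs_div, abs_of_pos hu0, div_le_iff₀ hu0]
  have h3 := abs_add_le ⟪u - v, ξ⟫ (cs ξ v * (‖v‖ - ‖u‖))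
  nlinarith [norm_nonneg (u - v)]

/-- the kernel of the double integral -/
noncomputable def ker (δ : ℝ) (x y y' : E d) : ℝ≥0∞ :=
  if |‖y - x‖ ^ 2 - ‖y' - x‖ ^ 2| ≤ 10 * δ then ENNReal.ofReal (4 * ‖y - y'‖) else 0

lemma ker_meas (δ : ℝ) : Measurable fun p : (E d × E d) × E d => ker δ p.1.1 p.1.2 p.2 :=
  Measurable.ite (measurableSet_le (by fun_prop) (by fun_prop)) (by fun_prop) (by fun_prop)

lemma ker_int {C δ : ℝ} (hδ : 0 < δ)
    (hC : ∀ (ζ : E d) (a δ : ℝ), ‖ζ‖ = 1 → 0 < δ →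
      volume (ball (0 : E d) 4 ∩ {z | |⟪z, ζ⟫ - a| ≤ δ}) ≤ ENNReal.ofReal (C * δ)) (hC0 : 0 < C)
    (y y' : E d) : ∫⁻ x in ball (0 : E d) (1 / 10), ker δ x y y' ≤ ENNReal.ofReal (20 * C * δ) := by
  by_cases hy : y = y'
  · simp [ker, hy]
  have hn : 0 < ‖y - y'‖ := norm_pos_iff.2 (sub_ne_zero.2 hy)
  set S := ball (0 : E d) 4 ∩ {z | |⟪z, ‖y - y'‖⁻¹ • (y - y')⟫ -
    (‖y‖ ^ 2 - ‖y'‖ ^ 2) / (2 * ‖y - y'‖)| ≤ 5 * δ / ‖y - y'‖} with hS
  have hSm : MeasurableSet S := measurableSet_ball.inter (measurableSet_le (by fun_prop)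
    (by fun_prop))
  calc _ ≤ ∫⁻ x in ball (0 : E d) (1 / 10),
        S.indicator (fun _ => ENNReal.ofReal (4 * ‖y - y'‖)) x := by
        refine setLIntegral_mono' measurableSet_ball fun x hx => ?_
        unfold ker
        split_ifs with h
        · rw [indicator_of_mem]
          refine ⟨ball_subset_ball (by norm_num) hx, ?_⟩
          have e : ⟪x, ‖y - y'‖⁻¹ • (y - y')⟫ - (‖y‖ ^ 2 - ‖y'‖ ^ 2) / (2 * ‖y - y'‖) =
              -(‖y - x‖ ^ 2 - ‖y' - x‖ ^ 2) / (2 * ‖y - y'‖) := by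
            rw [real_inner_smul_right, inner_sub_right, norm_sub_sq_real y x,
              norm_sub_sq_real y' x, real_inner_comm x y, real_inner_comm x y']
            field_simp; ring
          rw [mem_ofPred_eq, e, abs_div, abs_neg, abs_of_pos (by positivity : 0 < 2 * ‖y - y'‖),
            div_le_div_iff₀ (by positivity) hn]
          nlinarith
        · exact zero_le
    _ ≤ ∫⁻ x, S.indicator (fun _ => ENNReal.ofReal (4 * ‖y - y'‖)) x :=
        setLIntegral_le_lintegral _ _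
    _ = ENNReal.ofReal (4 * ‖y - y'‖) * volume S := lintegral_indicator_const hSm _
    _ ≤ ENNReal.ofReal (4 * ‖y - y'‖) * ENNReal.ofReal (C * (5 * δ / ‖y - y'‖)) := by
        refine mul_le_mul' le_rfl (hC _ _ _ ?_ (by positivity))
        rw [norm_smul, norm_inv, norm_norm, inv_mul_cancel₀ hn.ne']
    _ = _ := by
        rw [← ENNReal.ofReal_mul (by positivity)]
        congr 1; field_simp; ring

/-- the double integral -/
noncomputable def W (o : E d → ℝ) (δ : ℝ) (x : E d) : ℝ≥0∞ :=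
  ∫⁻ y in ball (0 : E d) 3, ENNReal.ofReal (o y) *
    ∫⁻ y' in ball (0 : E d) 3, ENNReal.ofReal (o y') * ker δ x y y'

lemma inner_meas {o : E d → ℝ} (ho : BM o) (δ : ℝ) : Measurable fun p : E d × E d =>
    ∫⁻ y' in ball (0 : E d) 3, ENNReal.ofReal (o y') * ker δ p.1 p.2 y' := by
  have h1 := ho.1
  exact Measurable.lintegral_prod_right'
    (f := fun q : (E d × E d) × E d => ENNReal.ofReal (o q.2) * ker δ q.1.1 q.1.2 q.2)
    (Measurable.mul (by fun_prop) (ker_meas δ))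

lemma W_meas {o : E d → ℝ} (ho : BM o) (δ : ℝ) : Measurable (W o δ) := by
  have h1 := ho.1
  exact Measurable.lintegral_prod_right' (f := fun p : E d × E d => ENNReal.ofReal (o p.2) *
    ∫⁻ y' in ball (0 : E d) 3, ENNReal.ofReal (o y') * ker δ p.1 p.2 y')
    (Measurable.mul (by fun_prop) (inner_meas ho δ))

lemma W_fin {o : E d → ℝ} {μ : ℝ} (ho : BM o) (h0 : ∀ y, 0 ≤ o y)
    (hμ : ∫ y in ball (0 : E d) 3, o y ≤ μ) (δ : ℝ) (x : E d) : W o δ x ≠ ∞ := by
  refine ne_top_of_le_ne_top ?_ (wbd ho h0 hμ (c := ENNReal.ofReal μ * ENNReal.ofReal 24)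
    fun y hy => wbd ho h0 hμ fun y' hy' => ?_)
  · exact ENNReal.mul_ne_top ENNReal.ofReal_ne_top
      (ENNReal.mul_ne_top ENNReal.ofReal_ne_top ENNReal.ofReal_ne_top)
  · unfold ker
    split_ifs
    · rw [mem_ball_zero_iff] at hy hy'
      exact ENNReal.ofReal_le_ofReal (by linarith [norm_sub_le y y'])
    · exact zero_le

lemma mean {o : E d → ℝ} {δ r : ℝ} {ξ x : E d} (ho : BM o) (h0 : ∀ y, 0 ≤ o y) (hξ : ‖ξ‖ = 1)
    (hδ : δ ≤ 1 / 2) (hx : x ∈ ball (0 : E d) (1 / 10)) (hr : r ∈ Icc (1 : ℝ) 2)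
    (hm : 0 < ∫ y in ann x r δ, o y) :
    ∃ χ : ℝ, |χ| ≤ 1 ∧ ENNReal.ofReal ((∫ y in ann x r δ, o y) *
      ∫ y in ann x r δ, o y * |cs ξ (y - x) - χ|) ≤ W o δ x := by
  have hA := ann_sub hx hr hδ
  have hv : volume (ann x r δ) ≠ ∞ := ((measure_mono hA).trans_lt measure_ball_lt_top).ne
  have hc : BM fun y => cs ξ (y - x) := (cs_bm hξ).comp (by fun_prop)
  set m := ∫ y in ann x r δ, o y with hmd
  refine ⟨(∫ y in ann x r δ, o y * cs ξ (y - x)) / m, ?_, ?_⟩
  · rw [abs_div, abs_of_pos hm, div_le_one hm]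
    refine abs_integral_le_integral_abs.trans (integral_mono ((ho.mul hc).abs.integrableOn hv)
      (ho.integrableOn hv) fun y => ?_)
    change |o y * cs ξ (y - x)| ≤ o y
    rw [abs_mul, abs_of_nonneg (h0 y)]
    exact mul_le_of_le_one_right (h0 y) (abs_cs_le hξ _)
  set χ := (∫ y in ann x r δ, o y * cs ξ (y - x)) / m with hχ
  rw [← integral_const_mul, ofReal_integral_eq_lintegral_ofReal
    (((BM.const m).mul (ho.mul (hc.sub (BM.const χ)).abs)).integrableOn hv)
    (Eventually.of_forall fun y => mul_nonneg hm.le (mul_nonneg (h0 y) (abs_nonneg _)))]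
  refine le_trans (setLIntegral_mono' (ann_meas x r δ) fun y hy => ?_) (lintegral_mono_set hA)
  rw [mul_left_comm, ENNReal.ofReal_mul (h0 y)]
  refine mul_le_mul' le_rfl ?_
  have e : m * |cs ξ (y - x) - χ| =
      ‖∫ y' in ann x r δ, o y' * (cs ξ (y - x) - cs ξ (y' - x))‖ := by
    simp only [mul_sub]
    rw [integral_sub ((ho.mul (BM.const _)).integrableOn hv) ((ho.mul hc).integrableOn hv),
      integral_mul_const, ← hmd, Real.norm_eq_abs]
    conv_lhs => rw [← abs_of_pos hm, ← abs_mul]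
    congr 1
    rw [hχ]; field_simp
  rw [e, ofReal_norm]
  refine (enorm_integral_le_lintegral_enorm _).trans ?_
  refine le_trans (setLIntegral_mono' (ann_meas x r δ) fun y' hy' => ?_) (lintegral_mono_set hA)
  have a1 := abs_le.1 (show |‖y - x‖ - r| ≤ δ from hy)
  have a2 := abs_le.1 (show |‖y' - x‖ - r| ≤ δ from hy')
  have hk : ker δ x y y' = ENNReal.ofReal (4 * ‖y - y'‖) := by
    refine if_pos ?_
    rw [sq_sub_sq, abs_mul, abs_of_nonneg (by positivity)]
    have b1 : |‖y - x‖ - ‖y' - x‖| ≤ 2 * δ := abs_le.2 ⟨by linarith, by linarith⟩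
    have b2 : ‖y - x‖ + ‖y' - x‖ ≤ 5 := by linarith [hr.2]
    calc _ ≤ 5 * (2 * δ) := mul_le_mul b2 b1 (abs_nonneg _) (by norm_num)
      _ = _ := by ring
  rw [hk, ← ofReal_norm, ← ENNReal.ofReal_mul (h0 y'), Real.norm_eq_abs, abs_mul,
    abs_of_nonneg (h0 y')]
  refine ENNReal.ofReal_le_ofReal (mul_le_mul_of_nonneg_left ?_ (h0 y'))
  have := cs_sub hξ (u := y - x) (v := y' - x) (by linarith [hr.1]) (by linarith [hr.1])
  rwa [sub_sub_sub_cancel_right] at this

end CSx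

open CSx

theorem csStmt (hG : GeoStmt d) : CSStmt d := by
  obtain ⟨C, hC0, hC, -⟩ := hG
  refine ⟨(volume (ball (0 : E d) (1 / 10))).toReal + 20 * C, by positivity,
    fun o μ ω δ ξ ho h0 hμ0 hμ hω hδ0 hδω hδ hξ => ?_⟩
  have hp : 0 < ω * μ := mul_pos hω hμ0
  refine ⟨fun x => ω * μ + (ω * μ)⁻¹ * (W o δ x).toReal, ⟨?_, fun x => by positivity, ?_⟩,
    fun x hx r hr => ?_⟩
  · exact ((W_meas ho δ).ennreal_toReal.const_mul _).const_add _
  · have h1 : ∫⁻ x in ball (0 : E d) (1 / 10), W o δ x ≤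
        ENNReal.ofReal μ * (ENNReal.ofReal μ * ENNReal.ofReal (20 * C * δ)) :=
      swp ho h0 hμ (k := fun x y => ∫⁻ y' in ball (0 : E d) 3, ENNReal.ofReal (o y') * ker δ x y y')
        (inner_meas ho δ) fun y _ => swp ho h0 hμ (k := fun x y' => ker δ x y y')
          ((ker_meas δ).comp (f := fun p : E d × E d => ((p.1, y), p.2)) (by fun_prop))
          fun y' _ => ker_int hδ0 hC hC0 y y'
    calc _ ≤ ∫⁻ x in ball (0 : E d) (1 / 10),
          (ENNReal.ofReal (ω * μ) + ENNReal.ofReal (ω * μ)⁻¹ * W o δ x) := by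
          refine lintegral_mono fun x => ENNReal.ofReal_add_le.trans (add_le_add le_rfl ?_)
          rw [ENNReal.ofReal_mul (by positivity)]
          exact mul_le_mul' le_rfl ENNReal.ofReal_toReal_le
      _ = ENNReal.ofReal (ω * μ) * volume (ball (0 : E d) (1 / 10)) +
          ENNReal.ofReal (ω * μ)⁻¹ * ∫⁻ x in ball (0 : E d) (1 / 10), W o δ x := by
          rw [lintegral_add_left measurable_const, setLIntegral_const,
            lintegral_const_mul _ (W_meas ho δ)]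
      _ ≤ ENNReal.ofReal (ω * μ) * ENNReal.ofReal (volume (ball (0 : E d) (1 / 10))).toReal +
          ENNReal.ofReal (ω * μ)⁻¹ *
            (ENNReal.ofReal μ * (ENNReal.ofReal μ * ENNReal.ofReal (20 * C * δ))) := by
          rw [ENNReal.ofReal_toReal measure_ball_lt_top.ne]
          gcongr
      _ ≤ _ := by
          rw [← ENNReal.ofReal_mul hp.le, ← ENNReal.ofReal_mul hμ0.le, ← ENNReal.ofReal_mul hμ0.le,
            ← ENNReal.ofReal_mul (by positivity), ← ENNReal.ofReal_add (by positivity)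
            (by positivity)]
          refine ENNReal.ofReal_le_ofReal ?_
          have h2 : (ω * μ)⁻¹ * (μ * (μ * (20 * C * δ))) ≤ 20 * C * ω * μ := by
            rw [inv_mul_le_iff₀ hp]
            calc _ ≤ μ * (μ * (20 * C * ω ^ 2)) := by gcongr
              _ = _ := by ring
          nlinarith
  · have hv : volume (ann x r δ) ≠ ∞ :=
      ((measure_mono (ann_sub hx hr hδ)).trans_lt measure_ball_lt_top).ne
    have hW : 0 ≤ (ω * μ)⁻¹ * (W o δ x).toReal := by positivity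
    rcases le_or_gt (∫ y in ann x r δ, o y) (ω * μ) with hm | hm
    · refine ⟨0, by simp, le_trans (integral_mono ?_ (ho.integrableOn hv) fun y => ?_)
        (by linarith)⟩
      · exact (ho.mul ((((cs_bm hξ).comp (by fun_prop)).sub (BM.const 0)).abs)).integrableOn hv
      · change o y * |cs ξ (y - x) - 0| ≤ o y
        rw [sub_zero]
        exact mul_le_of_le_one_right (h0 y) (abs_cs_le hξ _)
    · obtain ⟨χ, h1, h2⟩ := mean ho h0 hξ hδ hx hr (hp.trans hm)
      refine ⟨χ, h1, ?_⟩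
      have h3 := (ENNReal.ofReal_le_iff_le_toReal (W_fin ho h0 hμ δ x)).1 h2
      have h4 : 0 ≤ ∫ y in ann x r δ, o y * |cs ξ (y - x) - χ| :=
        integral_nonneg fun y => mul_nonneg (h0 y) (abs_nonneg _)
      have h5 : ∫ y in ann x r δ, o y * |cs ξ (y - x) - χ| ≤ (ω * μ)⁻¹ * (W o δ x).toReal := by
        rw [le_inv_mul_iff₀ hp]
        exact (mul_le_mul_of_nonneg_right hm.le h4).trans h3
      linarith

theorem pinIntStmt (hG : GeoStmt d) : PinIntStmt d := by
  obtain ⟨C, hC0, -, hC, -⟩ := hG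
  refine ⟨C, hC0, fun o μ α a ν ho h0 hμ hα hα1 hν => ?_⟩
  have h1 := ho.1
  let k : E d → E d → ℝ≥0∞ := fun x y => if |‖y - x‖ - (⟪x, ν⟫ - a)| ≤ α ^ 4 then 1 else 0
  have hk : Measurable (Function.uncurry k) :=
    Measurable.ite (measurableSet_le (by fun_prop) (by fun_prop)) (by fun_prop) (by fun_prop)
  have hμ0 : 0 ≤ μ := (integral_nonneg h0).trans hμ
  refine ⟨fun x => (∫⁻ y in ball (0 : E d) 3, ENNReal.ofReal (o y) * k x y).toReal,
    ⟨?_, fun x => ENNReal.toReal_nonneg, ?_⟩, fun x hx r hr δ hδ hle => ?_⟩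
  · exact (Measurable.lintegral_prod_right' (f := fun p : E d × E d =>
      ENNReal.ofReal (o p.2) * k p.1 p.2) (Measurable.mul (by fun_prop) hk)).ennreal_toReal
  · refine (lintegral_mono fun x => ENNReal.ofReal_toReal_le).trans
      ((swp ho h0 hμ hk (c := ENNReal.ofReal (C * α)) fun y hy => ?_).trans ?_)
    · set S := ball (0 : E d) 4 ∩ {z | |‖z‖ - ⟪z, ν⟫ - (⟪y, ν⟫ - a)| ≤ α ^ 4} with hS
      have hSm : MeasurableSet S := measurableSet_ball.inter (measurableSet_le (by fun_prop)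
        (by fun_prop))
      calc _ ≤ ∫⁻ x in ball (0 : E d) (1 / 10),
            ((fun x => x + -y) ⁻¹' S).indicator (fun _ => (1 : ℝ≥0∞)) x := by
            refine setLIntegral_mono' measurableSet_ball fun x hx => ?_
            simp only [k]
            split_ifs with h
            · rw [indicator_of_mem]
              rw [mem_ball_zero_iff] at hx hy
              rw [mem_preimage, ← sub_eq_add_neg]
              refine ⟨?_, ?_⟩
              · rw [mem_ball_zero_iff]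
                linarith [norm_sub_le x y]
              · rw [mem_ofPred_eq, inner_sub_left, norm_sub_rev]
                refine le_of_eq_of_le ?_ h
                congr 1; ring
            · exact zero_le
        _ ≤ ∫⁻ x, ((fun x => x + -y) ⁻¹' S).indicator (fun _ => (1 : ℝ≥0∞)) x :=
            setLIntegral_le_lintegral _ _
        _ = volume S := by
            rw [lintegral_indicator_const (hSm.preimage (by fun_prop)), one_mul,
              measure_preimage_add_right]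
        _ ≤ _ := hC ν _ α hν hα hα1
    · rw [← ENNReal.ofReal_mul hμ0]
      exact ENNReal.ofReal_le_ofReal (le_of_eq (by ring))
  · have hA := ann_sub hx hr hδ
    have hv : volume (ann x r δ) ≠ ∞ := ((measure_mono hA).trans_lt measure_ball_lt_top).ne
    have hfin : ∫⁻ y in ball (0 : E d) 3, ENNReal.ofReal (o y) * k x y ≠ ∞ := by
      refine ne_top_of_le_ne_top ?_ (wbd ho h0 hμ (c := 1) fun y _ => ?_)
      · simp
      · simp only [k]; split_ifs <;> simp
    rw [← ENNReal.ofReal_le_iff_le_toReal hfin, ofReal_integral_eq_lintegral_ofReal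
      (ho.integrableOn hv) (Eventually.of_forall h0)]
    refine le_trans (setLIntegral_mono' (ann_meas x r δ) fun y hy => ?_) (lintegral_mono_set hA)
    have h2 : |‖y - x‖ - (⟪x, ν⟫ - a)| ≤ α ^ 4 := by
      have h3 : |‖y - x‖ - r| ≤ δ := hy
      linarith [abs_sub_le ‖y - x‖ r (⟪x, ν⟫ - a)]
    simp only [k]
    rw [if_pos h2, mul_one]

end Vale.Agent.P137
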