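import Vale.Agent.P137.CBase

open MeasureTheory Metric Set Filter
open scoped ENNReal NNReal RealInnerProductSpace Topology

namespace Vale.Agent.P137

variable {d : ℕ}

namespace Cell

lemma vec_pos (hd : 2 ≤ d) (j i : Fin d × Bool) :
    0 < ‖(2 * d : ℝ) • dir j + dir i‖ ∧ ‖(2 * d : ℝ) • (dir j : E d) + dir i‖ ≤ 2 * d + 1 := by
  have hd' : (2 : ℝ) ≤ d := by exact_mod_cast hd
  have h1 : ‖(2 * d : ℝ) • (dir j : E d)‖ = 2 * d := by
    rw [norm_smul, dir_norm, mul_one, Real.norm_of_nonneg (by positivity)]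
  have h2 := norm_add_le ((2 * d : ℝ) • (dir j : E d)) (dir i)
  have h3 := norm_sub_le ((2 * d : ℝ) • (dir j : E d) + dir i) (dir i)
  rw [add_sub_cancel_right, h1, dir_norm] at h3
  rw [h1, dir_norm] at h2
  exact ⟨by linarith, h2⟩

lemma dir2_norm (hd : 2 ≤ d) (j i : Fin d × Bool) : ‖(dir2 j i : E d)‖ = 1 := by
  rw [dir2, norm_smul, norm_inv, norm_norm, inv_mul_cancel₀ (vec_pos hd j i).1.ne']

lemma point (hd : 2 ≤ d) (j : Fin d × Bool) (D : E d →L[ℝ] ℝ) :
    ‖D‖ₑ ≤ ENNReal.ofReal (d * (2 * d + 1)) * (ENNReal.ofReal (D (dir j)) +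
      ∑ i : Fin d × Bool, ENNReal.ofReal (-D (dir2 j i))) := by
  have hd' : (2 : ℝ) ≤ d := by exact_mod_cast hd
  obtain ⟨i, hi⟩ := exists_dir (by omega : 1 ≤ d) (-(InnerProductSpace.toDual ℝ (E d)).symm D)
  rw [norm_neg, LinearIsometryEquiv.norm_map, inner_neg_right, real_inner_comm,
    InnerProductSpace.toDual_symm_apply, div_le_iff₀' (by linarith)] at hi
  obtain ⟨n0, n1⟩ := vec_pos hd j i
  have e : D (dir2 j i) * ‖(2 * d : ℝ) • (dir j : E d) + dir i‖ = 2 * d * D (dir j) + D (dir i) := by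
    rw [dir2, map_smul, map_add, map_smul, smul_eq_mul, smul_eq_mul]
    field_simp
  have a0 := le_max_right (D (dir j)) 0
  have a1 := le_max_left (D (dir j)) 0
  have b0 := le_max_right (-D (dir2 j i)) 0
  have b1 := le_max_left (-D (dir2 j i)) 0
  have k : -D (dir i) ≤ (2 * d + 1) * (max (D (dir j)) 0 + max (-D (dir2 j i)) 0) := by
    have c1 := mul_le_mul b1 n1 n0.le b0
    have c2 := mul_le_mul_of_nonneg_left a1 (by linarith : (0 : ℝ) ≤ 2 * d)
    nlinarith
  calc ‖D‖ₑ = ENNReal.ofReal ‖D‖ := (ofReal_norm D).symm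
    _ ≤ ENNReal.ofReal (d * (2 * d + 1) * (max (D (dir j)) 0 + max (-D (dir2 j i)) 0)) := by
        refine ENNReal.ofReal_le_ofReal (hi.trans ?_)
        rw [mul_assoc]
        exact mul_le_mul_of_nonneg_left k (by linarith)
    _ ≤ _ := by
        rw [ENNReal.ofReal_mul (by positivity), ENNReal.ofReal_add a0 b0,
          ENNReal.ofReal_max, ENNReal.ofReal_max, ENNReal.ofReal_zero, max_zero, max_zero]
        gcongr
        exact Finset.single_le_sum (f := fun i => ENNReal.ofReal (-D (dir2 j i)))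
          (fun _ _ => zero_le) (Finset.mem_univ i)

lemma av_bd {g : E d → ℝ} (hg : Continuous g) {c : E d} {r : ℝ} (hc : ‖c‖ ≤ 1) (hr : r ∈ Icc 1 2)
    (m : ℝ) : ENNReal.ofReal (av g c r - m) ≤
      (volume (ball (0 : E d) 1))⁻¹ * ∫⁻ y in ball (0 : E d) 3, ENNReal.ofReal (g y - m) := by
  have hr0 : 0 < r := by linarith [hr.1]
  have hi : IntegrableOn g (ball c r) :=
    (hg.continuousOn.integrableOn_compact (isCompact_closedBall c r)).mono_set
      ball_subset_closedBall
  have h0 : IntegrableOn (fun _ : E d => m) (ball c r) := integrableOn_const measure_ball_lt_top.ne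
  have h1 : IntegrableOn (fun y => g y - m) (ball c r) := hi.sub h0
  have h3 := integral_eq_lintegral_pos_part_sub_lintegral_neg_part h1
  have hv : 0 < (volume (ball c r)).toReal :=
    ENNReal.toReal_pos (measure_ball_pos _ _ hr0).ne' measure_ball_lt_top.ne
  rw [integral_sub hi h0, setIntegral_const, smul_eq_mul, measureReal_def] at h3
  have h4 : av g c r - m ≤ (∫⁻ y in ball c r, ENNReal.ofReal (g y - m)).toReal /
      (volume (ball c r)).toReal := by
    rw [le_div_iff₀ hv, av, sub_mul, div_mul_cancel₀ _ hv.ne', mul_comm m, h3]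
    exact sub_le_self _ ENNReal.toReal_nonneg
  refine (ENNReal.ofReal_le_ofReal h4).trans ?_
  rw [← ENNReal.toReal_div]
  refine ENNReal.ofReal_toReal_le.trans ?_
  rw [ENNReal.div_eq_inv_mul]
  refine mul_le_mul' (ENNReal.inv_le_inv.2 ?_) (lintegral_mono_set (ball_subset_ball' ?_))
  · rw [← Measure.addHaar_ball_center volume c]
    exact measure_mono (ball_subset_ball hr.1)
  · rw [dist_zero_right]
    linarith [hr.2]

lemma line_der (v : E d → ℝ) (x e : E d) (s : ℝ) :
    deriv (fun t : ℝ => v (x + t • e)) s = lineDeriv ℝ v (x + s • e) e := by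
  have := deriv_comp_const_add (fun t : ℝ => v (x + t • e)) s 0
  rw [add_zero] at this
  rw [← this, lineDeriv]
  simp only [add_smul, add_assoc]

lemma miss (hV : VStmt d) (h1 : OD1Stmt) {g u : E d → ℝ} {K : ℝ≥0} {A : Set (E d)} {e : E d}
    {T : ℝ} (hT : 1 ≤ T) (he : ‖e‖ = 1) (hg : LipschitzWith K g) (hu : LipschitzWith K u)
    (hle : ∀ x, vv g x ≤ u x) (hA : MeasurableSet A) (hA1 : A ⊆ ball 0 1)
    (heq : ∀ x ∈ A, u x = vv g x) :
    ∫⁻ x in A \ Hit u g e T, ENNReal.ofReal (fderiv ℝ (vv g) x e) ≤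
      ENNReal.ofReal T * (∫⁻ x in ball (0 : E d) (T + 3), ENNReal.ofReal (-fderiv ℝ (vv g) x e)) +
      (volume (ball (0 : E d) 1))⁻¹ * ∫⁻ x in ball (0 : E d) 2, ∫⁻ y in ball (0 : E d) 3,
        ENNReal.ofReal (g y - g (x + T • e)) := by
  obtain ⟨hv, -, hv2⟩ := hV g K hg
  have hB := hA.diff (hit_meas hu.continuous hg.continuous e T)
  have hae : ∀ᵐ x, lineDeriv ℝ (vv g) x e = fderiv ℝ (vv g) x e := by
    filter_upwards [hv.ae_differentiableAt (μ := volume)] with x hx using hx.lineDeriv_eq_fderiv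
  have hm : Measurable fun x => lineDeriv ℝ (vv g) x e := measurable_lineDeriv hv.continuous
  obtain ⟨y0, hy0, hmax⟩ := (isCompact_closedBall (0 : E d) 1).exists_isMaxOn
    (nonempty_closedBall.2 zero_le_one) hv.continuous.continuousOn
  obtain ⟨r0, hr0, hl⟩ := hv2 y0
  set f := (A \ Hit u g e T).indicator fun x => ENNReal.ofReal (lineDeriv ℝ (vv g) x e) with hf
  set F := (ball (0 : E d) (T + 3)).indicator
    fun x => ENNReal.ofReal (-lineDeriv ℝ (vv g) x e) with hF
  have mf : Measurable f := hm.ennreal_ofReal.indicator hB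
  have mF : Measurable F := hm.neg.ennreal_ofReal.indicator measurableSet_ball
  set η := fun x : E d => (volume (ball (0 : E d) 1))⁻¹ * ∫⁻ y in ball (0 : E d) 3,
    ENNReal.ofReal (g y - g (x + T • e)) with hη
  have key : ∀ x, ∫⁻ t in Icc (0 : ℝ) 1, f (x + t • e) ≤
      (∫⁻ t in Icc (0 : ℝ) T, F (x + t • e)) + (ball (0 : E d) 2).indicator η x := by
    intro x
    have hn : ∀ t : ℝ, 0 ≤ t → ‖t • e‖ = t := fun t ht => by
      rw [norm_smul, he, mul_one, Real.norm_of_nonneg ht]
    by_cases hx : x ∈ ball (0 : E d) 2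
    · have hS : MeasurableSet {t : ℝ | x + t • e ∈ A \ Hit u g e T} :=
        hB.preimage (f := fun t : ℝ => x + t • e) (by fun_prop)
      have hφ : LipschitzWith K fun t : ℝ => vv g (x + t • e) :=
        LipschitzWith.of_dist_le_mul fun s t => (hv.dist_le_mul _ _).trans_eq (by
          rw [dist_add_left, dist_eq_norm, ← sub_smul, norm_smul, he, mul_one, dist_eq_norm])
      have h := h1 _ K T (vv g y0) (η x) ({t : ℝ | x + t • e ∈ A \ Hit u g e T} ∩ Icc 0 1) hφ
        (hS.inter measurableSet_Icc) (fun t ht => ⟨ht.2.1, ht.2.2.trans hT⟩) (by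
          rintro s ⟨⟨hs, hs'⟩, hs0, hs1⟩
          refine ⟨hmax (ball_subset_closedBall (hA1 hs)), fun hm => ?_⟩
          have : g (x + T • e) < vv g (x + s • e) := by
            by_contra hc
            refine hs' ⟨T - s, ⟨by linarith, by linarith⟩, ?_, fun t ht => ?_⟩
            · rw [heq _ hs, add_assoc, ← add_smul, add_sub_cancel]
              exact not_lt.1 hc
            · rw [heq _ hs, add_assoc, ← add_smul]
              exact (hm (s + t) ⟨by linarith [ht.1], by linarith [ht.2]⟩).trans (hle _)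
          refine le_trans (ENNReal.ofReal_le_ofReal ?_)
            (av_bd hg.continuous (mem_closedBall_zero_iff.1 hy0) hr0 _)
          rw [hl]
          linarith)
      rw [indicator_of_mem hx]
      refine le_trans (le_of_eq ?_) (h.trans (add_le_add (le_of_eq ?_) le_rfl))
      · rw [← Measure.restrict_restrict hS, ← lintegral_indicator hS]
        refine lintegral_congr fun t => ?_
        by_cases ht : x + t • e ∈ A \ Hit u g e T
        · rw [hf, indicator_of_mem ht, indicator_of_mem (by exact ht), line_der]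
        · rw [hf, indicator_of_notMem ht, indicator_of_notMem (by exact ht)]
      · refine setLIntegral_congr_fun measurableSet_Icc fun t ht => ?_
        have : x + t • e ∈ ball (0 : E d) (T + 3) := by
          rw [mem_ball_zero_iff] at hx ⊢
          linarith [norm_add_le x (t • e), hn t ht.1, ht.2]
        simp only [hF, indicator_of_mem this, line_der]
    · refine le_trans (le_of_eq ?_) zero_le
      refine (setLIntegral_congr_fun measurableSet_Icc (g := fun _ => 0) fun t ht => ?_).trans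
        lintegral_zero
      refine indicator_of_notMem (fun h => hx ?_) _
      have h2 := mem_ball_zero_iff.1 (hA1 h.1)
      have h3 := norm_sub_le (x + t • e) (t • e)
      rw [add_sub_cancel_right, hn t ht.1] at h3
      rw [mem_ball_zero_iff]
      linarith [ht.2]
  have a1 : ∫⁻ x in A \ Hit u g e T, ENNReal.ofReal (fderiv ℝ (vv g) x e) = ∫⁻ x, f x := by
    rw [hf, lintegral_indicator hB]
    exact lintegral_congr_ae (ae_restrict_of_ae (hae.mono fun x hx => by simp only [hx]))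
  have a2 : ∫⁻ x in ball (0 : E d) (T + 3), ENNReal.ofReal (-fderiv ℝ (vv g) x e) =
      ∫⁻ x, F x := by
    rw [hF, lintegral_indicator measurableSet_ball]
    exact lintegral_congr_ae (ae_restrict_of_ae (hae.mono fun x hx => by simp only [hx]))
  have a3 := line_avg mf e 1
  rw [ENNReal.ofReal_one, one_mul] at a3
  rw [a1, a2, ← a3, ← line_avg mF e T, ← lintegral_const_mul' _ _
    (ENNReal.inv_ne_top.2 (measure_ball_pos _ _ one_pos).ne'),
    ← lintegral_indicator measurableSet_ball, ← lintegral_add_left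
      (Measurable.lintegral_prod_right (f := fun (x : E d) (t : ℝ) => F (x + t • e))
        (by fun_prop))]
  exact lintegral_mono key

end Cell

open Cell in
theorem cellStmt (hd : 2 ≤ d) (hN : NegStmt d) (hC : ConeStmt d) (hE : ExcStmt d) (hV : VStmt d)
    (h1 : OD1Stmt) : CellStmt d := by
  have hd' : (2 : ℝ) ≤ d := by exact_mod_cast hd
  set c : ℝ := 1 / (4 * d + 2) with hc
  have hc0 : 0 < c := by positivity
  have hc1 : c ≤ 1 := by rw [hc, div_le_one (by positivity)]; linarith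
  have hT : 1 ≤ 8 / c + 1 := le_add_of_nonneg_left (by positivity)
  obtain ⟨ρ, ε, hρ, hε, hcone⟩ := hC (8 / c + 9) (by positivity)
  obtain ⟨ϑ, L1, C1, ϑ0, ϑ1, hL1, hC1, hneg⟩ :=
    hN c (8 / c + 1 + 3) ρ ε hc0 hc1 (by positivity) hρ hε
  obtain ⟨L2, C2, hL2, hC2, hexc⟩ := hE c ρ ε hc0 hc1 hρ hε
  rw [show 8 / c + 1 + 3 + 5 = 8 / c + 9 by ring] at hneg
  set a := ENNReal.ofReal (d * (2 * d + 1)) with ha
  set b := ENNReal.ofReal (8 / c + 1) * C1 + (volume (ball (0 : E d) 1))⁻¹ * C2 +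
    ∑ _i : Fin d × Bool, C1 with hb
  have hb' : b ≠ ∞ := ENNReal.add_ne_top.2 ⟨ENNReal.add_ne_top.2
    ⟨ENNReal.mul_ne_top ENNReal.ofReal_ne_top hC1, ENNReal.mul_ne_top
      (ENNReal.inv_ne_top.2 (measure_ball_pos _ _ one_pos).ne') hC2⟩,
    ENNReal.sum_ne_top.2 fun _ _ => hC1⟩
  refine ⟨ϑ, L1 + L2, 8 / c + 1, a * (b + 1), ϑ0, ϑ1, by positivity, by positivity,
    ENNReal.mul_ne_top ENNReal.ofReal_ne_top (ENNReal.add_ne_top.2 ⟨hb', ENNReal.one_ne_top⟩),
    fun g u K A hg hu hle hA hA1 heq => ?_⟩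
  obtain ⟨j, hj, hj2⟩ := hcone g
  have hv := (hV g K hg).1
  have t1 : TG g ϑ L1 ≤ TG g ϑ (L1 + L2) := TG_mono g ϑ (by linarith)
  have t2 : Lam g 0 L2 ≤ TG g ϑ (L1 + L2) := (Lam_le_TG g ϑ L2).trans (TG_mono g ϑ (by linarith))
  have hae : ∀ᵐ x ∂volume.restrict A, fderiv ℝ u x = fderiv ℝ (vv g) x := by
    rw [ae_restrict_iff' hA]
    filter_upwards [hv.ae_differentiableAt (μ := volume), hu.ae_differentiableAt (μ := volume)]
      with x h2 h3 hx
    have h4 : IsLocalMin (u - vv g) x := Eventually.of_forall fun y => by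
      simp only [Pi.sub_apply]
      linarith [hle y, heq x hx]
    have h5 := h4.fderiv_eq_zero
    rwa [fderiv_sub h3 h2, sub_eq_zero] at h5
  have mm : ∀ (w : E d → ℝ) (e : E d), Measurable fun x => fderiv ℝ w x e :=
    fun w e => measurable_fderiv_apply_const ℝ w e
  have hH := hit_meas hu.continuous hg.continuous (dir j) (8 / c + 1)
  have s1 : ∀ i, ∫⁻ x in A, ENNReal.ofReal (-fderiv ℝ u x (dir2 j i)) ≤
      C1 * TG g ϑ (L1 + L2) := fun i => by
    rw [lintegral_congr_ae (hae.mono fun x hx => by simp only [hx]; rfl)]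
    refine (lintegral_mono_set (hA1.trans (ball_subset_ball (by linarith)))).trans
      ((hneg g K _ hg (dir2_norm hd j i) (hj2 i)).trans (mul_le_mul' le_rfl t1))
  have s2 : ∫⁻ x in A \ Hit u g (dir j) (8 / c + 1), ENNReal.ofReal (fderiv ℝ u x (dir j)) ≤
      (ENNReal.ofReal (8 / c + 1) * C1 + (volume (ball (0 : E d) 1))⁻¹ * C2) *
        TG g ϑ (L1 + L2) := by
    rw [lintegral_congr_ae ((ae_restrict_of_ae_restrict_of_subset sdiff_subset hae).mono
      fun x hx => by simp only [hx]; rfl)]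
    refine (miss hV h1 hT (dir_norm j) hg hu hle hA hA1 heq).trans ?_
    rw [add_mul, mul_assoc, mul_assoc]
    exact add_le_add (mul_le_mul' le_rfl ((hneg g K _ hg (dir_norm j) hj).trans
      (mul_le_mul' le_rfl t1))) (mul_le_mul' le_rfl
        ((hexc g _ hg.continuous.measurable (dir_norm j) hj).trans (mul_le_mul' le_rfl t2)))
  set S := ∑ j : Fin d × Bool, ∫⁻ x in A ∩ Hit u g (dir j) (8 / c + 1),
    ENNReal.ofReal (fderiv ℝ u x (dir j)) with hS
  have s3 : ∫⁻ x in A ∩ Hit u g (dir j) (8 / c + 1), ENNReal.ofReal (fderiv ℝ u x (dir j)) ≤ S :=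
    Finset.single_le_sum (f := fun j => ∫⁻ x in A ∩ Hit u g (dir j) (8 / c + 1),
      ENNReal.ofReal (fderiv ℝ u x (dir j))) (fun _ _ => zero_le) (Finset.mem_univ j)
  calc ∫⁻ x in A, ‖fderiv ℝ u x‖ₑ ≤ ∫⁻ x in A, a * (ENNReal.ofReal (fderiv ℝ u x (dir j)) +
        ∑ i : Fin d × Bool, ENNReal.ofReal (-fderiv ℝ u x (dir2 j i))) :=
        lintegral_mono fun x => point hd j _
    _ = a * ((∫⁻ x in A, ENNReal.ofReal (fderiv ℝ u x (dir j))) +
        ∑ i : Fin d × Bool, ∫⁻ x in A, ENNReal.ofReal (-fderiv ℝ u x (dir2 j i))) := by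
        rw [lintegral_const_mul' _ _ ENNReal.ofReal_ne_top,
          lintegral_add_left (mm u _).ennreal_ofReal,
          lintegral_finsetSum _ fun i _ => (mm u (dir2 j i)).fun_neg.ennreal_ofReal]
    _ ≤ a * ((S + (ENNReal.ofReal (8 / c + 1) * C1 + (volume (ball (0 : E d) 1))⁻¹ * C2) *
        TG g ϑ (L1 + L2)) + ∑ _i : Fin d × Bool, C1 * TG g ϑ (L1 + L2)) := by
        rw [← lintegral_inter_add_sdiff _ A hH]
        exact mul_le_mul' le_rfl (add_le_add (add_le_add s3 s2) (Finset.sum_le_sum fun i _ => s1 i))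
    _ = a * b * TG g ϑ (L1 + L2) + a * 1 * S := by
        rw [← Finset.sum_mul, hb]
        ring
    _ ≤ _ := add_le_add (mul_le_mul' (mul_le_mul' le_rfl le_self_add) le_rfl)
        (mul_le_mul' (mul_le_mul' le_rfl le_add_self) le_rfl)

end Vale.Agent.P137
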