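import Vale.Agent.P137.Step

open MeasureTheory Metric Set Filter
open scoped ENNReal NNReal RealInnerProductSpace

namespace Vale.Agent.P137

variable {d : ℕ}

noncomputable def TT (Q : ℝ) (e : E d) (l : E d) (i : ℕ) : E d →ₗ[ℝ] E d :=
  sh e (Q ^ 2 / 2 ^ i) (Q ^ 2 / 4 ^ i) l

lemma TT_succ {Q : ℝ} (hQ : 0 < Q) {e l : E d} (he : ‖e‖ = 1) (hl : ⟪e, l⟫ = (0 : ℝ)) (μ : E d)
    (i : ℕ) (F : Set (E d)) :
    sh e (1 / 2) (1 / 4) μ ⁻¹' (TT Q e l i ⁻¹' F) =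
      TT Q e (l + (1 / 2 ^ i : ℝ) • μ) (i + 1) ⁻¹' F := by
  ext y
  simp only [mem_preimage, TT]
  rw [sh_comp he hl (by positivity)]
  have h4 : (4 : ℝ) ^ i = 2 ^ i * 2 ^ i := by rw [← mul_pow]; norm_num
  have a1 : Q ^ 2 / 2 ^ i * (1 / 2) = Q ^ 2 / 2 ^ (i + 1) := by rw [pow_succ 2]; field_simp
  have a2 : Q ^ 2 / 4 ^ i * (1 / 4) = Q ^ 2 / 4 ^ (i + 1) := by rw [pow_succ 4]; field_simp
  have a3 : Q ^ 2 / 4 ^ i / (Q ^ 2 / 2 ^ i) = 1 / 2 ^ i := by rw [h4]; field_simp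
  rw [a1, a2, a3]

lemma chain (hd : 1 ≤ d) {ε c0 : ℝ≥0∞} (hS : HS d ε c0) (h0 : ε ≠ 0)
    (h1 : (DD d (1 / 2) (1 / 4))⁻¹ * ε + ε < volume (ball (0 : E d) (1 / 1000)))
    {Q : ℝ} (hQ : 0 < Q) {F : ℝ → Set (E d)} (hF : Monotone F)
    (hm : ∀ s, MeasurableSet (F s)) (m : ℝ) :
    ∃ (e : E d) (l : ℕ → E d), ‖e‖ = 1 ∧ l 0 = 0 ∧ (∀ i, ⟪e, l i⟫ = (0 : ℝ)) ∧
      (∀ i, ‖l (i + 1) - l i‖ ≤ 1 / 40 / 2 ^ i) ∧
      ∀ i, ∀ s < m, bb (TT Q e (l i) i ⁻¹' F s) 4 ≤ c0 → NB ε (TT Q e (l i) i ⁻¹' F s) →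
        (i = 0 ∨ Up e ε (TT Q e (l i) i ⁻¹' F s)) →
        Up e ε (TT Q e (l (i + 1)) (i + 1) ⁻¹' F s) := by
  have hε : ε ≠ ∞ := (le_add_self.trans_lt (h1.trans measure_ball_lt_top)).ne
  obtain ⟨e, μ0, he, a1, a2, a3⟩ := famTop hd hS h0 hε
    (G := fun s => (fun y : E d => Q ^ 2 • y) ⁻¹' F s) (fun a b hab => preimage_mono (hF hab))
    (fun s => (measurable_const_smul _) (hm s)) m
  have hT0 : ∀ s, TT Q e 0 0 ⁻¹' F s = (fun y : E d => Q ^ 2 • y) ⁻¹' F s := by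
    intro s; ext y; simp [TT, sh_apply]
  have key : ∀ (i : ℕ) (l : E d), ∃ l' : E d, ⟪e, l⟫ = (0 : ℝ) → ⟪e, l'⟫ = (0 : ℝ) ∧
      ‖l' - l‖ ≤ 1 / 40 / 2 ^ i ∧ ∀ s < m, bb (TT Q e l i ⁻¹' F s) 4 ≤ c0 →
        NB ε (TT Q e l i ⁻¹' F s) → ((i = 0 ∧ l = 0) ∨ Up e ε (TT Q e l i ⁻¹' F s)) →
        Up e ε (TT Q e l' (i + 1) ⁻¹' F s) := by
    intro i l
    have : ∃ μ, ⟪e, μ⟫ = (0 : ℝ) ∧ ‖μ‖ ≤ 1 / 40 ∧ ∀ s < m, bb (TT Q e l i ⁻¹' F s) 4 ≤ c0 →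
        NB ε (TT Q e l i ⁻¹' F s) → ((i = 0 ∧ l = 0) ∨ Up e ε (TT Q e l i ⁻¹' F s)) →
        Up e ε (sh e (1 / 2) (1 / 4) μ ⁻¹' (TT Q e l i ⁻¹' F s)) := by
      by_cases h : i = 0 ∧ l = 0
      · obtain ⟨rfl, rfl⟩ := h
        refine ⟨μ0, a1, a2, fun s b1 b2 b3 _ => ?_⟩
        rw [hT0] at b2 b3 ⊢
        exact a3 s b1 b2 b3
      · obtain ⟨μ, b1, b2, b3⟩ := famStep hS h0 h1 he (G := fun s => TT Q e l i ⁻¹' F s)
          (fun a b hab => preimage_mono (hF hab)) (fun s => sh_meas _ _ _ _ (hm s)) m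
        exact ⟨μ, b1, b2, fun s c1 c2 c3 c4 => b3 s c1 c2 c3 (c4.resolve_left h)⟩
    obtain ⟨μ, b1, b2, b3⟩ := this
    refine ⟨l + (1 / 2 ^ i : ℝ) • μ, fun hl => ⟨?_, ?_, fun s c1 c2 c3 c4 => ?_⟩⟩
    · rw [inner_add_right, real_inner_smul_right, hl, b1]; simp
    · rw [add_sub_cancel_left, norm_smul, Real.norm_of_nonneg (by positivity), mul_comm,
        mul_one_div]
      gcongr
    · rw [← TT_succ hQ he hl]; exact b3 s c1 c2 c3 c4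
  choose f hf using key
  let l : ℕ → E d := fun n => Nat.rec 0 f n
  have hl : ∀ i, ⟪e, l i⟫ = (0 : ℝ) := by
    intro i
    induction i with
    | zero => exact inner_zero_right _
    | succ i ih => exact (hf i (l i) ih).1
  refine ⟨e, l, he, rfl, hl, fun i => (hf i (l i) (hl i)).2.1, fun i s c1 c2 c3 c4 =>
    (hf i (l i) (hl i)).2.2 s c1 c2 c3 (c4.imp_left ?_)⟩
  rintro rfl
  exact ⟨rfl, rfl⟩

lemma l_bound {l : ℕ → E d} (h : ∀ i, ‖l (i + 1) - l i‖ ≤ 1 / 40 / 2 ^ i) {i N : ℕ}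
    (hi : i ≤ N) : ‖l N - l i‖ ≤ 1 / 20 / 2 ^ i := by
  have : ‖l N - l i‖ ≤ 1 / 20 / 2 ^ i - 1 / 20 / 2 ^ N := by
    induction N, hi using Nat.le_induction with
    | base => simp
    | succ n _ ih =>
      have h1 := norm_sub_le_norm_sub_add_norm_sub (l (n + 1)) (l n) (l i)
      have h2 : (1 / 20 / 2 ^ (n + 1) : ℝ) = 1 / 40 / 2 ^ n := by rw [pow_succ]; field_simp; ring
      have h3 : (1 / 20 / 2 ^ n : ℝ) = 2 * (1 / 40 / 2 ^ n) := by field_simp; ring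
      linarith [h n]
  have h2 : (0 : ℝ) ≤ 1 / 20 / 2 ^ N := by positivity
  linarith

def Cap (ν : E d) (R t : ℝ) : Set (E d) := {y | ‖y‖ ^ 2 < 2 * R * ⟪y, ν⟫ ∧ ⟪y, ν⟫ ≤ t}

lemma cap_meas (ν : E d) (R t : ℝ) : MeasurableSet (Cap ν R t) :=
  (measurableSet_lt (f := fun y : E d => ‖y‖ ^ 2) (g := fun y => 2 * R * ⟪y, ν⟫) (by fun_prop)
    (by fun_prop)).inter
    (measurableSet_le (f := fun y : E d => ⟪y, ν⟫) (g := fun _ => t) (by fun_prop) (by fun_prop))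

lemma le_div_mul {a b c x : ℝ≥0∞} (h0 : b ≠ 0) (h1 : b ≠ ∞) (h : a * b ≤ c * x) :
    a ≤ c / b * x := by
  rw [ENNReal.mul_comm_div, ← mul_div_assoc, ENNReal.le_div_iff_mul_le (Or.inl h0) (Or.inl h1)]
  exact h

lemma capGeo {e l k : E d} (he : ‖e‖ = 1) (hl : ⟪e, l⟫ = (0 : ℝ)) (hk : ⟪e, k⟫ = (0 : ℝ))
    {Q w h : ℝ} (hw : 0 < w) (hh : 0 < h) (hQ : w ^ 2 = Q ^ 2 * h) (hk1 : ‖k‖ * w ≤ h / 20)
    {η : E d} (hη : sh e w h l η ∈ Cap (e + l + k) (Q ^ 2 / 100) (h / 2)) :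
    ‖η‖ < 7 / 10 ∧ ⟪sh e w h l η, e + l + k⟫ - h / 200 ≤ h * ⟪η, e⟫ := by
  obtain ⟨h1, h2⟩ := hη
  set y := sh e w h l η with hy
  have hQ0 : 0 < Q ^ 2 := by
    by_contra hc
    nlinarith [mul_nonpos_of_nonpos_of_nonneg (not_lt.1 hc) hh.le, sq_pos_of_pos hw]
  have h0 : 0 < ⟪y, e + l + k⟫ := by
    by_contra hc
    nlinarith [mul_nonpos_of_nonneg_of_nonpos hQ0.le (not_lt.1 hc), sq_nonneg ‖y‖]
  have h3 : w * ‖pp e η‖ ≤ ‖y‖ := by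
    have := pp_le he y
    rwa [hy, pp_sh he, norm_smul, Real.norm_of_nonneg hw.le] at this
  have h4 : ‖pp e η‖ < 1 / 10 := by
    by_contra hc
    have a1 : w / 10 ≤ ‖y‖ := by nlinarith [not_lt.1 hc]
    have a2 : (w / 10) ^ 2 ≤ ‖y‖ ^ 2 := by gcongr
    nlinarith [mul_le_mul_of_nonneg_left h2 hQ0.le]
  have h5 : ⟪y, e + l + k⟫ = h * ⟪η, e⟫ + w * ⟪pp e η, k⟫ := by
    rw [inner_add_right, hy, sh_nu he hl, sh_o hk, pp_o hk]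
  have h6 : |w * ⟪pp e η, k⟫| ≤ h / 200 := by
    rw [abs_mul, abs_of_pos hw]
    have a1 := abs_real_inner_le_norm (pp e η) k
    have a2 : ‖pp e η‖ * ‖k‖ ≤ 1 / 10 * ‖k‖ := by gcongr
    nlinarith [mul_le_mul_of_nonneg_left (a1.trans a2) hw.le]
  obtain ⟨h7, h8⟩ := abs_le.1 h6
  refine ⟨(le_pp he η).trans_lt ?_, by linarith⟩
  have : |⟪η, e⟫| ≤ 6 / 10 := by
    rw [abs_le]
    constructor
    · by_contra hc
      nlinarith [not_le.1 hc]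
    · by_contra hc
      nlinarith [not_le.1 hc]
  linarith

lemma cap_vol {e l k : E d} (he : ‖e‖ = 1) (hl : ⟪e, l⟫ = (0 : ℝ)) (hk : ⟪e, k⟫ = (0 : ℝ))
    {Q w h : ℝ} (hw : 0 < w) (hh : 0 < h) (hQ : w ^ 2 = Q ^ 2 * h) (hk1 : ‖k‖ * w ≤ h / 20) :
    volume (Cap (e + l + k) (Q ^ 2 / 100) (h / 2)) ≤ DD d w h * volume (ball (0 : E d) 1) := by
  rw [vol_pre he hl hw hh]
  gcongr
  intro η hη
  rw [mem_ball_zero_iff]
  linarith [(capGeo he hl hk hw hh hQ hk1 hη).1]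

lemma shell {e l k : E d} (he : ‖e‖ = 1) (hl : ⟪e, l⟫ = (0 : ℝ)) (hk : ⟪e, k⟫ = (0 : ℝ))
    {Q w h : ℝ} (hw : 0 < w) (hh : 0 < h) (hQ : w ^ 2 = Q ^ 2 * h) (hk1 : ‖k‖ * w ≤ h / 20)
    {ε : ℝ≥0∞} (h1 : 4 * ((DD d (1 / 2) (1 / 4))⁻¹ * ε) ≤ volume (ball (0 : E d) (1 / 1000)))
    {F : Set (E d)} (hF : MeasurableSet F) (hU : Up e ε (sh e w h l ⁻¹' F)) :
    volume (F ∩ (Cap (e + l + k) (Q ^ 2 / 100) (h / 2) \ Cap (e + l + k) (Q ^ 2 / 100) (h / 8))) ≤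
      2 / volume (ball (0 : E d) (1 / 1000)) * (DD d w h * bb (sh e w h l ⁻¹' F) 4) := by
  rw [vol_pre he hl hw hh, mul_left_comm]
  gcongr
  have hb0 : volume (ball (0 : E d) (1 / 1000)) ≠ 0 := (measure_ball_pos _ _ (by norm_num)).ne'
  refine le_div_mul hb0 measure_ball_lt_top.ne ?_
  rw [preimage_inter]
  refine l1 (W := ball 0 1 ∩ {y | 1 / 1000 < ⟪y, e⟫}) (sh_meas _ _ _ _ hF)
    (sh_meas _ _ _ _ ((cap_meas _ _ _).diff (cap_meas _ _ _))) ?_ ?_ ?_ (by norm_num)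
  · rintro η ⟨k1, k2⟩ v hv
    obtain ⟨a1, a2⟩ := capGeo he hl hk hw hh hQ hk1 k1
    rw [mem_ball_zero_iff] at hv
    have a3 : h / 8 < ⟪sh e w h l η, e + l + k⟫ := by
      by_contra hc
      exact k2 ⟨k1.1, not_lt.1 hc⟩
    have a4 : 1 / 10 < ⟪η, e⟫ := by
      by_contra hc
      nlinarith [not_lt.1 hc]
    refine ⟨?_, ?_⟩
    · rw [mem_ball_zero_iff]; linarith [norm_add_le η v]
    · simp only [mem_ofPred_eq, inner_add_left]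
      linarith [(abs_le.1 (abs_inner_le he v)).1]
  · rw [← inter_assoc]
    exact le_trans (by gcongr; exact hU) h1
  · rintro η ⟨k1, _⟩
    rw [mem_ball_zero_iff]
    linarith [(capGeo he hl hk hw hh hQ hk1 k1).1]

lemma inB {e l : E d} (he : ‖e‖ = 1) (hl : ⟪e, l⟫ = (0 : ℝ)) (hl1 : ‖l‖ ≤ 1 / 20) {w h : ℝ}
    (hh : 0 < h) (hhw : h ≤ w) (h40 : 40 * w ^ 2 ≤ h) {c : E d} (hc : 1 ≤ ‖c‖) :
    ∃ ζ : E d, ‖ζ‖ ≤ 2 ∧ ∀ η ∈ ball ζ 1, sh e w h l η ∈ ball c ‖c‖ := by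
  have hw : 0 < w := hh.trans_le hhw
  set om : E d := w • c + ⟪e, c⟫ • ((h - w) • e - w • l) with hom
  have h1 : ∀ η, ⟪sh e w h l η, c⟫ = ⟪η, om⟫ := by
    intro η
    simp only [sh_apply, hom, inner_add_left, inner_add_right, real_inner_smul_left,
      real_inner_smul_right, inner_sub_right]
    ring
  set η0 := sh e (1 / w) (1 / h) ((-(w / h)) • l) c with hη0
  have h2 : sh e w h l η0 = c := by
    rw [hη0, sh_comp he hl hw.ne', smul_smul]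
    have : h / w * -(w / h) = -1 := by field_simp
    rw [this, mul_one_div_cancel hw.ne', mul_one_div_cancel hh.ne']
    simp [sh_apply]
  have h3 : ‖η0‖ ≤ 41 / 20 * ‖c‖ / h := by
    have a1 := sh_inv he hl hw hh η0
    rw [h2] at a1
    have a2 : ‖c‖ / w ≤ ‖c‖ / h := by gcongr
    have a3 : (1 + ‖l‖) * ‖c‖ / h ≤ (1 + 1 / 20) * ‖c‖ / h := by gcongr
    have a4 : 41 / 20 * ‖c‖ / h = ‖c‖ / h + (1 + 1 / 20) * ‖c‖ / h := by ring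
    linarith
  have h4 : h ≤ 41 / 20 * ‖om‖ := by
    have a1 := h1 η0
    rw [h2, real_inner_self_eq_norm_sq] at a1
    have a2 := real_inner_le_norm η0 om
    have a3 : ‖c‖ ^ 2 ≤ 41 / 20 * ‖c‖ / h * ‖om‖ := by
      rw [a1]; exact a2.trans (by gcongr)
    rw [div_mul_eq_mul_div, le_div_iff₀ hh] at a3
    have a4 : ‖c‖ * h ≤ 41 / 20 * ‖om‖ := by
      have : 0 < ‖c‖ := by linarith
      nlinarith
    nlinarith
  have h5 : 0 < ‖om‖ := by linarith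
  have h6 : ‖(2 / ‖om‖) • om‖ = 2 := by
    rw [norm_smul, Real.norm_of_nonneg (by positivity)]; field_simp
  refine ⟨(2 / ‖om‖) • om, h6.le, fun η hη => ?_⟩
  obtain ⟨k, hk, rfl⟩ : ∃ k : E d, ‖k‖ < 1 ∧ η = (2 / ‖om‖) • om + k :=
    ⟨η - (2 / ‖om‖) • om, by rwa [mem_ball, dist_eq_norm] at hη, by abel⟩
  set η := (2 / ‖om‖) • om + k with hηd
  have a1 : ‖om‖ ≤ ⟪η, om⟫ := by
    rw [hηd, inner_add_left, real_inner_smul_left, real_inner_self_eq_norm_sq]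
    have b1 := (abs_le.1 (abs_real_inner_le_norm k om)).1
    have b2 : 2 / ‖om‖ * ‖om‖ ^ 2 = 2 * ‖om‖ := by field_simp
    nlinarith
  have a2 : ‖η‖ ≤ 3 := by linarith [norm_add_le ((2 / ‖om‖) • om) k]
  have a3 : ‖sh e w h l η‖ ≤ 123 / 20 * w := by
    refine (sh_norm he hw.le hh.le l η).trans ?_
    have : w + h + w * ‖l‖ ≤ 41 / 20 * w := by nlinarith
    calc _ ≤ 41 / 20 * w * 3 := by gcongr
      _ = _ := by ring
  have a4 : ‖sh e w h l η‖ ^ 2 ≤ (123 / 20 * w) ^ 2 := by gcongr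
  rw [mem_ball, dist_eq_norm]
  refine lt_of_pow_lt_pow_left₀ 2 (norm_nonneg _) ?_
  rw [norm_sub_sq_real, h1]
  nlinarith

lemma badCase {e l : E d} (he : ‖e‖ = 1) (hl : ⟪e, l⟫ = (0 : ℝ)) (hl1 : ‖l‖ ≤ 1 / 20)
    {Q w h : ℝ} (hQ : 10 ≤ Q) (hh : 0 < h) (hhw : h ≤ w) (hQw : w ^ 2 = Q ^ 2 * h)
    {ε : ℝ≥0∞} (h1 : 4 * (DD d w h * (2 * ε)) < volume (ball (0 : E d) 1))
    (h2 : 4 * ε ≤ DD d (1 / 20000 / Q) (1 / 10 ^ 7) * volume (ball (0 : E d) 1))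
    {F : Set (E d)} {q c : E d} (hq : ‖q‖ ≤ 1) (hc : 1 ≤ ‖c‖)
    (hκ : volume (ball (0 : E d) 1) ≤ 4 * volume (Fᶜ ∩ ball q 6))
    (hN : ¬ NB ε (sh e w h l ⁻¹' F)) :
    DD d w h * volume (ball (0 : E d) 1) ≤
      2 / DD d (1 / 20000 / Q) (1 / 10 ^ 7) * volume (F ∩ ball c ‖c‖) := by
  have hw : 0 < w := hh.trans_le hhw
  have hQ0 : 0 < Q := by linarith
  rw [NB, not_le] at hN
  have hh1 : h ≤ 120000 := by
    by_contra hc'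
    refine absurd h1 (not_lt.2 (hκ.trans ?_))
    rw [vol_pre he hl hw hh]
    gcongr
    refine le_trans (measure_mono ?_) hN.le
    rintro η ⟨k1, k2⟩
    refine ⟨k1, ?_⟩
    rw [mem_ball_zero_iff]
    have a1 := sh_inv he hl hw hh η
    have a2 : ‖sh e w h l η‖ ≤ 7 := by
      rw [mem_ball, dist_eq_norm] at k2
      linarith [norm_le_norm_sub_add (sh e w h l η) q]
    have a3 : ‖sh e w h l η‖ / w ≤ 7 / 120000 := by gcongr; linarith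
    have a4 : (1 + ‖l‖) * ‖sh e w h l η‖ / h ≤ (1 + 1 / 20) * 7 / 120000 := by gcongr; linarith
    linarith
  set w2 : ℝ := 1 / 20000 / Q with hw2
  have hw20 : 0 < w2 := by positivity
  have b1 : (w * w2) ^ 2 = h / 20000 ^ 2 := by rw [mul_pow, hQw, hw2]; field_simp
  obtain ⟨ζ, hζ, hB⟩ := inB he hl hl1 (w := w * w2) (h := h * (1 / 10 ^ 7)) (by positivity)
    (abs_le_of_sq_le_sq' (by rw [b1]; nlinarith) (by positivity)).2 (by rw [b1]; linarith) hc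
  set D2 := DD d w2 (1 / 10 ^ 7) with hD2
  have hD20 : D2 ≠ 0 := DD_ne_zero hw20 (by norm_num)
  set X := volume (sh e w h l ⁻¹' (F ∩ ball c ‖c‖)) with hX
  have c1 : D2 * volume (ball (0 : E d) 1) ≤ X + 2 * ε := by
    rw [← Measure.addHaar_ball_center volume ζ, hD2,
      ← vol_img he (inner_zero_right _) hw20 (by norm_num)]
    refine le_trans (measure_mono ?_) ((measure_union_le _ _).trans (add_le_add le_rfl hN.le))
    rintro _ ⟨η, hη, rfl⟩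
    by_cases k : sh e w h l (sh e w2 (1 / 10 ^ 7) 0 η) ∈ F
    · refine Or.inl ⟨k, ?_⟩
      rw [sh_comp he hl hw.ne', smul_zero, add_zero]
      exact hB η hη
    · refine Or.inr ⟨k, ?_⟩
      rw [mem_ball_zero_iff]
      refine (sh_norm he hw20.le (by norm_num) 0 η).trans_lt ?_
      have a1 : ‖η‖ ≤ 3 := by
        rw [mem_ball, dist_eq_norm] at hη
        linarith [norm_le_norm_sub_add η ζ]
      have a2 : w2 ≤ 1 / 20000 / 10 := by rw [hw2]; gcongr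
      rw [norm_zero]
      calc _ ≤ (1 / 20000 / 10 + 1 / 10 ^ 7 + w2 * 0) * 3 := by gcongr
        _ < _ := by norm_num
  have c2 : D2 * volume (ball (0 : E d) 1) ≤ 2 * X := by
    have hf : D2 * volume (ball (0 : E d) 1) ≠ ∞ :=
      ENNReal.mul_ne_top (DD_ne_top _ _) measure_ball_lt_top.ne
    refine (ENNReal.add_le_add_iff_right hf).1 ?_
    calc _ ≤ (X + 2 * ε) + (X + 2 * ε) := add_le_add c1 c1
      _ = 2 * X + 4 * ε := by ring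
      _ ≤ _ := by gcongr
  rw [vol_pre he hl hw hh (F ∩ _), ← hX, mul_left_comm]
  gcongr
  refine le_div_mul hD20 (DD_ne_top _ _) ?_
  rw [mul_comm]
  exact c2

end Vale.Agent.P137
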