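import Vale.Agent.P137.CBase

open MeasureTheory Metric Set Filter
open scoped ENNReal NNReal RealInnerProductSpace Topology

namespace Vale.Agent.P137

variable {d : ℕ}

namespace Cv

lemma sh (f : E d → ℝ≥0∞) (x v : E d) (r : ℝ) :
    ∫⁻ y in ball x r, f (y + v) = ∫⁻ y in ball (x + v) r, f y := by
  rw [← (measurePreserving_add_right volume v).setLIntegral_comp_preimage_emb
    (measurableEmbedding_addRight _) f (ball (x + v) r), preimage_add_right_ball, add_sub_cancel_right]

lemma mc_meas {g : E d → ℝ} (hg : Integrable g) (h0 : ∀ x, 0 ≤ g x) : Measurable (Mc g) := by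
  refine LowerSemicontinuous.measurable (lowerSemicontinuous_iSup fun r =>
    lowerSemicontinuous_iSup fun hr => Continuous.lowerSemicontinuous ?_)
  simp only [← Fi.av_eq hg h0 _ hr]
  refine ENNReal.continuous_ofReal.comp (continuous_iff_continuousAt.2 fun x => ?_)
  exact ContinuousAt.comp (f := fun x : E d => (x, r)) (TU.av_cont hg (p := (x, r)) hr) (by fun_prop)

lemma le_mc (g : E d → ℝ) (x : E d) {r : ℝ} (hr : 0 < r) :
    (∫⁻ y in ball x r, ‖g y‖ₑ) / volume (ball x r) ≤ Mc g x :=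
  le_iSup₂_of_le (f := fun (r : ℝ) (_ : 0 < r) => (∫⁻ y in ball x r, ‖g y‖ₑ) / volume (ball x r))
    r hr le_rfl

lemma swap {g : E d → ℝ} (hm : Measurable g) (hg : Integrable g) (h0 : ∀ x, 0 ≤ g x) (x : E d)
    (r : ℝ) {ε : ℝ} (hε : 0 < ε) : ∫⁻ y in ball x r, ‖av g y ε‖ₑ =
      (∫⁻ v in ball (0 : E d) ε, ∫⁻ y in ball (x + v) r, ‖g y‖ₑ) / volume (ball (0 : E d) ε) := by
  have e1 : ∀ y, ‖av g y ε‖ₑ =
      (∫⁻ v in ball (0 : E d) ε, ‖g (v + y)‖ₑ) * (volume (ball (0 : E d) ε))⁻¹ := fun y => by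
    rw [Real.enorm_eq_ofReal (show 0 ≤ av g y ε from
      div_nonneg (integral_nonneg h0) ENNReal.toReal_nonneg), Fi.av_eq hg h0 _ hε, sh (fun z => ‖g z‖ₑ), zero_add, Measure.addHaar_ball_center,
      div_eq_mul_inv]
  simp only [e1]
  rw [lintegral_mul_const' _ _ (ENNReal.inv_ne_top.2 (measure_ball_pos _ _ hε).ne'),
    lintegral_lintegral_swap (Measurable.aemeasurable (by fun_prop)), div_eq_mul_inv]
  congr 1
  refine lintegral_congr fun v => ?_
  simp only [add_comm v]
  exact sh (fun z => ‖g z‖ₑ) x v r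

lemma upper {g : E d → ℝ} (hm : Measurable g) (hg : Integrable g) (h0 : ∀ x, 0 ≤ g x) (x : E d)
    {ε : ℝ} (hε : 0 < ε) : Mc (fun y => av g y ε) x ≤
      (∫⁻ v in ball (0 : E d) ε, Mc g (x + v)) / volume (ball (0 : E d) ε) := by
  refine iSup₂_le fun r hr => ?_
  have p1 := (measure_ball_pos volume x hr).ne'
  rw [ENNReal.div_le_iff p1 measure_ball_lt_top.ne, swap hm hg h0 x r hε,
    ENNReal.div_eq_inv_mul, ENNReal.div_eq_inv_mul, mul_assoc,
    ← lintegral_mul_const' _ _ measure_ball_lt_top.ne]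
  refine mul_le_mul' le_rfl (lintegral_mono fun v => ?_)
  have := le_mc g (x + v) hr
  rwa [ENNReal.div_le_iff (measure_ball_pos volume _ hr).ne' measure_ball_lt_top.ne,
    Measure.addHaar_ball_center _ (x + v), ← Measure.addHaar_ball_center _ x] at this

lemma lower {g : E d → ℝ} (hm : Measurable g) (hg : Integrable g) (h0 : ∀ x, 0 ≤ g x) (x : E d)
    {r ε : ℝ} (hr : 0 < r) (hε : 0 < ε) :
    (∫⁻ y in ball x r, ‖g y‖ₑ) / volume (ball x (r + ε)) ≤ Mc (fun y => av g y ε) x := by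
  refine le_trans (ENNReal.div_le_div_right ?_ _) (le_mc _ x (add_pos hr hε))
  rw [swap hm hg h0 x _ hε, ENNReal.le_div_iff_mul_le
    (Or.inl (measure_ball_pos volume _ hε).ne') (Or.inl measure_ball_lt_top.ne),
    ← setLIntegral_const]
  refine setLIntegral_mono' measurableSet_ball fun v hv => lintegral_mono_set (ball_subset_ball' ?_)
  rw [dist_self_add_right]
  linarith [mem_ball_zero_iff.1 hv]

lemma low_lim {g : E d → ℝ} (hm : Measurable g) (hg : Integrable g) (h0 : ∀ x, 0 ≤ g x)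
    (x : E d) : Mc g x ≤ liminf (fun n => Mc (gn g n) x) atTop := by
  refine iSup₂_le fun r hr => ?_
  have e1 : ∀ s : ℝ, 0 < s → volume (ball x s) = ENNReal.ofReal (s ^ d) * volume (ball (0 : E d) 1) :=
    fun s hs => by rw [Measure.addHaar_ball_of_pos _ _ hs, finrank_euclideanSpace_fin]
  have t0 : Tendsto (fun n : ℕ => r + 1 / ((n : ℝ) + 1)) atTop (𝓝 r) := by
    simpa using (tendsto_one_div_add_atTop_nhds_zero_nat (𝕜 := ℝ)).const_add r
  have t1 : Tendsto (fun n : ℕ => volume (ball x (r + 1 / ((n : ℝ) + 1)))) atTop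
      (𝓝 (volume (ball x r))) := by
    rw [e1 r hr]
    refine (ENNReal.Tendsto.mul_const ((ENNReal.continuous_ofReal.tendsto _).comp (t0.pow d))
      (Or.inr measure_ball_lt_top.ne)).congr fun n => ?_
    rw [e1 _ (by positivity)]
    rfl
  have t2 := ENNReal.Tendsto.const_div (a := ∫⁻ y in ball x r, ‖g y‖ₑ) t1
    (Or.inl measure_ball_lt_top.ne)
  rw [← t2.liminf_eq]
  exact liminf_le_liminf (Eventually.of_forall fun n => lower hm hg h0 x hr (by positivity))

lemma up_int {M N ψ Ψ : E d → ℝ≥0∞} (hM : Measurable M) (hψ : Measurable ψ) {ε : ℝ} (hε : 0 < ε)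
    (hN : ∀ x, N x ≤ (∫⁻ v in ball (0 : E d) ε, M (x + v)) / volume (ball (0 : E d) ε))
    (h : ∀ x, ∀ v ∈ ball (0 : E d) ε, ψ x ≤ Ψ (x + v)) :
    ∫⁻ x, N x * ψ x ≤ ∫⁻ x, M x * Ψ x := by
  have p1 := (measure_ball_pos volume (0 : E d) hε).ne'
  calc ∫⁻ x, N x * ψ x
      ≤ ∫⁻ x, (∫⁻ v in ball (0 : E d) ε, M (x + v) * ψ x) * (volume (ball (0 : E d) ε))⁻¹ := by
        refine lintegral_mono fun x => (mul_le_mul' (hN x) le_rfl).trans (le_of_eq ?_)
        rw [lintegral_mul_const _ (by fun_prop), div_eq_mul_inv, mul_right_comm]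
    _ = (∫⁻ v in ball (0 : E d) ε, ∫⁻ x, M (x + v) * ψ x) * (volume (ball (0 : E d) ε))⁻¹ := by
        rw [lintegral_mul_const' _ _ (ENNReal.inv_ne_top.2 p1),
          lintegral_lintegral_swap (Measurable.aemeasurable (by fun_prop))]
    _ ≤ (∫⁻ _ in ball (0 : E d) ε, ∫⁻ x, M x * Ψ x) * (volume (ball (0 : E d) ε))⁻¹ := by
        refine mul_le_mul' (setLIntegral_mono' measurableSet_ball fun v hv => ?_) le_rfl
        rw [← lintegral_add_right_eq_self (fun x => M x * Ψ x) v]
        exact lintegral_mono fun x => mul_le_mul' le_rfl (h x v hv)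
    _ = _ := by
        rw [setLIntegral_const, mul_assoc, ENNReal.mul_inv_cancel p1 measure_ball_lt_top.ne, mul_one]

lemma pos_case {g : E d → ℝ} (hm : Measurable g) (hg : Integrable g) (h0 : ∀ x, 0 ≤ g x)
    (hJ : ∀ K, IsCompact K → ∫⁻ x in K, Mc g x ≠ ∞)
    (hn : ∀ n, Integrable (gn g n) ∧ ∀ x, 0 ≤ gn g n x) {ψ : E d → ℝ} (hc : Continuous ψ)
    (hs : HasCompactSupport ψ) :
    Tendsto (fun n => ∫⁻ x, Mc (gn g n) x * ENNReal.ofReal (ψ x)) atTop
      (𝓝 (∫⁻ x, Mc g x * ENNReal.ofReal (ψ x))) := by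
  have mM := mc_meas hg h0
  have mψ : Measurable fun x => ENNReal.ofReal (ψ x) := hc.measurable.ennreal_ofReal
  refine tendsto_of_le_liminf_of_limsup_le ?_ ?_
  · refine le_trans (lintegral_mono fun x => ?_)
      (lintegral_liminf_le fun n => (mc_meas (hn n).1 (hn n).2).mul mψ)
    refine (mul_le_mul' (low_lim hm hg h0 x) le_rfl).trans (le_of_eq ?_)
    simp only [mul_comm _ (ENNReal.ofReal (ψ x))]
    exact (ENNReal.liminf_const_mul_of_ne_top ENNReal.ofReal_ne_top).symm
  · set K := cthickening 1 (tsupport ψ)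
    have hK : IsCompact K := hs.isCompact.cthickening
    refine ENNReal.le_of_forall_pos_le_add fun ε hε _ => ?_
    obtain ⟨η, hη, h1⟩ := ENNReal.exists_nnreal_pos_mul_lt (hJ K hK) (b := ε) (by simpa using hε.ne')
    obtain ⟨δ, hδ, h2⟩ := Metric.uniformContinuous_iff.1
      (hc.uniformContinuous_of_tendsto_cocompact hs.is_zero_at_infty) η hη
    refine limsup_le_of_le (h := ?_)
    filter_upwards [(tendsto_one_div_add_atTop_nhds_zero_nat (𝕜 := ℝ)).eventually (gt_mem_nhds hδ)]
      with n hn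
    have hε' : (0 : ℝ) < 1 / ((n : ℝ) + 1) := by positivity
    refine (up_int (Ψ := fun y => ENNReal.ofReal (ψ y) + K.indicator (fun _ => (η : ℝ≥0∞)) y) mM mψ
      hε' (fun x => upper hm hg h0 x hε') fun x v hv => ?_).trans ?_
    · by_cases hx : x ∈ tsupport ψ
      · have h3 : ‖v‖ < 1 / ((n : ℝ) + 1) := mem_ball_zero_iff.1 hv
        have h4 : 1 / ((n : ℝ) + 1) ≤ 1 := by
          rw [div_le_one (by positivity)]
          linarith [n.cast_nonneg (α := ℝ)]
        have h5 : x + v ∈ K := mem_cthickening_of_dist_le _ x _ _ hx (by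
          rw [dist_self_add_left]; linarith)
        have h6 := h2 (a := x) (b := x + v) (by rw [dist_self_add_right]; linarith)
        rw [indicator_of_mem h5, ← ENNReal.ofReal_coe_nnreal]
        refine le_trans (ENNReal.ofReal_le_ofReal ?_) ENNReal.ofReal_add_le
        linarith [(abs_lt.1 (Real.dist_eq _ _ ▸ h6)).2]
      · simp [image_eq_zero_of_notMem_tsupport hx]
    · simp only [mul_add]
      rw [lintegral_add_left (f := fun x => Mc g x * ENNReal.ofReal (ψ x)) (mM.mul mψ)]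
      refine add_le_add le_rfl (le_trans (le_of_eq ?_) h1.le)
      rw [← lintegral_const_mul _ mM, ← lintegral_indicator hK.measurableSet]
      refine lintegral_congr fun x => ?_
      by_cases hx : x ∈ K <;> simp [hx, mul_comm]

end Cv

open Cv in
theorem convStmt (_hd : 2 ≤ d) (hM : MStmt d) : ConvStmt d := by
  intro g hm hg h0 hf hl hn ψ hc hs
  have mM := mc_meas hg h0
  have hJ : ∀ K, IsCompact K → ∫⁻ x in K, Mc g x ≠ ∞ := fun K hK => by
    refine ne_top_of_le_ne_top (hl.integrableOn_isCompact hK).2.ne (lintegral_mono_ae ?_)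
    filter_upwards [ae_restrict_of_ae hf] with x hx
    rw [Real.enorm_eq_ofReal ENNReal.toReal_nonneg, ENNReal.ofReal_toReal hx.ne]
  have m1 : ∀ n, Continuous (mc (gn g n)) ∧ ∀ x, 0 ≤ mc (gn g n) x ∧
      ENNReal.ofReal (mc (gn g n) x) = Mc (gn g n) x := fun n => by
    obtain ⟨⟨K, hK⟩, h1, h2⟩ := hn n
    obtain ⟨a, -, b, -, c⟩ := hM _ K hK h1 h2
    exact ⟨a.continuous, fun x => ⟨(h2 x).trans (b x), c x⟩⟩
  have iU : ∀ φ : E d → ℝ, Continuous φ → HasCompactSupport φ →
      Integrable fun x => (Mc g x).toReal * φ x := fun φ a b =>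
    hl.integrable_smul_right_of_hasCompactSupport a b
  have iN : ∀ n, ∀ φ : E d → ℝ, Continuous φ → HasCompactSupport φ →
      Integrable fun x => mc (gn g n) x * φ x := fun n φ a b =>
    (m1 n).1.locallyIntegrable.integrable_smul_right_of_hasCompactSupport a b
  have key : ∀ φ : E d → ℝ, Continuous φ → HasCompactSupport φ → (∀ x, 0 ≤ φ x) →
      Tendsto (fun n => ∫ x, mc (gn g n) x * φ x) atTop (𝓝 (∫ x, (Mc g x).toReal * φ x)) := by
    intro φ a b c
    have e1 : ∫⁻ x, Mc g x * ENNReal.ofReal (φ x) =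
        ENNReal.ofReal (∫ x, (Mc g x).toReal * φ x) := by
      rw [ofReal_integral_eq_lintegral_ofReal (iU φ a b)
        (Eventually.of_forall fun x => mul_nonneg ENNReal.toReal_nonneg (c x))]
      refine lintegral_congr_ae ?_
      filter_upwards [hf] with x hx
      rw [ENNReal.ofReal_mul ENNReal.toReal_nonneg, ENNReal.ofReal_toReal hx.ne]
    have e2 : ∀ n, ∫⁻ x, Mc (gn g n) x * ENNReal.ofReal (φ x) =
        ENNReal.ofReal (∫ x, mc (gn g n) x * φ x) := fun n => by
      rw [ofReal_integral_eq_lintegral_ofReal (iN n φ a b)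
        (Eventually.of_forall fun x => mul_nonneg ((m1 n).2 x).1 (c x))]
      refine lintegral_congr fun x => ?_
      rw [ENNReal.ofReal_mul ((m1 n).2 x).1, ((m1 n).2 x).2]
    have t := pos_case hm hg h0 hJ (fun n => (hn n).2) a b
    simp only [e1, e2] at t
    have t2 := (ENNReal.tendsto_toReal ENNReal.ofReal_ne_top).comp t
    rw [ENNReal.toReal_ofReal (integral_nonneg fun x => mul_nonneg ENNReal.toReal_nonneg (c x))] at t2
    refine t2.congr fun n => ?_
    exact ENNReal.toReal_ofReal (integral_nonneg fun x => mul_nonneg ((m1 n).2 x).1 (c x))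
  have c1 : Continuous fun x => max (ψ x) 0 := hc.max continuous_const
  have c2 : Continuous fun x => max (-ψ x) 0 := hc.neg.max continuous_const
  have s1 : HasCompactSupport fun x => max (ψ x) 0 :=
    hs.comp_left (g := fun t : ℝ => max t 0) (by simp)
  have s2 : HasCompactSupport fun x => max (-ψ x) 0 :=
    hs.comp_left (g := fun t : ℝ => max (-t) 0) (by simp)
  have t := (key _ c1 s1 fun x => le_max_right _ _).sub (key _ c2 s2 fun x => le_max_right _ _)
  rw [← integral_sub (iU _ c1 s1) (iU _ c2 s2)] at t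
  simp only [← integral_sub (iN _ _ c1 s1) (iN _ _ c2 s2), ← mul_sub,
    max_zero_sub_max_neg_zero_eq_self] at t
  exact t

end Vale.Agent.P137
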