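import Mathlib

open MeasureTheory Metric
open scoped ENNReal ContDiff

namespace Vale.Agent.P137

/-- `G` is a weak (distributional) gradient of `f` on `ℝ^d`. -/
def WGrad {d : ℕ} (f : EuclideanSpace ℝ (Fin d) → ℝ)
    (G : EuclideanSpace ℝ (Fin d) → EuclideanSpace ℝ (Fin d)) : Prop :=
  ∀ φ : EuclideanSpace ℝ (Fin d) → ℝ, ContDiff ℝ ∞ φ → HasCompactSupport φ →
    ∀ v : EuclideanSpace ℝ (Fin d),
      ∫ x, f x * fderiv ℝ φ x v = - ∫ x, inner ℝ (G x) v * φ x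

/-- The uncentered Hardy-Littlewood maximal function over open Euclidean balls. -/
noncomputable def Mu {d : ℕ} (f : EuclideanSpace ℝ (Fin d) → ℝ)
    (x : EuclideanSpace ℝ (Fin d)) : ℝ≥0∞ :=
  ⨆ (c : EuclideanSpace ℝ (Fin d)) (r : ℝ) (_ : x ∈ ball c r),
    (∫⁻ y in ball c r, ‖f y‖ₑ) / volume (ball c r)

end Vale.Agent.P137
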