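import Vale.Agent.P137.Defs

open MeasureTheory Metric
open scoped ENNReal

namespace Vale.Agent.P137

/-- The centered Hardy-Littlewood maximal function over open Euclidean balls. -/
noncomputable def Mc {d : ℕ} (f : EuclideanSpace ℝ (Fin d) → ℝ)
    (x : EuclideanSpace ℝ (Fin d)) : ℝ≥0∞ :=
  ⨆ (r : ℝ) (_ : 0 < r), (∫⁻ y in ball x r, ‖f y‖ₑ) / volume (ball x r)

end Vale.Agent.P137
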