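import Vale.Agent.P137.Disc3

open MeasureTheory Metric Set Filter
open scoped ENNReal NNReal RealInnerProductSpace Topology

namespace Vale.Agent.P137

variable {d : ℕ}

namespace Di

lemma pinZ {CI : ℝ} (hCI : 0 < CI) {o : E d → ℝ} {μ α δ a1 a2 : ℝ} {ν1 ν2 : E d} (hμ : 0 ≤ μ)
    (hα : 0 < α) (HI : ∀ (a : ℝ) (ν : E d), (‖ν‖ = 1 ∨ ν = 0) →
      ∃ Z : E d → ℝ, Maj Z (CI * (2 * α) * μ) ∧ ∀ x ∈ ball (0 : E d) (1 / 10), ∀ r ∈ Icc (1 : ℝ) 2,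
      ∀ δ : ℝ, δ ≤ 1 / 2 → |r - (⟪x, ν⟫ - a)| + δ ≤ (2 * α) ^ 4 → ∫ y in ann x r δ, o y ≤ Z x)
    (h1 : ‖ν1‖ = 1 ∨ ν1 = 0) (h2 : ‖ν2‖ = 1 ∨ ν2 = 0) (hδ : δ ≤ 1 / 2) (hδ1 : δ ≤ α ^ 4) :
    ∃ Z : E d → ℝ, Maj Z (8 * CI * α * μ) ∧ ∀ x ∈ ball (0 : E d) (1 / 10), ∀ r ∈ Icc (1 : ℝ) 2,
      (|r - 1| ≤ 3 * α ^ 4 ∨ |r - 2| ≤ 3 * α ^ 4 ∨ |r - (⟪x, ν1⟫ - a1)| ≤ 3 * α ^ 4 ∨
        |r - (⟪x, ν2⟫ - a2)| ≤ 3 * α ^ 4) → ∫ y in ann x r δ, o y ≤ Z x := by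
  obtain ⟨Z1, b1, c1⟩ := HI (-1) 0 (Or.inr rfl)
  obtain ⟨Z2, b2, c2⟩ := HI (-2) 0 (Or.inr rfl)
  obtain ⟨Z3, b3, c3⟩ := HI a1 ν1 h1
  obtain ⟨Z4, b4, c4⟩ := HI a2 ν2 h2
  have p : 0 ≤ CI * (2 * α) * μ := by positivity
  refine ⟨fun x => Z1 x + Z2 x + Z3 x + Z4 x, maj_mono (maj_add (maj_add (maj_add b1 b2 p p) b3
    (by positivity) p) b4 (by positivity) p) (le_of_eq (by ring)), fun x hx r hr H => ?_⟩
  have e : (2 * α) ^ 4 = 16 * α ^ 4 := by ring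
  have q : 0 < α ^ 4 := by positivity
  have n1 := b1.2.1 x
  have n2 := b2.2.1 x
  have n3 := b3.2.1 x
  have n4 := b4.2.1 x
  rcases H with H | H | H | H
  · linarith [c1 x hx r hr δ hδ (by rw [inner_zero_right, zero_sub, neg_neg]; linarith)]
  · linarith [c2 x hx r hr δ hδ (by rw [inner_zero_right, zero_sub, neg_neg]; linarith)]
  · linarith [c3 x hx r hr δ hδ (by linarith)]
  · linarith [c4 x hx r hr δ hδ (by linarith)]

lemma sum_le {f g : ℕ → ℝ} {X S : ℝ} {M : ℕ} (hX : 0 ≤ X) (h : ∀ m, f m ≤ X * g m)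
    (hS : ∑ m ∈ Finset.range M, g m ≤ S) : ∑ m ∈ Finset.range M, f m ≤ X * S :=
  (Finset.sum_le_sum fun m _ => h m).trans
    (by rw [← Finset.mul_sum]; exact mul_le_mul_of_nonneg_left hS hX)

lemma par {c c2 CL η0 α ψ : ℝ} (hc : 0 < c) (hc1 : c ≤ 1) (hc2 : 0 < c2) (hCL : 0 < CL)
    (hη : η0 ≤ 1 / 100) (hα : 0 < α) (hα1 : α ≤ η0)
    (h : ψ ^ 4 ≤ min (c / 20) (c2 / CL) * (α ^ 4) ^ (d + 1)) :
    α ^ 4 ≤ η0 ∧ ψ ^ 4 ≤ c * α ^ 4 / 20 ∧ 4 * ψ ^ 4 ≤ α ^ 4 ∧ CL * ψ ^ 4 ≤ c2 * (α ^ 4) ^ d ∧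
      c * α ^ 4 / 20 ≤ 1 := by
  have a0 : 0 < α ^ 4 := by positivity
  have a1 : α ^ 4 ≤ α := pow_le_of_le_one hα.le (by linarith) (by norm_num)
  have a2 : (α ^ 4) ^ (d + 1) ≤ α ^ 4 := pow_le_of_le_one a0.le (by linarith) (by omega)
  have a3 : (α ^ 4) ^ (d + 1) ≤ (α ^ 4) ^ d := pow_le_pow_of_le_one a0.le (by linarith) (by omega)
  have a4 : ψ ^ 4 ≤ c / 20 * α ^ 4 := h.trans (mul_le_mul (min_le_left _ _) a2 (by positivity)
    (by positivity))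
  have a5 : ψ ^ 4 ≤ c2 / CL * (α ^ 4) ^ d := h.trans (mul_le_mul (min_le_right _ _) a3
    (by positivity) (by positivity))
  have a6 : c * α ^ 4 ≤ α ^ 4 := mul_le_of_le_one_left a0.le hc1
  refine ⟨by linarith, by linarith, by linarith, ?_, by linarith⟩
  rwa [div_mul_eq_mul_div, le_div_iff₀ hCL, mul_comm] at a5

lemma majZ {c c' CA CC CL CK CI ϑ T C0 B S N : ℝ} {m0 M : ℕ} {α ψ ω w ς nn : ℕ → ℝ}
    {ZC ZP : ℕ → E d → ℝ} (hc : 0 < c) (hc' : 0 < c') (hCA : 0 < CA) (hCC : 0 < CC) (hCL : 0 < CL)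
    (hCK : 0 < CK) (hCI : 0 < CI) (h0 : 0 < ϑ) (h1 : ϑ < 1) (hT : 0 ≤ T) (C01 : 1 ≤ C0)
    (B0 : 0 ≤ B) (S0 : 0 ≤ S) (hN : N = C0 * (T + 1)) (hα : ∀ m, 0 < α m) (hψ : ∀ m, 0 < ψ m)
    (hω : ∀ m, 0 < ω m) (hw : ∀ m, 0 < w m) (hςd : ς = fun m => c * α m ^ 4 / 20)
    (hnn : ∀ m, nn m = 16 * (2 / (1 - ϑ) * (N / ϑ ^ m)) /
      (ς m ^ 3 * ϑ ^ m * (c' * (α m ^ 4) ^ (d + 1)))) (hn16 : ∀ m, 16 ≤ nn m)
    (hS : ∑ m ∈ Finset.range M, α m / ϑ ^ m ≤ S ∧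
      ∑ m ∈ Finset.range M, ψ m / ((ϑ ^ m) ^ 2 * (α m ^ 4) ^ (d + 4)) ≤ S ∧
      ∑ m ∈ Finset.range M, ω m * (1 / (ψ m ^ 4) ^ 3 + 1 / ϑ ^ m) ≤ S)
    (hZC : ∀ m < M, Maj (ZC m) (CC * ω m *
      (CL * (8 * w (m + 1)) * ((T + 1) / (ψ m ^ 4) ^ 3 + (T + 1) / ϑ ^ (m + m0)))))
    (hZP : ∀ m < M, Maj (ZP m) (8 * CI * α m * (w (m + 1) / CK * (N / ϑ ^ m)))) :
    Maj (fun x => ∑ m ∈ Finset.range M, (CA * ψ m * nn m + CA / w (m + 1) * ZC m x) +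
      B * (1 + CK / w 0 * (CL * T / (1 - ϑ)) + ∑ m ∈ Finset.range M, CK / w (m + 1) * ZP m x))
      ((4 + (CA * (32 / (1 - ϑ) * C0 / ((c / 20) ^ 3 * c')) * v0 d + 8 * CA * CC * CL / ϑ ^ m0) * S +
        B * ((1 + CK / w 0 * (CL / (1 - ϑ))) * v0 d + 8 * CI * C0 * S)) * (T + 1)) := by
  have h2 : 0 < 1 - ϑ := by linarith
  have v := v0_nonneg (d := d)
  have w0 := hw 0
  have N0 : 0 ≤ N := by rw [hN]; positivity
  have p1 : ∀ m, 0 ≤ CA * ψ m * nn m := fun m => by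
    have := hψ m; have := hn16 m; positivity
  have p2 : ∀ m, 0 ≤ CA / w (m + 1) * (CC * ω m *
      (CL * (8 * w (m + 1)) * ((T + 1) / (ψ m ^ 4) ^ 3 + (T + 1) / ϑ ^ (m + m0)))) := fun m => by
    have := hψ m; have := hw (m + 1); have := hω m; positivity
  have p3 : ∀ m, 0 ≤ CK / w (m + 1) * (8 * CI * α m * (w (m + 1) / CK * (N / ϑ ^ m))) :=
    fun m => by have := hα m; have := hw (m + 1); positivity
  have s1 := sum_le (f := fun m => CA * ψ m * nn m * v0 d)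
    (X := CA * (32 / (1 - ϑ) * C0 / ((c / 20) ^ 3 * c')) * v0 d * (T + 1)) (by positivity)
    (fun m => le_of_eq (by
      have := hα m
      rw [hnn, hςd, hN]; field_simp; ring)) hS.2.1
  have s2 := sum_le (f := fun m => CA / w (m + 1) * (CC * ω m *
      (CL * (8 * w (m + 1)) * ((T + 1) / (ψ m ^ 4) ^ 3 + (T + 1) / ϑ ^ (m + m0)))))
    (X := 8 * CA * CC * CL / ϑ ^ m0 * (T + 1)) (by positivity) (fun m => by
      have := hψ m; have := hw (m + 1); have := hω m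
      calc _ = 8 * CA * CC * CL / ϑ ^ m0 * (T + 1) *
            (ω m * (ϑ ^ m0 / (ψ m ^ 4) ^ 3 + 1 / ϑ ^ m)) := by rw [pow_add]; field_simp
        _ ≤ _ := by gcongr; exact pow_le_one₀ h0.le h1.le) hS.2.2
  have s3 := sum_le (f := fun m => CK / w (m + 1) * (8 * CI * α m * (w (m + 1) / CK * (N / ϑ ^ m))))
    (X := 8 * CI * C0 * (T + 1)) (by positivity) (fun m => le_of_eq (by
      have := hw (m + 1)
      rw [hN]; field_simp)) hS.1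
  refine maj_mono (maj_add (maj_sum M (fun m hm => maj_add (maj_const (p1 m))
    (maj_mul (hZC m hm) (by have := hw (m + 1); positivity)) (mul_nonneg (p1 m) v) (p2 m))
    fun m => add_nonneg (mul_nonneg (p1 m) v) (p2 m)) (maj_mul (maj_add (maj_const (by positivity))
    (maj_sum M (fun m hm => maj_mul (hZP m hm) (by have := hw (m + 1); positivity)) p3)
    (by positivity) (Finset.sum_nonneg fun m _ => p3 m)) B0)
    (Finset.sum_nonneg fun m _ => add_nonneg (mul_nonneg (p1 m) v) (p2 m))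
    (mul_nonneg B0 (add_nonneg (by positivity) (Finset.sum_nonneg fun m _ => p3 m)))) ?_
  rw [Finset.sum_add_distrib]
  have s4 : (1 + CK / w 0 * (CL * T / (1 - ϑ))) * v0 d ≤
      (1 + CK / w 0 * (CL / (1 - ϑ))) * v0 d * (T + 1) := by
    have : 0 ≤ CK / w 0 * (CL / (1 - ϑ)) := by positivity
    rw [mul_right_comm, mul_div_right_comm, ← mul_assoc]
    gcongr
    nlinarith
  have s5 := mul_le_mul_of_nonneg_left (add_le_add s4 s3) B0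
  nlinarith [s1, s2, s5]

end Di

open Di in
theorem discStmt (hL : LevStmt d) (hK : KStmt d) (hA : AbStmt d) (hR : RefStmt d) (hO : OrdStmt d)
    (hP : ParStmt d) (hC : CSStmt d) (hI : PinIntStmt d) : DiscStmt d := by
  intro c ρ ε hc hc1 hρ hε
  obtain ⟨η0, c', hη0, hη1, hc', hc'1, HR⟩ := hR c hc hc1
  obtain ⟨CK, hCK, HK⟩ := hK
  obtain ⟨CA, hCA, HA⟩ := hA
  obtain ⟨c2, hc2, HO⟩ := hO
  obtain ⟨ϑ, h0, h1, HP⟩ := hP
  obtain ⟨CC, hCC, HC⟩ := hC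
  obtain ⟨CI, hCI, HI⟩ := hI
  obtain ⟨L, CL, hL10, hCL, HL⟩ := hL ρ ε hρ hε
  have hL0 : 0 < L := by linarith
  have h2 : 0 < 1 - ϑ := by linarith
  obtain ⟨m0, α, ψ, ω, S, αa, ψa, hpar, hS⟩ := HP η0 (min (c / 20) (c2 / CL)) L hη0
    (by positivity) hL0
  have S0 : 0 ≤ S := by simpa using (hS 0).1
  have hα : ∀ m, 0 < α m := fun m => (hpar m).1
  have hψ : ∀ m, 0 < ψ m := fun m => (hpar m).2.1
  have hω : ∀ m, 0 < ω m := fun m => (hpar m).2.2.1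
  have pr := fun m => par (d := d) hc hc1 hc2 hCL hη1 (hα m) (hpar m).2.2.2.1 (hpar m).2.2.2.2.2.1
  obtain ⟨w, hwd⟩ : ∃ w : ℕ → ℝ, w = fun m => L / 2 ^ (m0 + 3) / 2 ^ m := ⟨_, rfl⟩
  have hw : ∀ m, 0 < w m := fun m => by rw [hwd]; positivity
  have hw2 : ∀ m, 2 * w (m + 1) = w m := fun m => by rw [hwd]; simp only [pow_succ]; field_simp
  have hw8 : ∀ m, 8 * w (m + 1) = L / 2 ^ (m + m0 + 1) := fun m => by
    rw [hwd]; simp only [pow_succ, pow_add]; field_simp; norm_num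
  have hwψ : ∀ m, 400 * w m ≤ ψ m ^ 4 := fun m => by
    linarith [hw2 m, hw8 m, (hpar m).2.2.2.2.2.2.1]
  have hw1 : ∀ m, w m ≤ 1 / 100 := fun m => by linarith [hwψ m, (pr m).2.1, (pr m).2.2.2.2]
  obtain ⟨ς, hςd⟩ : ∃ ς : ℕ → ℝ, ς = fun m => c * α m ^ 4 / 20 := ⟨_, rfl⟩
  have hς : ∀ m, 0 < ς m := fun m => by rw [hςd]; have := hα m; positivity
  have hς1 : ∀ m, ς m ≤ 1 := fun m => by rw [hςd]; exact (pr m).2.2.2.2
  have hψς : ∀ m, ψ m ^ 4 ≤ ς m := fun m => by rw [hςd]; exact (pr m).2.1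
  obtain ⟨C0, hC0⟩ : ∃ C0, C0 = 1 + 16 * CK * CL / (ϑ ^ m0 * (1 - ϑ)) := ⟨_, rfl⟩
  have C01 : 1 ≤ C0 := by rw [hC0]; exact le_add_of_nonneg_right (by positivity)
  obtain ⟨B, hB⟩ : ∃ B, B = 2 / (ς 0 ^ 3 * ϑ ^ 0) := ⟨_, rfl⟩
  have B0 : 0 ≤ B := by rw [hB]; have := hς 0; positivity
  have v := v0_nonneg (d := d)
  have w0 := hw 0
  refine ⟨ϑ, L, 4 + (CA * (32 / (1 - ϑ) * C0 / ((c / 20) ^ 3 * c')) * v0 d + 8 * CA * CC * CL / ϑ ^ m0) * S +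
    B * ((1 + CK / w 0 * (CL / (1 - ϑ))) * v0 d + 8 * CI * C0 * S), L / 2 ^ (m0 + 3), h0, h1, hL0,
    by positivity, by positivity, by simpa [hwd] using hw1 0, ?_⟩
  intro M n F ξ T hF Fa hξ hT hTS hcone
  set C := 4 + (CA * (32 / (1 - ϑ) * C0 / ((c / 20) ^ 3 * c')) * v0 d + 8 * CA * CC * CL / ϑ ^ m0) * S +
    B * ((1 + CK / w 0 * (CL / (1 - ϑ))) * v0 d + 8 * CI * C0 * S) with hCd
  have C4 : 4 ≤ C := by rw [hCd, add_assoc]; exact le_add_of_nonneg_right (by positivity)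
  obtain ⟨ν, h, σF, hν, Hf⟩ := fam hCL hL0 h0 (HL ϑ h0 h1.le) hF hT
    (σ0 := ψ M ^ 4) (by have := hψ M; positivity) hTS hξ
  have hσM : ∀ m ≤ M, ψ M ^ 4 ≤ ψ m ^ 4 := fun m hm => pow_le_pow_left₀ (hψ _).le (ψa hm) 4
  have Hσ := fun m hm => Hf (ψ m ^ 4) (hσM m hm) ((hψς m).trans (hς1 m))
  have Hς := fun m hm => Hf (ς m) ((hσM m hm).trans (hψς m)) (hς1 m)
  have hW1 : ∀ m, L / 2 ^ (m + m0 + 1) ≤ 1 := fun m => by linarith [hw8 m, hw1 (m + 1)]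
  obtain ⟨N, hN⟩ : ∃ N, N = C0 * (T + 1) := ⟨_, rfl⟩
  have N1 : 1 ≤ N := by rw [hN]; nlinarith
  obtain ⟨nn, hnn⟩ : ∃ nn : ℕ → ℝ, ∀ m, nn m = 16 * (2 / (1 - ϑ) * (N / ϑ ^ m)) /
    (ς m ^ 3 * ϑ ^ m * (c' * (α m ^ 4) ^ (d + 1))) := ⟨_, fun _ => rfl⟩
  have hnm : ∀ m, nn m ≤ nn (m + 1) := fun m => by
    have a1 : ϑ ^ (m + 1) ≤ ϑ ^ m := pow_le_pow_of_le_one h0.le h1.le (by omega)
    have a2 := αa (Nat.le_succ m)
    have a3 := hα (m + 1)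
    have a4 := hα m
    rw [hnn, hnn, hςd]
    dsimp only
    gcongr
  have hn16 : ∀ m, 16 ≤ nn m := fun m => by
    have a3 := hα m
    have a4 := hς m
    have a5 : ϑ ^ m ≤ 1 := pow_le_one₀ h0.le h1.le
    have a1 : ς m ^ 3 * ϑ ^ m * (c' * (α m ^ 4) ^ (d + 1)) ≤ 1 :=
      mul_le_one₀ (mul_le_one₀ (pow_le_one₀ a4.le (hς1 m)) (by positivity) a5) (by positivity)
        (mul_le_one₀ hc'1 (by positivity) (pow_le_one₀ (by positivity) (by linarith [(pr m).1])))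
    have a2 : 1 ≤ 2 / (1 - ϑ) * (N / ϑ ^ m) := one_le_mul_of_one_le_of_one_le
      (by rw [le_div_iff₀ h2]; linarith) (by rw [le_div_iff₀ (by positivity)]; linarith)
    rw [hnn, le_div_iff₀ (by positivity)]
    linarith
  have mK : ∀ m, ∫ y in ball (0 : E d) 3, oK F ν h σF n ϑ ς M (8 * w (m + 1)) y ≤
      w (m + 1) / CK * (N / ϑ ^ m) := fun m => by
    have a1 := hw (m + 1)
    refine (oK_mass hF h0 h1 hς hς1 (B := CL * (8 * w (m + 1))) (j := m + m0) (by positivity) hT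
      fun k hk => by rw [hw8]; exact (Hς k hk).2.2 _ (hW1 m)).trans ?_
    calc _ = w (m + 1) / CK * (16 * CK * CL / (ϑ ^ m0 * (1 - ϑ)) * T / ϑ ^ m) := by
          rw [pow_add]; field_simp; ring
      _ ≤ _ := by
          rw [hN]
          gcongr
          · linarith
          · linarith
  have e1 : ∀ m, ∃ Z : E d → ℝ, (∀ x, 0 ≤ Z x) ∧ (m < M → Maj Z (CC * ω m *
      (CL * (8 * w (m + 1)) * ((T + 1) / (ψ m ^ 4) ^ 3 + (T + 1) / ϑ ^ (m + m0)))) ∧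
      ∀ x ∈ ball (0 : E d) (1 / 10), ∀ r ∈ Icc (1 : ℝ) 2, ∃ χ : ℝ, |χ| ≤ 1 ∧
        ∫ y in ann x r (5 * w (m + 1)), oS F ν h σF n (ψ m ^ 4) (8 * w (m + 1)) y *
          |cs ξ (y - x) - χ| ≤ Z x) := fun m => by
    by_cases hm : m < M
    swap
    · exact ⟨0, fun _ => le_rfl, fun k => (hm k).elim⟩
    have a1 := hw (m + 1)
    have a2 := hψ m
    obtain ⟨Z, b1, b2⟩ := HC (oS F ν h σF n (ψ m ^ 4) (8 * w (m + 1)))
      (CL * (8 * w (m + 1)) * ((T + 1) / (ψ m ^ 4) ^ 3 + (T + 1) / ϑ ^ (m + m0))) (ω m)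
      (5 * w (m + 1)) ξ (oS_bm hF (by positivity)) oS_nonneg (by positivity)
      (by rw [hw8]; refine ((Hσ m hm.le).2.2 _ (hW1 m)).trans ?_; gcongr <;> linarith) (hω m)
      (by positivity) (by linarith [hw8 m, (hpar m).2.2.2.2.2.2.2]) (by linarith [hw1 (m + 1)]) hξ
    exact ⟨Z, b1.2.1, fun _ => ⟨b1, b2⟩⟩
  choose ZC hZC0 hZC using e1
  have e2 : ∀ m, ∃ Z : E d → ℝ, (∀ x, 0 ≤ Z x) ∧ (m < M →
      Maj Z (8 * CI * α m * (w (m + 1) / CK * (N / ϑ ^ m))) ∧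
      ∀ x ∈ ball (0 : E d) (1 / 10), ∀ r ∈ Icc (1 : ℝ) 2, (|r - 1| ≤ 3 * α m ^ 4 ∨
        |r - 2| ≤ 3 * α m ^ 4 ∨
        (nn m ≤ nr ν h ((Finset.range n).filter fun i => σF i ≤ ψ m ^ 4) x (r + α m ^ 4) ∧
        nr ν h ((Finset.range n).filter fun i => σF i ≤ ψ m ^ 4) x (r - 2 * α m ^ 4) ≤ nn m / 16)) →
        ∫ y in ann x r (5 * w (m + 1)), oK F ν h σF n ϑ ς M (8 * w (m + 1)) y ≤ Z x) := fun m => by
    by_cases hm : m < M
    swap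
    · exact ⟨0, fun _ => le_rfl, fun k => (hm k).elim⟩
    have a1 := hw (m + 1)
    have a2 := hα m
    obtain ⟨ν1, ν2, a3, a4, b1, b2, b3⟩ := HO F ν h
      ((Finset.range n).filter fun i => σF i ≤ ψ m ^ 4) (ψ m ^ 4) (α m ^ 4) (nn m) Fa hν
      (by positivity) ((pr m).1.trans hη1) (by linarith [(pr m).2.2.1]) (hn16 m) fun i hi => by
        rw [Finset.mem_filter, Finset.mem_range] at hi
        exact ((Hσ m hm.le).1 i hi.1 hi.2).2.trans (ENNReal.ofReal_le_ofReal (pr m).2.2.2.1)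
    obtain ⟨Z, c1, c2⟩ := pinZ (a1 := a3) (a2 := a4) (δ := 5 * w (m + 1)) hCI (by positivity) a2
      (fun a ν' k => HI _ _ (2 * α m) a ν' (oK_bm hF hς) (oK_nonneg h0 hς) (mK m) (by positivity)
        (by linarith [(hpar m).2.2.2.1]) k) b1 b2 (by linarith [hw1 (m + 1)])
      (by linarith [hwψ m, hw2 m, (pr m).2.2.1])
    exact ⟨Z, c1.2.1, fun _ => ⟨c1, fun x hx r hr k =>
      c2 x hx r hr (k.imp_right fun k => k.imp_right fun k => b3 x hx r hr k.1 k.2)⟩⟩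
  choose ZP hZP0 hZP using e2
  refine ⟨fun x => ∑ m ∈ Finset.range M, (CA * ψ m * nn m + CA / w (m + 1) * ZC m x) +
    B * (1 + CK / w 0 * (CL * T / (1 - ϑ)) + ∑ m ∈ Finset.range M, CK / w (m + 1) * ZP m x), ?_, ?_⟩
  · exact majZ hc hc' hCA hCC hCL hCK hCI h0 h1 hT C01 B0 S0 hN hα hψ hω hw hςd hnn hn16 (hS M)
      (fun m hm => (hZC m hm).1) fun m hm => (hZP m hm).1
  intro γ K hγ hγF x hx r hr hopt
  have hγb : BM γ := by
    obtain ⟨_, b, hb⟩ := cnt_bm hF n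
    exact ⟨hγ.continuous.measurable, 1 + b, fun y => by
      linarith [hγF y, hb y, abs_add_le (γ y - cnt F n y) (cnt F n y), sub_add_cancel (γ y) (cnt F n y),
        congrArg abs (sub_add_cancel (γ y) (cnt F n y))]⟩
  obtain ⟨z, HA1, HA2⟩ := HA γ ξ x r hγb hξ hr hopt
  have key := point (F := F) (ν := ν) (h := h) (σF := σF) (n := n) (M := M) (γ := γ) (K := K)
    (ξ := ξ) (η := fun m => α m ^ 4) (ZC := fun m => ZC m x)
    (P := fun m => CK / w (m + 1) * ZP m x) (κ0 := CK / w 0 * (CL * T / (1 - ϑ))) hF hν h0 h1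
    (by linarith) hc' hCK hCA hς hς1 (fun m => by have := hα m; positivity)
    (fun m => by linarith [(pr m).1]) hψ ψa hw hw2 hwψ hψς (fun m => (pr m).2.2.1) hnn hnm hx hr
    (fun m => hZC0 m x) (fun m => by have := hZP0 m x; have := hw (m + 1); positivity)
    (fun m => (HK x r _ hr (hw _) (hw1 _)).1 _ _ (KK_bm hF hς) (oK_bm hF hς) (oK_nonneg h0 hς)
      fun y y' hy => KK_tri hF h0 hς (by have := hw (m + 1); positivity) hy)
    (((HK x r _ hr (hw 0) (hw1 0)).2.1 _ (KK_bm hF hς) (KK_nonneg h0 hς) hx).trans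
      (mul_le_mul_of_nonneg_left (KK_mass hF h0 h1 hς (by positivity) fun m hm => (Hς m hm).2.1)
        (by positivity)))
    (fun m _ => by
      have := hw (m + 1)
      refine (mul_le_mul_of_nonneg_left ((ann_le (oK_bm hF hς) (oK_nonneg h0 hς) hx hr.2
        (by linarith [hw1 (m + 1)])).trans (mK m)) (by positivity)).trans (le_of_eq ?_)
      field_simp)
    ((HK x r _ hr (hw M) (hw1 M)).2.2 γ K ξ hγ hξ) HA1
    (fun m hm k1 k2 => by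
      obtain ⟨χ, b1, b2⟩ := (hZC m hm).2 x hx r hr
      have := hw (m + 1)
      refine (HA2 n F ν (hh h σF (ψ m ^ 4)) (ψ m) (w (m + 1)) χ hF hν hγF (hψ m)
        (hpar m).2.2.2.2.1 this (by linarith [hw2 m, hwψ m]) b1 k1 k2).trans ?_
      exact add_le_add le_rfl (mul_le_mul_of_nonneg_left b2 (by positivity)))
    (fun m hm s a k1 k2 k3 k4 => HR (α m ^ 4) (ς m) s a x ξ n F ν (hh h σF (ς m)) γ
      (by have := hα m; positivity) (pr m).1 (hς m) (by rw [hςd]) k1 k2 k3 k4 hx hξ hF hν hγb hγF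
      fun i hi k => by
        have b1 : σF i ≤ ς m := hh_flat (b := 0) (a := 5) (by simp) (by norm_num) (by simpa using k)
        rw [hh, if_pos b1] at k
        exact hcone i hi _ _ (hν i) k ((Hς m hm).1 i hi b1).1)
    (fun m hm k => mul_le_mul_of_nonneg_left ((hZP m hm).2 x hx r hr k)
      (by have := hw (m + 1); positivity))
  have e3 : w M = L / 2 ^ (m0 + 3) / 2 ^ M := by rw [hwd]
  rw [← e3]
  rw [← hB] at key
  have e4 : ∑ m ∈ Finset.range M, (4 + CA * ψ m * nn m + CA / w (m + 1) * ZC m x) =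
      M * 4 + ∑ m ∈ Finset.range M, (CA * ψ m * nn m + CA / w (m + 1) * ZC m x) := by
    simp only [add_assoc, Finset.sum_add_distrib, Finset.sum_const, Finset.card_range, nsmul_eq_mul]
  rw [e4] at key
  have b1 : 4 * (K * w M) ≤ C * (K * w M) := by have := hw M; gcongr
  have b2 : 4 * (M + 1 : ℝ) ≤ C * (M + 1) := by gcongr
  linarith

end Vale.Agent.P137
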