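import Vale.Agent.P137.CBase

open MeasureTheory Metric Set Filter
open scoped ENNReal NNReal RealInnerProductSpace Topology

namespace Vale.Agent.P137.Di

variable {d : ℕ}

lemma geo_le {ϑ N : ℝ} (h0 : 0 < ϑ) (h1 : ϑ < 1) (hN : 0 ≤ N) (k : ℕ) :
    ∑ m ∈ Finset.range (k + 1), N / ϑ ^ m ≤ N / ϑ ^ k / (1 - ϑ) := by
  have h2 : 0 < 1 - ϑ := by linarith
  induction k with
  | zero =>
    simp only [zero_add, Finset.range_one, Finset.sum_singleton, pow_zero, div_one]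
    rw [le_div_iff₀ h2]; nlinarith
  | succ k ih =>
    rw [Finset.sum_range_succ]
    refine (add_le_add ih le_rfl).trans (le_of_eq ?_)
    rw [pow_succ]; field_simp; ring

lemma geo_if {ϑ N B : ℝ} (h0 : 0 < ϑ) (h1 : ϑ < 1) (hN : 0 ≤ N) (hB : 0 ≤ B) (k : ℕ) :
    ∑ m ∈ Finset.range k, (if N / ϑ ^ m ≤ B then N / ϑ ^ m else 0) ≤ B / (1 - ϑ) := by
  have h2 : 0 < 1 - ϑ := by linarith
  induction k with
  | zero => simp; positivity
  | succ k ih =>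
    by_cases h : N / ϑ ^ k ≤ B
    · refine le_trans (Finset.sum_le_sum fun m _ => ?_) ((geo_le h0 h1 hN k).trans (by gcongr))
      split_ifs
      · exact le_rfl
      · positivity
    · rw [Finset.sum_range_succ, if_neg h, add_zero]; exact ih

lemma geo_sum {ϑ : ℝ} (h0 : 0 < ϑ) (h1 : ϑ < 1) (k : ℕ) :
    ∑ m ∈ Finset.range k, ϑ ^ m ≤ 1 / (1 - ϑ) := by
  rw [one_div, ← tsum_geometric_of_lt_one h0.le h1]
  exact (summable_geometric_of_lt_one h0.le h1).sum_le_tsum _ fun _ _ => by positivity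

lemma comb {M : ℕ} {ϑ N β ε : ℝ} (h0 : 0 < ϑ) (h1 : ϑ < 1) (hN : 0 ≤ N) (hβ : 0 < β) (hβ1 : β ≤ 1)
    (hε : 0 ≤ ε) {free : ℕ → Prop} (hf : ∀ m, free m → free (m + 1))
    {fI fO z κ e ed P : ℕ → ℝ} (he : ∀ m, 0 ≤ e m) (hP : ∀ m, 0 ≤ P m) (hκ : ∀ m, 0 ≤ κ m)
    (hz : ∀ m < M, free m → min (fI m) (fO m) ≤ z m ∧ z m ≤ z (m + 1) + e m ∧
      z (m + 1) ≤ max (fI (m + 1)) (fO (m + 1)))
    (hend : fO M ≤ fI M + ε) (hk : ∀ m < M, κ (m + 1) ≤ κ m + ed m)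
    (hed : ∀ m < M, ed m ≤ N / ϑ ^ m) (href : ∀ m ≤ M, -min (fI m) (fO m) ≤ 1 + κ m / β)
    (hpin : ∀ m k, m < k → k ≤ M → ¬ free m → min (fI k) (fO k) ≤ 0 →
      1 + κ k ≤ 2 / (1 - ϑ) * (N / ϑ ^ m) → ed m ≤ P m) :
    -fI M ≤ ε + ∑ m ∈ Finset.range M, e m + 2 / β * (1 + κ 0 + ∑ m ∈ Finset.range M, P m) := by
  classical
  have h2 : 0 < 1 - ϑ := by linarith
  have hex : ∃ k, k = M ∨ free k := ⟨M, Or.inl rfl⟩
  set k := Nat.find hex with hk0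
  have kM : k ≤ M := Nat.find_min' hex (Or.inl rfl)
  have a1 : ∀ m < k, ¬ free m := fun m hm h => Nat.find_min hex hm (Or.inr h)
  have sE : 0 ≤ ∑ m ∈ Finset.range M, e m := Finset.sum_nonneg fun m _ => he m
  have sP : 0 ≤ ∑ m ∈ Finset.range M, P m := Finset.sum_nonneg fun m _ => hP m
  have a2 : min (fI k) (fO k) ≤ fI M + ε + ∑ m ∈ Finset.range M, e m := by
    rcases eq_or_lt_of_le kM with h | h
    · rw [h]; linarith [min_le_left (fI M) (fO M)]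
    have fk : free k := (Nat.find_spec hex).resolve_left h.ne
    have b1 : ∀ j, free (k + j) := fun j => by
      induction j with
      | zero => exact fk
      | succ j ih => exact hf _ ih
    have b2 : ∀ j, k + j ≤ M → z k ≤ z (k + j) + ∑ m ∈ Finset.range (k + j), e m := by
      intro j hj
      induction j with
      | zero => simpa using Finset.sum_nonneg fun m _ => he m
      | succ j ih =>
        rw [← add_assoc, Finset.sum_range_succ]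
        linarith [ih (by omega), (hz (k + j) (by omega) (b1 j)).2.1]
    obtain ⟨j, hj⟩ := Nat.exists_eq_add_of_lt h
    have b3 := (hz (k + j) (by omega) (b1 j)).2.2
    have b4 := b2 (j + 1) (by omega)
    rw [← add_assoc, ← hj] at b4
    rw [← hj] at b3
    have b5 : max (fI M) (fO M) ≤ fI M + ε := max_le (by linarith) hend
    linarith [(hz k h fk).1]
  have pos : 0 ≤ 2 / β * (1 + κ 0 + ∑ m ∈ Finset.range M, P m) := by
    have := hκ 0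
    positivity
  rcases lt_or_ge 0 (min (fI k) (fO k)) with h | h
  · linarith
  have a3 : ∀ j ≤ k, κ j ≤ κ 0 + ∑ m ∈ Finset.range j, ed m := by
    intro j hj
    induction j with
    | zero => simp
    | succ j ih => rw [Finset.sum_range_succ]; linarith [ih (by omega), hk j (by omega)]
  set D := 1 + κ k with hD
  have D0 : 0 ≤ D := by have := hκ k; positivity
  have a4 : ∑ m ∈ Finset.range k, ed m ≤ ∑ m ∈ Finset.range k,
      (P m + if N / ϑ ^ m ≤ D * (1 - ϑ) / 2 then N / ϑ ^ m else 0) := by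
    refine Finset.sum_le_sum fun m hm => ?_
    rw [Finset.mem_range] at hm
    split_ifs with hc
    · linarith [hed m (by omega), hP m]
    · rw [add_zero]
      refine hpin m k hm kM (a1 m hm) h ?_
      rw [div_mul_eq_mul_div, le_div_iff₀ h2]
      linarith [not_le.1 hc]
  rw [Finset.sum_add_distrib] at a4
  have a5 := geo_if h0 h1 hN (B := D * (1 - ϑ) / 2) (by positivity) k
  have a6 : D * (1 - ϑ) / 2 / (1 - ϑ) = D / 2 := by field_simp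
  have a7 : ∑ m ∈ Finset.range k, P m ≤ ∑ m ∈ Finset.range M, P m :=
    Finset.sum_le_sum_of_subset_of_nonneg (Finset.range_mono kM) fun m _ _ => hP m
  have a8 : D ≤ 2 * (1 + κ 0 + ∑ m ∈ Finset.range M, P m) := by linarith [a3 k le_rfl]
  have a9 : 1 + κ k / β ≤ D / β := by
    rw [hD, add_div]
    gcongr
    rw [le_div_iff₀ hβ]; linarith
  have a10 : D / β ≤ 2 / β * (1 + κ 0 + ∑ m ∈ Finset.range M, P m) := by
    rw [div_mul_eq_mul_div]; gcongr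
  linarith [href k kM]

noncomputable def v0 (d : ℕ) : ℝ := (volume (ball (0 : E d) (1 / 10))).toReal

lemma v0_nonneg : 0 ≤ v0 d := ENNReal.toReal_nonneg

lemma maj_const {c : ℝ} (hc : 0 ≤ c) : Maj (fun _ : E d => c) (c * v0 d) := by
  refine ⟨measurable_const, fun _ => hc, ?_⟩
  rw [setLIntegral_const, ENNReal.ofReal_mul hc, v0, ENNReal.ofReal_toReal measure_ball_lt_top.ne]

lemma maj_mono {Z : E d → ℝ} {B B' : ℝ} (h : Maj Z B) (hB : B ≤ B') : Maj Z B' :=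
  ⟨h.1, h.2.1, h.2.2.trans (ENNReal.ofReal_le_ofReal hB)⟩

lemma maj_add {Z Z' : E d → ℝ} {B B' : ℝ} (h : Maj Z B) (h' : Maj Z' B') (hB : 0 ≤ B)
    (hB' : 0 ≤ B') : Maj (fun x => Z x + Z' x) (B + B') := by
  refine ⟨h.1.add h'.1, fun x => add_nonneg (h.2.1 x) (h'.2.1 x), ?_⟩
  simp only [ENNReal.ofReal_add (h.2.1 _) (h'.2.1 _)]
  rw [lintegral_add_left h.1.ennreal_ofReal, ENNReal.ofReal_add hB hB']
  exact add_le_add h.2.2 h'.2.2

lemma maj_mul {Z : E d → ℝ} {B c : ℝ} (h : Maj Z B) (hc : 0 ≤ c) :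
    Maj (fun x => c * Z x) (c * B) := by
  refine ⟨h.1.const_mul c, fun x => mul_nonneg hc (h.2.1 x), ?_⟩
  simp only [ENNReal.ofReal_mul hc]
  rw [lintegral_const_mul _ h.1.ennreal_ofReal]
  exact mul_le_mul' le_rfl h.2.2

lemma maj_sum {Z : ℕ → E d → ℝ} {B : ℕ → ℝ} (M : ℕ) (h : ∀ m < M, Maj (Z m) (B m))
    (hB : ∀ m, 0 ≤ B m) :
    Maj (fun x => ∑ m ∈ Finset.range M, Z m x) (∑ m ∈ Finset.range M, B m) := by
  induction M with
  | zero => simpa using maj_const (d := d) le_rfl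
  | succ M ih =>
    simp only [Finset.sum_range_succ]
    exact maj_add (ih fun m hm => h m (by omega)) (h M (by omega))
      (Finset.sum_nonneg fun m _ => hB m) (hB M)

noncomputable def hh (h σF : ℕ → ℝ) (σ : ℝ) (i : ℕ) : ℝ := if σF i ≤ σ then h i else 100

noncomputable def kS (F : ℕ → Set (E d)) (ν : ℕ → E d) (h σF : ℕ → ℝ) (n : ℕ) (σ : ℝ) (y : E d) : ℝ :=
  ∑ i ∈ Finset.range n, kk (F i) (ν i) (hh h σF σ i) σ y

noncomputable def oS (F : ℕ → Set (E d)) (ν : ℕ → E d) (h σF : ℕ → ℝ) (n : ℕ) (σ W : ℝ)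
    (y : E d) : ℝ :=
  ∑ i ∈ Finset.range n, osc (kk (F i) (ν i) (hh h σF σ i) σ) W y

section
variable {F : ℕ → Set (E d)} {ν : ℕ → E d} {h σF : ℕ → ℝ} {n : ℕ} {σ W : ℝ}

lemma kS_bm (hF : ∀ i, MeasurableSet (F i)) (hσ : 0 < σ) : BM (kS F ν h σF n σ) :=
  BM.sum _ fun i _ => kk_bm (hF i) _ _ hσ

lemma oS_bm (hF : ∀ i, MeasurableSet (F i)) (hσ : 0 < σ) : BM (oS F ν h σF n σ W) :=
  BM.sum _ fun i _ => osc_bm (kk_bm (hF i) _ _ hσ) _

lemma kS_nonneg (hσ : 0 < σ) (y : E d) : 0 ≤ kS F ν h σF n σ y :=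
  Finset.sum_nonneg fun _ _ => kk_nonneg _ _ _ hσ _

lemma oS_nonneg (y : E d) : 0 ≤ oS F ν h σF n σ W y :=
  Finset.sum_nonneg fun _ _ => osc_nonneg _ _ _

lemma kS_tri (hF : ∀ i, MeasurableSet (F i)) (hσ : 0 < σ) (hW : 0 < W) {y y' : E d}
    (hy : ‖y - y'‖ ≤ W) :
    |kS F ν h σF n σ y - kS F ν h σF n σ y'| ≤ oS F ν h σF n σ W y + oS F ν h σF n σ W y' := by
  rw [kS, kS, oS, oS, ← Finset.sum_sub_distrib, ← Finset.sum_add_distrib]
  exact (Finset.abs_sum_le_sum_abs _ _).trans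
    (Finset.sum_le_sum fun i _ => osc_tri (kk_bm (hF i) _ _ hσ) hW hy)

end

/-- the planes of all levels -/
lemma fam {ρ ε L C ϑ : ℝ} (hC : 0 < C) (hL : 0 < L) (hϑ : 0 < ϑ)
    (H : ∀ F : Set (E d), MeasurableSet F → ∀ σ0 T : ℝ, 0 < σ0 → 0 ≤ T →
      TS F ϑ L ≤ ENNReal.ofReal T → ∃ (ν : E d) (h σF : ℝ), ‖ν‖ = 1 ∧
      ∀ σ, σ0 ≤ σ → σ ≤ 1 →
        (σF ≤ σ → volume (dev F ν h 1 ∩ ball 0 ρ) ≤ ENNReal.ofReal ε ∧
          volume (dev F ν h σ ∩ ball 0 10) ≤ ENNReal.ofReal (C * σ)) ∧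
        ∫ y in ball (0 : E d) 3, kk F ν (if σF ≤ σ then h else 100) σ y ≤ C * T / σ ^ 3 ∧
        ∀ j0 : ℕ, L / 2 ^ (j0 + 1) ≤ 1 →
          ∫ y in ball (0 : E d) 3, osc (kk F ν (if σF ≤ σ then h else 100) σ) (L / 2 ^ (j0 + 1)) y ≤
            C * (L / 2 ^ (j0 + 1)) * (T / σ ^ 3 + T / ϑ ^ j0))
    {F : ℕ → Set (E d)} (hF : ∀ i, MeasurableSet (F i)) {n : ℕ} {T σ0 : ℝ} (hT : 0 ≤ T)
    (hσ : 0 < σ0) (hS : ∑ i ∈ Finset.range n, TS (F i) ϑ L ≤ ENNReal.ofReal T) {ξ : E d}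
    (hξ : ‖ξ‖ = 1) :
    ∃ (ν : ℕ → E d) (h σF : ℕ → ℝ), (∀ i, ‖ν i‖ = 1) ∧ ∀ σ, σ0 ≤ σ → σ ≤ 1 →
      (∀ i < n, σF i ≤ σ → volume (dev (F i) (ν i) (h i) 1 ∩ ball 0 ρ) ≤ ENNReal.ofReal ε ∧
        volume (dev (F i) (ν i) (h i) σ ∩ ball 0 10) ≤ ENNReal.ofReal (C * σ)) ∧
      ∫ y in ball (0 : E d) 3, kS F ν h σF n σ y ≤ C * T / σ ^ 3 ∧
      ∀ j0 : ℕ, L / 2 ^ (j0 + 1) ≤ 1 →
        ∫ y in ball (0 : E d) 3, oS F ν h σF n σ (L / 2 ^ (j0 + 1)) y ≤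
          C * (L / 2 ^ (j0 + 1)) * (T / σ ^ 3 + T / ϑ ^ j0) := by
  have fin : ∀ i < n, TS (F i) ϑ L ≠ ∞ := fun i hi =>
    ((Finset.single_le_sum (f := fun i => TS (F i) ϑ L) (fun _ _ => zero_le)
      (Finset.mem_range.2 hi)).trans_lt (hS.trans_lt ENNReal.ofReal_lt_top)).ne
  set t : ℕ → ℝ := fun i => (TS (F i) ϑ L).toReal with ht
  have hsum : ∑ i ∈ Finset.range n, t i ≤ T := by
    rw [← ENNReal.toReal_sum fun i hi => fin i (Finset.mem_range.1 hi)]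
    exact ENNReal.toReal_le_of_le_ofReal hT hS
  have : ∀ i, ∃ (ν : E d) (h σF : ℝ), ‖ν‖ = 1 ∧ (i < n → ∀ σ, σ0 ≤ σ → σ ≤ 1 →
        (σF ≤ σ → volume (dev (F i) ν h 1 ∩ ball 0 ρ) ≤ ENNReal.ofReal ε ∧
          volume (dev (F i) ν h σ ∩ ball 0 10) ≤ ENNReal.ofReal (C * σ)) ∧
        ∫ y in ball (0 : E d) 3, kk (F i) ν (if σF ≤ σ then h else 100) σ y ≤ C * t i / σ ^ 3 ∧
        ∀ j0 : ℕ, L / 2 ^ (j0 + 1) ≤ 1 →
          ∫ y in ball (0 : E d) 3,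
            osc (kk (F i) ν (if σF ≤ σ then h else 100) σ) (L / 2 ^ (j0 + 1)) y ≤
            C * (L / 2 ^ (j0 + 1)) * (t i / σ ^ 3 + t i / ϑ ^ j0)) := by
    intro i
    by_cases hi : i < n
    · obtain ⟨ν, h, σF, a, b⟩ := H (F i) (hF i) σ0 (t i) hσ ENNReal.toReal_nonneg
        (ENNReal.ofReal_toReal (fin i hi)).ge
      exact ⟨ν, h, σF, a, fun _ => b⟩
    · exact ⟨ξ, 0, 0, hξ, fun h => (hi h).elim⟩
  choose ν h σF h1 h2 using this
  refine ⟨ν, h, σF, h1, fun σ a b => ⟨fun i hi => (h2 i hi σ a b).1, ?_, fun j0 hj => ?_⟩⟩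
  · have hσ' : 0 < σ := hσ.trans_le a
    simp only [kS]
    rw [integral_finsetSum _ fun i _ => (kk_bm (hF i) _ _ hσ').integrableOn measure_ball_lt_top.ne]
    refine (Finset.sum_le_sum fun i hi => (h2 i (Finset.mem_range.1 hi) σ a b).2.1).trans ?_
    rw [← Finset.sum_div, ← Finset.mul_sum]
    gcongr
  · have hσ' : 0 < σ := hσ.trans_le a
    simp only [oS]
    rw [integral_finsetSum _ fun i _ =>
      (osc_bm (kk_bm (hF i) _ _ hσ') _).integrableOn measure_ball_lt_top.ne]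
    refine (Finset.sum_le_sum fun i hi => (h2 i (Finset.mem_range.1 hi) σ a b).2.2 j0 hj).trans ?_
    rw [← Finset.mul_sum, Finset.sum_add_distrib, ← Finset.sum_div, ← Finset.sum_div]
    gcongr

end Vale.Agent.P137.Di
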