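import Vale.Agent.P137.Disc1

open MeasureTheory Metric Set Filter
open scoped ENNReal NNReal RealInnerProductSpace Topology

namespace Vale.Agent.P137.Di

variable {d : ℕ}

noncomputable def KK (F : ℕ → Set (E d)) (ν : ℕ → E d) (h σF : ℕ → ℝ) (n : ℕ) (ϑ : ℝ) (ς : ℕ → ℝ)
    (M : ℕ) (y : E d) : ℝ :=
  ∑ m ∈ Finset.range (M + 1), ς m ^ 3 * ϑ ^ m * kS F ν h σF n (ς m) y

noncomputable def oK (F : ℕ → Set (E d)) (ν : ℕ → E d) (h σF : ℕ → ℝ) (n : ℕ) (ϑ : ℝ) (ς : ℕ → ℝ)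
    (M : ℕ) (W : ℝ) (y : E d) : ℝ :=
  ∑ m ∈ Finset.range (M + 1), ς m ^ 3 * ϑ ^ m * oS F ν h σF n (ς m) W y

section
variable {F : ℕ → Set (E d)} {ν : ℕ → E d} {h σF : ℕ → ℝ} {n M : ℕ} {ϑ W : ℝ} {ς : ℕ → ℝ}

lemma KK_bm (hF : ∀ i, MeasurableSet (F i)) (hς : ∀ m, 0 < ς m) : BM (KK F ν h σF n ϑ ς M) :=
  BM.sum _ fun m _ => (BM.const _).mul (kS_bm hF (hς m))

lemma oK_bm (hF : ∀ i, MeasurableSet (F i)) (hς : ∀ m, 0 < ς m) : BM (oK F ν h σF n ϑ ς M W) :=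
  BM.sum _ fun m _ => (BM.const _).mul (oS_bm hF (hς m))

lemma KK_ge (hϑ : 0 < ϑ) (hς : ∀ m, 0 < ς m) {m : ℕ} (hm : m ≤ M) (y : E d) :
    ς m ^ 3 * ϑ ^ m * kS F ν h σF n (ς m) y ≤ KK F ν h σF n ϑ ς M y :=
  Finset.single_le_sum (f := fun m => ς m ^ 3 * ϑ ^ m * kS F ν h σF n (ς m) y)
    (fun m _ => mul_nonneg (by have := hς m; positivity) (kS_nonneg (hς m) y))
    (Finset.mem_range.2 (by omega))

lemma KK_nonneg (hϑ : 0 < ϑ) (hς : ∀ m, 0 < ς m) (y : E d) : 0 ≤ KK F ν h σF n ϑ ς M y :=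
  Finset.sum_nonneg fun m _ => mul_nonneg (by have := hς m; positivity) (kS_nonneg (hς m) y)

lemma oK_nonneg (hϑ : 0 < ϑ) (hς : ∀ m, 0 < ς m) (y : E d) : 0 ≤ oK F ν h σF n ϑ ς M W y :=
  Finset.sum_nonneg fun m _ => mul_nonneg (by have := hς m; positivity) (oS_nonneg y)

lemma KK_tri (hF : ∀ i, MeasurableSet (F i)) (hϑ : 0 < ϑ) (hς : ∀ m, 0 < ς m) (hW : 0 < W)
    {y y' : E d} (hy : ‖y - y'‖ ≤ W) :
    |KK F ν h σF n ϑ ς M y - KK F ν h σF n ϑ ς M y'| ≤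
      oK F ν h σF n ϑ ς M W y + oK F ν h σF n ϑ ς M W y' := by
  rw [KK, KK, oK, oK, ← Finset.sum_sub_distrib, ← Finset.sum_add_distrib]
  refine (Finset.abs_sum_le_sum_abs _ _).trans (Finset.sum_le_sum fun m _ => ?_)
  have : 0 ≤ ς m ^ 3 * ϑ ^ m := by have := hς m; positivity
  rw [← mul_sub, ← mul_add, abs_mul, abs_of_nonneg this]
  exact mul_le_mul_of_nonneg_left (kS_tri hF (hς m) hW hy) this

lemma KK_mass (hF : ∀ i, MeasurableSet (F i)) (hϑ : 0 < ϑ) (hϑ1 : ϑ < 1) (hς : ∀ m, 0 < ς m)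
    {B : ℝ} (hB : 0 ≤ B)
    (H : ∀ m ≤ M, ∫ y in ball (0 : E d) 3, kS F ν h σF n (ς m) y ≤ B / ς m ^ 3) :
    ∫ y in ball (0 : E d) 3, KK F ν h σF n ϑ ς M y ≤ B / (1 - ϑ) := by
  simp only [KK]
  rw [integral_finsetSum _ fun m _ =>
    ((BM.const _).mul (kS_bm hF (hς m))).integrableOn measure_ball_lt_top.ne]
  calc _ ≤ ∑ m ∈ Finset.range (M + 1), B * ϑ ^ m := by
        refine Finset.sum_le_sum fun m hm => ?_
        have := hς m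
        rw [integral_const_mul]
        refine (mul_le_mul_of_nonneg_left (H m (by simpa [Nat.lt_succ_iff] using hm))
          (by positivity)).trans (le_of_eq ?_)
        field_simp
    _ ≤ _ := by
        rw [← Finset.mul_sum, div_eq_mul_one_div]
        exact mul_le_mul_of_nonneg_left (geo_sum hϑ hϑ1 _) hB

lemma oK_mass (hF : ∀ i, MeasurableSet (F i)) (hϑ : 0 < ϑ) (hϑ1 : ϑ < 1) (hς : ∀ m, 0 < ς m)
    (hς1 : ∀ m, ς m ≤ 1) {B T : ℝ} (hB : 0 ≤ B) (hT : 0 ≤ T) {j : ℕ}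
    (H : ∀ m ≤ M, ∫ y in ball (0 : E d) 3, oS F ν h σF n (ς m) W y ≤ B * (T / ς m ^ 3 + T / ϑ ^ j)) :
    ∫ y in ball (0 : E d) 3, oK F ν h σF n ϑ ς M W y ≤ B * (2 * T / ϑ ^ j) / (1 - ϑ) := by
  simp only [oK]
  rw [integral_finsetSum _ fun m _ =>
    ((BM.const _).mul (oS_bm hF (hς m))).integrableOn measure_ball_lt_top.ne]
  calc _ ≤ ∑ m ∈ Finset.range (M + 1), B * (2 * T / ϑ ^ j) * ϑ ^ m := by
        refine Finset.sum_le_sum fun m hm => ?_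
        have := hς m
        rw [integral_const_mul]
        refine (mul_le_mul_of_nonneg_left (H m (by simpa [Nat.lt_succ_iff] using hm))
          (by positivity)).trans ?_
        have a1 : T ≤ T / ϑ ^ j := le_div_self hT (by positivity) (pow_le_one₀ hϑ.le hϑ1.le)
        have a2 : ς m ^ 3 * (T / ϑ ^ j) ≤ T / ϑ ^ j :=
          mul_le_of_le_one_left (by positivity) (pow_le_one₀ this.le (hς1 m))
        calc _ = B * (T + ς m ^ 3 * (T / ϑ ^ j)) * ϑ ^ m := by field_simp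
          _ ≤ B * (T / ϑ ^ j + T / ϑ ^ j) * ϑ ^ m := by gcongr
          _ = _ := by ring
    _ ≤ _ := by
        rw [← Finset.mul_sum, div_eq_mul_one_div _ (1 - ϑ)]
        exact mul_le_mul_of_nonneg_left (geo_sum hϑ hϑ1 _) (by positivity)

end

lemma sP_nonneg {φ : E d → ℝ} (h : ∀ y, 0 ≤ φ y) (x : E d) (a t : ℝ) : 0 ≤ sP φ x a t :=
  div_nonneg (integral_nonneg fun _ => h _) ENNReal.toReal_nonneg

lemma sP_le {φ ψ : E d → ℝ} (h1 : BM φ) (h2 : BM ψ) {β : ℝ} (hβ : 0 < β) (h : ∀ y, β * φ y ≤ ψ y)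
    (x : E d) (a t : ℝ) : sP φ x a t ≤ sP ψ x a t / β := by
  rw [le_div_iff₀ hβ, sP, sP, sa, sa, div_mul_eq_mul_div, mul_comm, ← integral_const_mul]
  refine div_le_div_of_nonneg_right (setIntegral_mono ?_ ?_ fun z => h _) ENNReal.toReal_nonneg
  · exact ((BM.const β).mul (h1.comp (by fun_prop))).integrableOn (Sh0_lt t)
  · exact (h2.comp (by fun_prop)).integrableOn (Sh0_lt t)

lemma nr_nonneg (ν : ℕ → E d) (h : ℕ → ℝ) (s : Finset ℕ) (x : E d) (a : ℝ) : 0 ≤ nr ν h s x a :=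
  Nat.cast_nonneg _

lemma nr_le {ν : ℕ → E d} {h h' : ℕ → ℝ} {s s' : Finset ℕ} {x : E d} {a a' : ℝ}
    (H : ∀ i ∈ s, |⟪x, ν i⟫ - h i| ≤ a → i ∈ s' ∧ |⟪x, ν i⟫ - h' i| ≤ a') :
    nr ν h s x a ≤ nr ν h' s' x a' := by
  refine Nat.cast_le.2 (Finset.card_le_card fun i hi => ?_)
  rw [Finset.mem_filter] at hi ⊢
  exact H i hi.1 hi.2

lemma hh_flat {h σF : ℕ → ℝ} {σ b a : ℝ} {i : ℕ} (hb : |b| ≤ 1) (ha : a ≤ 10)
    (H : |b - hh h σF σ i| ≤ a) : σF i ≤ σ := by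
  by_contra hc
  rw [hh, if_neg hc] at H
  linarith [(abs_le.1 H).1, (abs_le.1 hb).2]

lemma exp_le {w : ℝ} (h0 : 0 < w) (h1 : w ≤ 1 / 2) : Real.exp w ≤ 1 + 2 * w := by
  refine (Real.exp_bound_div_one_sub_of_interval' h0 (by linarith)).le.trans ?_
  rw [div_le_iff₀ (by linarith)]
  nlinarith

lemma le_div_exp {w r : ℝ} (h0 : 0 < w) (hr : r ∈ Icc (1 : ℝ) 2) : r - 2 * w ≤ r / Real.exp w := by
  rw [div_eq_mul_inv, ← Real.exp_neg]
  nlinarith [Real.add_one_le_exp (-w), hr.1, hr.2]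

lemma ann_le {o : E d → ℝ} (h1 : BM o) (h2 : ∀ y, 0 ≤ o y) {x : E d}
    (hx : x ∈ ball (0 : E d) (1 / 10)) {r δ : ℝ} (hr : r ≤ 2) (hδ : δ ≤ 1 / 2) :
    ∫ y in ann x r δ, o y ≤ ∫ y in ball (0 : E d) 3, o y := by
  refine setIntegral_mono_set (h1.integrableOn measure_ball_lt_top.ne) (Eventually.of_forall h2)
    (LE.le.eventuallyLE fun y hy => ?_)
  rw [mem_ball_zero_iff] at hx
  have := (abs_le.1 (show |‖y - x‖ - r| ≤ δ from hy)).2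
  exact mem_ball_zero_iff.2 (by linarith [norm_le_norm_sub_add y x])

end Vale.Agent.P137.Di
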