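import Vale.Agent.P137.Disc2

open MeasureTheory Metric Set Filter
open scoped ENNReal NNReal RealInnerProductSpace Topology

namespace Vale.Agent.P137.Di

variable {d : ℕ}

lemma point {F : ℕ → Set (E d)} {ν : ℕ → E d} {h σF : ℕ → ℝ} {n M : ℕ} {ϑ N c' CK CA : ℝ}
    {ς η ψ w nn ZC P : ℕ → ℝ} {γ : E d → ℝ} {K : ℝ≥0} {ξ x : E d} {r κ0 : ℝ}
    (hF : ∀ i, MeasurableSet (F i)) (hν : ∀ i, ‖ν i‖ = 1) (h0 : 0 < ϑ) (h1 : ϑ < 1) (hN : 0 ≤ N)
    (hc' : 0 < c') (hCK : 0 < CK) (hCA : 0 < CA) (hς : ∀ m, 0 < ς m) (hς1 : ∀ m, ς m ≤ 1)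
    (hη : ∀ m, 0 < η m) (hη1 : ∀ m, η m ≤ 1) (hψ : ∀ m, 0 < ψ m) (hψa : Antitone ψ)
    (hw : ∀ m, 0 < w m) (hw2 : ∀ m, 2 * w (m + 1) = w m) (hwψ : ∀ m, 400 * w m ≤ ψ m ^ 4)
    (hψς : ∀ m, ψ m ^ 4 ≤ ς m) (hψη : ∀ m, 4 * ψ m ^ 4 ≤ η m)
    (hnn : ∀ m, nn m = 16 * (2 / (1 - ϑ) * (N / ϑ ^ m)) / (ς m ^ 3 * ϑ ^ m * (c' * η m ^ (d + 1))))
    (hnm : ∀ m, nn m ≤ nn (m + 1)) (hx : x ∈ ball (0 : E d) (1 / 10)) (hr : r ∈ Icc (1 : ℝ) 2)
    (hZC : ∀ m, 0 ≤ ZC m) (hP : ∀ m, 0 ≤ P m)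
    (HK : ∀ m, max (sP (KK F ν h σF n ϑ ς M) x (r / Real.exp (w (m + 1))) (Real.exp (w (m + 1))))
        (sP (KK F ν h σF n ϑ ς M) x r (Real.exp (w (m + 1)))) ≤
      max (sP (KK F ν h σF n ϑ ς M) x (r / Real.exp (2 * w (m + 1))) (Real.exp (2 * w (m + 1))))
        (sP (KK F ν h σF n ϑ ς M) x r (Real.exp (2 * w (m + 1)))) +
        CK / w (m + 1) * ∫ y in ann x r (5 * w (m + 1)), oK F ν h σF n ϑ ς M (8 * w (m + 1)) y)
    (HK0 : max (sP (KK F ν h σF n ϑ ς M) x (r / Real.exp (w 0)) (Real.exp (w 0)))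
        (sP (KK F ν h σF n ϑ ς M) x r (Real.exp (w 0))) ≤ κ0)
    (HK1 : ∀ m < M, CK / w (m + 1) *
      ∫ y in ann x r (5 * w (m + 1)), oK F ν h σF n ϑ ς M (8 * w (m + 1)) y ≤ N / ϑ ^ m)
    (HE : sF γ ξ x r (Real.exp (w M)) ≤
      sF γ ξ x (r / Real.exp (w M)) (Real.exp (w M)) + 4 * K * w M)
    {z : ℝ → ℝ} (HA1 : ∀ w, 0 < w → 1 ≤ r / Real.exp w → r * Real.exp w ≤ 2 →
        min (sF γ ξ x (r / Real.exp w) (Real.exp w)) (sF γ ξ x r (Real.exp w)) ≤ z w ∧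
        z w ≤ max (sF γ ξ x (r / Real.exp w) (Real.exp w)) (sF γ ξ x r (Real.exp w)))
    (HA2 : ∀ m < M, 1 ≤ r / Real.exp (2 * w (m + 1)) → r * Real.exp (2 * w (m + 1)) ≤ 2 →
      z (2 * w (m + 1)) ≤ z (w (m + 1)) + 4 +
        CA * ψ m * nr ν (hh h σF (ψ m ^ 4)) (Finset.range n) x (r + 4 * ψ m ^ 4) +
        CA / w (m + 1) * ZC m)
    (HR : ∀ m ≤ M, ∀ s a, 1 < s → s ≤ 1 + ς m → 1 / 2 ≤ a → a ≤ 2 →
      c' * η m ^ (d + 1) * nr ν (hh h σF (ς m)) (Finset.range n) x (a - η m) ≤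
        sF γ ξ x a s + 1 + sP (kS F ν h σF n (ς m)) x a s)
    (HO : ∀ m < M, (|r - 1| ≤ 3 * η m ∨ |r - 2| ≤ 3 * η m ∨
      (nn m ≤ nr ν h ((Finset.range n).filter fun i => σF i ≤ ψ m ^ 4) x (r + η m) ∧
        nr ν h ((Finset.range n).filter fun i => σF i ≤ ψ m ^ 4) x (r - 2 * η m) ≤ nn m / 16)) →
      CK / w (m + 1) *
        ∫ y in ann x r (5 * w (m + 1)), oK F ν h σF n ϑ ς M (8 * w (m + 1)) y ≤ P m) :
    -sF γ ξ x (r / Real.exp (w M)) (Real.exp (w M)) ≤ 4 * K * w M +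
      ∑ m ∈ Finset.range M, (4 + CA * ψ m * nn m + CA / w (m + 1) * ZC m) +
      2 / (ς 0 ^ 3 * ϑ ^ 0) * (1 + κ0 + ∑ m ∈ Finset.range M, P m) := by
  have h2 : 0 < 1 - ϑ := by linarith
  have hβ : ∀ m, 0 < ς m ^ 3 * ϑ ^ m := fun m => by have := hς m; positivity
  have hβ1 : ∀ m, ς m ^ 3 * ϑ ^ m ≤ 1 := fun m =>
    mul_le_one₀ (pow_le_one₀ (hς m).le (hς1 m)) (by positivity) (pow_le_one₀ h0.le h1.le)
  have hnn0 : ∀ m, 0 ≤ nn m := fun m => by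
    rw [hnn]; have := hβ m; have := hη m; positivity
  have hwa : Antitone w := antitone_nat_of_succ_le fun m => by linarith [hw2 m, hw (m + 1)]
  have hσa : ∀ m, ψ (m + 1) ^ 4 ≤ ψ m ^ 4 := fun m =>
    pow_le_pow_left₀ (hψ _).le (hψa (Nat.le_succ m)) 4
  have hex : ∀ m, Real.exp (w m) ≤ 1 + 2 * w m := fun m =>
    exp_le (hw m) (by linarith [hwψ m, hψς m, hς1 m])
  have hxν : ∀ i, |⟪x, ν i⟫| ≤ 1 := fun i =>
    (abs_inner_le (hν i) x).trans (by linarith [mem_ball_zero_iff.1 hx])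
  set κ : ℕ → ℝ := fun m => max (sP (KK F ν h σF n ϑ ς M) x (r / Real.exp (w m)) (Real.exp (w m)))
    (sP (KK F ν h σF n ϑ ς M) x r (Real.exp (w m))) with hκ
  have hκ0 : ∀ m, 0 ≤ κ m := fun m =>
    (sP_nonneg (KK_nonneg h0 hς) _ _ _).trans (le_max_left _ _)
  have refk : ∀ m k, m ≤ k → k ≤ M → c' * η m ^ (d + 1) *
      nr ν h ((Finset.range n).filter fun i => σF i ≤ ψ m ^ 4) x (r - 2 * η m) ≤
      min (sF γ ξ x (r / Real.exp (w k)) (Real.exp (w k))) (sF γ ξ x r (Real.exp (w k))) + 1 +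
        κ k / (ς m ^ 3 * ϑ ^ m) := by
    intro m k hmk hk
    have a1 : w k ≤ w m := hwa hmk
    have a2 := le_div_exp (hw k) hr
    have a3 : 1 < Real.exp (w k) := Real.one_lt_exp_iff.2 (hw k)
    have key : ∀ a, r - 2 * w k ≤ a → a ≤ 2 → sP (KK F ν h σF n ϑ ς M) x a (Real.exp (w k)) ≤ κ k →
        c' * η m ^ (d + 1) *
          nr ν h ((Finset.range n).filter fun i => σF i ≤ ψ m ^ 4) x (r - 2 * η m) ≤
          sF γ ξ x a (Real.exp (w k)) + 1 + κ k / (ς m ^ 3 * ϑ ^ m) := by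
      intro a b1 b2 b3
      have b4 := HR m (hmk.trans hk) _ a a3 (by linarith [hex k, hwψ m, hψς m, hw m])
        (by linarith [hr.1, hwψ m, hψς m, hς1 m]) b2
      have b5 := sP_le (kS_bm hF (hς m)) (KK_bm hF hς) (hβ m)
        (KK_ge (F := F) (ν := ν) (h := h) (σF := σF) (n := n) h0 hς (hmk.trans hk)) x a
        (Real.exp (w k))
      have b6 := div_le_div_of_nonneg_right b3 (hβ m).le
      refine le_trans (mul_le_mul_of_nonneg_left (nr_le fun i hi hi2 => ?_)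
        (by have := hη m; positivity)) (b4.trans (by linarith))
      rw [Finset.mem_filter] at hi
      rw [hh, if_pos (hi.2.trans (hψς m))]
      exact ⟨hi.1, by linarith [hwψ m, hψη m, hw m]⟩
    have a4 : r / Real.exp (w k) ≤ 2 := (div_le_self (by linarith [hr.1]) a3.le).trans hr.2
    rcases min_choice (sF γ ξ x (r / Real.exp (w k)) (Real.exp (w k)))
      (sF γ ξ x r (Real.exp (w k))) with e | e <;> rw [e]
    · exact key _ a2 a4 (le_max_left _ _)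
    · exact key _ (by linarith [hw k]) hr.2 (le_max_right _ _)
  refine le_trans (comb (M := M) (ϑ := ϑ) (N := N) (β := ς 0 ^ 3 * ϑ ^ 0) (ε := 4 * K * w M) h0 h1 hN
    (hβ 0) (hβ1 0) (by have := hw M; positivity)
    (free := fun m => nr ν (hh h σF (ψ m ^ 4)) (Finset.range n) x (r + 4 * ψ m ^ 4) < nn m ∧
      1 ≤ r / Real.exp (w m) ∧ r * Real.exp (w m) ≤ 2) ?_
    (fI := fun m => sF γ ξ x (r / Real.exp (w m)) (Real.exp (w m)))
    (fO := fun m => sF γ ξ x r (Real.exp (w m))) (z := fun m => z (w m)) (κ := κ)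
    (e := fun m => 4 + CA * ψ m * nn m + CA / w (m + 1) * ZC m)
    (ed := fun m => CK / w (m + 1) *
      ∫ y in ann x r (5 * w (m + 1)), oK F ν h σF n ϑ ς M (8 * w (m + 1)) y) (P := P)
    (fun m => ?_) hP hκ0 ?_ HE (fun m _ => ?_) HK1 (fun m hm => ?_) ?_) ?_
  · rintro m ⟨a1, a2, a3⟩
    have a4 : Real.exp (w (m + 1)) ≤ Real.exp (w m) := Real.exp_le_exp.2 (hwa (Nat.le_succ m))
    have r0 : 0 ≤ r := by linarith [hr.1]
    refine ⟨lt_of_le_of_lt (nr_le fun i hi hi2 => ⟨hi, ?_⟩) (a1.trans_le (hnm m)),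
      a2.trans (by gcongr), le_trans (by gcongr) a3⟩
    have b1 := hh_flat (hxν i) (by linarith [hr.2, hψη (m + 1), hη1 (m + 1)]) hi2
    rw [hh, if_pos b1] at hi2
    rw [hh, if_pos (b1.trans (hσa m))]
    linarith [hσa m]
  · have := hψ m; have := hw (m + 1); have := hnn0 m; have := hZC m; positivity
  · rintro m hm ⟨a1, a2, a3⟩
    have a4 : Real.exp (w (m + 1)) ≤ Real.exp (w m) := Real.exp_le_exp.2 (hwa (Nat.le_succ m))
    have r0 : 0 ≤ r := by linarith [hr.1]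
    refine ⟨(HA1 _ (hw m) a2 a3).1, ?_,
      (HA1 _ (hw (m + 1)) (a2.trans (by gcongr)) (le_trans (by gcongr) a3)).2⟩
    have b1 := HA2 m hm (by rwa [hw2]) (by rwa [hw2])
    rw [hw2] at b1
    have b2 := mul_le_mul_of_nonneg_left a1.le (mul_pos hCA (hψ m)).le
    linarith
  · have := HK m
    rwa [hw2] at this
  · have b1 := refk 0 m (Nat.zero_le m) hm
    have b2 : 0 ≤ c' * η 0 ^ (d + 1) *
        nr ν h ((Finset.range n).filter fun i => σF i ≤ ψ 0 ^ 4) x (r - 2 * η 0) :=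
      mul_nonneg (by have := hη 0; positivity) (nr_nonneg _ _ _ _ _)
    linarith
  · intro m k hmk hk hf hmin hD
    refine HO m (by omega) ?_
    by_cases c1 : 1 ≤ r / Real.exp (w m)
    swap
    · left
      rw [not_le, div_lt_one (Real.exp_pos _)] at c1
      rw [abs_of_nonneg (by linarith [hr.1])]
      linarith [hex m, hwψ m, hψη m, hw m]
    by_cases c2 : r * Real.exp (w m) ≤ 2
    swap
    · right; left
      rw [abs_of_nonpos (by linarith [hr.2])]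
      have : r * Real.exp (w m) ≤ r + 2 * (2 * w m) := by
        nlinarith [hex m, hr.1, hr.2, hw m]
      linarith [not_le.1 c2, hwψ m, hψη m, hw m]
    right; right
    have c3 := not_lt.1 fun c => hf ⟨c, c1, c2⟩
    refine ⟨c3.trans (nr_le fun i hi hi2 => ?_), ?_⟩
    · have b1 := hh_flat (hxν i) (by linarith [hr.2, hψη m, hη1 m]) hi2
      rw [hh, if_pos b1] at hi2
      exact ⟨Finset.mem_filter.2 ⟨hi, b1⟩, by linarith [hψη m]⟩
    · have b1 := refk m k hmk.le hk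
      have b2 : 0 < c' * η m ^ (d + 1) := by have := hη m; positivity
      have b3 : 1 ≤ 1 / (ς m ^ 3 * ϑ ^ m) := one_le_one_div (hβ m) (hβ1 m)
      have b4 := div_le_div_of_nonneg_right hD (hβ m).le
      rw [add_div] at b4
      rw [hnn, mul_div_assoc, mul_div_cancel_left₀ _ (by norm_num), ← div_div, le_div_iff₀ b2,
        mul_comm]
      linarith
  · have := hβ 0
    gcongr

end Vale.Agent.P137.Di
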