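import Vale.Agent.P137.CBase

open MeasureTheory Metric Set Filter
open scoped ENNReal NNReal RealInnerProductSpace Topology

namespace Vale.Agent.P137

variable {d : ℕ}

namespace Exc

lemma close {F F' : Set (E d)} (hF : F' ⊆ F) {ν ν' : E d} {h h' R T ε : ℝ} (hν : ‖ν‖ = 1)
    (hν' : ‖ν'‖ = 1) (hh : |h| ≤ R) (hh' : |h'| ≤ R) (hT : 0 < T) (hε : 0 < ε)
    (hom : ENNReal.ofReal (3 * ε) ≤ volume (ball (0 : E d) 1))
    (h1 : volume (dev F ν h 1 ∩ ball 0 (2 * T + 1)) ≤ ENNReal.ofReal ε)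
    (h2 : volume (dev F' ν' h' 1 ∩ ball 0 (2 * T + 1)) ≤ ENNReal.ofReal ε) :
    T * ‖ν' - ν‖ ^ 2 < 2 * (R + 2) := by
  by_contra hc
  rw [not_lt, norm_sub_sq_real, hν, hν'] at hc
  set p : E d := T • (ν' - ν) with hp
  have hpn : ‖p‖ ≤ 2 * T := by
    rw [hp, norm_smul, Real.norm_of_nonneg hT.le]
    have := norm_sub_le ν' ν
    nlinarith
  have e1 : ⟪p, ν'⟫ = T * (1 - ⟪ν', ν⟫) := by
    rw [hp, real_inner_smul_left, inner_sub_left, ee hν', real_inner_comm]
  have e2 : ⟪p, ν⟫ = -(T * (1 - ⟪ν', ν⟫)) := by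
    rw [hp, real_inner_smul_left, inner_sub_left, ee hν]; ring
  have hsub : ball p 1 ⊆ (dev F ν h 1 ∩ ball 0 (2 * T + 1)) ∪
      (dev F' ν' h' 1 ∩ ball 0 (2 * T + 1)) := by
    intro y hy
    rw [mem_ball, dist_eq_norm] at hy
    have hb : y ∈ ball (0 : E d) (2 * T + 1) := by
      rw [mem_ball_zero_iff]; linarith [norm_le_norm_sub_add y p]
    have a1 := abs_le.1 (abs_inner_le hν (y - p))
    have a2 := abs_le.1 (abs_inner_le hν' (y - p))
    rw [inner_sub_left] at a1 a2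
    have a3 := abs_le.1 hh
    have a4 := abs_le.1 hh'
    by_cases hyF : y ∈ F
    · exact Or.inl ⟨Or.inr ⟨hyF, by linarith [a1.2]⟩, hb⟩
    · exact Or.inr ⟨Or.inl ⟨fun k => hyF (hF k), by linarith [a2.1]⟩, hb⟩
  have h3 : ENNReal.ofReal (3 * ε) ≤ ENNReal.ofReal (ε + ε) := by
    rw [ENNReal.ofReal_add hε.le hε.le]
    refine hom.trans ?_
    rw [← Measure.addHaar_ball_center volume p]
    exact (measure_mono hsub).trans ((measure_union_le _ _).trans (add_le_add h1 h2))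
  rw [ENNReal.ofReal_le_ofReal_iff (by linarith)] at h3
  linarith

/-- pairs with `y` in `F` and the far point outside `F` -/
def PS (F : Set (E d)) (v : E d) : Set (E d × E d) :=
  {p | p ∈ ball (0 : E d) 2 ×ˢ ball (0 : E d) 3 ∧ p.2 ∈ F ∧ p.1 + v ∉ F}

lemma cake {g : E d → ℝ} (hg : Measurable g) (v : E d) :
    ∫⁻ x in ball (0 : E d) 2, ∫⁻ y in ball (0 : E d) 3, ENNReal.ofReal (g y - g (x + v)) =
      ∫⁻ s, volume (PS {y | s < g y} v) := by
  have hB : MeasurableSet (ball (0 : E d) 2 ×ˢ ball (0 : E d) 3) :=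
    measurableSet_ball.prod measurableSet_ball
  have hJ : MeasurableSet {q : ℝ × (E d × E d) | q.2 ∈ PS {y | q.1 < g y} v} :=
    (measurable_snd hB).inter
      ((measurableSet_lt (f := fun q : ℝ × (E d × E d) => q.1) (g := fun q => g q.2.2)
        (by fun_prop) (by fun_prop)).inter
      (measurableSet_lt (f := fun q : ℝ × (E d × E d) => q.1) (g := fun q => g (q.2.1 + v))
        (by fun_prop) (by fun_prop)).compl)
  have h1 := Measure.prod_apply (μ := (volume : Measure ℝ)) (ν := (volume : Measure (E d × E d))) hJ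
  rw [Measure.prod_apply_symm hJ] at h1
  refine Eq.trans ?_ h1
  have hm : Measurable fun p : E d × E d => ENNReal.ofReal (g p.2 - g (p.1 + v)) := by fun_prop
  rw [← lintegral_prod _ hm.aemeasurable, Measure.prod_restrict, ← Measure.volume_eq_prod,
    ← lintegral_indicator hB]
  refine lintegral_congr fun p => ?_
  by_cases hp : p ∈ ball (0 : E d) 2 ×ˢ ball (0 : E d) 3
  · rw [indicator_of_mem hp, ← Real.volume_Ico]
    congr 1
    ext t
    exact ⟨fun k => ⟨hp, k.2, not_lt.2 k.1⟩, fun k => ⟨not_lt.1 k.2.2, k.2.1⟩⟩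
  · rw [indicator_of_notMem hp]
    exact (measure_mono_null (t := ∅) (fun t ht => hp ht.1) measure_empty).symm

lemma PS_le {F : Set (E d)} {e ν : E d} {c h r : ℝ} (hc : 0 < c) (he : ‖e‖ = 1) (hν : ‖ν‖ = 1)
    (hr : 8 / c + 4 ≤ r) (hK : |h| ≤ 8 / c + 9 → c ≤ ⟪e, ν⟫) :
    volume (PS F ((8 / c + 1) • e)) ≤
      (volume (ball (0 : E d) 2) + volume (ball (0 : E d) 3)) * volume (dev F ν h 1 ∩ ball 0 r) := by
  have h8 : 0 < 8 / c := by positivity
  have hsub : PS F ((8 / c + 1) • e) ⊆ ball (0 : E d) 2 ×ˢ (dev F ν h 1 ∩ ball 0 r) ∪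
      {x | (8 / c + 1) • e + x ∈ dev F ν h 1 ∩ ball 0 r} ×ˢ ball (0 : E d) 3 := by
    rintro ⟨x, y⟩ ⟨⟨hx, hy⟩, h1, h2⟩
    simp only at hx hy h1 h2
    by_contra hn
    simp only [mem_union, mem_prod, mem_ofPred_eq, not_or, not_and', mem_inter_iff] at hn
    have hx' := mem_ball_zero_iff.1 hx
    have hy' := mem_ball_zero_iff.1 hy
    have hz : ‖(8 / c + 1) • e + x‖ < 8 / c + 3 := by
      have := norm_add_le ((8 / c + 1) • e) x
      rw [norm_smul, he, Real.norm_of_nonneg (by linarith)] at this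
      linarith
    have a1 : h - 1 ≤ ⟪y, ν⟫ := not_lt.1 fun k =>
      hn.1 ⟨Or.inr ⟨h1, k⟩, mem_ball_zero_iff.2 (by linarith)⟩ hx
    have a2 : ⟪(8 / c + 1) • e + x, ν⟫ ≤ h + 1 := not_lt.1 fun k =>
      hn.2 hy (mem_ball_zero_iff.2 (by linarith)) (Or.inl ⟨by rwa [add_comm], k⟩)
    have a3 := abs_le.1 (abs_inner_le hν y)
    have a4 := abs_le.1 (abs_inner_le hν ((8 / c + 1) • e + x))
    have a5 := abs_le.1 (abs_inner_le hν x)
    have a6 := hK (abs_le.2 ⟨by linarith, by linarith⟩)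
    rw [inner_add_left, real_inner_smul_left] at a2
    have a7 : (8 / c + 1) * c = 8 + c := by field_simp
    nlinarith [mul_le_mul_of_nonneg_left a6 (by linarith : 0 ≤ 8 / c + 1)]
  refine (measure_mono hsub).trans ((measure_union_le _ _).trans (le_of_eq ?_))
  rw [Measure.volume_eq_prod, Measure.prod_prod, Measure.prod_prod, vol_add, add_mul,
    mul_comm (volume (ball (0 : E d) 3))]

end Exc

theorem coneStmt (hd : 2 ≤ d) : ConeStmt d := by
  intro R hR
  have hd' : (2 : ℝ) ≤ d := by exact_mod_cast hd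
  have hom : 0 < (volume (ball (0 : E d) 1)).toReal :=
    ENNReal.toReal_pos (measure_ball_pos _ _ one_pos).ne' measure_ball_lt_top.ne
  set T : ℝ := 32 * d ^ 2 * (R + 2) with hT
  have hT0 : 0 < T := by positivity
  set ε := (volume (ball (0 : E d) 1)).toReal / 3 with hε
  have hε0 : 0 < ε := by positivity
  have h3 : ENNReal.ofReal (3 * ε) ≤ volume (ball (0 : E d) 1) := by
    rw [hε, mul_div_cancel₀ _ (by norm_num), ENNReal.ofReal_toReal measure_ball_lt_top.ne]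
  refine ⟨2 * T + 1, ε, by positivity, hε0, fun g => ?_⟩
  by_cases hex : ∃ (s : ℝ) (ν : E d) (h : ℝ), ‖ν‖ = 1 ∧ |h| ≤ R ∧
      volume (dev {y | s < g y} ν h 1 ∩ ball 0 (2 * T + 1)) ≤ ENNReal.ofReal ε
  swap
  · exact ⟨(⟨0, by omega⟩, true), fun s ν h a b c => (hex ⟨s, ν, h, a, b, c⟩).elim,
      fun _ s ν h a b c => (hex ⟨s, ν, h, a, b, c⟩).elim⟩
  obtain ⟨s0, ν0, h0, a0, b0, c0⟩ := hex
  obtain ⟨j, hj⟩ := exists_dir (by omega) ν0
  have key : ∀ (s : ℝ) (ν : E d) (h : ℝ), ‖ν‖ = 1 → |h| ≤ R →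
      volume (dev {y | s < g y} ν h 1 ∩ ball 0 (2 * T + 1)) ≤ ENNReal.ofReal ε →
      3 ≤ 4 * d * ⟪dir j, ν⟫ := by
    intro s ν h a b c
    have k1 : T * ‖ν0 - ν‖ ^ 2 < 2 * (R + 2) := by
      rcases le_total s s0 with k | k
      · exact Exc.close (fun y (hy : s0 < g y) => k.trans_lt hy) a a0 b b0 hT0 hε0 h3 c c0
      · rw [norm_sub_rev]
        exact Exc.close (fun y (hy : s < g y) => k.trans_lt hy) a0 a b0 b hT0 hε0 h3 c0 c
    have k2 : (4 * d * ‖ν0 - ν‖) ^ 2 < 1 ^ 2 := by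
      rw [hT] at k1
      have : (R + 2) * (2 * (4 * d * ‖ν0 - ν‖) ^ 2) < (R + 2) * 2 := by nlinarith
      nlinarith [lt_of_mul_lt_mul_left this (by linarith)]
    have k3 : 4 * d * ‖ν0 - ν‖ < 1 := lt_of_pow_lt_pow_left₀ 2 zero_le_one k2
    have k4 := abs_le.1 (abs_inner_le (dir_norm j) (ν0 - ν))
    rw [real_inner_comm, inner_sub_right] at k4
    rw [a0, div_le_iff₀ (by linarith)] at hj
    nlinarith [mul_le_mul_of_nonneg_left k4.2 (by linarith : (0 : ℝ) ≤ 4 * d)]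
  refine ⟨j, fun s ν h a b c => ?_, fun i s ν h a b c => ?_⟩
  · have := key s ν h a b c
    rw [div_le_iff₀ (by linarith)]
    have h1 : 0 < ⟪dir j, ν⟫ := by
      by_contra hn
      nlinarith [mul_nonneg (by linarith : (0 : ℝ) ≤ 4 * d) (neg_nonneg.2 (not_lt.1 hn))]
    nlinarith
  · have k1 := key s ν h a b c
    have k2 := abs_le.1 (abs_inner_le a (dir i))
    rw [dir_norm] at k2
    have k3 : 1 / 2 ≤ ⟪(2 * d : ℝ) • dir j + dir i, ν⟫ := by
      rw [inner_add_left, real_inner_smul_left]; linarith [k2.1]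
    have k4 := (le_abs_self _).trans (abs_inner_le a ((2 * d : ℝ) • dir j + dir i))
    have k5 : ‖(2 * d : ℝ) • dir j + dir i‖ ≤ 2 * d + 1 := by
      refine (norm_add_le _ _).trans (le_of_eq ?_)
      rw [norm_smul, dir_norm, dir_norm, Real.norm_of_nonneg (by linarith), mul_one]
    rw [dir2, real_inner_smul_left, inv_mul_eq_div, div_le_div_iff₀ (by linarith) (by linarith)]
    nlinarith

theorem excStmt (hP : PFStmt d) : ExcStmt d := by
  intro c ρ ε hc _ hρ hε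
  obtain ⟨c1, C1, L, hc1, hC1, hL, h⟩ := hP (max ρ (8 / c + 4)) (lt_max_of_lt_left hρ)
  set m := min c1 (ε / C1) with hm
  have hm0 : 0 < m := lt_min hc1 (by positivity)
  set V2 := volume (ball (0 : E d) 2)
  set V3 := volume (ball (0 : E d) 3)
  have f2 : V2 ≠ ∞ := measure_ball_lt_top.ne
  have f3 : V3 ≠ ∞ := measure_ball_lt_top.ne
  have hm1 : ENNReal.ofReal m ≠ 0 := by simpa using hm0
  have hfin : (V2 + V3) * ENNReal.ofReal C1 + V2 * V3 / ENNReal.ofReal m ≠ ∞ :=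
    ENNReal.add_ne_top.2 ⟨by finiteness, ENNReal.div_ne_top (by finiteness) hm1⟩
  refine ⟨L, _, (lt_max_of_lt_left hρ).trans_le hL, hfin, fun g e hg he hK => ?_⟩
  rw [Exc.cake hg]
  refine le_trans ?_ (mul_le_mul' le_rfl (Dl_le hg L))
  rw [Dl, ← lintegral_const_mul' _ _ hfin]
  refine lintegral_mono fun s => ?_
  rw [add_mul]
  by_cases hb : bb {y | s < g y} L ≤ ENNReal.ofReal m
  · obtain ⟨ν, h0, hν, h1⟩ := h _ (measurableSet_lt measurable_const hg) 1 one_pos
    have h2 := h1 1 le_rfl le_rfl (hb.trans (ENNReal.ofReal_le_ofReal (by simp [hm])))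
    rw [ENNReal.ofReal_one, mul_one] at h2
    refine le_trans ?_ le_self_add
    rw [mul_assoc]
    refine (Exc.PS_le hc he hν (le_max_right ρ _) fun hh => hK s ν h0 hν hh ?_).trans
      (mul_le_mul' le_rfl h2)
    refine (measure_mono (inter_subset_inter_right _ (ball_subset_ball (le_max_left _ _)))).trans
      (h2.trans ((mul_le_mul' le_rfl hb).trans ?_))
    rw [← ENNReal.ofReal_mul hC1.le]
    exact ENNReal.ofReal_le_ofReal ((le_div_iff₀' hC1).1 (min_le_right _ _))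
  · refine le_trans ?_ le_add_self
    calc volume (Exc.PS {y | s < g y} ((8 / c + 1) • e)) ≤ V2 * V3 := by
          refine (measure_mono fun p hp => hp.1).trans (le_of_eq ?_)
          rw [Measure.volume_eq_prod, Measure.prod_prod]
      _ = V2 * V3 / ENNReal.ofReal m * ENNReal.ofReal m :=
          (ENNReal.div_mul_cancel hm1 ENNReal.ofReal_ne_top).symm
      _ ≤ _ := mul_le_mul' le_rfl (not_le.1 hb).le

end Vale.Agent.P137
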