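import Vale.Agent.P137.Spec

open MeasureTheory Metric Set Filter Topology
open scoped ENNReal NNReal

namespace Vale.Agent.P137

namespace Fi

variable {d : ℕ}

theorem av_eq {g : E d → ℝ} (hg : Integrable g) (h0 : ∀ x, 0 ≤ g x) (c : E d) {r : ℝ}
    (hr : 0 < r) :
    ENNReal.ofReal (av g c r) = (∫⁻ y in ball c r, ‖g y‖ₑ) / volume (ball c r) := by
  have h1 : 0 < (volume (ball c r)).toReal :=
    ENNReal.toReal_pos (measure_ball_pos _ _ hr).ne' measure_ball_lt_top.ne
  rw [av, ENNReal.ofReal_div_of_pos h1, ENNReal.ofReal_toReal measure_ball_lt_top.ne,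
    ← ofReal_integral_norm_eq_lintegral_enorm hg.integrableOn]
  simp only [Real.norm_of_nonneg (h0 _)]

theorem le_Mu (f : E d → ℝ) {c x : E d} {r : ℝ} (hr : 0 < r) (hx : ‖c - x‖ ≤ r) :
    (∫⁻ y in ball c r, ‖f y‖ₑ) / volume (ball c r) ≤ Mu f x := by
  by_cases hM : Mu f x = ∞
  · rw [hM]
    exact le_top
  have h1 : Tendsto (fun t : ℝ => ENNReal.ofReal (t ^ Module.finrank ℝ (E d)) * Mu f x)
      (𝓝[>] 1) (𝓝 (ENNReal.ofReal (1 ^ Module.finrank ℝ (E d)) * Mu f x)) :=
    ENNReal.Tendsto.mul_const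
      (((ENNReal.continuous_ofReal.comp (continuous_pow _)).tendsto 1).mono_left nhdsWithin_le_nhds)
      (Or.inr hM)
  rw [one_pow, ENNReal.ofReal_one, one_mul] at h1
  refine ge_of_tendsto h1 (eventually_nhdsWithin_of_forall fun t (ht : 1 < t) => ?_)
  have h2 : x ∈ ball c (t * r) := by
    rw [mem_ball, dist_comm, dist_eq_norm]
    nlinarith
  have h3 : (∫⁻ y in ball c (t * r), ‖f y‖ₑ) / volume (ball c (t * r)) ≤ Mu f x :=
    le_iSup₂_of_le c (t * r) (le_iSup_of_le h2 le_rfl)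
  rw [ENNReal.div_le_iff (measure_ball_pos _ _ (by positivity)).ne' measure_ball_lt_top.ne,
    Measure.addHaar_ball_mul_of_pos _ _ (by positivity), ← Measure.addHaar_ball_center _ c] at h3
  rw [ENNReal.div_le_iff (measure_ball_pos _ _ hr).ne' measure_ball_lt_top.ne, mul_comm _ (Mu f x),
    mul_assoc]
  exact (lintegral_mono_set (ball_subset_ball (by nlinarith))).trans h3

theorem inner_grad (u : E d → ℝ) (x v : E d) : inner ℝ (gradient u x) v = fderiv ℝ u x v :=
  InnerProductSpace.toDual_symm_apply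

theorem enorm_grad (u : E d → ℝ) (x : E d) : ‖gradient u x‖ₑ = ‖fderiv ℝ u x‖ₑ :=
  LinearIsometryEquiv.enorm_map _ _

theorem meas_grad (u : E d → ℝ) : Measurable (gradient u) :=
  (InnerProductSpace.toDual ℝ (E d)).symm.continuous.measurable.comp (measurable_fderiv ℝ u)

theorem wgrad_lip {u : E d → ℝ} {K : ℝ≥0} (hu : LipschitzWith K u) : WGrad u (gradient u) := by
  intro φ hφ hc v
  obtain ⟨L, hL⟩ := hφ.lipschitzWith_of_hasCompactSupport hc (by simp)
  have h1 := LipschitzWith.integral_lineDeriv_mul_eq (μ := volume) hu hL hc v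
  have h2 : ∫ x, inner ℝ (gradient u x) v * φ x = ∫ x, lineDeriv ℝ u x v * φ x := by
    refine integral_congr_ae ?_
    filter_upwards [hu.ae_differentiableAt_of_real (μ := volume)] with x hx
    rw [inner_grad, hx.lineDeriv_eq_fderiv]
  rw [h2, h1, ← integral_neg]
  refine integral_congr_ae (Eventually.of_forall fun x => ?_)
  simp only [(hφ.differentiable (by simp)).differentiableAt.lineDeriv_eq_fderiv, map_neg]
  ring

theorem decay (hd : 1 ≤ d) {g u : E d → ℝ} (hg : Integrable g) (h0 : ∀ x, 0 ≤ g x) {δ : ℝ}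
    (hδ : 0 < δ) (hu : ∀ x, 0 < u x → ∃ c r, δ ≤ r ∧ ‖c - x‖ ≤ r ∧ u x = av g c r)
    {ε : ℝ} (hε : 0 < ε) : ∃ R, ∀ x, R ≤ ‖x‖ → u x ≤ ε := by
  set κ := (volume (ball (0 : E d) 1)).toReal
  have hκ : 0 < κ := ENNReal.toReal_pos (measure_ball_pos _ _ one_pos).ne' measure_ball_lt_top.ne
  have hv : ∀ (c : E d) (r : ℝ), 0 < r → (volume (ball c r)).toReal = r ^ d * κ := fun c r hr => by
    rw [Measure.addHaar_ball_of_pos _ _ hr, ENNReal.toReal_mul, ENNReal.toReal_ofReal (by positivity),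
      finrank_euclideanSpace_fin]
  have h1 : Tendsto (fun n : ℕ => ∫ y in (ball (0 : E d) n)ᶜ, g y) atTop (𝓝 0) := by
    have := tendsto_setIntegral_of_antitone (f := g) (μ := volume)
      (s := fun n : ℕ => (ball (0 : E d) n)ᶜ) (fun _ => measurableSet_ball.compl)
      (fun a b hab => compl_subset_compl.2 (ball_subset_ball (Nat.cast_le.2 hab)))
      ⟨0, hg.integrableOn⟩
    rwa [← compl_iUnion, iUnion_ball_nat, compl_univ, Measure.restrict_empty, integral_zero_measure]
      at this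
  obtain ⟨n, hn⟩ := (h1.eventually (gt_mem_nhds (show 0 < ε * (δ ^ d * κ) by positivity))).exists
  set R := 1 + (∫ y, g y) / (ε * κ)
  have hI : 0 ≤ ∫ y, g y := integral_nonneg h0
  have hR : 1 ≤ R := le_add_of_nonneg_right (by positivity)
  refine ⟨n + 2 * R, fun x hx => ?_⟩
  by_contra hc
  obtain ⟨c, r, h2, h3, h4⟩ := hu x (by linarith)
  have hr : 0 < r := by linarith
  refine hc ?_
  rw [h4, av, hv c r hr, div_le_iff₀ (by positivity)]
  rcases le_total R r with h5 | h5
  · refine (setIntegral_le_integral hg (Eventually.of_forall h0)).trans ?_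
    have h6 : r ≤ r ^ d := le_self_pow₀ (by linarith) (by omega)
    have h7 : (∫ y, g y) / (ε * κ) ≤ r ^ d := by linarith [show (∫ y, g y) / (ε * κ) = R - 1 by ring]
    rw [div_le_iff₀ (by positivity)] at h7
    linarith
  · have h6 : ball c r ⊆ (ball (0 : E d) n)ᶜ := fun y hy hy' => by
      rw [mem_ball, dist_eq_norm] at hy
      rw [mem_ball_zero_iff] at hy'
      have := norm_sub_le (y - (y - c)) (c - x)
      rw [show y - (y - c) - (c - x) = x by abel] at this
      linarith [norm_sub_le y (y - c)]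
    refine (setIntegral_mono_set hg.integrableOn (Eventually.of_forall h0)
      h6.eventuallyLE).trans (hn.le.trans ?_)
    gcongr

theorem loc (hd : 1 ≤ d) {u : E d → ℝ} (hu : Continuous u) {W : ℝ≥0∞} (hT : Tb u W)
    (hz : ∀ ε : ℝ, 0 < ε → ∃ R, ∀ x, R ≤ ‖x‖ → u x ≤ ε) {ρ : ℝ} (hρ : 0 < ρ) :
    ∫⁻ x in ball (0 : E d) ρ, ENNReal.ofReal (u x) ≤ ENNReal.ofReal (2 * ρ) * W := by
  set h : E d := EuclideanSpace.single ⟨0, hd⟩ (2 * ρ)
  have hh : ‖h‖ = 2 * ρ := by
    rw [PiLp.norm_single, Real.norm_of_nonneg (by positivity)]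
  set w : E d → ℝ≥0∞ := fun x => ‖u (x + h) - u x‖ₑ
  have hw : Measurable w := ((hu.comp (continuous_add_const h)).sub hu).measurable.enorm
  have h1 : ∀ x, ENNReal.ofReal (u x) ≤ ∑' j : ℕ, w (x + (j : ℝ) • h) := fun x => by
    have h2 : ∀ N : ℕ, ENNReal.ofReal (u x) ≤
        ∑ j ∈ Finset.range N, w (x + (j : ℝ) • h) + ENNReal.ofReal (u (x + (N : ℝ) • h)) := by
      intro N
      induction N with
      | zero => simp
      | succ N ih =>
        rw [Finset.sum_range_succ, add_assoc]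
        refine ih.trans (add_le_add le_rfl ?_)
        rw [Nat.cast_succ, add_smul, one_smul, ← add_assoc]
        refine le_trans (ENNReal.ofReal_le_ofReal ?_) (ENNReal.ofReal_add_le.trans
          (add_le_add (ofReal_norm _).le le_rfl))
        linarith [neg_le_abs (u (x + (N : ℝ) • h + h) - u (x + (N : ℝ) • h)),
          Real.norm_eq_abs (u (x + (N : ℝ) • h + h) - u (x + (N : ℝ) • h))]
    refine ENNReal.le_of_forall_pos_le_add fun ε hε _ => ?_
    obtain ⟨R, hR⟩ := hz ε hε
    obtain ⟨N, hN⟩ := exists_nat_ge ((R + ‖x‖) / (2 * ρ))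
    refine (h2 N).trans (add_le_add (ENNReal.sum_le_tsum _) ?_)
    rw [← ENNReal.ofReal_coe_nnreal]
    refine ENNReal.ofReal_le_ofReal (hR _ ?_)
    rw [div_le_iff₀ (by positivity)] at hN
    have := norm_sub_le (x + (N : ℝ) • h) x
    rw [add_sub_cancel_left, norm_smul, hh, Real.norm_natCast] at this
    linarith
  refine (lintegral_mono h1).trans ?_
  rw [lintegral_tsum (f := fun (j : ℕ) x => w (x + (j : ℝ) • h))
    fun j => (hw.comp (measurable_add_const _)).aemeasurable]
  have h3 : ∀ j : ℕ, ∫⁻ x in ball (0 : E d) ρ, w (x + (j : ℝ) • h) =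
      ∫⁻ x in ball ((j : ℝ) • h) ρ, w x := fun j => by
    rw [← (measurePreserving_add_right volume ((j : ℝ) • h)).setLIntegral_comp_preimage_emb
      (measurableEmbedding_addRight _) w (ball ((j : ℝ) • h) ρ), preimage_add_right_ball, sub_self]
  simp only [h3]
  rw [← lintegral_iUnion (fun _ => measurableSet_ball)]
  · refine (setLIntegral_le_lintegral _ _).trans ((hT h).trans (le_of_eq ?_))
    rw [← ofReal_norm, hh]
  · intro i j hij
    refine ball_disjoint_ball ?_
    rw [dist_eq_norm, ← sub_smul, norm_smul, hh]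
    have : (1 : ℝ) ≤ ‖(i : ℝ) - j‖ := by
      have h4 : (1 : ℤ) ≤ |(i : ℤ) - j| := Int.one_le_abs (by omega)
      rw [Real.norm_eq_abs]
      exact_mod_cast h4
    nlinarith

theorem grad_eq {u v : E d → ℝ} (h : ∀ y, u y ≤ v y) {x : E d} (hx : v x ≤ u x)
    (hu : DifferentiableAt ℝ u x) (hv : DifferentiableAt ℝ v x) : gradient v x = gradient u x := by
  have h1 : IsLocalMin (v - u) x := Eventually.of_forall fun y => by
    simp only [Pi.sub_apply]
    linarith [h y]
  have h2 := h1.fderiv_eq_zero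
  rw [fderiv_sub hv hu, sub_eq_zero] at h2
  rw [gradient, gradient, h2]

theorem cauchy {u : ℕ → E d → ℝ} (hm : ∀ x, Monotone fun n => u n x)
    (hl : ∀ n, ∃ K, LipschitzWith K (u n)) (hi : ∀ n, Integrable (gradient (u n)))
    (hs : ∀ ε : ℝ≥0∞, 0 < ε → ∃ N, ∀ n n', N ≤ n → n ≤ n' →
      ∫⁻ x in {x | u n x < u n' x}, ‖gradient (u n') x‖ₑ ≤ ε) :
    CauchySeq fun n => (hi n).toL1 _ := by
  have hc : ∀ n, Measurable (u n) := fun n => (hl n).choose_spec.continuous.measurable
  refine EMetric.cauchySeq_iff'.2 fun ε hε => ?_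
  obtain ⟨η, hη, h3⟩ : ∃ η : ℝ≥0∞, 0 < η ∧ η + η + η < ε := by
    obtain ⟨a, ha, hb⟩ := ENNReal.exists_nnreal_pos_mul_lt (a := 3) (b := ε) (by simp) hε.ne'
    refine ⟨a, ENNReal.coe_pos.2 ha, lt_of_eq_of_lt ?_ hb⟩
    ring
  obtain ⟨N, hN⟩ := hs η hη
  set A : ℕ → Set (E d) := fun n => {x | u n x ≤ u N x} ∩ ⋃ m, {x | u N x < u m x}
  have hA : ∀ n, MeasurableSet (A n) := fun n => (measurableSet_le (hc _) (hc _)).inter
    (MeasurableSet.iUnion fun m => measurableSet_lt (hc _) (hc _))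
  have h1 := tendsto_measure_iInter_atTop (μ := volume.withDensity fun x => ‖gradient (u N) x‖ₑ)
    (fun n => (hA n).nullMeasurableSet)
    (fun a b hab x hx => ⟨(hm x hab).trans hx.1, hx.2⟩)
    ⟨0, by
      rw [withDensity_apply _ (hA 0)]
      exact ((setLIntegral_le_lintegral _ _).trans_lt (hi N).2).ne⟩
  have h2 : ⋂ n, A n = ∅ := by
    refine eq_empty_of_forall_notMem fun x hx => ?_
    obtain ⟨m, hx'⟩ := mem_iUnion.1 (mem_iInter.1 hx 0).2
    exact lt_irrefl _ (lt_of_lt_of_le (show u N x < u m x from hx') (mem_iInter.1 hx m).1)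
  rw [h2, measure_empty] at h1
  obtain ⟨M, hM⟩ := eventually_atTop.1 (h1.eventually (gt_mem_nhds hη))
  refine ⟨max N M, fun n hn => lt_of_le_of_lt ?_ h3⟩
  set k := max N M
  have hk : N ≤ k := le_max_left _ _
  have h4 := (hM k (le_max_right _ _)).le
  rw [Function.comp_apply, withDensity_apply _ (hA k)] at h4
  have m1 : ∀ a b, MeasurableSet {x | u a x < u b x} := fun a b => measurableSet_lt (hc _) (hc _)
  have m2 : ∀ a, Measurable fun x => ‖gradient (u a) x‖ₑ := fun a => (meas_grad _).enorm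
  refine le_trans ?_ (add_le_add (add_le_add (hN k n hk hn) (hN N k le_rfl hk)) h4)
  rw [Integrable.edist_toL1_toL1, ← lintegral_indicator (m1 _ _), ← lintegral_indicator (m1 _ _),
    ← lintegral_indicator (hA _), ← lintegral_add_left ((m2 _).indicator (m1 _ _)),
    ← lintegral_add_right _ ((m2 _).indicator (hA _))]
  refine lintegral_mono_ae ?_
  filter_upwards [ae_all_iff.2 fun a => (hl a).choose_spec.ae_differentiableAt_of_real
    (μ := volume)] with x hx
  rcases le_or_gt (u n x) (u k x) with h5 | h5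
  · rw [grad_eq (fun y => hm y hn) h5 (hx _) (hx _), edist_self]
    exact zero_le
  · rw [add_assoc, indicator_of_mem (show x ∈ {x | u k x < u n x} from h5)]
    refine (edist_triangle_right _ _ 0).trans ?_
    rw [edist_zero_right, edist_zero_right]
    refine add_le_add le_rfl ?_
    rcases le_or_gt (u k x) (u N x) with h6 | h6
    · rw [indicator_of_mem (show x ∈ A k from ⟨h6, mem_iUnion.2 ⟨n, (hm x hk).trans_lt h5⟩⟩),
        grad_eq (fun y => hm y hk) h6 (hx _) (hx _)]
      exact le_add_self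
    · rw [indicator_of_mem (show x ∈ {x | u N x < u k x} from h6)]
      exact le_self_add

theorem wgrad_lim {u : ℕ → E d → ℝ} {D : ℕ → E d → E d} {U : E d → ℝ} {H : E d → E d}
    (hu : ∀ n, Measurable (u n)) (hw : ∀ n, WGrad (u n) (D n)) (hi : ∀ n, Integrable (D n))
    (hU : LocallyIntegrable U) (hH : Integrable H) (hb : ∀ᵐ x, ∀ n, ‖u n x‖ ≤ U x)
    (h1 : ∀ᵐ x, Tendsto (fun n => u n x) atTop (𝓝 (U x)))
    (h2 : Tendsto (fun n => ∫⁻ x, edist (D n x) (H x)) atTop (𝓝 0)) : WGrad U H := by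
  intro φ hφ hc v
  have c1 : Continuous fun x => fderiv ℝ φ x v :=
    (hφ.continuous_fderiv (by simp)).clm_apply continuous_const
  have c2 : HasCompactSupport fun x => fderiv ℝ φ x v := hc.fderiv_apply ℝ v
  have t1 : Tendsto (fun n => ∫ x, u n x * fderiv ℝ φ x v) atTop
      (𝓝 (∫ x, U x * fderiv ℝ φ x v)) := by
    refine tendsto_integral_of_dominated_convergence (fun x => U x • ‖fderiv ℝ φ x v‖)
      (fun n => ((hu n).mul c1.measurable).aestronglyMeasurable)
      (hU.integrable_smul_right_of_hasCompactSupport c1.norm c2.norm) (fun n => ?_) ?_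
    · filter_upwards [hb] with x hx
      rw [norm_mul, smul_eq_mul]
      exact mul_le_mul_of_nonneg_right (hx n) (norm_nonneg _)
    · filter_upwards [h1] with x hx
      exact hx.mul_const _
  obtain ⟨B, hB⟩ := hc.exists_bound_of_continuous hφ.continuous
  have i1 : ∀ K : E d → E d, Integrable K → Integrable fun x => inner ℝ (K x) v * φ x :=
    fun K hK => (hK.inner_const v).mul_bdd hφ.continuous.aestronglyMeasurable
      (Eventually.of_forall hB)
  have t2 : Tendsto (fun n => ∫ x, inner ℝ (D n x) v * φ x) atTop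
      (𝓝 (∫ x, inner ℝ (H x) v * φ x)) := by
    refine tendsto_integral_of_L1 _ (i1 H hH).1 (Eventually.of_forall fun n => i1 _ (hi n)) ?_
    have h3 := ENNReal.Tendsto.const_mul (a := ENNReal.ofReal (‖v‖ * B)) h2
      (Or.inr ENNReal.ofReal_ne_top)
    rw [mul_zero] at h3
    refine tendsto_of_tendsto_of_tendsto_of_le_of_le tendsto_const_nhds h3
      (fun _ => zero_le) fun n => ?_
    simp only
    rw [← lintegral_const_mul' _ _ ENNReal.ofReal_ne_top]
    refine lintegral_mono fun x => ?_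
    have b0 : 0 ≤ B := (norm_nonneg _).trans (hB x)
    rw [edist_dist, ← ENNReal.ofReal_mul (by positivity), ← ofReal_norm, ← sub_mul,
      ← inner_sub_left, norm_mul, dist_eq_norm]
    refine ENNReal.ofReal_le_ofReal ((mul_le_mul (norm_inner_le_norm _ _) (hB x) (norm_nonneg _)
      (by positivity)).trans (le_of_eq (by ring)))
  refine tendsto_nhds_unique t1 ?_
  simp only [hw _ φ hφ hc v]
  exact t2.neg

end Fi

open Fi in
theorem finStmt {d : ℕ} (hd : 1 ≤ d) (hT : TrStmt d) (hU : UStmt d) (hG : GradStmt d) :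
    FinStmt d := by
  obtain ⟨C, hG⟩ := hG
  refine ⟨C, fun f G hf hGi hw => ?_⟩
  set V := ∫⁻ x, ‖G x‖ₑ
  have hV : V ≠ ∞ := hGi.2.ne
  set g : E d → ℝ := fun x => ‖hf.1.mk f x‖
  have e1 : f =ᵐ[volume] hf.1.mk f := hf.1.ae_eq_mk
  have gm : Measurable g := hf.1.stronglyMeasurable_mk.measurable.norm
  have gi : Integrable g := (hf.congr e1).norm
  have g0 : ∀ x, 0 ≤ g x := fun _ => norm_nonneg _
  have gT : Tb g V := fun h => by
    refine le_trans (lintegral_mono_ae ?_) (hT f G hf.locallyIntegrable hGi hw h)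
    filter_upwards [e1, (measurePreserving_add_right volume h).quasiMeasurePreserving.ae e1]
      with x h1 h2
    rw [h1, h2, ← ofReal_norm, ← ofReal_norm]
    exact ENNReal.ofReal_le_ofReal (abs_norm_sub_norm_le _ _)
  have e2 : ∀ (c : E d) (r : ℝ), 0 < r → ENNReal.ofReal (av g c r) =
      (∫⁻ y in ball c r, ‖f y‖ₑ) / volume (ball c r) := fun c r hr => by
    rw [av_eq gi g0 c hr]
    congr 1
    refine lintegral_congr_ae (ae_restrict_of_ae ?_)
    filter_upwards [e1] with x hx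
    rw [hx, enorm_norm]
  obtain ⟨G1, G2⟩ := hG g V gm gi g0 hV gT
  set δ : ℕ → ℝ := fun n => 1 / ((n : ℝ) + 1)
  have δ0 : ∀ n, 0 < δ n := fun n => Nat.one_div_pos_of_nat
  have δ1 : ∀ {a b : ℕ}, a ≤ b → δ b ≤ δ a := fun h => Nat.one_div_le_one_div h
  set u : ℕ → E d → ℝ := fun n => uu g (δ n)
  have hl : ∀ n, ∃ K, LipschitzWith K (u n) := fun n => (hU g V _ gi g0 hV gT (δ0 n)).1
  have u1 : ∀ n x c r, δ n ≤ r → ‖c - x‖ ≤ r → av g c r ≤ u n x :=
    fun n => (hU g V _ gi g0 hV gT (δ0 n)).2.1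
  have u0 : ∀ n x, 0 ≤ u n x := fun n => (hU g V _ gi g0 hV gT (δ0 n)).2.2.1
  have u2 : ∀ n x, 0 < u n x → ∃ c r, δ n ≤ r ∧ ‖c - x‖ ≤ r ∧ u n x = av g c r :=
    fun n => (hU g V _ gi g0 hV gT (δ0 n)).2.2.2
  have hc : ∀ n, Continuous (u n) := fun n => (hl n).choose_spec.continuous
  have hm : ∀ x, Monotone fun n => u n x := fun x a b hab => by
    rcases (u0 a x).eq_or_lt with h | h
    · exact h.ge.trans (u0 b x)
    · obtain ⟨c, r, h1, h2, h3⟩ := u2 a x h
      exact h3.le.trans (u1 b x c r ((δ1 hab).trans h1) h2)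
  have hm' : Monotone fun n x => ENNReal.ofReal (u n x) :=
    fun a b hab x => ENNReal.ofReal_le_ofReal (hm x hab)
  have e3 : ∀ x, Mu f x = ⨆ n, ENNReal.ofReal (u n x) := fun x => by
    refine le_antisymm (iSup₂_le fun c r => iSup_le fun hx => ?_) (iSup_le fun n => ?_)
    · have hr := pos_of_mem_ball hx
      obtain ⟨n, hn⟩ := exists_nat_one_div_lt hr
      rw [← e2 c r hr]
      refine le_iSup_of_le n (ENNReal.ofReal_le_ofReal (u1 n x c r hn.le ?_))
      rw [← dist_eq_norm, dist_comm]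
      exact (mem_ball.1 hx).le
    · rcases (u0 n x).eq_or_lt with h | h
      · rw [← h, ENNReal.ofReal_zero]
        exact zero_le
      · obtain ⟨c, r, h1, h2, h3⟩ := u2 n x h
        rw [h3, e2 c r ((δ0 n).trans_le h1)]
        exact le_Mu f ((δ0 n).trans_le h1) h2
  have b1 : ∀ n, ∫⁻ x, ‖gradient (u n) x‖ₑ ≤ C * V := fun n => by
    simp only [enorm_grad]
    exact G1 _ (δ0 n)
  have b2 : (C : ℝ≥0∞) * V ≠ ∞ := ENNReal.mul_ne_top ENNReal.coe_ne_top hV
  have hi : ∀ n, Integrable (gradient (u n)) := fun n =>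
    ⟨(meas_grad _).aestronglyMeasurable, (b1 n).trans_lt b2.lt_top⟩
  have hw' : ∀ n, WGrad (u n) (gradient (u n)) := fun n => wgrad_lip (hl n).choose_spec
  have mu : ∀ n, Measurable fun x => ENNReal.ofReal (u n x) := fun n =>
    (hc n).measurable.ennreal_ofReal
  have mM : Measurable (Mu f) := by
    rw [funext e3]
    exact Measurable.iSup mu
  have b3 : ∀ ρ : ℝ, 0 < ρ → ∫⁻ x in ball (0 : E d) ρ, Mu f x ≠ ∞ := fun ρ hρ => by
    simp only [e3]
    rw [lintegral_iSup mu hm']
    refine ne_top_of_le_ne_top (ENNReal.mul_ne_top (a := ENNReal.ofReal (2 * ρ))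
      ENNReal.ofReal_ne_top b2) (iSup_le fun n => ?_)
    exact loc hd (hc n) (fun h => (hT _ _ (hc n).locallyIntegrable (hi n) (hw' n) h).trans
      (mul_le_mul_right (b1 n) _)) (fun ε hε => decay hd gi g0 (δ0 n) (u2 n) hε) hρ
  have b4 : ∀ᵐ x, Mu f x < ∞ := by
    rw [← Measure.restrict_univ (μ := volume), ← iUnion_ball_nat_succ (0 : E d),
      ae_restrict_iUnion_iff]
    exact fun n => ae_lt_top mM (b3 _ (by positivity))
  have b5 : LocallyIntegrable fun x => (Mu f x).toReal := fun x =>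
    ⟨ball 0 (‖x‖ + 1), isOpen_ball.mem_nhds (by simp),
      integrable_toReal_of_lintegral_ne_top mM.aemeasurable (b3 _ (by positivity))⟩
  obtain ⟨H, hH⟩ := cauchySeq_tendsto_of_complete (cauchy hm hl hi fun ε hε => by
    obtain ⟨a, ha, h⟩ := G2 ε hε
    obtain ⟨N, hN⟩ := exists_nat_one_div_lt ha
    refine ⟨N, fun n n' h1 h2 => ?_⟩
    simp only [enorm_grad]
    exact h _ _ (δ0 n') (δ1 h2) ((δ1 h1).trans hN.le))
  refine ⟨b4, b5, H, L1.integrable_coeFn H, wgrad_lim (fun n => (hc n).measurable) hw' hi b5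
    (L1.integrable_coeFn H) ?_ ?_ ?_, ?_⟩
  · filter_upwards [b4] with x hx n
    rw [Real.norm_of_nonneg (u0 n x), ← ENNReal.ofReal_le_iff_le_toReal hx.ne, e3]
    exact le_iSup_of_le n le_rfl
  · filter_upwards [b4] with x hx
    have h1 := tendsto_atTop_iSup (f := fun n => ENNReal.ofReal (u n x)) fun a b hab => hm' hab x
    rw [← e3] at h1
    have h2 := (ENNReal.tendsto_toReal hx.ne).comp h1
    simpa only [Function.comp_def, ENNReal.toReal_ofReal (u0 _ x)] using h2
  · have h1 := tendsto_iff_edist_tendsto_0.1 hH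
    rw [← Integrable.toL1_coeFn H (L1.integrable_coeFn H)] at h1
    simpa only [Integrable.edist_toL1_toL1] using h1
  · rw [← L1.norm_eq_integral_norm, integral_norm_eq_lintegral_enorm hGi.1]
    refine le_of_tendsto' hH.norm fun n => ?_
    rw [Integrable.norm_toL1_eq_lintegral_enorm, ← ENNReal.coe_toReal, ← ENNReal.toReal_mul]
    exact ENNReal.toReal_mono b2 (b1 n)

end Vale.Agent.P137
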