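import Vale.Agent.P137.CBase

open MeasureTheory Metric Set Filter
open scoped ENNReal NNReal RealInnerProductSpace Topology

namespace Vale.Agent.P137

variable {d : ℕ}

namespace FinC

lemma Mc_le_Mu (f : E d → ℝ) (x : E d) : Mc f x ≤ Mu f x :=
  iSup₂_le fun r hr => le_iSup₂_of_le x r (le_iSup_of_le (mem_ball_self hr) le_rfl)

lemma Mc_meas {g : E d → ℝ} (gi : Integrable g) (g0 : ∀ x, 0 ≤ g x) : Measurable (Mc g) := by
  refine LowerSemicontinuous.measurable (lowerSemicontinuous_biSup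
    (f := fun (r : ℝ) (_ : 0 < r) x => (∫⁻ y in ball x r, ‖g y‖ₑ) / volume (ball x r))
    fun r hr => Continuous.lowerSemicontinuous ?_)
  simp only [← Fi.av_eq gi g0 _ hr]
  refine ENNReal.continuous_ofReal.comp (continuous_iff_continuousAt.2 fun x => ?_)
  exact (TU.av_cont gi (p := (x, r)) hr).comp (f := fun y : E d => (y, r)) (by fun_prop)

lemma tt_nat {g : E d → ℝ} (hg : Measurable g) {V : ℝ≥0∞} (hT : Tb g V) {L : ℝ} (hL : 0 < L)
    (k : ℤ) : ∑' j : ℕ, tt g (2 ^ (k - j) * L) ≤ volume (ball (0 : E d) 1) * V :=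
  (ENNReal.tsum_comp_le_tsum_of_injective (f := fun j : ℕ => k - (j : ℤ))
    (fun a b h => by simpa using h) fun j : ℤ => tt g (2 ^ j * L)).trans (tt_sum hg hT hL)

lemma lint_univ {f : E d → ℝ≥0∞} {B : ℝ≥0∞} (h : ∀ ρ : ℝ, ∫⁻ x in ball (0 : E d) ρ, f x ≤ B) :
    ∫⁻ x, f x ≤ B := by
  rw [← setLIntegral_univ, ← iUnion_ball_nat (0 : E d), setLIntegral_iUnion_of_directed]
  · exact iSup_le fun n => h n
  · exact Monotone.directed_le fun a b hab => ball_subset_ball (Nat.cast_le.2 hab)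

lemma pow_lim (hd : 2 ≤ d) :
    Tendsto (fun n : ℕ => ENNReal.ofReal (((2 : ℝ) ^ (n : ℤ)) ^ d)⁻¹) atTop (𝓝 0) := by
  rw [← ENNReal.ofReal_zero]
  refine ENNReal.tendsto_ofReal (Tendsto.inv_tendsto_atTop ?_)
  simp only [zpow_natCast]
  exact (tendsto_pow_atTop (by omega)).comp (tendsto_pow_atTop_atTop_of_one_lt one_lt_two)

lemma thick {μ : Measure (E d)} [IsFiniteMeasureOnCompacts μ] {K : Set (E d)} (hK : IsCompact K)
    (h0 : μ K = 0) {B ε : ℝ≥0∞} (hB : B ≠ ∞) (hε : 0 < ε) :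
    ∃ a : ℝ, 0 < a ∧ ∀ b, b ≤ a → B * μ (cthickening b K) ≤ ε := by
  have h1 := ENNReal.Tendsto.const_mul (a := B) (tendsto_measure_cthickening_of_isCompact
    (μ := μ) hK) (Or.inr hB)
  rw [h0, mul_zero] at h1
  obtain ⟨a, h2, h3⟩ := (((h1.eventually (eventually_le_nhds hε)).filter_mono
    nhdsWithin_le_nhds).and (self_mem_nhdsWithin (s := Ioi 0))).exists
  exact ⟨a, h3, fun b hb => (mul_le_mul' le_rfl (measure_mono (cthickening_mono hb K))).trans h2⟩

end FinC

open FinC in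
theorem finCStmt (hd : 2 ≤ d) (hL : LocStmt d) (hMo : MolStmt d) (hM : MStmt d) (hG : GlobStmt d)
    (hW : WeakStmt d) (hC : ConvStmt d) (hF : FinStmt d) : FinCStmt d := by
  obtain ⟨C, R, L, hC1, hR, hL0, hG⟩ := hG
  obtain ⟨C0, hF⟩ := hF
  set om := volume (ball (0 : E d) 1) with hom
  have hom1 : om ≠ ∞ := measure_ball_lt_top.ne
  refine ⟨(2 * d * (C * d + C * om)).toReal, fun f G hf hGi hw => ?_⟩
  obtain ⟨F1, F2, -⟩ := hF f G hf hGi hw
  set V := ∫⁻ x, ‖G x‖ₑ with hVe
  have hV : V ≠ ∞ := hGi.2.ne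
  set g : E d → ℝ := fun x => ‖hf.1.mk f x‖
  have e1 : f =ᵐ[volume] hf.1.mk f := hf.1.ae_eq_mk
  have gm : Measurable g := hf.1.stronglyMeasurable_mk.measurable.norm
  have gi : Integrable g := (hf.congr e1).norm
  have g0 : ∀ x, 0 ≤ g x := fun _ => norm_nonneg _
  have gT : LTb g G := fun h U hU => by
    refine le_trans (lintegral_mono_ae (ae_restrict_of_ae ?_))
      (hL f G hf.locallyIntegrable hGi hw h U hU)
    filter_upwards [e1, (measurePreserving_add_right volume h).quasiMeasurePreserving.ae e1]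
      with x h1 h2
    rw [h1, h2, ← ofReal_norm, ← ofReal_norm]
    exact ENNReal.ofReal_le_ofReal (abs_norm_sub_norm_le _ _)
  have e2 : Mc f = Mc g := funext fun x => iSup_congr fun r => iSup_congr fun _ => by
    congr 1
    refine lintegral_congr_ae (ae_restrict_of_ae ?_)
    filter_upwards [e1] with x hx
    rw [hx, enorm_norm]
  have b1 : ∀ᵐ x, Mc f x < ∞ := F1.mono fun x hx => (Mc_le_Mu f x).trans_lt hx
  have b2 : LocallyIntegrable fun x => (Mc f x).toReal := by
    refine F2.mono (e2 ▸ (Mc_meas gi g0).ennreal_toReal.aestronglyMeasurable) ?_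
    filter_upwards [F1] with x hx
    rw [Real.norm_of_nonneg ENNReal.toReal_nonneg, Real.norm_of_nonneg ENNReal.toReal_nonneg]
    exact ENNReal.toReal_mono hx.ne (Mc_le_Mu f x)
  refine ⟨b1, b2, ?_⟩
  rw [e2] at b1 b2 ⊢
  obtain ⟨M1, M2⟩ := hMo g G gm gi g0 hGi gT
  choose K hK using fun n => (M1 n).1
  have u1 : ∀ n, LipschitzWith (K n) (mc (gn g n)) := fun n =>
    (hM _ _ (hK n) (M1 n).2.1 (M1 n).2.2.1).1
  have G1 := fun n K0 k1 => hG (gn g n) (K n) V K0 k1 (hK n) (M1 n).2.1 (M1 n).2.2.1 hV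
    (M1 n).2.2.2.1
  have hW1 : (C * d + C * om) * V ≠ ∞ := by finiteness
  obtain ⟨H, H1, H2, H3⟩ := hW (fun n => mc (gn g n)) (fun n => gradient (mc (gn g n)))
    (fun x => (Mc g x).toReal) ((C * d + C * om) * V) hW1 (fun n => Fi.meas_grad _)
    (fun n => by
      simp only [Fi.enorm_grad]
      refine lint_univ fun ρ => ?_
      have t1 := (ENNReal.Tendsto.const_mul (a := C) (ENNReal.Tendsto.const_mul
        (a := volume (ball (0 : E d) ρ) * V) (pow_lim hd) (Or.inr (ENNReal.mul_ne_top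
        measure_ball_lt_top.ne hV))) (Or.inr hC1)).const_add ((C * d + C * om) * V)
      rw [mul_zero, mul_zero, add_zero] at t1
      refine ge_of_tendsto' t1 fun k => (G1 n _ k measurableSet_ball).trans ?_
      rw [add_mul, mul_assoc C d, mul_assoc C om]
      refine add_le_add (add_le_add (mul_le_mul' le_rfl ?_) (mul_le_mul' le_rfl
        (tt_nat (hK n).continuous.measurable (M1 n).2.2.2.1 hL0 k))) le_rfl
      exact ((M1 n).2.2.2.2 _ isClosed_cthickening.measurableSet).trans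
        (mul_le_mul' le_rfl (setLIntegral_le_lintegral _ _)))
    (fun n => Fi.wgrad_lip (u1 n))
    (hC g gm gi g0 b1 b2 fun n => ⟨(M1 n).1, (M1 n).2.1, (M1 n).2.2.1⟩)
    (fun K0 hK0 h0 ε hε => by
      obtain ⟨η, hη, h3⟩ : ∃ η : ℝ≥0∞, 0 < η ∧ η + η + η ≤ ε := by
        obtain ⟨a, ha, hb⟩ := ENNReal.exists_nnreal_pos_mul_lt (a := 3) (b := ε) (by simp) hε.ne'
        refine ⟨a, ENNReal.coe_pos.2 ha, le_of_eq_of_le ?_ hb.le⟩
        ring
      have := isFiniteMeasure_withDensity (μ := volume) (f := fun x => ‖G x‖ₑ) hV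
      obtain ⟨a, a1, a2⟩ := thick (μ := volume.withDensity fun x => ‖G x‖ₑ) hK0
        (withDensity_absolutelyContinuous _ _ h0) (B := C * d) (by finiteness) hη
      obtain ⟨k0, k2, -⟩ := exists_mem_Ico_zpow (show 0 < a / (R + 2) by positivity)
        (one_lt_two (α := ℝ))
      obtain ⟨η', b3, b4⟩ := ENNReal.exists_nnreal_pos_mul_lt hC1 hη.ne'
      obtain ⟨k1, k3, k4⟩ := M2 L η' k0 hL0 (ENNReal.coe_pos.2 b3)
      obtain ⟨δ, c1, c2⟩ := thick (μ := volume) hK0 h0
        (B := C * (V * ENNReal.ofReal (((2 : ℝ) ^ k1) ^ d)⁻¹)) (by finiteness) hη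
      have p1 : (0 : ℝ) < 2 ^ k1 := by positivity
      have p2 : (2 : ℝ) ^ k1 * (R + 2) ≤ a := by
        rw [← le_div_iff₀ (by positivity)]
        exact (zpow_le_zpow_right₀ one_le_two k3).trans k2
      have p3 : ∀ᶠ n : ℕ in atTop, (2 : ℝ) / (n + 1) ≤ 2 ^ k1 := by
        have := (tendsto_one_div_add_atTop_nhds_zero_nat (𝕜 := ℝ)).const_mul 2
        rw [mul_zero] at this
        exact (this.eventually (eventually_le_nhds p1)).mono fun n hn => by
          rwa [mul_one_div] at hn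
      refine ⟨min δ (2 ^ k1), lt_min c1 p1, ?_⟩
      filter_upwards [k4, p3] with n n1 n2
      simp only [Fi.enorm_grad]
      refine (G1 n _ k1 isClosed_cthickening.measurableSet).trans (le_trans
        (add_le_add (add_le_add ?_ ?_) ?_) h3)
      · refine (mul_le_mul' le_rfl ((M1 n).2.2.2.2 _ isClosed_cthickening.measurableSet)).trans
          (le_trans ?_ (a2 a le_rfl))
        rw [withDensity_apply _ isClosed_cthickening.measurableSet, ← mul_assoc]
        refine mul_le_mul' le_rfl (lintegral_mono_set ((cthickening_subset_of_subset _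
          (cthickening_cthickening_subset (by positivity) (lt_min c1 p1).le _)).trans
          ((cthickening_cthickening_subset (by positivity) (add_nonneg (by positivity)
          (lt_min c1 p1).le) _).trans (cthickening_mono ?_ _))))
        linarith [min_le_right δ (2 ^ k1)]
      · exact (mul_le_mul' le_rfl n1).trans (mul_comm C _ ▸ b4.le)
      · refine le_trans (le_of_eq ?_) (c2 _ (min_le_left δ (2 ^ k1)))
        ring)
  refine ⟨H, H1, H2, ?_⟩
  rw [integral_norm_eq_lintegral_enorm hGi.1, integral_norm_eq_lintegral_enorm H1.1,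
    ← ENNReal.toReal_mul, mul_assoc]
  exact ENNReal.toReal_mono (by finiteness) H3

end Vale.Agent.P137
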