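import Vale.Agent.P137.CBase

open MeasureTheory Metric Set Filter
open scoped ENNReal NNReal RealInnerProductSpace Topology Pointwise

namespace Vale.Agent.P137

variable {d : ℕ}

namespace Geo

/-- sets whose long translates leave the set are small -/
lemma tr {A : Set (E d)} (hA : MeasurableSet A) (hs : A ⊆ ball 0 4) {ν : E d} (hν : ‖ν‖ = 1)
    {t0 : ℝ} (ht : 0 < t0) (h : ∀ z ∈ A, ∀ t, t0 ≤ t → z + t • ν ∉ A) :
    volume A ≤ ENNReal.ofReal (t0 * (volume (ball (0 : E d) 9)).toReal) := by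
  set n : ℕ := ⌊4 / t0⌋₊ + 1 with hn
  let T : ℕ → Set (E d) := fun j => {v | ((j : ℝ) * t0) • ν + v ∈ A}
  have hm : ∀ j, MeasurableSet (T j) := fun j => measurable_const_add _ hA
  have key : ∀ i j : ℕ, i < j → Disjoint (T i) (T j) := by
    intro i j hij
    rw [Set.disjoint_left]
    intro v hi hj
    have h1 : (i : ℝ) + 1 ≤ j := by exact_mod_cast hij
    refine h _ hi (((j : ℝ) - i) * t0) (by nlinarith) ?_
    have e : ((i : ℝ) * t0) • ν + v + (((j : ℝ) - i) * t0) • ν = ((j : ℝ) * t0) • ν + v := by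
      module
    rw [e]; exact hj
  have hd : Set.PairwiseDisjoint (↑(Finset.range n) : Set ℕ) T := by
    intro i _ j _ hij
    rcases lt_or_gt_of_ne hij with h1 | h1
    · exact key i j h1
    · exact (key j i h1).symm
  have hsub : (⋃ j ∈ Finset.range n, T j) ⊆ ball (0 : E d) 9 := by
    intro v hv
    simp only [mem_iUnion] at hv
    obtain ⟨j, hj, hv⟩ := hv
    have h1 : (j : ℝ) ≤ 4 / t0 := by
      have : j ≤ ⌊4 / t0⌋₊ := by have := Finset.mem_range.1 hj; omega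
      exact le_trans (by exact_mod_cast this) (Nat.floor_le (by positivity))
    have h2 : (j : ℝ) * t0 ≤ 4 := by rwa [le_div_iff₀ ht] at h1
    have h3 := mem_ball_zero_iff.1 (hs hv)
    have h4 : ‖((j : ℝ) * t0) • ν‖ = j * t0 := by
      rw [norm_smul, hν, mul_one, Real.norm_of_nonneg (by positivity)]
    have h5 := norm_sub_le (((j : ℝ) * t0) • ν + v) (((j : ℝ) * t0) • ν)
    rw [add_sub_cancel_left] at h5
    rw [mem_ball_zero_iff]; linarith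
  have h1 := measure_mono (μ := volume) hsub
  rw [measure_biUnion_finset hd fun j _ => hm j] at h1
  have h2 : ∀ j, volume (T j) = volume A := fun j => vol_add _ A
  simp only [h2, Finset.sum_const, Finset.card_range, nsmul_eq_mul] at h1
  have hfin : volume A ≠ ∞ := ((measure_mono hs).trans_lt measure_ball_lt_top).ne
  have h3 := ENNReal.toReal_mono measure_ball_lt_top.ne h1
  rw [ENNReal.toReal_mul, ENNReal.toReal_natCast] at h3
  rw [← ENNReal.ofReal_toReal hfin]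
  refine ENNReal.ofReal_le_ofReal ?_
  have h4 : 4 / t0 < n := by rw [hn]; push_cast; exact Nat.lt_floor_add_one _
  have h5 : 1 ≤ t0 * n := by rw [div_lt_iff₀ ht] at h4; linarith
  have h6 : 0 ≤ (volume A).toReal := ENNReal.toReal_nonneg
  calc (volume A).toReal = 1 * (volume A).toReal := (one_mul _).symm
    _ ≤ t0 * n * (volume A).toReal := mul_le_mul_of_nonneg_right h5 h6
    _ = t0 * (n * (volume A).toReal) := by ring
    _ ≤ _ := mul_le_mul_of_nonneg_left h3 ht.le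

lemma slab {ζ : E d} (hζ : ‖ζ‖ = 1) (a : ℝ) {δ : ℝ} (hδ : 0 < δ) :
    volume (ball (0 : E d) 4 ∩ {z | |⟪z, ζ⟫ - a| ≤ δ}) ≤
      ENNReal.ofReal (3 * δ * (volume (ball (0 : E d) 9)).toReal) := by
  refine tr (measurableSet_ball.inter (measurableSet_le (by fun_prop) (by fun_prop)))
    inter_subset_left hζ (by positivity) ?_
  rintro z ⟨_, h1⟩ t ht ⟨_, h2⟩
  simp only [mem_ofPred_eq, inner_add_left, real_inner_smul_left, ee hζ] at h1 h2
  have := abs_le.1 h1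
  have := abs_le.1 h2
  linarith

lemma perp (hd : 2 ≤ d) (ν : E d) : ∃ ζ : E d, ‖ζ‖ = 1 ∧ ⟪ν, ζ⟫ = 0 := by
  have h1 : Module.finrank ℝ (ℝ ∙ ν) ≤ 1 := by
    simpa using finrank_span_le_card (R := ℝ) ({ν} : Set (E d))
  have h2 := Submodule.finrank_add_finrank_orthogonal (ℝ ∙ ν)
  rw [finrank_euclideanSpace_fin] at h2
  have h3 : (ℝ ∙ ν)ᗮ ≠ ⊥ := by
    intro h
    rw [h, finrank_bot] at h2
    omega
  obtain ⟨w, hw, hw0⟩ := Submodule.exists_mem_ne_zero_of_ne_bot h3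
  have h4 : ‖w‖ ≠ 0 := norm_ne_zero_iff.2 hw0
  refine ⟨‖w‖⁻¹ • w, ?_, ?_⟩
  · rw [norm_smul, norm_inv, norm_norm, inv_mul_cancel₀ h4]
  · rw [real_inner_smul_right, Submodule.mem_orthogonal_singleton_iff_inner_right.1 hw, mul_zero]

lemma bessel {ν ζ : E d} (hν : ‖ν‖ = 1) (hζ : ‖ζ‖ = 1) (h : ⟪ν, ζ⟫ = 0) (w : E d) :
    ⟪w, ν⟫ ^ 2 + ⟪w, ζ⟫ ^ 2 ≤ ‖w‖ ^ 2 := by
  have h0 := real_inner_self_nonneg (x := w - ⟪w, ν⟫ • ν - ⟪w, ζ⟫ • ζ)
  have h' : ⟪ζ, ν⟫ = 0 := by rw [real_inner_comm]; exact h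
  simp only [inner_sub_left, inner_sub_right, real_inner_smul_left, real_inner_smul_right,
    ee hν, ee hζ, h, h', real_inner_comm w ν, real_inner_comm w ζ] at h0
  rw [real_inner_self_eq_norm_sq] at h0
  nlinarith

lemma off {ν ζ : E d} (hν : ‖ν‖ = 1) (hζ : ‖ζ‖ = 1) (h : ⟪ν, ζ⟫ = 0) {ψ : ℝ} (hψ : 0 < ψ)
    (hψ1 : ψ ≤ 1) {w : E d} (hw : ‖w‖ < 4) (h2 : ψ < |⟪w, ζ⟫|) :
    |⟪w, ν⟫| ≤ (1 - ψ ^ 2 / 32) * ‖w‖ := by
  have h1 := bessel hν hζ h w
  have h3 : ψ ^ 2 ≤ ⟪w, ζ⟫ ^ 2 := by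
    rw [← sq_abs ⟪w, ζ⟫]; exact pow_le_pow_left₀ hψ.le h2.le 2
  have h4 : ‖w‖ ^ 2 ≤ 16 := by nlinarith [norm_nonneg w]
  have h5 : ψ ^ 2 ≤ 1 := by nlinarith
  refine abs_le_of_sq_le_sq' ?_ (mul_nonneg (by linarith) (norm_nonneg _)) |> abs_le.2
  have h6 : ψ ^ 2 * ‖w‖ ^ 2 ≤ ψ ^ 2 * 16 := mul_le_mul_of_nonneg_left h4 (sq_nonneg _)
  have h7 : 0 ≤ (ψ ^ 2 / 32) ^ 2 * ‖w‖ ^ 2 := by positivity
  nlinarith

lemma nsq {ν : E d} (hν : ‖ν‖ = 1) (z : E d) (t : ℝ) :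
    ‖z + t • ν‖ ^ 2 = ‖z‖ ^ 2 + 2 * t * ⟪z, ν⟫ + t ^ 2 := by
  rw [norm_add_sq_real, real_inner_smul_right, norm_smul, hν, mul_one, Real.norm_eq_abs, sq_abs]
  ring

lemma mon (hd : 2 ≤ d) {ν : E d} (hν : ‖ν‖ = 1) {θ : ℝ} (hθ : |θ| ≤ 1) (a : ℝ) {ψ : ℝ}
    (hψ : 0 < ψ) (hψ1 : ψ ≤ 1) :
    volume (ball (0 : E d) 4 ∩ {z | |⟪z, ν⟫ - θ * ‖z‖ - a| ≤ 8 * ψ ^ 4}) ≤
      ENNReal.ofReal (600 * ψ * (volume (ball (0 : E d) 9)).toReal) := by
  obtain ⟨ζ, hζ, hp⟩ := perp hd ν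
  set V := (volume (ball (0 : E d) 9)).toReal with hV
  have hV0 : 0 ≤ V := ENNReal.toReal_nonneg
  set A : Set (E d) := ball (0 : E d) 4 ∩
    ({z | |⟪z, ν⟫ - θ * ‖z‖ - a| ≤ 8 * ψ ^ 4} ∩ {z | ψ < |⟪z, ζ⟫|}) with hA
  have h1 : volume A ≤ ENNReal.ofReal (597 * ψ ^ 2 * V) := by
    refine tr (measurableSet_ball.inter ((measurableSet_le (by fun_prop) (by fun_prop)).inter
      (measurableSet_lt (by fun_prop) (by fun_prop)))) inter_subset_left hν (by positivity) ?_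
    rintro z ⟨b1, c1, d1⟩ t ht ⟨b2, c2, d2⟩
    have ht0 : 0 < t := lt_of_lt_of_le (by positivity) ht
    rw [mem_ball_zero_iff] at b1 b2
    have o1 := off hν hζ hp hψ hψ1 b1 d1
    have o2 := off hν hζ hp hψ hψ1 b2 d2
    have e1 : ⟪z + t • ν, ν⟫ = ⟪z, ν⟫ + t := by
      rw [inner_add_left, real_inner_smul_left, ee hν, mul_one]
    have e2 := nsq hν z t
    simp only [mem_ofPred_eq] at c1 c2 d1
    rw [e1] at c2 o2
    have hz : 0 < ‖z‖ := lt_of_lt_of_le (hψ.trans d1) (abs_inner_le hζ z)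
    set p := ⟪z, ν⟫
    set n := ‖z‖
    have hn' := norm_nonneg (z + t • ν)
    set n' := ‖z + t • ν‖
    set κ := 1 - ψ ^ 2 / 32 with hκ
    have h3 : |n' - n| * (n + n') ≤ t * κ * (n + n') := by
      have e3 : (n' - n) * (n + n') = t * (p + (p + t)) := by linarith
      have e4 : |n' - n| * (n + n') = t * |p + (p + t)| := by
        rw [← abs_of_pos (show 0 < n + n' by linarith), ← abs_mul, e3, abs_mul, abs_of_pos ht0]
      rw [e4, mul_assoc]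
      refine mul_le_mul_of_nonneg_left ((abs_add_le _ _).trans ?_) ht0.le
      linarith
    have h4 : |n' - n| ≤ t * κ := le_of_mul_le_mul_right h3 (by linarith)
    have h5 : θ * (n' - n) ≤ t * κ := by
      refine (le_abs_self _).trans ?_
      rw [abs_mul]
      exact (mul_le_of_le_one_left (abs_nonneg _) hθ).trans h4
    have h6 := (abs_le.1 c1).1
    have h7 := (abs_le.1 c2).2
    have h8 : 597 * ψ ^ 2 * ψ ^ 2 ≤ t * ψ ^ 2 := mul_le_mul_of_nonneg_right ht (sq_nonneg _)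
    have h9 : 0 < ψ ^ 4 := by positivity
    rw [hκ] at h5
    nlinarith
  have h2 := slab hζ 0 hψ
  have hsub : ball (0 : E d) 4 ∩ {z | |⟪z, ν⟫ - θ * ‖z‖ - a| ≤ 8 * ψ ^ 4} ⊆
      (ball (0 : E d) 4 ∩ {z | |⟪z, ζ⟫ - 0| ≤ ψ}) ∪ A := by
    rintro z ⟨b, c⟩
    rcases le_or_gt |⟪z, ζ⟫| ψ with h | h
    · exact Or.inl ⟨b, by simpa using h⟩
    · exact Or.inr ⟨b, c, h⟩
  refine (measure_mono hsub).trans ((measure_union_le _ _).trans ((add_le_add h2 h1).trans ?_))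
  rw [← ENNReal.ofReal_add (by positivity) (by positivity)]
  refine ENNReal.ofReal_le_ofReal ?_
  have : ψ ^ 2 * V ≤ ψ * V := mul_le_mul_of_nonneg_right (by nlinarith) hV0
  linarith

lemma cap {e : E d} (he : ‖e‖ = 1) (a : ℝ) {ψ : ℝ} (hψ : 0 < ψ) (hψ1 : ψ ≤ 1) :
    volume (ball (0 : E d) 4 ∩ ({z | |‖z‖ - a| ≤ ψ ^ 4} ∩ {z | ψ < ⟪z, e⟫})) ≤
      ENNReal.ofReal (9 * ψ * (volume (ball (0 : E d) 9)).toReal) := by
  refine tr (measurableSet_ball.inter ((measurableSet_le (by fun_prop) (by fun_prop)).inter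
      (measurableSet_lt (by fun_prop) (by fun_prop)))) inter_subset_left he (by positivity) ?_
  rintro z ⟨b1, c1, d1⟩ t ht ⟨b2, c2, -⟩
  have ht0 : 0 < t := lt_of_lt_of_le (by positivity) ht
  rw [mem_ball_zero_iff] at b1 b2
  have e2 := nsq he z t
  simp only [mem_ofPred_eq] at c1 c2 d1
  set p := ⟪z, e⟫
  have hn := norm_nonneg z
  set n := ‖z‖
  have hn' := norm_nonneg (z + t • e)
  set n' := ‖z + t • e‖
  have h1 : n' - n ≤ 2 * ψ ^ 4 := by linarith [(abs_le.1 c1).1, (abs_le.1 c2).2]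
  have h4 : 0 < ψ ^ 4 := by positivity
  have h2 : (n' - n) * (n + n') ≤ 2 * ψ ^ 4 * 8 := by
    refine (mul_le_mul_of_nonneg_right h1 (by linarith)).trans ?_
    exact mul_le_mul_of_nonneg_left (by linarith) (by positivity)
  have h3 : 9 * ψ * ψ ≤ t * p := mul_le_mul ht d1.le hψ.le ht0.le
  have h5 : ψ ^ 4 ≤ ψ ^ 2 := pow_le_pow_of_le_one hψ.le hψ1 (by norm_num)
  have h6 : 0 < ψ ^ 2 := by positivity
  nlinarith

lemma sphere (hd : 2 ≤ d) (a : ℝ) {ψ : ℝ} (hψ : 0 < ψ) (hψ1 : ψ ≤ 1) :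
    volume (ball (0 : E d) 4 ∩ {z | |‖z‖ - a| ≤ ψ ^ 4}) ≤
      ENNReal.ofReal (21 * ψ * (volume (ball (0 : E d) 9)).toReal) := by
  obtain ⟨e, he, -⟩ := perp hd (0 : E d)
  have h1 := slab he 0 hψ
  have h2 := cap he a hψ hψ1
  have h3 := cap (e := -e) (by rw [norm_neg, he]) a hψ hψ1
  have hsub : ball (0 : E d) 4 ∩ {z | |‖z‖ - a| ≤ ψ ^ 4} ⊆
      (ball (0 : E d) 4 ∩ {z | |⟪z, e⟫ - 0| ≤ ψ}) ∪
        ((ball (0 : E d) 4 ∩ ({z | |‖z‖ - a| ≤ ψ ^ 4} ∩ {z | ψ < ⟪z, e⟫})) ∪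
          (ball (0 : E d) 4 ∩ ({z | |‖z‖ - a| ≤ ψ ^ 4} ∩ {z | ψ < ⟪z, -e⟫}))) := by
    rintro z ⟨b, c⟩
    rcases le_or_gt |⟪z, e⟫| ψ with h | h
    · exact Or.inl ⟨b, by simpa using h⟩
    · rcases lt_abs.1 h with h | h
      · exact Or.inr (Or.inl ⟨b, c, h⟩)
      · exact Or.inr (Or.inr ⟨b, c, by simpa [inner_neg_right] using h⟩)
  have hV0 : 0 ≤ (volume (ball (0 : E d) 9)).toReal := ENNReal.toReal_nonneg
  refine (measure_mono hsub).trans ((measure_union_le _ _).trans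
    ((add_le_add h1 ((measure_union_le _ _).trans (add_le_add h2 h3))).trans ?_))
  rw [← ENNReal.ofReal_add (by positivity) (by positivity),
    ← ENNReal.ofReal_add (by positivity) (by positivity)]
  exact ENNReal.ofReal_le_ofReal (le_of_eq (by ring))

lemma clip (h' : ℝ) : ∃ θ : ℝ, |θ| ≤ 1 ∧ ∀ p n ε : ℝ, 0 ≤ ε → 1 ≤ n → n ≤ 1 + ε → |p| ≤ n →
    |p - h'| ≤ 6 * ε → |p - θ * n| ≤ 7 * ε * n := by
  have fin : ∀ x n ε : ℝ, 0 ≤ ε → 1 ≤ n → |x| ≤ 7 * ε → |x| ≤ 7 * ε * n := fun x n ε h0 h1 h2 =>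
    h2.trans (le_mul_of_one_le_right (by linarith) h1)
  rcases le_or_gt h' (-1) with h | h
  · refine ⟨-1, by simp, fun p n ε h0 h1 h2 h3 h4 => fin _ _ _ h0 h1 ?_⟩
    rw [abs_le] at h3 h4 ⊢
    constructor <;> linarith [h3.1, h3.2, h4.1, h4.2]
  rcases le_or_gt 1 h' with g | g
  · refine ⟨1, by simp, fun p n ε h0 h1 h2 h3 h4 => fin _ _ _ h0 h1 ?_⟩
    rw [abs_le] at h3 h4 ⊢
    constructor <;> linarith [h3.1, h3.2, h4.1, h4.2]
  · refine ⟨h', abs_le.2 ⟨h.le, g.le⟩, fun p n ε h0 h1 h2 h3 h4 => fin _ _ _ h0 h1 ?_⟩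
    rw [abs_le] at h4 ⊢
    constructor <;> nlinarith [h4.1, h4.2]

lemma strip (hd : 2 ≤ d) {ν : E d} (hν : ‖ν‖ = 1) (x : E d) (h a s ψ : ℝ) (hψ : 0 < ψ)
    (hψ1 : ψ ≤ 1 / 2) (ha : 1 / 2 ≤ a) (hs : 1 < s) (hs1 : s ≤ 1 + ψ ^ 4) :
    sP ({y | |⟪y, ν⟫ - h| ≤ 3 * ψ ^ 4}.indicator fun _ => (1 : ℝ)) x a s ≤
      600 * ψ * (volume (ball (0 : E d) 9)).toReal / (volume (ball (0 : E d) 1)).toReal := by
  obtain ⟨θ, hθ, hc⟩ := clip ((h - ⟪x, ν⟫) / a)
  have ha0 : 0 < a := by linarith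
  have h4 : 0 < ψ ^ 4 := by positivity
  set S : Set (E d) := {z | |⟪z, ν⟫ - θ * ‖z‖| ≤ 7 * ψ ^ 4 * ‖z‖} with hS
  have hSm : MeasurableSet S := measurableSet_le (by fun_prop) (by fun_prop)
  have hcone : ∀ z, ∀ r : ℝ, 0 < r → (r • z ∈ S ↔ z ∈ S) := by
    intro z r hr
    simp only [hS, mem_ofPred_eq, real_inner_smul_left, norm_smul, Real.norm_of_nonneg hr.le]
    have e1 : r * ⟪z, ν⟫ - θ * (r * ‖z‖) = r * (⟪z, ν⟫ - θ * ‖z‖) := by ring
    have e2 : 7 * ψ ^ 4 * (r * ‖z‖) = r * (7 * ψ ^ 4 * ‖z‖) := by ring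
    rw [e1, e2, abs_mul, abs_of_pos hr, mul_le_mul_iff_right₀ hr]
  have hom : 0 < (volume (ball (0 : E d) 1)).toReal :=
    ENNReal.toReal_pos (measure_ball_pos _ _ one_pos).ne' measure_ball_lt_top.ne
  have hsd : 0 < s ^ d - 1 := by
    have := one_lt_pow₀ hs (show d ≠ 0 by omega); linarith
  have hm : MeasurableSet {y : E d | |⟪y, ν⟫ - h| ≤ 3 * ψ ^ 4} :=
    measurableSet_le (by fun_prop) (by fun_prop)
  have i1 : ∫ z in Sh0 d s, ({y : E d | |⟪y, ν⟫ - h| ≤ 3 * ψ ^ 4}.indicator fun _ => (1 : ℝ))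
      (x + a • z) ≤ ∫ z in Sh0 d s, (S.indicator fun _ => (1 : ℝ)) z := by
    refine setIntegral_mono_on (((BM.indicator hm).comp (by fun_prop)).integrableOn (Sh0_lt s))
      ((BM.indicator hSm).integrableOn (Sh0_lt s)) (Sh0_meas s) fun z hz => ?_
    by_cases hy : x + a • z ∈ {y : E d | |⟪y, ν⟫ - h| ≤ 3 * ψ ^ 4}
    · have hzS : z ∈ S := by
        obtain ⟨z1, z2⟩ := mem_Sh0.1 hz
        refine hc _ _ _ h4.le z2 (by linarith) (abs_inner_le hν z) ?_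
        simp only [mem_ofPred_eq, inner_add_left, real_inner_smul_left] at hy
        have e : ⟪z, ν⟫ - (h - ⟪x, ν⟫) / a = (⟪x, ν⟫ + a * ⟪z, ν⟫ - h) / a := by
          field_simp; ring
        rw [e, abs_div, abs_of_pos ha0, div_le_iff₀ ha0]
        nlinarith
      rw [indicator_of_mem hy, indicator_of_mem hzS]
    · rw [indicator_of_notMem hy]
      exact indicator_nonneg (fun _ _ => zero_le_one) z
  have i2 : ∫ z in Sh0 d s, (S.indicator fun _ => (1 : ℝ)) z = (volume (S ∩ Sh0 d s)).toReal := by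
    rw [integral_indicator hSm, Measure.restrict_restrict hSm, setIntegral_const, smul_eq_mul,
      mul_one]
    rfl
  have i3 : (volume (S ∩ ball (0 : E d) 1)).toReal ≤
      600 * ψ * (volume (ball (0 : E d) 9)).toReal := by
    refine ENNReal.toReal_le_of_le_ofReal (by positivity) ((measure_mono ?_).trans
      (mon hd hν hθ 0 hψ (by linarith)))
    rintro z ⟨z1, z2⟩
    rw [mem_ball_zero_iff] at z2
    refine ⟨mem_ball_zero_iff.2 (by linarith), ?_⟩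
    simp only [hS, mem_ofPred_eq, sub_zero] at z1 ⊢
    nlinarith
  rw [sP, sa, Sh0_vol hs.le, div_le_div_iff₀ (mul_pos hsd hom) hom]
  rw [i2, cone_frac hSm hcone hs.le] at i1
  have i4 := i1.trans (mul_le_mul_of_nonneg_left i3 hsd.le)
  calc _ ≤ (s ^ d - 1) * (600 * ψ * (volume (ball (0 : E d) 9)).toReal) *
        (volume (ball (0 : E d) 1)).toReal := mul_le_mul_of_nonneg_right i4 hom.le
    _ = _ := by ring

end Geo

open Geo in
theorem geoStmt (hd : 2 ≤ d) : GeoStmt d := by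
  set V := (volume (ball (0 : E d) 9)).toReal with hV
  set om := (volume (ball (0 : E d) 1)).toReal with hom
  have hV0 : 0 < V :=
    ENNReal.toReal_pos (measure_ball_pos _ _ (by norm_num)).ne' measure_ball_lt_top.ne
  have hom0 : 0 < om :=
    ENNReal.toReal_pos (measure_ball_pos _ _ one_pos).ne' measure_ball_lt_top.ne
  have hq : 0 < V / om := div_pos hV0 hom0
  refine ⟨600 * V + 600 * (V / om), by positivity, ?_, ?_, ?_⟩
  · intro ζ a δ hζ hδ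
    refine (slab hζ a hδ).trans (ENNReal.ofReal_le_ofReal ?_)
    have := mul_pos hδ hV0
    have := mul_pos hδ hq
    nlinarith
  · intro ν a ψ hν hψ hψ1
    have := mul_pos hψ hV0
    have := mul_pos hψ hq
    rcases hν with hν | rfl
    · refine (measure_mono ?_).trans ((mon hd hν (θ := 1) (by simp) (-a) hψ hψ1).trans
        (ENNReal.ofReal_le_ofReal (by nlinarith)))
      rintro z ⟨z1, z2⟩
      refine ⟨z1, ?_⟩
      simp only [mem_ofPred_eq] at z2 ⊢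
      have h4 : 0 < ψ ^ 4 := by positivity
      rw [abs_le] at z2 ⊢
      constructor <;> linarith [z2.1, z2.2]
    · simp only [inner_zero_right, sub_zero]
      exact (sphere hd a hψ hψ1).trans (ENNReal.ofReal_le_ofReal (by nlinarith))
  · intro ν x h a s ψ hν hψ hψ1 ha hs hs1
    refine (strip hd hν x h a s ψ hψ hψ1 ha hs hs1).trans ?_
    have := mul_pos hψ hV0
    have e : 600 * ψ * V / om = 600 * (V / om) * ψ := by ring
    rw [e]; nlinarith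

end Vale.Agent.P137
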