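import Vale.Agent.P137.CBase

/-! Module Glob: from the unit cell estimate to the global gradient bound. -/

open MeasureTheory Metric Set Filter
open scoped ENNReal NNReal RealInnerProductSpace Topology

namespace Vale.Agent.P137

variable {d : ℕ}

namespace Gl

lemma bmeas {f : E d → ℝ≥0∞} (hf : Measurable f) (l : ℝ) :
    Measurable fun q => ∫⁻ x in ball q l, f x := by
  have hm : MeasurableSet {p : E d × E d | dist p.2 p.1 < l} :=
    measurableSet_lt (by fun_prop) (by fun_prop)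
  have : (fun q => ∫⁻ x in ball q l, f x) = fun q =>
      ∫⁻ x, {p : E d × E d | dist p.2 p.1 < l}.indicator (fun p => f p.2) (q, x) := by
    funext q
    rw [← lintegral_indicator measurableSet_ball]
    rfl
  rw [this]
  exact ((hf.comp measurable_snd).indicator hm).lintegral_prod_right'

lemma lip {g : E d → ℝ} {K : ℝ≥0} (hg : LipschitzWith K g) (q : E d) (r : ℝ) :
    LipschitzWith (K * ‖r‖₊) fun y => g (q + r • y) := by
  have := hg.comp ((isometry_add_left q).lipschitz.comp (lipschitzWith_smul r))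
  rw [one_mul] at this
  exact this

lemma fd (u : E d → ℝ) (q : E d) (r : ℝ) (y : E d) :
    fderiv ℝ (fun y => u (q + r • y)) y = r • fderiv ℝ u (q + r • y) := by
  rw [fderiv_comp_smul (f := fun z => u (q + z)), fderiv_comp_add_left]

lemma sc {f : E d → ℝ≥0∞} {B : Set (E d)} (hB : MeasurableSet B) (q : E d) {r : ℝ} (hr : 0 < r) :
    ∫⁻ y in (fun y => q + r • y) ⁻¹' B ∩ ball 0 1, f (q + r • y) =
      ENNReal.ofReal (r ^ d)⁻¹ * ∫⁻ x in ball q r, B.indicator f x := by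
  have := Th_lint q hr (B.indicator f) 1
  rw [mul_one] at this
  rw [← this, ← setLIntegral_indicator (hB.preimage (by fun_prop))]
  rfl

lemma avg {f : E d → ℝ≥0∞} (hf : Measurable f) {B : Set (E d)} (hB : MeasurableSet B) {r : ℝ}
    (hr : 0 < r) : ∫⁻ q, ENNReal.ofReal (r ^ d)⁻¹ * ∫⁻ x in ball q r, B.indicator f x =
      volume (ball (0 : E d) 1) * ∫⁻ x in B, f x := by
  rw [lintegral_const_mul' _ _ ENNReal.ofReal_ne_top, tonelli_ball (hf.indicator hB),
    lintegral_indicator hB, Measure.addHaar_ball_of_pos _ _ hr, finrank_euclideanSpace_fin,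
    ← mul_assoc, ← mul_assoc, ← ENNReal.ofReal_mul (by positivity),
    inv_mul_cancel₀ (by positivity), ENNReal.ofReal_one, one_mul]

lemma TG_sc (g : E d → ℝ) (q : E d) {r : ℝ} (hr : 0 < r) (ϑ L : ℝ) :
    TG (fun y => g (q + r • y)) ϑ L = ∑' m : ℕ, ENNReal.ofReal (ϑ ^ m * (2 ^ m) ^ (d + 1)) *
      (ENNReal.ofReal (r ^ d)⁻¹ * (ENNReal.ofReal (r ^ d)⁻¹ *
        ∫⁻ z in ball q (r * L), ∫⁻ v in ball (0 : E d) (r * (L / 2 ^ m)), dl g z v)) := by
  have h : ∀ z v, dl (fun y => g (q + r • y)) z v = dl g (q + r • z) (0 + r • v) := by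
    intro z v
    simp only [dl, smul_add, smul_sub, zero_add, add_assoc, add_sub_assoc]
  refine tsum_congr fun m => ?_
  simp only [h]
  simp only [Th_lint 0 hr (dl g _)]
  rw [lintegral_const_mul' _ _ ENNReal.ofReal_ne_top,
    Th_lint q hr fun z => ∫⁻ v in ball (0 : E d) (r * (L / 2 ^ m)), dl g z v]

lemma TG_meas {g : E d → ℝ} (hg : Measurable g) {r : ℝ} (hr : 0 < r) (ϑ L : ℝ) :
    Measurable fun q => TG (fun y => g (q + r • y)) ϑ L := by
  simp only [TG_sc g _ hr]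
  exact Measurable.tsum fun m =>
    (((bmeas (dl_meas hg).lintegral_prod_right' _).const_mul _).const_mul _).const_mul _

lemma TG_int {g : E d → ℝ} (hg : Measurable g) {r ϑ L : ℝ} (hr : 0 < r) (h0 : 0 < ϑ) (hL : 0 < L) :
    ∫⁻ q, TG (fun y => g (q + r • y)) ϑ L = ENNReal.ofReal r * volume (ball (0 : E d) 1) *
      (ENNReal.ofReal (L ^ (2 * d + 1)) *
        ∑' m : ℕ, ENNReal.ofReal ϑ ^ m * tt g (r * (L / 2 ^ m))) := by
  simp only [TG_sc g _ hr]
  rw [lintegral_tsum fun m => ((((bmeas (dl_meas hg).lintegral_prod_right' _).const_mul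
    _).const_mul _).const_mul _).aemeasurable, ← mul_assoc, ← ENNReal.tsum_mul_left]
  refine tsum_congr fun m => ?_
  rw [lintegral_const_mul' _ _ ENNReal.ofReal_ne_top, lintegral_const_mul' _ _ ENNReal.ofReal_ne_top,
    lintegral_const_mul' _ _ ENNReal.ofReal_ne_top, tonelli_ball (dl_meas hg).lintegral_prod_right',
    lintegral_lintegral_swap (dl_meas hg).aemeasurable, tt,
    Measure.addHaar_ball_of_pos _ _ (mul_pos hr hL), finrank_euclideanSpace_fin,
    ← ENNReal.ofReal_pow h0.le]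
  have : ϑ ^ m * (2 ^ m) ^ (d + 1) * (r ^ d)⁻¹ * (r ^ d)⁻¹ * (r * L) ^ d =
      r * L ^ (2 * d + 1) * ϑ ^ m * ((r * (L / 2 ^ m)) ^ (d + 1))⁻¹ := by
    simp only [mul_pow, div_pow]
    field_simp
    ring
  have e := congrArg ENNReal.ofReal this
  rw [ENNReal.ofReal_mul (by positivity), ENNReal.ofReal_mul (by positivity),
    ENNReal.ofReal_mul (by positivity), ENNReal.ofReal_mul (p := _ * ϑ ^ m) (by positivity),
    ENNReal.ofReal_mul (q := ϑ ^ m) (by positivity), ENNReal.ofReal_mul (p := r) hr.le] at e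
  refine Eq.trans ?_ ((congrArg (· * (volume (ball (0 : E d) 1) *
    ∫⁻ v in ball (0 : E d) (r * (L / 2 ^ m)), Ph g v)) e).trans ?_)
  · simp only [Ph]; ring
  · simp only [Ph]; ring

/-- supremum of the averages with radii in `[r, 2 r]` -/
noncomputable def ww (g : E d → ℝ) (r : ℝ) (x : E d) : ℝ :=
  sSup ((fun s => av g x (r * s)) '' Icc 1 2)

lemma vv_sc (g : E d → ℝ) (q : E d) {r : ℝ} (hr : 0 < r) (y : E d) :
    vv (fun y => g (q + r • y)) y = ww g r (q + r • y) := by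
  rw [vv, ww]
  congr 2
  funext s
  exact Th_av g q hr y s

lemma ww_eq (g : E d → ℝ) {r : ℝ} (hr : 0 < r) (x : E d) :
    ww g r x = vv (fun y => g (0 + r • y)) (r⁻¹ • x) := by
  rw [vv_sc g 0 hr, smul_inv_smul₀ hr.ne', zero_add]

lemma fd_le {u : E d → ℝ} {x : E d} {c : ℝ} (hc : 0 ≤ c) (h : ∀ v, u x ≤ u (x + v) + c * ‖v‖) :
    ‖fderiv ℝ u x‖ ≤ c := by
  by_cases hu : DifferentiableAt ℝ u x
  swap
  · rwa [fderiv_zero_of_not_differentiableAt hu, norm_zero]
  have key : ∀ v, -(c * ‖v‖) ≤ fderiv ℝ u x v := fun v => by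
    have h1 : HasDerivAt (fun t : ℝ => u (x + t • v)) (fderiv ℝ u x v) 0 :=
      hu.hasFDerivAt.hasLineDerivAt v
    refine ge_of_tendsto h1.tendsto_slope_zero_right (eventually_mem_nhdsWithin.mono fun t ht => ?_)
    have h2 := h (t • v)
    have ht' : 0 < t := ht
    rw [norm_smul, Real.norm_of_nonneg ht'.le] at h2
    simp only [zero_add, zero_smul, add_zero, smul_eq_mul]
    rw [le_inv_mul_iff₀ ht']
    linarith
  refine ContinuousLinearMap.opNorm_le_bound _ hc fun v => abs_le.2 ⟨key v, ?_⟩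
  have := key (-v)
  rw [map_neg, norm_neg] at this
  linarith

lemma hit_sc {u g : E d → ℝ} {e q y : E d} {r t0 T : ℝ} (hr : 0 < r) (hT : r * t0 ≤ T)
    (h : y ∈ Hit (fun y => u (q + r • y)) (fun y => g (q + r • y)) e t0) :
    q + r • y ∈ Hit u g e T := by
  obtain ⟨τ, h1, h2, h3⟩ := h
  refine ⟨r * τ, ⟨mul_nonneg hr.le h1.1, (mul_le_mul_of_nonneg_left h1.2 hr.le).trans hT⟩, ?_,
    fun t ht => ?_⟩
  · simpa only [smul_add, smul_smul, add_assoc] using h2
  · have := h3 (t / r) ⟨div_nonneg ht.1 hr.le, by rw [div_le_iff₀' hr]; exact ht.2⟩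
    simpa only [smul_add, smul_smul, add_assoc, mul_div_cancel₀ _ hr.ne'] using this

lemma cell {ϑ L t0 : ℝ} {C : ℝ≥0∞} (h0 : 0 < ϑ) (hL : 0 < L) (hC : C ≠ ∞)
    (H : ∀ (g u : E d → ℝ) (K : ℝ≥0) (A : Set (E d)), LipschitzWith K g → LipschitzWith K u →
      (∀ x, vv g x ≤ u x) → MeasurableSet A → A ⊆ ball 0 1 → (∀ x ∈ A, u x = vv g x) →
      ∫⁻ x in A, ‖fderiv ℝ u x‖ₑ ≤ C * TG g ϑ L + C * ∑ j : Fin d × Bool,
        ∫⁻ x in A ∩ Hit u g (dir j) t0, ENNReal.ofReal (fderiv ℝ u x (dir j)))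
    {g u : E d → ℝ} {K : ℝ≥0} (hg : LipschitzWith K g) (hu : LipschitzWith K u) {r T : ℝ}
    (hr : 0 < r) (hT : r * t0 ≤ T) (h1 : ∀ x, ww g r x ≤ u x) {B : Set (E d)}
    (hB : MeasurableSet B) (h2 : ∀ x ∈ B, u x = ww g r x) :
    ∫⁻ x in B, ‖fderiv ℝ u x‖ₑ ≤ C * (ENNReal.ofReal (L ^ (2 * d + 1)) *
        ∑' m : ℕ, ENNReal.ofReal ϑ ^ m * tt g (r * (L / 2 ^ m))) + C * ∑ j : Fin d × Bool,
      ∫⁻ x in B ∩ Hit u g (dir j) T, ENNReal.ofReal (fderiv ℝ u x (dir j)) := by
  have mH : ∀ j, MeasurableSet (B ∩ Hit u g (dir j) T) := fun j =>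
    hB.inter (hit_meas hu.continuous hg.continuous _ _)
  have mf : ∀ j, Measurable fun x => ENNReal.ofReal (fderiv ℝ u x (dir j)) := fun j =>
    (measurable_fderiv_apply_const ℝ u _).ennreal_ofReal
  have key : ∀ q, ENNReal.ofReal r * (ENNReal.ofReal (r ^ d)⁻¹ *
      ∫⁻ x in ball q r, B.indicator (fun x => ‖fderiv ℝ u x‖ₑ) x) ≤
      C * TG (fun y => g (q + r • y)) ϑ L + C * (ENNReal.ofReal r * ∑ j : Fin d × Bool,
        ENNReal.ofReal (r ^ d)⁻¹ * ∫⁻ x in ball q r, (B ∩ Hit u g (dir j) T).indicator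
          (fun x => ENNReal.ofReal (fderiv ℝ u x (dir j))) x) := fun q => by
    have := H _ _ _ ((fun y => q + r • y) ⁻¹' B ∩ ball 0 1) (lip hg q r) (lip hu q r)
      (fun y => by rw [vv_sc g q hr]; exact h1 _) ((hB.preimage (by fun_prop)).inter measurableSet_ball)
      inter_subset_right fun y hy => by rw [vv_sc g q hr]; exact h2 _ hy.1
    simp only [fd, enorm_smul, Real.enorm_eq_ofReal hr.le, smul_apply,
      smul_eq_mul, ENNReal.ofReal_mul hr.le] at this
    rw [lintegral_const_mul' _ _ ENNReal.ofReal_ne_top,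
      sc (f := fun x => ‖fderiv ℝ u x‖ₑ) hB q hr] at this
    refine this.trans (add_le_add le_rfl (mul_le_mul' le_rfl ?_))
    rw [Finset.mul_sum]
    refine Finset.sum_le_sum fun j _ => ?_
    rw [lintegral_const_mul' _ _ ENNReal.ofReal_ne_top, ← sc (mH j) q hr]
    exact mul_le_mul' le_rfl (lintegral_mono_set fun y hy => ⟨⟨hy.1.1, hit_sc hr hT hy.2⟩, hy.1.2⟩)
  have := lintegral_mono (μ := volume) key
  rw [lintegral_const_mul' _ _ ENNReal.ofReal_ne_top, avg (measurable_fderiv ℝ u).enorm hB hr,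
    lintegral_add_left ((TG_meas hg.continuous.measurable hr _ _).const_mul _),
    lintegral_const_mul' _ _ hC, lintegral_const_mul' _ _ hC,
    lintegral_const_mul' _ _ ENNReal.ofReal_ne_top, TG_int hg.continuous.measurable hr h0 hL,
    lintegral_finsetSum _ fun j _ => (bmeas ((mf j).indicator (mH j)) r).const_mul _] at this
  simp only [avg (mf _) (mH _) hr, ← Finset.mul_sum] at this
  rw [← ENNReal.mul_le_mul_iff_right (a := ENNReal.ofReal r * volume (ball (0 : E d) 1))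
    (mul_ne_zero (ENNReal.ofReal_pos.2 hr).ne' (measure_ball_pos _ _ one_pos).ne')
    (ENNReal.mul_ne_top ENNReal.ofReal_ne_top measure_ball_lt_top.ne), mul_assoc]
  exact this.trans_eq (by ring)

end Gl

open Gl in
theorem globStmt (_hd : 2 ≤ d) (hC : CellStmt d) (hM : MStmt d) (hV : VStmt d) (hH : HitStmt d) :
    GlobStmt d := by
  obtain ⟨ϑ, L, t0, C, h0, h1, hL, ht, hC, H⟩ := hC
  have b1 := TU.b1_pos (d := d)
  set om := (volume (ball (0 : E d) 1)).toReal
  set C1 := C * (ENNReal.ofReal (L ^ (2 * d + 1)) * (1 - ENNReal.ofReal ϑ)⁻¹) with hC1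
  set C2 := 1 + C * (Fintype.card (Fin d × Bool) * 4) with hC2
  have c1 : C1 ≠ ∞ := ENNReal.mul_ne_top hC (ENNReal.mul_ne_top ENNReal.ofReal_ne_top
    (ENNReal.inv_ne_top.2 (tsub_pos_of_lt (ENNReal.ofReal_lt_one.2 h1)).ne'))
  have c2 : C2 ≠ ∞ := by finiteness
  refine ⟨C1 + C2 + ENNReal.ofReal om⁻¹, 2 * t0, L, by finiteness, by positivity, hL,
    fun g K V K0 k1 hg hi g0 hV' hT hK => ?_⟩
  obtain ⟨m1, m2, m3, m4, -⟩ := hM g K hg hi g0
  set u := mc g
  have mu := (measurable_fderiv ℝ u).enorm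
  let r : ℕ → ℝ := fun i => 2 ^ (k1 - (1 + i : ℕ))
  have hr : ∀ i, 0 < r i := fun i => by positivity
  have w1 : ∀ i x, ww g (r i) x ≤ u x := fun i x => by
    obtain ⟨s, hs, e⟩ := (hV _ _ (lip hg 0 (r i))).2.2 ((r i)⁻¹ • x)
    rw [ww_eq g (hr i), e, Th_av g 0 (hr i), smul_inv_smul₀ (hr i).ne', zero_add]
    exact m2 _ _ (mul_pos (hr i) (by linarith [hs.1]))
  let A : ℕ → Set (E d) := fun i => {x | u x = ww g (r i) x}
  have mA : ∀ i, MeasurableSet (disjointed A i) := MeasurableSet.disjointed fun i =>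
    measurableSet_eq_fun m1.continuous.measurable (by
      rw [funext (ww_eq g (hr i))]
      exact ((hV _ _ (lip hg 0 (r i))).1.continuous.comp (by fun_prop)).measurable)
  set c := V.toReal / (((2 : ℝ) ^ k1) ^ d * om) with hc
  have cov : K0 ⊆ (K0 ∩ {x | u x = g x} ∪ K0 ∩ {x | ‖fderiv ℝ u x‖ ≤ c}) ∪
      ⋃ i, K0 ∩ disjointed A i := fun x hx => by
    rcases m4 x with h | ⟨ρ, h2, h3⟩
    · exact .inl (.inl ⟨hx, h⟩)
    by_cases h4 : 2 ^ k1 ≤ ρ
    · refine .inl (.inr ⟨hx, fd_le (by positivity) fun v => ?_⟩)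
      have := TU.av_tr hi hV' hT (by positivity) h4 x v
      linarith [m2 (x + v) ρ h2]
    right
    rw [← inter_iUnion, iUnion_disjointed]
    obtain ⟨k, k2, k3⟩ := exists_mem_Ico_zpow h2 (one_lt_two (α := ℝ))
    have k4 : k < k1 := (zpow_lt_zpow_iff_right₀ (one_lt_two (α := ℝ))).1 (k2.trans_lt (not_le.1 h4))
    obtain ⟨i, hi⟩ : ∃ i : ℕ, k = k1 - (1 + i : ℕ) := ⟨(k1 - 1 - k).toNat, by omega⟩
    rw [zpow_add_one₀ two_ne_zero] at k3
    rw [hi] at k2 k3
    refine ⟨hx, mem_iUnion.2 ⟨i, le_antisymm ?_ (w1 i x)⟩⟩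
    have := (hV _ _ (lip hg 0 (r i))).2.1 ((r i)⁻¹ • x) (ρ / r i)
      ⟨(one_le_div (hr i)).2 k2, by rw [div_le_iff₀' (hr i)]; exact k3.le⟩
    rwa [Th_av g 0 (hr i), smul_inv_smul₀ (hr i).ne', zero_add, mul_div_cancel₀ _ (hr i).ne',
      ← h3, ← ww_eq g (hr i)] at this
  set G := ∫⁻ x in cthickening (2 * t0 * 2 ^ k1) K0, ‖fderiv ℝ g x‖ₑ with hG
  set S := ∑' j : ℕ, tt g (2 ^ (k1 - j) * L) with hS
  have p0 : ∫⁻ x in K0 ∩ {x | u x = g x}, ‖fderiv ℝ u x‖ₑ ≤ G := by
    refine le_trans (setLIntegral_mono_ae' (hK.inter (measurableSet_eq_fun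
      m1.continuous.measurable hg.continuous.measurable)) (g := fun x => ‖fderiv ℝ g x‖ₑ) ?_)
      (lintegral_mono_set (inter_subset_left.trans (self_subset_cthickening _)))
    filter_upwards [m1.ae_differentiableAt_of_real (μ := volume),
      hg.ae_differentiableAt_of_real (μ := volume)] with x a1 a2 hx
    rw [← Fi.enorm_grad, ← Fi.enorm_grad, Fi.grad_eq m3 (le_of_eq hx.2) a2 a1]
  have p1 : ∫⁻ x in K0 ∩ {x | ‖fderiv ℝ u x‖ ≤ c}, ‖fderiv ℝ u x‖ₑ ≤ ENNReal.ofReal om⁻¹ *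
      (volume K0 * V * ENNReal.ofReal (((2 : ℝ) ^ k1) ^ d)⁻¹) := by
    refine (setLIntegral_mono' (hK.inter (measurableSet_le (measurable_fderiv ℝ u).norm
      measurable_const)) (g := fun _ => ENNReal.ofReal c) fun x hx => ?_).trans ?_
    · rw [← ofReal_norm]
      exact ENNReal.ofReal_le_ofReal hx.2
    · rw [setLIntegral_const, hc, div_eq_mul_inv, mul_inv, ENNReal.ofReal_mul ENNReal.toReal_nonneg,
        ENNReal.ofReal_mul (by positivity), ENNReal.ofReal_toReal hV']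
      exact (mul_le_mul' le_rfl (measure_mono inter_subset_left)).trans_eq (by ring)
  have p2 : ∫⁻ x in ⋃ i, K0 ∩ disjointed A i, ‖fderiv ℝ u x‖ₑ ≤
      C1 * S + C * (Fintype.card (Fin d × Bool) * 4) * G := by
    refine (lintegral_iUnion_le _ _).trans ((ENNReal.tsum_le_tsum fun i =>
      cell h0 hL hC H hg m1 (hr i) (T := t0 * 2 ^ k1) ?_ (w1 i) (hK.inter (mA i))
        fun x hx => disjointed_subset A i hx.2).trans ?_)
    · rw [mul_comm]
      exact mul_le_mul_of_nonneg_left (zpow_le_zpow_right₀ one_le_two (by omega)) ht.le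
    rw [ENNReal.tsum_add, ENNReal.tsum_mul_left, ENNReal.tsum_mul_left, ENNReal.tsum_mul_left,
      ENNReal.tsum_comm, Summable.tsum_finsetSum fun _ _ => ENNReal.summable, hC1, mul_assoc,
      mul_assoc, mul_assoc, mul_assoc, ← ENNReal.tsum_geometric, ← ENNReal.tsum_mul_right,
      ← nsmul_eq_mul, ← Finset.card_univ, ← Finset.sum_const]
    gcongr with m j
    · rw [ENNReal.tsum_mul_left]
      refine mul_le_mul' le_rfl (le_trans (le_of_eq (tsum_congr fun i => ?_))
        (ENNReal.tsum_comp_le_tsum_of_injective (f := fun i : ℕ => 1 + i + m)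
          (fun a b h => by simpa using h) _))
      congr 1
      simp only [r]
      rw [Nat.cast_add (1 + i), ← sub_sub, zpow_sub₀ two_ne_zero _ m, zpow_natCast]
      ring
    · have mH := hit_meas m1.continuous hg.continuous (dir j) (t0 * 2 ^ k1)
      rw [← lintegral_iUnion (fun i => (hK.inter (mA i)).inter mH) fun a b h =>
        ((disjoint_disjointed A h).mono (inter_subset_left.trans inter_subset_right)
          (inter_subset_left.trans inter_subset_right))]
      refine le_trans (lintegral_mono_set (iUnion_subset fun i =>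
        inter_subset_inter_left _ inter_subset_left))
        ((hH u g K _ (t0 * 2 ^ k1) K0 m1 hg m3 (dir_norm j) (by positivity) hK).trans_eq ?_)
      rw [hG, mul_assoc]
  refine (lintegral_mono_set cov).trans ((lintegral_union_le _ _ _).trans ((add_le_add
    ((lintegral_union_le _ _ _).trans (add_le_add p0 p1)) p2).trans ?_))
  calc _ = C2 * G + C1 * S + ENNReal.ofReal om⁻¹ *
        (volume K0 * V * ENNReal.ofReal (((2 : ℝ) ^ k1) ^ d)⁻¹) := by rw [hC2]; ring
    _ ≤ _ := by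
      gcongr
      · exact le_add_self.trans le_self_add
      · exact le_self_add.trans le_self_add
      · exact le_add_self

end Vale.Agent.P137
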