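import Vale.Agent.P137.Area

open MeasureTheory Metric Set Filter Topology
open scoped ENNReal NNReal RealInnerProductSpace

namespace Vale.Agent.P137

variable {d : ℕ}

lemma key1 (hd : 1 ≤ d) (hS : StabStmt d) : ∃ (C : ℝ≥0∞) (L : ℝ), C ≠ ∞ ∧ 1 ≤ L ∧
    ∀ g : E d → ℝ, Measurable g → Integrable g → (∀ x, 0 ≤ g x) → ∀ (x c q : E d) (r m : ℝ),
      0 < r → r ≤ ‖c - x‖ → ‖c - x‖ ≤ 2 * r → ‖q - x‖ ≤ r →
      (∀ t, m < t → 4 * volume ({y | t < g y} ∩ ball q (r * 6)) ≤ volume (ball (0 : E d) r)) →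
      (∀ s, s < m → volume (ball (0 : E d) r) ≤ 4 * volume ({y | s < g y} ∩ ball q (r * 6))) →
      (∀ c' : E d, ‖c - x‖ ≤ ‖c' - x‖ → av g c' ‖c' - x‖ ≤ av g c ‖c - x‖) →
      ‖av g c ‖c - x‖ - m‖ₑ ≤ C * ∑' i : ℕ, (2 ^ (d + 1)) ^ i *
        (ENNReal.ofReal (r ^ d)⁻¹ * (ENNReal.ofReal (r ^ d)⁻¹ * Lam g x (r * (L / 2 ^ i)))) := by
  obtain ⟨C, L, hC, hL, H⟩ := key0 hd hS
  refine ⟨C, L, hC, hL, fun g hg hi h0 x c q r m hr h1 h2 h3 h4 h5 h6 => ?_⟩
  have e1 : ∀ y : E d, x + r • (r⁻¹ • (y - x)) = y := fun y => by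
    rw [smul_smul, mul_inv_cancel₀ hr.ne', one_smul, add_sub_cancel]
  have e2 : ∀ y : E d, r * ‖r⁻¹ • (y - x)‖ = ‖y - x‖ := fun y => by
    rw [norm_smul, norm_inv, Real.norm_of_nonneg hr.le, mul_inv_cancel_left₀ hr.ne']
  have e3 : ∀ t, volume ({y | t < g (x + r • y)} ∩ ball (r⁻¹ • (q - x)) 6) =
      ENNReal.ofReal (r ^ d)⁻¹ * volume ({y | t < g y} ∩ ball q (r * 6)) := fun t => by
    rw [← Th_vol x hr, ← Th_ball x hr, e1]; rfl
  have e4 : volume (ball (0 : E d) 1) = ENNReal.ofReal (r ^ d)⁻¹ * volume (ball (0 : E d) r) := by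
    rw [← Th_vol 0 hr, ← Th_ball 0 hr 0 1]; simp
  have hg' : Measurable fun y => g (x + r • y) := by fun_prop
  have := H (fun y => g (x + r • y)) hg'
    (((Th x hr).measurableEmbedding.integrable_map_iff (g := g)).1
      (by rw [Th_map]; exact hi.smul_measure ENNReal.ofReal_ne_top))
    (fun y => h0 _) (r⁻¹ • (c - x)) (r⁻¹ • (q - x)) m
    (le_of_mul_le_mul_left (by rw [e2]; linarith) hr)
    (le_of_mul_le_mul_left (by rw [e2]; linarith) hr)
    (le_of_mul_le_mul_left (by rw [e2]; linarith) hr)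
    (fun t ht => by rw [e3, e4, mul_left_comm]; exact mul_le_mul' le_rfl (h4 t ht))
    (fun t ht => by rw [e3, e4, mul_left_comm]; exact mul_le_mul' le_rfl (h5 t ht))
    (fun c' hc' => by
      have a1 : ‖x + r • c' - x‖ = r * ‖c'‖ := by
        rw [add_sub_cancel_left, norm_smul, Real.norm_of_nonneg hr.le]
      rw [Th_av g x hr, Th_av g x hr, e1, e2, ← a1]
      refine h6 _ ?_
      rw [a1, ← e2]; gcongr)
  rw [Th_av g x hr, e1, e2] at this
  refine this.trans (mul_le_mul' le_rfl (ENNReal.tsum_le_tsum fun i => mul_le_mul' le_rfl ?_))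
  rw [← Th_Lam g x hr]
  exact Dl_le hg' _

def AA (u : E d → ℝ) (l : ℝ) (e : E d) (m : E d → ℝ) (η : E d → ℝ≥0∞) : Set (E d) :=
  (⋂ q, (ball q l)ᶜ ∪ {x | ‖u x - m q‖ₑ ≤ η q}) ∩ (⋂ s ∈ Icc 0 (2 * l), {x | u x ≤ u (x + s • e)}) ∩
    {x | DifferentiableAt ℝ u x} ∩ {x | ‖fderiv ℝ u x‖ ≤ (d + 1) * fderiv ℝ u x e}

lemma AA_meas {u : E d → ℝ} (hu : Continuous u) (l : ℝ) (e : E d) (m : E d → ℝ)
    (η : E d → ℝ≥0∞) : MeasurableSet (AA u l e m η) := by
  refine (((IsClosed.measurableSet ?_).inter (IsClosed.measurableSet ?_)).inter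
    (measurableSet_of_differentiableAt ℝ u)).inter (measurableSet_le
      (measurable_fderiv ℝ u).norm ((measurable_fderiv_apply_const ℝ u e).const_mul _))
  · exact isClosed_iInter fun q => isOpen_ball.isClosed_compl.union
      (isClosed_le (by fun_prop) continuous_const)
  · exact isClosed_biInter fun s _ => isClosed_le hu (by fun_prop)

lemma AA_int {u : E d → ℝ} (hu : Continuous u) {l : ℝ} (hl : 0 < l) {e : E d} (he : ‖e‖ = 1)
    (m : E d → ℝ) (η : E d → ℝ≥0∞) :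
    ∫⁻ x in AA u l e m η, ‖fderiv ℝ u x‖ₑ ≤ ENNReal.ofReal ((d + 1) * (2 ^ d / l)) * ∫⁻ q, η q := by
  have hA := AA_meas hu l e m η
  have hb : volume (ball (0 : E d) l) ≠ 0 := (measure_ball_pos _ _ hl).ne'
  rw [← ENNReal.mul_le_mul_iff_right hb measure_ball_lt_top.ne, ← lintegral_indicator hA,
    ← tonelli_ball ((measurable_fderiv ℝ u).enorm.indicator hA), ← mul_assoc,
    ← lintegral_const_mul' _ _ (ENNReal.mul_ne_top measure_ball_lt_top.ne ENNReal.ofReal_ne_top)]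
  refine lintegral_mono fun q => ?_
  rw [setLIntegral_indicator hA]
  calc _ ≤ ∫⁻ x in AA u l e m η ∩ ball q l,
          ENNReal.ofReal (d + 1) * ENNReal.ofReal (fderiv ℝ u x e) := by
        refine setLIntegral_mono' (hA.inter measurableSet_ball) fun x hx => ?_
        rw [← ENNReal.ofReal_mul (by positivity), ← ofReal_norm]
        exact ENNReal.ofReal_le_ofReal hx.1.2
    _ ≤ ENNReal.ofReal (d + 1) *
          (η q * (ENNReal.ofReal (2 ^ d / l) * volume (ball (0 : E d) l))) := by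
        rw [lintegral_const_mul' _ _ ENNReal.ofReal_ne_top]
        refine mul_le_mul' le_rfl (area (hA.inter measurableSet_ball) hl he inter_subset_right
          (fun x hx => hx.1.1.2) (fun x hx s hs => mem_iInter₂.1 hx.1.1.1.2 s hs) (m := m q)
          fun x hx => ?_)
        exact (mem_iInter.1 hx.1.1.1.1 q).resolve_left fun h => h hx.2
    _ = _ := by rw [ENNReal.ofReal_mul (by positivity)]; ring

noncomputable def eta (g : E d → ℝ) (C : ℝ≥0∞) (L r : ℝ) (i : ℕ) (q : E d) : ℝ≥0∞ :=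
  ENNReal.ofReal (8 * (4 / 3) ^ i) * (C * ((2 ^ (d + 1)) ^ i *
    (ENNReal.ofReal (r ^ d)⁻¹ * (ENNReal.ofReal (r ^ d)⁻¹ * Lam g q (r * (2 * L / 2 ^ i))))))

lemma coef (hd : 2 ≤ d) {L r : ℝ} (hL : 0 < L) (hr : 0 < r) (i : ℕ) :
    (d + 1) * (2 ^ d / (r / 2 ^ i / d)) * (8 * (4 / 3) ^ i) * (2 ^ (d + 1)) ^ i * (r ^ d)⁻¹ *
      (r ^ d)⁻¹ * (r * (2 * L / 2 ^ i)) ^ d ≤
      ((d + 1) * 2 ^ d * d * 8 * (2 * L) ^ (2 * d + 1)) * (2 / 3) ^ i *
        ((r * (2 * L / 2 ^ i)) ^ (d + 1))⁻¹ := by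
  obtain ⟨k, rfl⟩ : ∃ k, d = k + 2 := ⟨d - 2, by omega⟩
  have h1 : ((2 : ℝ) ^ (k + 2 + 1)) ^ i = (2 ^ i) ^ (k + 2 + 1) := by
    rw [← pow_mul, ← pow_mul, mul_comm]
  have h2 : ((4 : ℝ) / 3) ^ i = 2 ^ i * (2 / 3) ^ i := by rw [← mul_pow]; norm_num
  rw [h1, h2]
  have h3 : (1 : ℝ) ≤ 2 ^ i := one_le_pow₀ (by norm_num)
  generalize (2 : ℝ) ^ i = a at h3 ⊢
  have h4 : (1 : ℝ) ≤ a ^ k := one_le_pow₀ h3
  have h5 : 0 < a := by linarith
  calc _ ≤ _ * a ^ k := le_mul_of_one_le_right (by positivity) h4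
    _ = _ := by
      simp only [mul_pow, div_pow]
      field_simp
      ring

lemma eta_int (hd : 2 ≤ d) {g : E d → ℝ} (hg : Measurable g) {C : ℝ≥0∞} (hC : C ≠ ∞) {L r : ℝ}
    (hL : 0 < L) (hr : 0 < r) (i : ℕ) :
    ENNReal.ofReal ((d + 1) * (2 ^ d / (r / 2 ^ i / d))) * ∫⁻ q, eta g C L r i q ≤
      ENNReal.ofReal ((d + 1) * 2 ^ d * d * 8 * (2 * L) ^ (2 * d + 1)) *
        (C * volume (ball (0 : E d) 1)) *
        (ENNReal.ofReal ((2 / 3) ^ i) * tt g (r * (2 * L / 2 ^ i))) := by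
  simp only [eta]
  rw [lintegral_const_mul' _ _ ENNReal.ofReal_ne_top, lintegral_const_mul' _ _ hC,
    lintegral_const_mul' _ _ (by finiteness), lintegral_const_mul' _ _ ENNReal.ofReal_ne_top,
    lintegral_const_mul' _ _ ENNReal.ofReal_ne_top, Lam_int hg, tt,
    Measure.addHaar_ball_of_pos _ _ (by positivity : 0 < r * (2 * L / 2 ^ i)),
    finrank_euclideanSpace, Fintype.card_fin]
  have h1 : ((2 : ℝ≥0∞) ^ (d + 1)) ^ i = ENNReal.ofReal ((2 ^ (d + 1)) ^ i) := by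
    rw [ENNReal.ofReal_pow (by positivity), ENNReal.ofReal_pow (by positivity)]; simp
  have h2 := ENNReal.ofReal_le_ofReal (coef hd hL hr i)
  rw [ENNReal.ofReal_mul (by positivity), ENNReal.ofReal_mul (by positivity),
    ENNReal.ofReal_mul (by positivity), ENNReal.ofReal_mul (by positivity),
    ENNReal.ofReal_mul (by positivity), ENNReal.ofReal_mul (p := _ * (2 / 3) ^ i) (by positivity),
    ENNReal.ofReal_mul (p := _ * (2 * L) ^ _) (q := (2 / 3) ^ i) (by positivity), ← h1] at h2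
  refine le_trans (le_of_eq ?_) ((mul_le_mul' h2 (le_refl (C * volume (ball (0 : E d) 1) *
    ∫⁻ v in ball (0 : E d) (r * (2 * L / 2 ^ i)), Ph g v))).trans (le_of_eq ?_)) <;> ring

lemma lint_cover {f : E d → ℝ≥0∞} {S : Set (E d)} (hS : MeasurableSet S) {ι : Type} [Countable ι]
    {A : ι → Set (E d)} (hA : ∀ i, MeasurableSet (A i)) (h : ∀ x ∈ S, f x ≠ 0 → ∃ i, x ∈ A i) :
    ∫⁻ x in S, f x ≤ ∑' i, ∫⁻ x in A i, f x := by
  refine le_trans ?_ (lintegral_iUnion_le A f)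
  rw [← lintegral_indicator (MeasurableSet.iUnion hA)]
  refine le_trans (setLIntegral_mono' hS fun x hx => ?_) (setLIntegral_le_lintegral S _)
  by_cases h0 : f x = 0
  · rw [h0]; exact zero_le
  · rw [indicator_of_mem (mem_iUnion.2 (h x hx h0))]

theorem gradStmt (hd : 2 ≤ d) (hS : StabStmt d) (hU : UStmt d) : GradStmt d := by
  have hd1 : 1 ≤ d := by omega
  have hd' : (1 : ℝ) ≤ d := by exact_mod_cast hd1
  obtain ⟨C, L, hC, hL, H⟩ := key1 hd1 hS
  set om := volume (ball (0 : E d) 1) with hom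
  have hom1 : om ≠ ∞ := measure_ball_lt_top.ne
  set K := ENNReal.ofReal ((d + 1) * 2 ^ d * d * 8 * (2 * L) ^ (2 * d + 1)) * (C * om) with hK
  have hK1 : K ≠ ∞ := by finiteness
  have hK2 : (2 * d : ℝ≥0∞) * (K * (3 * om)) ≠ ∞ := by finiteness
  refine ⟨(2 * d * (K * (3 * om))).toNNReal, fun g V hg hi h0 hV hT => ?_⟩
  rw [ENNReal.coe_toNNReal hK2]
  choose M m hm using fun k : ℤ => quant hd1 hg hi h0 (r := 2 ^ k) (by positivity)
  let T : ℤ → ℝ≥0∞ := fun k => ∑' _j : Fin d × Bool, ∑' i : ℕ,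
    K * (ENNReal.ofReal ((2 / 3) ^ i) * tt g (2 ^ k * (2 * L / 2 ^ i)))
  have hTs : ∑' k, T k ≤ 2 * d * (K * (3 * om)) * V := by
    have a1 : ∀ i : ℕ, ∑' k : ℤ, tt g (2 ^ k * (2 * L / 2 ^ i)) ≤ om * V := fun i =>
      tt_sum hg hT (by positivity)
    have a2 : ∑' i : ℕ, ENNReal.ofReal ((2 / 3) ^ i) = 3 := by
      rw [← ENNReal.ofReal_tsum_of_nonneg (fun i => by positivity)
        (summable_geometric_of_lt_one (by norm_num) (by norm_num)),
        tsum_geometric_of_lt_one (by norm_num) (by norm_num)]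
      norm_num
    simp only [T]
    rw [ENNReal.tsum_comm]
    calc _ ≤ ∑' _j : Fin d × Bool, K * (3 * om) * V := by
          refine ENNReal.tsum_le_tsum fun j => ?_
          rw [ENNReal.tsum_comm]
          simp only [ENNReal.tsum_mul_left]
          rw [mul_assoc K, mul_assoc 3, ← a2, ← ENNReal.tsum_mul_right]
          exact mul_le_mul' le_rfl (ENNReal.tsum_le_tsum fun i => mul_le_mul' le_rfl (a1 i))
      _ = _ := by
          rw [tsum_fintype, Finset.sum_const, Finset.card_univ, Fintype.card_prod,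
            Fintype.card_fin, Fintype.card_bool, nsmul_eq_mul]
          push_cast; ring
  let A : ℝ → ℤ → (Fin d × Bool) × ℕ → Set (E d) := fun δ k p =>
    AA (uu g δ) (2 ^ k / 2 ^ p.2 / d) (dir p.1) (m k) (eta g C L (2 ^ k) p.2)
  have hcont : ∀ δ, 0 < δ → Continuous (uu g δ) := fun δ hδ =>
    (hU g V δ hi h0 hV hT hδ).1.choose_spec.continuous
  have hA : ∀ δ, 0 < δ → ∀ k, ∑' p, ∫⁻ x in A δ k p, ‖fderiv ℝ (uu g δ) x‖ₑ ≤ T k := by
    intro δ hδ k
    rw [ENNReal.tsum_prod']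
    refine ENNReal.tsum_le_tsum fun j => ENNReal.tsum_le_tsum fun i => ?_
    exact (AA_int (hcont δ hδ) (by positivity) (dir_norm j) _ _).trans
      (eta_int hd hg hC (by linarith) (by positivity) i)
  have hcov : ∀ δ, 0 < δ → ∀ x, ‖fderiv ℝ (uu g δ) x‖ₑ ≠ 0 → ∃ k p, x ∈ A δ k p ∧
      ∃ c ρ, 2 ^ k ≤ ρ ∧ ‖c - x‖ ≤ ρ ∧ uu g δ x = av g c ρ := by
    intro δ hδ x hx
    obtain ⟨-, u2, u3, u4⟩ := hU g V δ hi h0 hV hT hδ
    have hx0 : fderiv ℝ (uu g δ) x ≠ 0 := fun h =>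
      hx (by rw [h, ← ofReal_norm, norm_zero, ENNReal.ofReal_zero])
    have hdiff : DifferentiableAt ℝ (uu g δ) x :=
      by_contra fun h => hx0 (fderiv_zero_of_not_differentiableAt h)
    have hpos : 0 < uu g δ x := by
      refine (u3 x).lt_of_ne fun h => hx0 (IsLocalMin.fderiv_eq_zero ?_)
      exact Eventually.of_forall fun y => by rw [← h]; exact u3 y
    obtain ⟨c, ρ, b1, b2, b3⟩ := u4 x hpos
    have hmin : ∀ y, ‖c - y‖ ≤ ρ → uu g δ x ≤ uu g δ y := fun y hy => by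
      rw [b3]; exact u2 y c ρ b1 hy
    obtain rfl : ρ = ‖c - x‖ := by
      refine (b2.lt_or_eq.resolve_left fun h => hx0 (IsLocalMin.fderiv_eq_zero ?_)).symm
      have : ∀ᶠ y in 𝓝 x, ‖c - y‖ < ρ :=
        (by fun_prop : Continuous fun y => ‖c - y‖).continuousAt.eventually_lt continuousAt_const h
      exact this.mono fun y hy => hmin y hy.le
    have hρ : 0 < ‖c - x‖ := hδ.trans_le b1
    obtain ⟨k, k1, k2⟩ := exists_mem_Ico_zpow hρ (one_lt_two (α := ℝ))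
    rw [zpow_add_one₀ two_ne_zero, mul_comm] at k2
    obtain ⟨j, hj⟩ := exists_dir hd1 (c - x)
    have hr : (0 : ℝ) < 2 ^ k := by positivity
    set r : ℝ := 2 ^ k
    obtain ⟨i, hi'⟩ := pick (y := ⨆ q ∈ closedBall x r, ‖av g c ‖c - x‖ - m k q‖ₑ)
      (a := fun i => C * ((2 ^ (d + 1)) ^ i *
        (ENNReal.ofReal (r ^ d)⁻¹ * (ENNReal.ofReal (r ^ d)⁻¹ * Lam g x (r * (L / 2 ^ i))))))
      (by
        refine ne_top_of_le_ne_top (b := ENNReal.ofReal (|av g c ‖c - x‖| + M k))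
          ENNReal.ofReal_ne_top (iSup₂_le fun q _ => ?_)
        rw [Real.enorm_eq_ofReal_abs]
        exact ENNReal.ofReal_le_ofReal ((abs_sub _ _).trans (by linarith [(hm k q).1])))
      (by
        rw [ENNReal.tsum_mul_left]
        refine iSup₂_le fun q hq => H g hg hi h0 x c q r (m k q) hr k1 k2.le
          (by rwa [mem_closedBall, dist_eq_norm] at hq) (hm k q).2.1 (hm k q).2.2 fun c' hc' => ?_
        rw [← b3]
        exact u2 x c' _ (b1.trans hc') le_rfl)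
    have h2i : (1 : ℝ) ≤ 2 ^ i := one_le_pow₀ (by norm_num)
    have l1 : r / 2 ^ i / d ≤ r / 2 ^ i := div_le_self (by positivity) hd'
    have l2 : r / 2 ^ i ≤ r := div_le_self hr.le h2i
    refine ⟨k, (j, i), ⟨⟨⟨mem_iInter.2 fun q => ?_, mem_iInter₂.2 fun s hs => ?_⟩, hdiff⟩,
      grad_dir hd1 hdiff hmin hρ hj⟩, c, _, k1, le_rfl, b3⟩
    · by_cases hq : x ∈ ball q (r / 2 ^ i / d)
      swap
      · exact Or.inl hq
      right
      rw [mem_ball] at hq
      simp only [mem_ofPred_eq, b3]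
      refine le_trans (le_trans ?_ hi') ?_
      · exact le_iSup₂_of_le (f := fun q (_ : q ∈ closedBall x r) => ‖av g c ‖c - x‖ - m k q‖ₑ) q
          (by rw [mem_closedBall']; linarith) le_rfl
      · simp only [eta]
        gcongr
        refine Lam_mono g ?_
        have a1 : r / 2 ^ i ≤ r * (L / 2 ^ i) := by
          rw [mul_div_assoc']; gcongr; nlinarith
        have a2 : r * (2 * L / 2 ^ i) = 2 * (r * (L / 2 ^ i)) := by ring
        linarith
    · refine hmin _ (mem_cb hs.1 ?_)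
      rw [dir_norm, one_pow, mul_one]
      have a1 : r / 2 ^ i / d ≤ ‖c - x‖ / d := by gcongr; linarith
      linarith [hs.2]
  refine ⟨fun δ hδ => ?_, fun ε hε => ?_⟩
  · rw [← setLIntegral_univ]
    refine le_trans (lint_cover MeasurableSet.univ (A := fun p : ℤ × _ => A δ p.1 p.2)
      (fun p => AA_meas (hcont δ hδ) _ _ _ _) fun x _ hx => ?_) ?_
    · obtain ⟨k, p, h, -⟩ := hcov δ hδ x hx
      exact ⟨(k, p), h⟩
    · rw [ENNReal.tsum_prod']
      exact (ENNReal.tsum_le_tsum (hA δ hδ)).trans hTs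
  · have a1 := ENNReal.tendsto_tsum_compl_atTop_zero (f := T)
      (ne_top_of_le_ne_top (ENNReal.mul_ne_top hK2 hV) hTs)
    obtain ⟨s, hs⟩ := (a1.eventually (eventually_le_nhds hε)).exists
    obtain ⟨a, ha⟩ := s.bddBelow
    refine ⟨2 ^ a, by positivity, fun δ δ' h1 h2 h3 => ?_⟩
    have hδ : 0 < δ := h1.trans_le h2
    refine le_trans (lint_cover (measurableSet_lt (hcont δ hδ).measurable (hcont δ' h1).measurable)
      (A := fun p : {k // k ∉ s} × _ => A δ' p.1 p.2)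
      (fun p => AA_meas (hcont δ' h1) _ _ _ _) fun x hx1 hx => ?_) ?_
    · obtain ⟨k, p, h, c, ρ, b1, b2, b3⟩ := hcov δ' h1 x hx
      refine ⟨(⟨k, fun hk => ?_⟩, p), h⟩
      have c1 : (2 : ℝ) ^ a ≤ 2 ^ k := zpow_le_zpow_right₀ one_le_two (ha hk)
      have c2 := (hU g V δ hi h0 hV hT hδ).2.1 x c ρ (by linarith) b2
      rw [← b3] at c2
      exact absurd hx1 (not_lt.2 c2)
    · rw [ENNReal.tsum_prod']
      exact le_trans (ENNReal.tsum_le_tsum fun k : {k // k ∉ s} => hA δ' h1 k) hs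

end Vale.Agent.P137
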