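import Vale.Agent.P137.CBase

open MeasureTheory Metric Set Filter
open scoped ENNReal NNReal RealInnerProductSpace Topology

namespace Vale.Agent.P137

namespace Ht

variable {d : ℕ}

lemma lip_line {u : E d → ℝ} {K : ℝ≥0} (hu : LipschitzWith K u) {e : E d} (he : ‖e‖ = 1)
    (x : E d) : LipschitzWith K fun t : ℝ => u (x + t • e) := by
  refine LipschitzWith.of_dist_le_mul fun s t => (hu.dist_le_mul _ _).trans (le_of_eq ?_)
  rw [dist_add_left, dist_eq_norm, ← sub_smul, norm_smul, he, mul_one, dist_eq_norm]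

lemma der_line (u : E d → ℝ) (e x : E d) (s : ℝ) :
    deriv (fun t : ℝ => u (x + t • e)) s = lineDeriv ℝ u (x + s • e) e := by
  have h := deriv_comp_add_const (fun t : ℝ => u (x + t • e)) s 0
  rw [zero_add] at h
  rw [← h, lineDeriv]
  congr 2
  funext t
  rw [add_smul, add_assoc, add_comm (t • e)]

end Ht

open Ht in
theorem hitStmt (d : ℕ) (h2 : OD2Stmt) : HitStmt d := by
  intro u g K e T K0 hu hg hgu he hT hK0
  have hS : MeasurableSet (K0 ∩ Hit u g e T) :=
    hK0.inter (hit_meas hu.continuous hg.continuous e T)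
  have hC : MeasurableSet (cthickening (2 * T) K0) := isClosed_cthickening.measurableSet
  set f : E d → ℝ≥0∞ :=
    (K0 ∩ Hit u g e T).indicator fun x => ENNReal.ofReal (lineDeriv ℝ u x e) with hf
  set h : E d → ℝ≥0∞ := (cthickening (2 * T) K0).indicator fun x => ‖lineDeriv ℝ g x e‖ₑ with hh
  have mf : Measurable f :=
    (ENNReal.measurable_ofReal.comp (measurable_lineDeriv hu.continuous)).indicator hS
  have mh : Measurable h := (measurable_lineDeriv hg.continuous).enorm.indicator hC
  have e1 : ∫⁻ x in K0 ∩ Hit u g e T, ENNReal.ofReal (fderiv ℝ u x e) = ∫⁻ x, f x := by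
    rw [hf, lintegral_indicator hS]
    refine lintegral_congr_ae (ae_restrict_of_ae ?_)
    filter_upwards [hu.ae_differentiableAt] with x hx
    rw [hx.lineDeriv_eq_fderiv]
  have e2 : ∫⁻ x, h x ≤ ∫⁻ x in cthickening (2 * T) K0, ‖fderiv ℝ g x‖ₑ := by
    rw [hh, lintegral_indicator hC]
    refine lintegral_mono_ae (ae_restrict_of_ae ?_)
    filter_upwards [hg.ae_differentiableAt] with x hx
    rw [hx.lineDeriv_eq_fderiv, ← ofReal_norm, ← ofReal_norm]
    refine ENNReal.ofReal_le_ofReal (((fderiv ℝ g x).le_opNorm e).trans ?_)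
    rw [he, mul_one]
  have key : ∀ x, ∫⁻ t in Icc 0 T, f (x + t • e) ≤ 2 * ∫⁻ t in Icc 0 (2 * T), h (x + t • e) := by
    intro x
    have mA : MeasurableSet {t : ℝ | x + t • e ∈ K0 ∩ Hit u g e T} :=
      (show Measurable fun t : ℝ => x + t • e by fun_prop) hS
    have e3 : ∫⁻ t in Icc 0 T, f (x + t • e) =
        ∫⁻ s in {t : ℝ | x + t • e ∈ K0 ∩ Hit u g e T} ∩ Icc 0 T,
          ENNReal.ofReal (deriv (fun t : ℝ => u (x + t • e)) s) := by
      rw [← Measure.restrict_restrict mA, ← lintegral_indicator mA]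
      refine lintegral_congr fun t => ?_
      simp only [der_line]
      rfl
    rw [e3]
    rcases ({t : ℝ | x + t • e ∈ K0 ∩ Hit u g e T} ∩ Icc 0 T).eq_empty_or_nonempty with
      h0 | ⟨s0, hs0, hs1⟩
    · rw [h0]; simp
    refine (h2 _ _ K (2 * T) _ (lip_line hu he x) (lip_line hg he x) (fun s => hgu _)
      (mA.inter measurableSet_Icc) (fun s hs => ⟨hs.2.1, by linarith [hs.2.2]⟩) ?_).trans ?_
    · rintro s ⟨⟨-, τ, hτ, a1, a2⟩, hs⟩
      refine ⟨s + τ, ⟨by linarith [hτ.1], by linarith [hτ.2, hs.2]⟩, ?_, fun t ht => ?_⟩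
      · simpa only [add_smul, add_assoc] using a1
      · have := a2 (t - s) ⟨by linarith [ht.1], by linarith [ht.2]⟩
        rwa [add_assoc, ← add_smul, add_sub_cancel] at this
    · refine mul_le_mul' le_rfl (setLIntegral_mono' measurableSet_Icc fun t ht => ?_)
      have : x + t • e ∈ cthickening (2 * T) K0 := by
        refine mem_cthickening_of_dist_le _ _ _ _ hs0.1 ?_
        rw [dist_add_left, dist_eq_norm, ← sub_smul, norm_smul, he, mul_one, Real.norm_eq_abs,
          abs_le]
        constructor <;> linarith [ht.1, ht.2, hs1.1, hs1.2]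
      rw [hh, indicator_of_mem this, der_line]
  have h3 := lintegral_mono (μ := volume) key
  rw [lintegral_const_mul' _ _ (by simp), line_avg mf, line_avg mh,
    ENNReal.ofReal_mul (by norm_num), ENNReal.ofReal_ofNat] at h3
  have hT0 : ENNReal.ofReal T ≠ 0 := by simpa using hT
  rw [e1]
  refine le_trans ?_ (mul_le_mul' le_rfl e2)
  refine (ENNReal.mul_le_mul_iff_right hT0 ENNReal.ofReal_ne_top).1 (h3.trans (le_of_eq ?_))
  ring

end Vale.Agent.P137
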