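import Vale.Agent.P137.Level

open MeasureTheory Metric Set Filter Topology
open scoped ENNReal NNReal RealInnerProductSpace

namespace Vale.Agent.P137

variable {d : ℕ}

noncomputable def Dl (g : E d → ℝ) (r : ℝ) : ℝ≥0∞ := ∫⁻ t, bb {y | t < g y} r

lemma badJ_meas {g : E d → ℝ} (hg : Measurable g) :
    MeasurableSet {x : ℝ × (E d × E d) | x.2 ∈ Bad {y | x.1 < g y}} := by
  have h1 : MeasurableSet {x : ℝ × (E d × E d) | x.1 < g (x.2.1 + x.2.2)} :=
    measurableSet_lt (by fun_prop) (by fun_prop)
  have h2 : MeasurableSet {x : ℝ × (E d × E d) | x.1 < g (x.2.1 - x.2.2)} :=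
    measurableSet_lt (by fun_prop) (by fun_prop)
  have h3 : MeasurableSet {x : ℝ × (E d × E d) | x.1 < g x.2.1} :=
    measurableSet_lt (by fun_prop) (by fun_prop)
  exact (h1.iff h2).inter (h3.iff h1).compl

lemma bb_meas {g : E d → ℝ} (hg : Measurable g) (r : ℝ) :
    Measurable fun t => bb {y | t < g y} r :=
  measurable_measure_prodMk_left (ν := (volume : Measure (E d × E d)))
    ((badJ_meas hg).inter (measurable_snd (measurableSet_ball.prod measurableSet_ball)))

lemma Dl_mono (g : E d → ℝ) {r s : ℝ} (h : r ≤ s) : Dl g r ≤ Dl g s :=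
  lintegral_mono fun _ => bb_mono _ h

lemma cake_lt (μ : Measure (E d)) {k : E d → ℝ} (hk : Measurable k) :
    ∫⁻ y, ENNReal.ofReal (k y) ∂μ = ∫⁻ t in Ioi 0, μ {y | t < k y} := by
  have := lintegral_eq_lintegral_meas_lt μ (f := fun y => max (k y) 0)
    (Eventually.of_forall fun y => le_max_right _ _) (by fun_prop)
  simp only [ENNReal.ofReal_max, ENNReal.ofReal_zero, zero_le, sup_of_le_left] at this
  rw [this]
  refine setLIntegral_congr_fun measurableSet_Ioi fun t (ht : 0 < t) => ?_
  simp [ht.not_gt]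

lemma cake_le (μ : Measure (E d)) {k : E d → ℝ} (hk : Measurable k) :
    ∫⁻ y, ENNReal.ofReal (k y) ∂μ = ∫⁻ t in Ioi 0, μ {y | t ≤ k y} := by
  have := lintegral_eq_lintegral_meas_le μ (f := fun y => max (k y) 0)
    (Eventually.of_forall fun y => le_max_right _ _) (by fun_prop)
  simp only [ENNReal.ofReal_max, ENNReal.ofReal_zero, zero_le, sup_of_le_left] at this
  rw [this]
  refine setLIntegral_congr_fun measurableSet_Ioi fun t (ht : 0 < t) => ?_
  simp [ht.not_ge]

lemma low_eq {g : E d → ℝ} (hg : Measurable g) (m : ℝ) (B : Set (E d)) :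
    ∫⁻ y in B, ENNReal.ofReal (m - g y) = ∫⁻ t in Ioi 0, volume ({y | m - t < g y}ᶜ ∩ B) := by
  rw [cake_le _ (by fun_prop)]
  refine lintegral_congr fun t => ?_
  rw [Measure.restrict_apply (measurableSet_le (by fun_prop) (by fun_prop))]
  congr 2
  ext y
  simp only [mem_ofPred_eq, mem_compl_iff, not_lt]
  constructor <;> intro h <;> linarith

lemma av_sub {g : E d → ℝ} (hg : Integrable g) (c : E d) {r : ℝ} (hr : 0 < r) (m : ℝ) :
    (∫⁻ y in ball c r, ENNReal.ofReal (g y - m)) ≠ ∞ ∧
    (∫⁻ y in ball c r, ENNReal.ofReal (m - g y)) ≠ ∞ ∧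
    (av g c r - m) * (volume (ball c r)).toReal =
      (∫⁻ y in ball c r, ENNReal.ofReal (g y - m)).toReal -
        (∫⁻ y in ball c r, ENNReal.ofReal (m - g y)).toReal := by
  have h0 : IntegrableOn (fun _ : E d => m) (ball c r) := integrableOn_const measure_ball_lt_top.ne
  have h1 : IntegrableOn (fun y => g y - m) (ball c r) := hg.integrableOn.sub h0
  have h2 : IntegrableOn (fun y => m - g y) (ball c r) := h0.sub hg.integrableOn
  refine ⟨h1.lintegral_lt_top.ne, h2.lintegral_lt_top.ne, ?_⟩
  have h3 := integral_eq_lintegral_pos_part_sub_lintegral_neg_part h1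
  simp only [neg_sub] at h3
  rw [← h3, integral_sub hg.integrableOn h0, av, setIntegral_const, smul_eq_mul, measureReal_def]
  have : (volume (ball c r)).toReal ≠ 0 :=
    ENNReal.toReal_ne_zero.2 ⟨(measure_ball_pos _ _ hr).ne', measure_ball_lt_top.ne⟩
  field_simp

lemma real_key {a a2 m b b2 u x u2 x2 om G er : ℝ} (hom : 0 < om) (hb : om ≤ b) (hb2 : om ≤ b2)
    (hu : 0 ≤ u) (hx : 0 ≤ x) (hu2 : 0 ≤ u2) (her : 0 ≤ er) (hG : 2 * G * b ≤ b2)
    (h1 : (a - m) * b = u - x) (h2 : (a2 - m) * b2 = u2 - x2) (h3 : a2 ≤ a)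
    (h4 : x2 ≤ G * x + er) : |a - m| * om ≤ 2 * u + 2 * er := by
  have hb0 : 0 < b := by linarith
  have hb20 : 0 < b2 := by linarith
  rcases le_total 0 (a - m) with h | h
  · rw [abs_of_nonneg h]; nlinarith
  rw [abs_of_nonpos h]
  have k1 : (m - a) * b2 ≤ G * x + er := by nlinarith
  have k2 : (m - a) * b2 * (2 * b) ≤ b2 * x + er * (2 * b) := by nlinarith
  have k3 : x = (m - a) * b + u := by linarith
  rw [k3] at k2
  have k4 : (m - a) * (b * b2) ≤ u * b2 + 2 * er * b := by nlinarith
  have k5 : (m - a) * om * (b * b2) ≤ (2 * u + 2 * er) * (b * b2) := by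
    have p1 : om * (u * b2) ≤ b * (u * b2) := by gcongr
    have p2 : om * (er * b) ≤ b2 * (er * b) := by gcongr
    have p3 : 0 ≤ b * (u * b2) := by positivity
    nlinarith [mul_le_mul_of_nonneg_left k4 hom.le]
  have := le_of_mul_le_mul_right k5 (by positivity)
  linarith

theorem key0 (hd : 1 ≤ d) (hS : StabStmt d) : ∃ (C : ℝ≥0∞) (L : ℝ), C ≠ ∞ ∧ 1 ≤ L ∧
    ∀ g : E d → ℝ, Measurable g → Integrable g → (∀ x, 0 ≤ g x) → ∀ (c q : E d) (m : ℝ),
      1 ≤ ‖c‖ → ‖c‖ ≤ 2 → ‖q‖ ≤ 1 →
      (∀ t, m < t → 4 * volume ({y | t < g y} ∩ ball q 6) ≤ volume (ball (0 : E d) 1)) →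
      (∀ s, s < m → volume (ball (0 : E d) 1) ≤ 4 * volume ({y | s < g y} ∩ ball q 6)) →
      (∀ c' : E d, ‖c‖ ≤ ‖c'‖ → av g c' ‖c'‖ ≤ av g c ‖c‖) →
      ‖av g c ‖c‖ - m‖ₑ ≤ C * ∑' i : ℕ, (2 ^ (d + 1)) ^ i * Dl g (L / 2 ^ i) := by
  obtain ⟨ε, c0, hHS, h0, hc0, hc1, k1, k2, k3, k4⟩ := consts hS
  set Q : ℝ := 4000000 with hQ
  set om := volume (ball (0 : E d) 1) with hom
  have hom0 : om ≠ 0 := (measure_ball_pos _ _ one_pos).ne'
  have hom1 : om ≠ ∞ := measure_ball_lt_top.ne
  set K := 2 / volume (ball (0 : E d) (1 / 1000)) + om / c0 with hK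
  have hK1 : K ≠ ∞ := ENNReal.add_ne_top.2 ⟨ENNReal.div_ne_top (by norm_num)
    (measure_ball_pos _ _ (by norm_num)).ne', ENNReal.div_ne_top hom1 hc0⟩
  have hK2 : 2 / om ≠ ∞ := ENNReal.div_ne_top (by norm_num) hom0
  set Γ := 2 / DD d (1 / 20000 / Q) (1 / 10 ^ 7) with hΓ
  have hΓ1 : Γ ≠ ∞ := ENNReal.div_ne_top (by norm_num) (DD_ne_zero (by norm_num [hQ]) (by norm_num))
  refine ⟨2 / om * (2 / om + K) + 1, 12 * Q ^ 2, by finiteness, by norm_num [hQ], ?_⟩
  intro g hg hi hg0 c q m hc hc2 hq hm1 hm2 hopt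
  set S := ∑' i : ℕ, (2 ^ (d + 1)) ^ i * Dl g (12 * Q ^ 2 / 2 ^ i) with hSd
  by_cases hS1 : S = ∞
  · rw [hS1, ENNReal.mul_top (by simp)]; exact le_top
  have hmeas : ∀ s, MeasurableSet {y | s < g y} := fun s => measurableSet_lt (by fun_prop) hg
  obtain ⟨e, l, he, hl0, hl, hl1, hch⟩ := chain hd hHS h0 k1 (Q := Q) (by norm_num [hQ])
    (F := fun s => {y | s < g y}ᶜ) (fun a b hab y hy (hb : b < g y) => hy (hab.trans_lt hb))
    (fun s => (hmeas s).compl) m
  obtain ⟨u1, x1, e1⟩ := av_sub hi c (by linarith : 0 < ‖c‖) m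
  set u := ∫⁻ y in ball c ‖c‖, ENNReal.ofReal (g y - m) with hu
  set x := ∫⁻ y in ball c ‖c‖, ENNReal.ofReal (m - g y) with hx
  have hu2 : u ≤ 2 / om * S := by
    calc u = ∫⁻ t in Ioi 0, volume ({y | m + t < g y} ∩ ball c ‖c‖) := by
          rw [hu, cake_lt _ (by fun_prop)]
          refine lintegral_congr fun t => ?_
          rw [Measure.restrict_apply (measurableSet_lt (by fun_prop) (by fun_prop))]
          congr 2
          ext y
          simp only [mem_ofPred_eq]
          constructor <;> intro h <;> linarith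
      _ ≤ ∫⁻ t in Ioi 0, 2 / om * bb {y | m + t < g y} 4 := by
          refine setLIntegral_mono' measurableSet_Ioi fun t (ht : 0 < t) => ?_
          refine le_div_mul hom0 hom1 (l1 (W := ball q 6) (hmeas _) measurableSet_ball ?_
            (hm1 _ (by linarith)) ?_ (by norm_num))
          · intro z hz v hv
            rw [mem_ball, dist_eq_norm] at hz ⊢
            rw [mem_ball_zero_iff] at hv
            have : z + v - q = (z - c) + (c + (v + -q)) := by abel
            rw [this]
            linarith [norm_add_le (z - c) (c + (v + -q)), norm_add_le c (v + -q),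
              norm_add_le v (-q), norm_neg q]
          · intro z hz
            rw [mem_ball, dist_eq_norm] at hz
            rw [mem_ball_zero_iff]
            linarith [norm_le_norm_sub_add z c]
      _ ≤ 2 / om * Dl g 4 := by
          rw [lintegral_const_mul' _ _ hK2]
          gcongr
          exact (setLIntegral_le_lintegral _ _).trans
            (lintegral_add_left_eq_self (fun t => bb {y | t < g y} 4) m).le
      _ ≤ _ := by
          gcongr
          refine le_trans ?_ (ENNReal.le_tsum 0)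
          rw [pow_zero, one_mul]
          exact Dl_mono g (by norm_num [hQ])
  have hN : ∀ N : ℕ, |av g c ‖c‖ - m| * om.toReal ≤ 2 * u.toReal + 2 * ((K * S).toReal +
      |m| * ((Q ^ 2) ^ d / (2 ^ (d + 1)) ^ N * om.toReal)) := by
    intro N
    have hlN : ‖l N‖ ≤ 1 / 20 := by simpa [hl0] using l_bound hl1 (Nat.zero_le N)
    set R : ℝ := Q ^ 2 / 100 with hR
    have hR0 : 0 < R := by norm_num [hR, hQ]
    have hν : 1 ≤ ‖e + l N‖ := by
      have := abs_inner_le he (e + l N)
      rwa [real_inner_comm, inner_add_right, ee he, hl, add_zero, abs_one] at this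
    set c2 := R • (e + l N) with hc2d
    have hc3 : R ≤ ‖c2‖ := by
      rw [hc2d, norm_smul, Real.norm_of_nonneg hR0.le]; nlinarith
    have hR2 : 2 ≤ R := by norm_num [hR, hQ]
    obtain ⟨u3, x3, e3⟩ := av_sub hi c2 (by linarith : 0 < ‖c2‖) m
    have hsub : ball c2 ‖c2‖ ⊆ Cap (e + l N) R (Q ^ 2 / 2) := by
      intro y hy
      rw [mem_ball, dist_eq_norm] at hy
      have a1 : ‖y - c2‖ ^ 2 < ‖c2‖ ^ 2 := by gcongr
      rw [norm_sub_sq_real, hc2d, real_inner_smul_right] at a1
      have a2 : ‖y‖ ^ 2 < 2 * R * ⟪y, e + l N⟫ := by linarith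
      exact ⟨a2, (height he hlN hR0 a2).trans (by norm_num [hR, hQ])⟩
    set Z := ENNReal.ofReal ((Q ^ 2) ^ d / (2 ^ (d + 1)) ^ N) * om with hZ
    have hx2 : ∫⁻ y in ball c2 ‖c2‖, ENNReal.ofReal (m - g y) ≤
        Γ * x + (K * S + ENNReal.ofReal |m| * Z) := by
      have hmm : ∀ r, Measurable fun t => bb {y | m - t < g y} r := fun r =>
        (bb_meas hg r).comp (measurable_id.const_sub m)
      calc _ = ∫⁻ t in Ioi 0, volume ({y | m - t < g y}ᶜ ∩ ball c2 ‖c2‖) := low_eq hg m _
        _ ≤ ∫⁻ t in Ioi 0, (∑ j ∈ Finset.range N,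
              K * ((2 ^ (d + 1)) ^ j * bb {y | m - t < g y} (12 * Q ^ 2 / 2 ^ j)) +
              (Icc 0 m).indicator (fun _ => Z) t +
              Γ * volume ({y | m - t < g y}ᶜ ∩ ball c ‖c‖)) := by
            refine setLIntegral_mono' measurableSet_Ioi fun t (ht : 0 < t) => ?_
            by_cases htm : t ≤ m
            · have := level hc0 hc1 (Q := Q) (by norm_num [hQ]) k2 k3 k4 he hl0 hl hl1
                (hmeas (m - t)).compl (fun i => hch i (m - t) (by linarith)) hq hc
                (by rw [compl_compl]; exact hm2 _ (by linarith)) N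
              simp only [bb_compl] at this
              rw [indicator_of_mem (show t ∈ Icc 0 m from ⟨ht.le, htm⟩), add_right_comm]
              exact le_trans (measure_mono (inter_subset_inter_right _ hsub)) this
            · rw [(_ : {y | m - t < g y}ᶜ = ∅), empty_inter, measure_empty]
              · exact zero_le
              refine compl_empty_iff.2 (eq_univ_of_forall fun y => ?_)
              simp only [mem_ofPred_eq]
              linarith [hg0 y, not_le.1 htm]
        _ ≤ _ := by
            rw [lintegral_add_left (by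
                refine Measurable.add (Finset.measurable_sum _ fun j _ => ?_)
                  (measurable_const.indicator measurableSet_Icc)
                exact ((hmm _).const_mul _).const_mul _),
              lintegral_add_left (Finset.measurable_sum _ fun j _ =>
                ((hmm _).const_mul _).const_mul _),
              lintegral_const_mul' _ _ hΓ1, ← low_eq hg, add_comm,
              lintegral_finsetSum _ fun j _ => ((hmm _).const_mul _).const_mul _]
            refine add_le_add le_rfl (add_le_add ?_ ?_)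
            · rw [hSd, ← ENNReal.tsum_mul_left]
              refine le_trans (Finset.sum_le_sum fun j _ => ?_) (ENNReal.sum_le_tsum _)
              rw [lintegral_const_mul _ ((hmm _).const_mul _), lintegral_const_mul _ (hmm _)]
              gcongr
              exact (setLIntegral_le_lintegral _ _).trans
                (lintegral_sub_left_eq_self (fun t => bb {y | t < g y} _) m).le
            · refine (setLIntegral_le_lintegral _ _).trans ?_
              rw [lintegral_indicator_const measurableSet_Icc, Real.volume_Icc, mul_comm, sub_zero]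
              gcongr
              exact le_abs_self m
    have hvol : ∀ (z : E d) (r : ℝ), 0 < r → (volume (ball z r)).toReal = r ^ d * om.toReal := by
      intro z r hr
      rw [Measure.addHaar_ball_of_pos _ _ hr, ENNReal.toReal_mul,
        ENNReal.toReal_ofReal (by positivity)]
      simp [hom]
    have hom2 : 0 < om.toReal := ENNReal.toReal_pos hom0 hom1
    refine real_key (G := Γ.toReal) hom2 ?_ ?_ ENNReal.toReal_nonneg ENNReal.toReal_nonneg
      ENNReal.toReal_nonneg (by positivity) ?_ e1 e3 (hopt c2 (by linarith)) ?_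
    · rw [hvol c _ (by linarith)]
      exact le_mul_of_one_le_left hom2.le (one_le_pow₀ hc)
    · rw [hvol c2 _ (by linarith)]
      exact le_mul_of_one_le_left hom2.le (one_le_pow₀ (by linarith))
    · rw [hvol c _ (by linarith), hvol c2 _ (by linarith), ← mul_assoc]
      gcongr
      rw [hΓ, ENNReal.toReal_div, DD, ENNReal.toReal_ofReal (by positivity)]
      have a1 : ‖c‖ ^ d ≤ 2 ^ d := by gcongr
      have a2 : R ^ d ≤ ‖c2‖ ^ d := by gcongr
      have a3 : R ^ d * (1 / 20000 / Q) ^ d = 2 ^ d := by rw [← mul_pow]; norm_num [hR, hQ]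
      have a4 : (0 : ℝ) < (1 / 20000 / Q) ^ d := by positivity
      refine le_trans ?_ a2
      rw [ENNReal.toReal_ofNat, mul_div_assoc', div_mul_eq_mul_div, div_le_iff₀ (by positivity),
        ← mul_assoc, a3]
      have a5 : (1 / 10 ^ 7 / (1 / 20000 / Q) : ℝ) = 8000 := by norm_num [hQ]
      have a6 : (0 : ℝ) < 2 ^ d := by positivity
      rw [a5]; linarith
    · refine (ENNReal.toReal_mono (by finiteness) hx2).trans (le_of_eq ?_)
      rw [ENNReal.toReal_add (by finiteness) (by finiteness),
        ENNReal.toReal_add (by finiteness) (by finiteness), hZ]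
      simp only [ENNReal.toReal_mul]
      rw [ENNReal.toReal_ofReal (abs_nonneg m), ENNReal.toReal_ofReal (by positivity)]
  have hlim : |av g c ‖c‖ - m| * om.toReal ≤ 2 * u.toReal + 2 * ((K * S).toReal +
      |m| * (0 * om.toReal)) := by
    refine ge_of_tendsto' (x := atTop) ?_ hN
    refine tendsto_const_nhds.add (Tendsto.const_mul _ (tendsto_const_nhds.add
      (Tendsto.const_mul _ (Tendsto.mul_const _ ?_))))
    exact tendsto_const_nhds.div_atTop
      (tendsto_pow_atTop_atTop_of_one_lt (one_lt_pow₀ (by norm_num) (by omega)))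
  rw [zero_mul, mul_zero, add_zero] at hlim
  rw [add_mul, mul_assoc]
  refine le_trans (le_div_mul hom0 hom1 ?_) le_self_add
  calc _ = ENNReal.ofReal (|av g c ‖c‖ - m| * om.toReal) := by
        rw [ENNReal.ofReal_mul (abs_nonneg _), ENNReal.ofReal_toReal hom1, Real.enorm_eq_ofReal_abs]
    _ ≤ ENNReal.ofReal (2 * u.toReal + 2 * (K * S).toReal) := ENNReal.ofReal_le_ofReal hlim
    _ = 2 * (u + K * S) := by
        rw [← mul_add, ENNReal.ofReal_mul (by norm_num), ENNReal.ofReal_add (by positivity)
          (by positivity), ENNReal.ofReal_toReal u1, ENNReal.ofReal_toReal (by finiteness)]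
        simp
    _ ≤ _ := by rw [add_mul (2 / om)]; exact mul_le_mul' le_rfl (add_le_add hu2 le_rfl)

end Vale.Agent.P137
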