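import Vale.Agent.P137.Key

open MeasureTheory Metric Set Filter Topology
open scoped ENNReal NNReal RealInnerProductSpace

namespace Vale.Agent.P137

variable {d : ℕ}

/-- distance of the middle value to the interval spanned by the end values -/
noncomputable def dl (g : E d → ℝ) (z v : E d) : ℝ≥0∞ :=
  ENNReal.ofReal ((|g (z + v) - g z| + |g z - g (z - v)| - |g (z + v) - g (z - v)|) / 2)

noncomputable def Lam (g : E d → ℝ) (q : E d) (r : ℝ) : ℝ≥0∞ :=
  ∫⁻ z in ball q r, ∫⁻ v in ball (0 : E d) r, dl g z v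

lemma dl_meas {g : E d → ℝ} (hg : Measurable g) :
    Measurable fun p : E d × E d => dl g p.1 p.2 := by
  unfold dl; fun_prop

lemma Lam_mono (g : E d → ℝ) {x q : E d} {r s : ℝ} (h : r + dist x q ≤ s) :
    Lam g x r ≤ Lam g q s :=
  (lintegral_mono fun _ => lintegral_mono_set
    (ball_subset_ball (by linarith [dist_nonneg (x := x) (y := q)]))).trans
    (lintegral_mono_set (ball_subset_ball' h))

lemma bad_le (a b c : ℝ) : volume {t : ℝ | (t < a ↔ t < c) ∧ ¬ (t < b ↔ t < a)} ≤
    ENNReal.ofReal ((|a - b| + |b - c| - |a - c|) / 2) := by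
  by_cases h : b ≤ min a c
  · refine le_trans (measure_mono (t := Icc b (min a c)) ?_) ?_
    · rintro t ⟨h1, h2⟩
      rw [le_min_iff] at h
      have h3 : ¬ t < b := fun k => h2 (iff_of_true k (k.trans_le h.1))
      have h4 : t < a := by_contra fun k => h2 (iff_of_false h3 k)
      exact ⟨not_lt.1 h3, le_min h4.le (h1.1 h4).le⟩
    · rw [Real.volume_Icc]
      refine ENNReal.ofReal_le_ofReal ?_
      rw [le_min_iff] at h
      rw [abs_of_nonneg (by linarith [h.1] : 0 ≤ a - b), abs_of_nonpos (by linarith : b - c ≤ 0)]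
      rcases le_total a c with k | k
      · rw [min_eq_left k, abs_of_nonpos (by linarith)]; linarith
      · rw [min_eq_right k, abs_of_nonneg (by linarith)]; linarith
  refine le_trans (measure_mono (t := Icc (max a c) b) ?_) ?_
  · rintro t ⟨h1, h2⟩
    rw [not_le, min_lt_iff] at h
    have h3 : ¬ t < a := fun k => h2 (iff_of_true
      (h.elim (fun j => k.trans j) fun j => (h1.1 k).trans j) k)
    have h4 : t < b := by_contra fun k => h2 (iff_of_false k h3)
    exact ⟨max_le (not_lt.1 h3) (not_lt.1 fun k => h3 (h1.2 k)), h4.le⟩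
  · rw [Real.volume_Icc]
    by_cases k : max a c ≤ b
    · refine ENNReal.ofReal_le_ofReal ?_
      rw [max_le_iff] at k
      rw [abs_of_nonpos (by linarith [k.1] : a - b ≤ 0), abs_of_nonneg (by linarith : 0 ≤ b - c)]
      rcases le_total a c with j | j
      · rw [max_eq_right j, abs_of_nonpos (by linarith)]; linarith
      · rw [max_eq_left j, abs_of_nonneg (by linarith)]; linarith
    · rw [ENNReal.ofReal_of_nonpos (by linarith [not_le.1 k])]; exact zero_le

lemma Dl_le {g : E d → ℝ} (hg : Measurable g) (r : ℝ) : Dl g r ≤ Lam g 0 r := by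
  have hB : MeasurableSet (ball (0 : E d) r ×ˢ ball (0 : E d) r) :=
    measurableSet_ball.prod measurableSet_ball
  have hJ := (badJ_meas hg).inter (measurable_snd hB)
  have h1 := Measure.prod_apply (μ := (volume : Measure ℝ)) (ν := (volume : Measure (E d × E d))) hJ
  rw [Measure.prod_apply_symm hJ] at h1
  calc Dl g r = _ := h1.symm
    _ ≤ ∫⁻ p : E d × E d, (ball (0 : E d) r ×ˢ ball (0 : E d) r).indicator
          (fun p => dl g p.1 p.2) p := by
        refine lintegral_mono fun p => ?_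
        by_cases hp : p ∈ ball (0 : E d) r ×ˢ ball (0 : E d) r
        · rw [indicator_of_mem hp]
          exact le_trans (measure_mono fun t ht => ht.1) (bad_le _ _ _)
        · rw [indicator_of_notMem hp, nonpos_iff_eq_zero]
          exact measure_mono_null (t := ∅) (fun t ht => hp ht.2) measure_empty
    _ = _ := by
        rw [lintegral_indicator hB, Measure.volume_eq_prod, ← Measure.prod_restrict,
          lintegral_prod _ (dl_meas hg).aemeasurable, Lam]

/-! scaling -/

noncomputable def Th (x : E d) {r : ℝ} (hr : 0 < r) : E d ≃ᵐ E d :=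
  ((Homeomorph.smul (isUnit_iff_ne_zero.2 hr.ne').unit).trans
    (Homeomorph.addLeft x)).toMeasurableEquiv

lemma Th_apply (x : E d) {r : ℝ} (hr : 0 < r) (y : E d) : Th x hr y = x + r • y := rfl

lemma Th_map (x : E d) {r : ℝ} (hr : 0 < r) :
    Measure.map (Th x hr) volume = ENNReal.ofReal (r ^ d)⁻¹ • volume := by
  have : (Th x hr : E d → E d) = (fun y => x + y) ∘ fun y => r • y := rfl
  rw [this, ← Measure.map_map (by fun_prop) (by fun_prop), Measure.map_addHaar_smul _ hr.ne',
    Measure.map_smul, map_add_left_eq_self, abs_of_pos (by positivity)]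
  simp

lemma Th_ball (x : E d) {r : ℝ} (hr : 0 < r) (c : E d) (s : ℝ) :
    Th x hr ⁻¹' ball (x + r • c) (r * s) = ball c s := by
  ext y
  simp only [mem_preimage, Th_apply, mem_ball, dist_eq_norm, add_sub_add_left_eq_sub, ← smul_sub,
    norm_smul, Real.norm_of_nonneg hr.le]
  exact mul_lt_mul_iff_right₀ hr

lemma Th_vol (x : E d) {r : ℝ} (hr : 0 < r) (A : Set (E d)) :
    volume (Th x hr ⁻¹' A) = ENNReal.ofReal (r ^ d)⁻¹ * volume A := by
  rw [← (Th x hr).map_apply, Th_map]; rfl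

lemma Th_lint (x : E d) {r : ℝ} (hr : 0 < r) (k : E d → ℝ≥0∞) (s : ℝ) :
    ∫⁻ y in ball (0 : E d) s, k (x + r • y) =
      ENNReal.ofReal (r ^ d)⁻¹ * ∫⁻ y in ball x (r * s), k y := by
  have : ∫⁻ y in ball x (r * s), k y ∂(Measure.map (Th x hr) volume) =
      ∫⁻ y in Th x hr ⁻¹' ball x (r * s), k (Th x hr y) := by
    rw [(Th x hr).measurableEmbedding.restrict_map, (Th x hr).measurableEmbedding.lintegral_map]
  rw [Th_map, Measure.restrict_smul, lintegral_smul_measure, smul_eq_mul] at this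
  rw [this, ← Th_ball x hr 0 s, smul_zero, add_zero]
  rfl

lemma Th_av (g : E d → ℝ) (x : E d) {r : ℝ} (hr : 0 < r) (c : E d) (s : ℝ) :
    av (fun y => g (x + r • y)) c s = av g (x + r • c) (r * s) := by
  have := (Th x hr).measurableEmbedding.setIntegral_map (μ := volume) g (ball (x + r • c) (r * s))
  rw [Th_map, Measure.restrict_smul, integral_smul_measure, smul_eq_mul, Th_ball] at this
  rw [av, av, ← Th_ball x hr c s, Th_vol, Th_ball, ENNReal.toReal_mul]
  simp only [Th_apply] at this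
  rw [← this, mul_div_mul_left]
  rw [ENNReal.toReal_ofReal (by positivity)]; positivity

lemma Th_Lam (g : E d → ℝ) (x : E d) {r : ℝ} (hr : 0 < r) (s : ℝ) :
    Lam (fun y => g (x + r • y)) 0 s =
      ENNReal.ofReal (r ^ d)⁻¹ * (ENNReal.ofReal (r ^ d)⁻¹ * Lam g x (r * s)) := by
  have h : ∀ z v, dl (fun y => g (x + r • y)) z v = dl g (x + r • z) (0 + r • v) := by
    intro z v
    simp only [dl, smul_add, smul_sub, zero_add, add_assoc, add_sub_assoc]
  simp only [Lam, h]
  simp only [Th_lint 0 hr (dl g _)]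
  rw [lintegral_const_mul' _ _ ENNReal.ofReal_ne_top,
    Th_lint x hr fun z => ∫⁻ v in ball (0 : E d) (r * s), dl g z v]

/-! summation over scales -/

lemma tonelli_ball {f : E d → ℝ≥0∞} (hf : Measurable f) (l : ℝ) :
    ∫⁻ q, ∫⁻ x in ball q l, f x = volume (ball (0 : E d) l) * ∫⁻ x, f x := by
  have hm : MeasurableSet {p : E d × E d | dist p.2 p.1 < l} :=
    measurableSet_lt (by fun_prop) (by fun_prop)
  calc _ = ∫⁻ q, ∫⁻ x, {p : E d × E d | dist p.2 p.1 < l}.indicator (fun p => f p.2) (q, x) := by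
        refine lintegral_congr fun q => ?_
        rw [← lintegral_indicator measurableSet_ball]
        rfl
    _ = ∫⁻ x, ∫⁻ q, {p : E d × E d | dist p.2 p.1 < l}.indicator (fun p => f p.2) (q, x) :=
        lintegral_lintegral_swap ((hf.comp measurable_snd).indicator hm).aemeasurable
    _ = ∫⁻ x, volume (ball (0 : E d) l) * f x := by
        refine lintegral_congr fun x => ?_
        rw [← Measure.addHaar_ball_center volume x, mul_comm,
          ← lintegral_indicator_const measurableSet_ball]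
        refine lintegral_congr fun q => ?_
        simp only [indicator, mem_ofPred_eq, mem_ball, dist_comm x q]
    _ = _ := lintegral_const_mul _ hf

noncomputable def Ph (g : E d → ℝ) (v : E d) : ℝ≥0∞ := ∫⁻ z, dl g z v

lemma Ph_meas {g : E d → ℝ} (hg : Measurable g) : Measurable (Ph g) :=
  (dl_meas hg).lintegral_prod_left'

lemma Lam_int {g : E d → ℝ} (hg : Measurable g) (s : ℝ) :
    ∫⁻ q, Lam g q s = volume (ball (0 : E d) s) * ∫⁻ v in ball (0 : E d) s, Ph g v := by
  simp only [Lam]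
  rw [tonelli_ball (dl_meas hg).lintegral_prod_right', lintegral_lintegral_swap
    (dl_meas hg).aemeasurable]
  rfl

lemma Ph_le {g : E d → ℝ} (hg : Measurable g) (v : E d) :
    2 * Ph g v + ∫⁻ z, ‖g (z + (2 : ℝ) • v) - g z‖ₑ ≤ 2 * ∫⁻ z, ‖g (z + v) - g z‖ₑ := by
  have h1 : ∫⁻ z, ‖g (z + (2 : ℝ) • v) - g z‖ₑ = ∫⁻ z, ‖g (z + v) - g (z - v)‖ₑ := by
    rw [← lintegral_sub_right_eq_self (fun z => ‖g (z + (2 : ℝ) • v) - g z‖ₑ) v]
    refine lintegral_congr fun z => ?_
    rw [two_smul, ← add_assoc, sub_add_cancel]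
  have h2 : ∫⁻ z, ‖g (z + v) - g z‖ₑ = ∫⁻ z, ‖g z - g (z - v)‖ₑ := by
    rw [← lintegral_sub_right_eq_self (fun z => ‖g (z + v) - g z‖ₑ) v]
    simp only [sub_add_cancel]
  rw [h1, two_mul (∫⁻ z, ‖g (z + v) - g z‖ₑ)]
  nth_rewrite 2 [h2]
  rw [Ph, ← lintegral_const_mul' _ _ (by norm_num), ← lintegral_add_right _ (by fun_prop),
    ← lintegral_add_right _ (by fun_prop)]
  refine lintegral_mono fun z => ?_
  have h3 := abs_sub_le (g (z + v)) (g z) (g (z - v))
  simp only [dl, Real.enorm_eq_ofReal_abs]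
  rw [two_mul, ← ENNReal.ofReal_add (by linarith) (by linarith),
    ← ENNReal.ofReal_add (by linarith) (abs_nonneg _),
    ← ENNReal.ofReal_add (abs_nonneg _) (abs_nonneg _)]
  exact ENNReal.ofReal_le_ofReal (by linarith)

lemma zsum {φ α : ℤ → ℝ≥0∞} {B : ℝ≥0∞} (h : ∀ j, φ j + α (j + 1) ≤ α j) (hB : ∀ j, α j ≤ B) :
    ∑' j, φ j ≤ B := by
  have key : ∀ (a : ℤ) (n : ℕ), ∑ j ∈ Finset.Ico a (a + n), φ j + α (a + n) ≤ α a := by
    intro a n
    induction n with
    | zero => simp
    | succ n ih =>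
      rw [Nat.cast_succ, ← add_assoc, ← Finset.insert_Ico_right_eq_Ico_add_one (by omega),
        Finset.sum_insert (by simp), add_comm (φ _), add_assoc]
      exact (add_le_add le_rfl (h _)).trans ih
  rw [ENNReal.tsum_eq_iSup_sum]
  refine iSup_le fun s => ?_
  obtain ⟨a, ha⟩ := s.bddBelow
  obtain ⟨b, hb⟩ := s.bddAbove
  refine le_trans (Finset.sum_le_sum_of_subset fun j hj => ?_)
    (le_self_add.trans ((key a (b + 1 - a).toNat).trans (hB a)))
  have h1 := ha hj
  have h2 := hb hj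
  rw [Finset.mem_Ico]
  omega

lemma Ph_sum {g : E d → ℝ} (hg : Measurable g) {V : ℝ≥0∞} (hT : Tb g V) (v : E d) :
    ∑' j : ℤ, ENNReal.ofReal (2 ^ j)⁻¹ * Ph g ((2 : ℝ) ^ j • v) ≤ ‖v‖ₑ * V := by
  refine zsum (α := fun j => ENNReal.ofReal (2 ^ j)⁻¹ * ∫⁻ z, ‖g (z + (2 : ℝ) ^ j • v) - g z‖ₑ)
    (fun j => ?_) fun j => ?_
  · have h1 := Ph_le hg ((2 : ℝ) ^ j • v)
    have h2 : ENNReal.ofReal (2 ^ j)⁻¹ = ENNReal.ofReal (2 ^ (j + 1))⁻¹ * 2 := by
      rw [← ENNReal.ofReal_ofNat 2, ← ENNReal.ofReal_mul (by positivity), zpow_add_one₀ two_ne_zero]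
      congr 1; field_simp
    rw [smul_smul, mul_comm (2 : ℝ), ← zpow_add_one₀ two_ne_zero] at h1
    rw [h2, mul_assoc, mul_assoc, ← mul_add]
    gcongr
  · refine (mul_le_mul' le_rfl (hT _)).trans (le_of_eq ?_)
    rw [← mul_assoc, enorm_smul, ← mul_assoc, Real.enorm_eq_ofReal (by positivity),
      ← ENNReal.ofReal_mul (by positivity), inv_mul_cancel₀ (by positivity)]
    simp

/-- the scale functional -/
noncomputable def tt (g : E d → ℝ) (s : ℝ) : ℝ≥0∞ :=
  ENNReal.ofReal (s ^ (d + 1))⁻¹ * ∫⁻ v in ball (0 : E d) s, Ph g v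

lemma tt_sum {g : E d → ℝ} (hg : Measurable g) {V : ℝ≥0∞} (hT : Tb g V) {L : ℝ} (hL : 0 < L) :
    ∑' j : ℤ, tt g (2 ^ j * L) ≤ volume (ball (0 : E d) 1) * V := by
  have h1 : ∀ j : ℤ, tt g (2 ^ j * L) = ENNReal.ofReal (L ^ (d + 1))⁻¹ *
      ∫⁻ v in ball (0 : E d) L, ENNReal.ofReal (2 ^ j)⁻¹ * Ph g ((2 : ℝ) ^ j • v) := by
    intro j
    have := Th_lint 0 (r := 2 ^ j) (by positivity) (Ph g) L
    simp only [zero_add] at this
    rw [lintegral_const_mul' _ _ ENNReal.ofReal_ne_top, this, tt, ← mul_assoc, ← mul_assoc,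
      ← ENNReal.ofReal_mul (by positivity), ← ENNReal.ofReal_mul (by positivity)]
    congr 2
    rw [mul_pow, pow_succ (2 ^ j : ℝ)]; field_simp
  simp only [h1]
  have hm : ∀ j : ℤ, Measurable fun v => ENNReal.ofReal (2 ^ j)⁻¹ * Ph g ((2 : ℝ) ^ j • v) :=
    fun j => ((Ph_meas hg).comp (measurable_const_smul _)).const_mul _
  rw [ENNReal.tsum_mul_left, ← lintegral_tsum fun j => (hm j).aemeasurable]
  calc _ ≤ ENNReal.ofReal (L ^ (d + 1))⁻¹ * ∫⁻ _ in ball (0 : E d) L, ENNReal.ofReal L * V := by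
        refine mul_le_mul' le_rfl (setLIntegral_mono' measurableSet_ball fun v hv => ?_)
        refine (Ph_sum hg hT v).trans (mul_le_mul' ?_ le_rfl)
        rw [← ofReal_norm]
        exact ENNReal.ofReal_le_ofReal (mem_ball_zero_iff.1 hv).le
    _ = _ := by
        rw [setLIntegral_const, Measure.addHaar_ball_of_pos _ _ hL, finrank_euclideanSpace,
          Fintype.card_fin]
        have : ENNReal.ofReal (L ^ (d + 1))⁻¹ * (ENNReal.ofReal L * ENNReal.ofReal (L ^ d)) = 1 := by
          rw [← ENNReal.ofReal_mul hL.le, ← ENNReal.ofReal_mul (by positivity), ← pow_succ',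
            inv_mul_cancel₀ (by positivity), ENNReal.ofReal_one]
        calc _ = ENNReal.ofReal (L ^ (d + 1))⁻¹ * (ENNReal.ofReal L * ENNReal.ofReal (L ^ d)) *
              (volume (ball (0 : E d) 1) * V) := by ring
          _ = _ := by rw [this, one_mul]

end Vale.Agent.P137
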