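import Vale.Agent.P137.CBase

open MeasureTheory Metric Set Filter
open scoped ENNReal NNReal RealInnerProductSpace Topology

namespace Vale.Agent.P137

variable {d : ℕ}

namespace Lev

lemma bb_le (F : Set (E d)) (ϑ L : ℝ) : bb F L ≤ TS F ϑ L := by
  have h := ENNReal.le_tsum (f := fun m : ℕ =>
    ENNReal.ofReal (ϑ ^ m * (2 ^ m) ^ (d + 1)) * bw F L (L / 2 ^ m)) 0
  simpa [bw, bb, TS] using h

lemma sum_le (F : Set (E d)) {ϑ : ℝ} (L : ℝ) (h0 : 0 < ϑ) (h1 : ϑ ≤ 1) (j0 : ℕ) :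
    ∑ j ∈ Finset.range (j0 + 1), ENNReal.ofReal ((2 ^ j) ^ (d + 1)) * bw F L (L / 2 ^ j) ≤
      ENNReal.ofReal (1 / ϑ ^ j0) * TS F ϑ L := by
  refine le_trans ?_ (mul_le_mul_right (ENNReal.sum_le_tsum (Finset.range (j0 + 1))) _)
  rw [Finset.mul_sum]
  refine Finset.sum_le_sum fun j hj => ?_
  rw [← mul_assoc, ← ENNReal.ofReal_mul (by positivity)]
  refine mul_le_mul_left (ENNReal.ofReal_le_ofReal ?_) _
  have h2 : ϑ ^ j0 ≤ ϑ ^ j :=
    pow_le_pow_of_le_one h0.le h1 (Nat.lt_succ_iff.1 (Finset.mem_range.1 hj))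
  rw [← mul_assoc]
  refine le_mul_of_one_le_left (by positivity) ?_
  rw [one_div_mul_eq_div, one_le_div (by positivity)]
  exact h2

lemma kk_int {F : Set (E d)} (hF : MeasurableSet F) (ν : E d) (h : ℝ) {σ A : ℝ} (hσ : 0 < σ)
    (hA : 0 ≤ A) (hD : volume (dev F ν h (σ / 2) ∩ ball 0 10) ≤ ENNReal.ofReal A) :
    ∫ y in ball (0 : E d) 3, kk F ν h σ y ≤ A := by
  have hm := dev_meas hF ν h σ
  calc _ ≤ ∫ y in ball (0 : E d) 3, (dev F ν h σ).indicator (fun _ => (1 : ℝ)) y :=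
        setIntegral_mono ((kk_bm hF ν h hσ).integrableOn measure_ball_lt_top.ne)
          ((BM.indicator hm).integrableOn measure_ball_lt_top.ne) (kk_le F ν h σ)
    _ = (volume (dev F ν h σ ∩ ball 0 3)).toReal := by
        rw [integral_indicator hm, setIntegral_const, smul_eq_mul, mul_one, Measure.real,
          Measure.restrict_apply hm]
    _ ≤ A := ENNReal.toReal_le_of_le_ofReal hA (le_trans (measure_mono (inter_subset_inter
        (dev_anti F ν h (by linarith)) (ball_subset_ball (by norm_num)))) hD)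

lemma osc_int {k : E d → ℝ} (hk : BM k) (w : ℝ) {A : ℝ} (hA : 0 ≤ A)
    (h : ∫⁻ y in ball (0 : E d) 3, ENNReal.ofReal (osc k w y) ≤ ENNReal.ofReal A) :
    ∫ y in ball (0 : E d) 3, osc k w y ≤ A := by
  rw [integral_eq_lintegral_of_nonneg_ae (Eventually.of_forall (osc_nonneg k w))
    (osc_bm hk w).1.aestronglyMeasurable]
  exact ENNReal.toReal_le_of_le_ofReal hA h

lemma flat {D : ℝ≥0∞} {σ C1 b : ℝ} (hσ : 0 < σ) (hC : 0 < C1)
    (h : D * ENNReal.ofReal (σ / 2) ≤ ENNReal.ofReal C1 * ENNReal.ofReal b) :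
    D ≤ ENNReal.ofReal (2 * C1 * b / σ) := by
  have h0 : ENNReal.ofReal (σ / 2) ≠ 0 := (ENNReal.ofReal_pos.2 (by positivity)).ne'
  rw [← ENNReal.le_div_iff_mul_le (Or.inl h0) (Or.inl ENNReal.ofReal_ne_top),
    ← ENNReal.ofReal_mul hC.le, ← ENNReal.ofReal_div_of_pos (by positivity)] at h
  refine h.trans (le_of_eq ?_)
  congr 1
  field_simp

end Lev

open Lev in
theorem levStmt (hP : PFStmt d) (hO : OscStmt d) : LevStmt d := by
  intro ρ ε hρ hε
  obtain ⟨c1, C1, L, hc1, hC1, hL, hP⟩ := hP ρ (by linarith)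
  obtain ⟨CO, hCO, hO⟩ := hO L (by linarith)
  set c := min c1 (ε / C1) with hc
  have hc0 : 0 < c := lt_min hc1 (by positivity)
  have hcc : c ≤ c1 := min_le_left _ _
  have hce : C1 * c ≤ ε := by
    have := min_le_right c1 (ε / C1)
    rw [← hc, le_div_iff₀ hC1] at this
    linarith
  set B := (volume (ball (0 : E d) 10)).toReal with hB
  have hB0 : 0 ≤ B := ENNReal.toReal_nonneg
  set C2 := 2 * C1 + 4 * B / c with hC2
  have hC20 : 0 < C2 := by positivity
  refine ⟨L, C1 * c + C2 + CO * (C2 + 1), by linarith, by positivity,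
    fun ϑ h0 h1 F hF σ0 T hσ0 hT hTS => ?_⟩
  obtain ⟨ν, h, hν, hP⟩ := hP F hF (σ0 / 2) (by positivity)
  have hbT := (bb_le F ϑ L).trans hTS
  set b := (bb F L).toReal with hb
  have hb0 : 0 ≤ b := ENNReal.toReal_nonneg
  have hbb : bb F L = ENNReal.ofReal b :=
    (ENNReal.ofReal_toReal (ne_top_of_le_ne_top ENNReal.ofReal_ne_top hbT)).symm
  have hbT' : b ≤ T := ENNReal.toReal_le_of_le_ofReal hT hbT
  refine ⟨ν, h, 2 * √(b / c), hν, fun σ hσ hσ1 => ?_⟩
  have hs : 0 < σ := by linarith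
  have hsq : √(b / c) ^ 2 * c = b := by
    rw [Real.sq_sqrt (by positivity)]; field_simp
  have hfl : 2 * √(b / c) ≤ σ → b ≤ c * (σ / 2) ^ 2 ∧
      volume (dev F ν h (σ / 2) ∩ ball 0 ρ) ≤ ENNReal.ofReal (2 * C1 * b / σ) := by
    intro hf
    have h2 : √(b / c) ^ 2 ≤ (σ / 2) ^ 2 := pow_le_pow_left₀ (Real.sqrt_nonneg _) (by linarith) 2
    have h3 : b ≤ c * (σ / 2) ^ 2 := by nlinarith
    refine ⟨h3, flat hs hC1 ?_⟩
    rw [← hbb]
    refine hP (σ / 2) (by linarith) (by linarith) ?_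
    rw [hbb]
    exact ENNReal.ofReal_le_ofReal (h3.trans (by gcongr))
  have hD : volume (dev F ν (if 2 * √(b / c) ≤ σ then h else 100) (σ / 2) ∩ ball 0 10) ≤
      ENNReal.ofReal (C2 * T / σ ^ 2) := by
    split_ifs with hf
    · refine (measure_mono (inter_subset_inter_right _ (ball_subset_ball hρ))).trans
        ((hfl hf).2.trans (ENNReal.ofReal_le_ofReal ?_))
      rw [div_le_div_iff₀ hs (by positivity)]
      have h4 : 2 * C1 ≤ C2 := le_add_of_nonneg_right (by positivity)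
      have h5 : 2 * C1 * b ≤ C2 * T := mul_le_mul h4 hbT' hb0 hC20.le
      have h6 : σ ^ 2 ≤ σ := by nlinarith
      exact mul_le_mul h5 h6 (by positivity) (by positivity)
    · refine (measure_mono inter_subset_right).trans ?_
      rw [← ENNReal.ofReal_toReal (measure_ball_lt_top (x := (0 : E d)) (r := 10)).ne, ← hB]
      refine ENNReal.ofReal_le_ofReal ?_
      have h2 : (σ / 2) ^ 2 ≤ √(b / c) ^ 2 := pow_le_pow_left₀ (by positivity) (by linarith) 2
      have h3 : c * σ ^ 2 ≤ 4 * T := by nlinarith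
      have h4 : 4 * B / c ≤ C2 := le_add_of_nonneg_left (by positivity)
      rw [le_div_iff₀ (by positivity)]
      calc B * σ ^ 2 = B / c * (c * σ ^ 2) := by field_simp
        _ ≤ B / c * (4 * T) := by gcongr
        _ = 4 * B / c * T := by ring
        _ ≤ C2 * T := by gcongr
  have h23 : C2 * T / σ ^ 2 ≤ C2 * T / σ ^ 3 :=
    div_le_div_of_nonneg_left (by positivity) (by positivity)
      (pow_le_pow_of_le_one hs.le hσ1 (by norm_num))
  refine ⟨fun hf => ?_, ?_, fun j0 hj => ?_⟩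
  · obtain ⟨h3, h4⟩ := hfl hf
    have h5 : 2 * C1 * b / σ ≤ C1 * c * σ := by
      rw [div_le_iff₀ hs]
      nlinarith [mul_pos hC1 (mul_pos hc0 (mul_pos hs hs))]
    constructor
    · refine (measure_mono (inter_subset_inter_left _ (dev_anti F ν h (by linarith)))).trans
        (h4.trans (ENNReal.ofReal_le_ofReal (h5.trans ?_)))
      exact (mul_le_of_le_one_right (by positivity) hσ1).trans hce
    · refine (measure_mono (inter_subset_inter (dev_anti F ν h (by linarith))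
        (ball_subset_ball hρ))).trans (h4.trans (ENNReal.ofReal_le_ofReal (h5.trans ?_)))
      refine mul_le_mul_of_nonneg_right ?_ hs.le
      have : 0 ≤ C2 + CO * (C2 + 1) := by positivity
      linarith
  · refine (kk_int hF ν _ hs (by positivity) hD).trans (h23.trans ?_)
    have : 0 ≤ C1 * c + CO * (C2 + 1) := by positivity
    gcongr
    linarith
  · have hW : 0 < L / 2 ^ (j0 + 1) := div_pos (by linarith) (by positivity)
    refine osc_int (kk_bm hF ν _ hs) _ (by positivity) ((hO F ν _ σ j0 hF hν hs hσ1 hj).trans ?_)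
    refine (mul_le_mul_right (add_le_add (mul_le_mul_left hD _)
      ((sum_le F L h0 h1 j0).trans (mul_le_mul_right hTS _))) _).trans ?_
    rw [← ENNReal.ofReal_mul (by positivity), ← ENNReal.ofReal_mul (by positivity),
      ← ENNReal.ofReal_add (by positivity) (by positivity), ← ENNReal.ofReal_mul (by positivity)]
    refine ENNReal.ofReal_le_ofReal ?_
    have e1 : C2 * T / σ ^ 2 * (1 / σ) = C2 * (T / σ ^ 3) := by field_simp
    have e2 : 1 / ϑ ^ j0 * T = T / ϑ ^ j0 := by ring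
    rw [e1, e2]
    have p1 : 0 ≤ T / σ ^ 3 := by positivity
    have p2 : 0 ≤ T / ϑ ^ j0 := by positivity
    have h6 : C2 * (T / σ ^ 3) + T / ϑ ^ j0 ≤ (C2 + 1) * (T / σ ^ 3 + T / ϑ ^ j0) := by
      nlinarith
    have h7 : CO * (C2 + 1) ≤ C1 * c + C2 + CO * (C2 + 1) := le_add_of_nonneg_left (by positivity)
    calc _ ≤ CO * (L / 2 ^ (j0 + 1)) * ((C2 + 1) * (T / σ ^ 3 + T / ϑ ^ j0)) := by gcongr
      _ = CO * (C2 + 1) * (L / 2 ^ (j0 + 1)) * (T / σ ^ 3 + T / ϑ ^ j0) := by ring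
      _ ≤ _ := by gcongr

end Vale.Agent.P137
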