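import Vale.Agent.P137.Chain

open MeasureTheory Metric Set Filter
open scoped ENNReal NNReal RealInnerProductSpace

namespace Vale.Agent.P137

variable {d : ℕ}

lemma DD_eq {Q : ℝ} (hQ : 0 < Q) (j : ℕ) :
    DD d (Q ^ 2 / 2 ^ j) (Q ^ 2 / 4 ^ j) = ENNReal.ofReal ((Q ^ 2) ^ d / (2 ^ (d + 1)) ^ j) := by
  have h4 : (4 : ℝ) ^ j = 2 ^ j * 2 ^ j := by rw [← mul_pow]; norm_num
  rw [DD, h4, div_pow, ← pow_mul 2 (d + 1), mul_comm (d + 1), pow_mul 2 j, pow_succ (2 ^ j : ℝ)]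
  congr 1
  field_simp

lemma height {e l : E d} (he : ‖e‖ = 1) (hl : ‖l‖ ≤ 1 / 20) {R : ℝ} (hR : 0 < R) {y : E d}
    (hy : ‖y‖ ^ 2 < 2 * R * ⟪y, e + l⟫) : ⟪y, e + l⟫ ≤ 3 * R := by
  have h1 : ‖e + l‖ ≤ 21 / 20 := by linarith [norm_add_le e l]
  have h2 : ⟪y, e + l⟫ ≤ ‖y‖ * (21 / 20) := (real_inner_le_norm _ _).trans (by gcongr)
  by_contra hc
  have h3 := not_le.1 hc
  have h4 : ⟪y, e + l⟫ ^ 2 ≤ (‖y‖ * (21 / 20)) ^ 2 := by gcongr; linarith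
  nlinarith

lemma level {ε c0 : ℝ≥0∞} (hc0 : c0 ≠ 0) (hc1 : c0 ≠ ∞) {Q : ℝ} (hQ : 10 ≤ Q)
    (h1 : 4 * ((DD d (1 / 2) (1 / 4))⁻¹ * ε) ≤ volume (ball (0 : E d) (1 / 1000)))
    (h2 : 4 * (ENNReal.ofReal ((Q ^ 2) ^ d) * (2 * ε)) < volume (ball (0 : E d) 1))
    (h3 : 4 * ε ≤ DD d (1 / 20000 / Q) (1 / 10 ^ 7) * volume (ball (0 : E d) 1))
    {e : E d} {l : ℕ → E d} (he : ‖e‖ = 1) (hl0 : l 0 = 0) (hl : ∀ i, ⟪e, l i⟫ = (0 : ℝ))
    (hl1 : ∀ i, ‖l (i + 1) - l i‖ ≤ 1 / 40 / 2 ^ i) {F : Set (E d)} (hF : MeasurableSet F)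
    (hch : ∀ i, bb (TT Q e (l i) i ⁻¹' F) 4 ≤ c0 → NB ε (TT Q e (l i) i ⁻¹' F) →
        (i = 0 ∨ Up e ε (TT Q e (l i) i ⁻¹' F)) → Up e ε (TT Q e (l (i + 1)) (i + 1) ⁻¹' F))
    {q c : E d} (hq : ‖q‖ ≤ 1) (hc : 1 ≤ ‖c‖)
    (hκ : volume (ball (0 : E d) 1) ≤ 4 * volume (Fᶜ ∩ ball q 6)) (N : ℕ) :
    volume (F ∩ Cap (e + l N) (Q ^ 2 / 100) (Q ^ 2 / 2)) ≤
      ∑ j ∈ Finset.range N, (2 / volume (ball (0 : E d) (1 / 1000)) +
        volume (ball (0 : E d) 1) / c0) * ((2 ^ (d + 1)) ^ j * bb F (12 * Q ^ 2 / 2 ^ j)) +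
      2 / DD d (1 / 20000 / Q) (1 / 10 ^ 7) * volume (F ∩ ball c ‖c‖) +
      ENNReal.ofReal ((Q ^ 2) ^ d / (2 ^ (d + 1)) ^ N) * volume (ball (0 : E d) 1) := by
  have hQ0 : 0 < Q := by linarith
  set K := 2 / volume (ball (0 : E d) (1 / 1000)) + volume (ball (0 : E d) 1) / c0 with hK
  set Γ := 2 / DD d (1 / 20000 / Q) (1 / 10 ^ 7) * volume (F ∩ ball c ‖c‖)
  set Z := ENNReal.ofReal ((Q ^ 2) ^ d / (2 ^ (d + 1)) ^ N) * volume (ball (0 : E d) 1) with hZ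
  have hln : ∀ i, ‖l i‖ ≤ 1 / 20 := fun i => by
    simpa [hl0] using l_bound hl1 (Nat.zero_le i)
  have h4 : ∀ j, (4 : ℝ) ^ j = 2 ^ j * 2 ^ j := fun j => by rw [← mul_pow]; norm_num
  have hw : ∀ i : ℕ, (0 : ℝ) < Q ^ 2 / 2 ^ i := fun i => by positivity
  have hh : ∀ i : ℕ, (0 : ℝ) < Q ^ 2 / 4 ^ i := fun i => by positivity
  have hhw : ∀ i : ℕ, (Q ^ 2 / 4 ^ i : ℝ) ≤ Q ^ 2 / 2 ^ i := fun i => by gcongr; norm_num
  have hQw : ∀ i : ℕ, (Q ^ 2 / 2 ^ i : ℝ) ^ 2 = Q ^ 2 * (Q ^ 2 / 4 ^ i) := fun i => by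
    rw [h4]; field_simp
  have hk : ∀ i, ⟪e, l N - l i⟫ = (0 : ℝ) := fun i => by rw [inner_sub_right, hl, hl, sub_zero]
  have hk1 : ∀ i ≤ N, ‖l N - l i‖ * (Q ^ 2 / 2 ^ i) ≤ Q ^ 2 / 4 ^ i / 20 := fun i hi => by
    calc _ ≤ 1 / 20 / 2 ^ i * (Q ^ 2 / 2 ^ i) := by gcongr; exact l_bound hl1 hi
      _ = _ := by rw [h4]; field_simp
  have hν : ∀ i, e + l N = e + l i + (l N - l i) := fun i => by abel
  have hcv : ∀ i ≤ N, volume (F ∩ Cap (e + l N) (Q ^ 2 / 100) (Q ^ 2 / 4 ^ i / 2)) ≤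
      DD d (Q ^ 2 / 2 ^ i) (Q ^ 2 / 4 ^ i) * volume (ball (0 : E d) 1) := fun i hi => by
    rw [hν i]
    exact (measure_mono inter_subset_right).trans
      (cap_vol he (hl i) (hk i) (hw i) (hh i) (hQw i) (hk1 i hi))
  have hβ : ∀ i, DD d (Q ^ 2 / 2 ^ i) (Q ^ 2 / 4 ^ i) * bb (TT Q e (l i) i ⁻¹' F) 4 ≤
      (2 ^ (d + 1)) ^ i * bb F (12 * Q ^ 2 / 2 ^ i) := fun i => by
    refine (bb_pre he (hl i) (by linarith [hln i]) (hw i) (hh i) (hhw i) F).trans ?_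
    rw [mul_div_assoc]
    gcongr
    rw [DD_eq hQ0, ← ENNReal.ofReal_inv_of_pos (by positivity), inv_div]
    have a1 : (1 : ℝ) ≤ (Q ^ 2) ^ d := one_le_pow₀ (one_le_pow₀ (by linarith))
    calc _ ≤ ENNReal.ofReal ((2 ^ (d + 1)) ^ i) :=
          ENNReal.ofReal_le_ofReal (div_le_self (by positivity) a1)
      _ = _ := by rw [ENNReal.ofReal_pow (by positivity), ENNReal.ofReal_pow (by positivity)]; simp
  have main : ∀ k i, i + k = N → (i = 0 ∨ Up e ε (TT Q e (l i) i ⁻¹' F)) →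
      volume (F ∩ Cap (e + l N) (Q ^ 2 / 100) (Q ^ 2 / 4 ^ i / 2)) ≤
        ∑ j ∈ Finset.Ico i N, K * ((2 ^ (d + 1)) ^ j * bb F (12 * Q ^ 2 / 2 ^ j)) + Γ + Z := by
    intro k
    induction k with
    | zero =>
      intro i hi _
      obtain rfl : i = N := hi
      refine (hcv i le_rfl).trans ?_
      rw [DD_eq hQ0]
      exact le_add_self
    | succ k ih =>
      intro i hi hU
      have hiN : i < N := by omega
      rw [Finset.sum_eq_sum_Ico_succ_bot hiN]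
      by_cases c1 : bb (TT Q e (l i) i ⁻¹' F) 4 ≤ c0
      swap
      · refine (hcv i hiN.le).trans (le_trans ?_ (le_self_add.trans (le_self_add.trans le_self_add)))
        refine le_trans (le_div_mul (c := volume (ball (0 : E d) 1))
          (x := (2 ^ (d + 1)) ^ i * bb F (12 * Q ^ 2 / 2 ^ i)) hc0 hc1 ?_) ?_
        · rw [mul_comm (DD _ _ _), mul_assoc]
          exact mul_le_mul' le_rfl (le_trans (mul_le_mul' le_rfl (not_le.1 c1).le) (hβ i))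
        · gcongr
          exact le_add_self
      by_cases c2 : NB ε (TT Q e (l i) i ⁻¹' F)
      swap
      · refine (hcv i hiN.le).trans (le_trans ?_ (le_add_self.trans le_self_add))
        refine badCase he (hl i) (hln i) hQ (hh i) (hhw i) (hQw i) (lt_of_le_of_lt ?_ h2) h3 hq hc
          hκ c2
        rw [DD_eq hQ0]
        gcongr
        exact div_le_self (by positivity) (one_le_pow₀ (one_le_pow₀ (by norm_num)))
      have a1 := ih (i + 1) (by omega) (Or.inr (hch i c1 c2 hU))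
      have a2 : (Q ^ 2 / 4 ^ (i + 1) / 2 : ℝ) = Q ^ 2 / 4 ^ i / 8 := by
        rw [pow_succ 4]; field_simp; norm_num
      rw [a2] at a1
      rw [add_assoc, add_assoc, ← add_assoc _ Γ]
      refine le_trans (measure_mono ?_) ((measure_union_le
        (F ∩ (Cap (e + l N) (Q ^ 2 / 100) (Q ^ 2 / 4 ^ i / 2) \
          Cap (e + l N) (Q ^ 2 / 100) (Q ^ 2 / 4 ^ i / 8))) _).trans (add_le_add ?_ a1))
      · rintro y ⟨b1, b2⟩
        by_cases b3 : y ∈ Cap (e + l N) (Q ^ 2 / 100) (Q ^ 2 / 4 ^ i / 8)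
        · exact Or.inr ⟨b1, b3⟩
        · exact Or.inl ⟨b1, b2, b3⟩
      rcases hU with rfl | hU
      · rw [(_ : F ∩ _ = ∅), measure_empty]
        · exact zero_le
        refine eq_empty_of_forall_notMem ?_
        rintro y ⟨_, b2, b3⟩
        refine b3 ⟨b2.1, (height he (hln N) (by positivity) b2.1).trans ?_⟩
        have : 0 < Q ^ 2 := by positivity
        rw [pow_zero]; linarith
      · rw [hν i]
        refine (shell he (hl i) (hk i) (hw i) (hh i) (hQw i) (hk1 i hiN.le) h1 hF hU).trans ?_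
        exact mul_le_mul' le_self_add (hβ i)
  simpa using main N 0 (zero_add N) (Or.inl rfl)

lemma consts (hS : StabStmt d) : ∃ ε c0 : ℝ≥0∞, HS d ε c0 ∧ ε ≠ 0 ∧ c0 ≠ 0 ∧ c0 ≠ ∞ ∧
    (DD d (1 / 2) (1 / 4))⁻¹ * ε + ε < volume (ball (0 : E d) (1 / 1000)) ∧
    4 * ((DD d (1 / 2) (1 / 4))⁻¹ * ε) ≤ volume (ball (0 : E d) (1 / 1000)) ∧
    4 * (ENNReal.ofReal (((4000000 : ℝ) ^ 2) ^ d) * (2 * ε)) < volume (ball (0 : E d) 1) ∧
    4 * ε ≤ DD d (1 / 20000 / 4000000) (1 / 10 ^ 7) * volume (ball (0 : E d) 1) := by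
  set A := (DD d (1 / 2) (1 / 4))⁻¹
  set B := ENNReal.ofReal (((4000000 : ℝ) ^ 2) ^ d)
  have hA : A ≠ ∞ := ENNReal.inv_ne_top.2 (DD_ne_zero (by norm_num) (by norm_num))
  have hB : B ≠ ∞ := ENNReal.ofReal_ne_top
  have p1 : 0 < volume (ball (0 : E d) (1 / 1000)) := measure_ball_pos _ _ (by norm_num)
  have p2 : 0 < volume (ball (0 : E d) 1) := measure_ball_pos _ _ (by norm_num)
  have p3 : 0 < DD d (1 / 20000 / 4000000) (1 / 10 ^ 7) * volume (ball (0 : E d) 1) :=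
    ENNReal.mul_pos (DD_ne_zero (by norm_num) (by norm_num)) p2.ne'
  obtain ⟨n, hn, h⟩ := ENNReal.exists_nnreal_pos_mul_lt (a := 4 * A + 8 * B + 4) (by finiteness)
    (lt_min p1 (lt_min p2 p3)).ne'
  obtain ⟨c0, hc0, hc⟩ := hS n (by exact_mod_cast hn)
  rw [lt_min_iff, lt_min_iff] at h
  have e1 : (n : ℝ≥0∞) * (4 * A + 8 * B + 4) = 4 * (A * n) + 4 * (B * (2 * n)) + 4 * n := by ring
  rw [e1] at h
  refine ⟨n, min c0 1, fun F hF hb => hc F hF (hb.trans (min_le_left _ _)),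
    by exact_mod_cast hn.ne', (lt_min hc0 one_pos).ne',
    ((min_le_right _ _).trans_lt ENNReal.one_lt_top).ne, lt_of_le_of_lt ?_ h.1,
    (le_self_add.trans le_self_add).trans h.1.le,
    (le_add_self.trans le_self_add).trans_lt h.2.1, le_add_self.trans h.2.2.le⟩
  refine add_le_add (le_trans ?_ le_self_add) ?_ <;>
    exact le_mul_of_one_le_left' (by norm_num)

end Vale.Agent.P137
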