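import Vale.Agent.P137.CBase

/-! Module Mol: localised translation bound and mollification by ball averages. -/

open MeasureTheory Metric Set Filter Topology ContinuousLinearMap
open scoped ENNReal NNReal Convolution

namespace Vale.Agent.P137

variable {d : ℕ}

namespace Mol

lemma conv_loc {f : E d → ℝ} {G : E d → E d} (hf : LocallyIntegrable f) (hi : Integrable G)
    (hG : WGrad f G) (φ : ContDiffBump (0 : E d)) {h : E d} (hh : φ.rOut ≤ ‖h‖) {U : Set (E d)}
    (hU : MeasurableSet U) :
    ∫⁻ x in U, ‖(φ.normed volume ⋆[lsmul ℝ ℝ] f) (x + h) - (φ.normed volume ⋆[lsmul ℝ ℝ] f) x‖ₑ ≤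
      ‖h‖ₑ * ∫⁻ x in cthickening (2 * ‖h‖) U, ‖G x‖ₑ := by
  have hF : ContDiff ℝ 1 (φ.normed volume ⋆[lsmul ℝ ℝ] f) :=
    φ.hasCompactSupport_normed.contDiff_convolution_left _ φ.contDiff_normed hf
  have hW : MeasurableSet (cthickening (2 * ‖h‖) U) := isClosed_cthickening.measurableSet
  obtain ⟨k, mk, ek⟩ := hi.1.enorm.indicator hW
  have c := (φ.continuous_normed (μ := volume)).enorm.measurable
  have e : ∫⁻ x, ‖φ.normed volume x‖ₑ = 1 := by
    rw [← ofReal_integral_norm_eq_lintegral_enorm φ.integrable_normed]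
    simp [abs_of_nonneg (φ.nonneg_normed _), φ.integral_normed]
  have m : Measurable fun p : E d × E d => ‖h‖ₑ * k p.2 * ‖φ.normed volume (p.1 - p.2)‖ₑ :=
    ((mk.comp measurable_snd).const_mul _).mul (c.comp (measurable_fst.sub measurable_snd))
  calc _ ≤ ∫⁻ x in U, ∫⁻ t in Icc (0 : ℝ) 1,
          ∫⁻ y, ‖h‖ₑ * k y * ‖φ.normed volume (x + t • h - y)‖ₑ := by
        refine setLIntegral_mono' hU fun x hx => ?_
        have := enorm_sub_le_lintegral_deriv_of_contDiffOn_Icc
          (f := fun t : ℝ => (φ.normed volume ⋆[lsmul ℝ ℝ] f) (x + t • h))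
          (hF.comp (by fun_prop)).contDiffOn zero_le_one
        simp only [one_smul, zero_smul, add_zero] at this
        refine this.trans (setLIntegral_mono' measurableSet_Icc fun t ht => ?_)
        have e1 := ((hF.differentiable one_ne_zero (x + t • h)).hasFDerivAt.comp_hasDerivAt t
          (((hasDerivAt_id t).smul_const h).const_add x)).deriv
        simp only [Function.comp_def, id, one_smul] at e1
        rw [e1, TU.conv_der hf hG φ.contDiff_normed φ.hasCompactSupport_normed]
        refine (enorm_integral_le_lintegral_enorm _).trans (lintegral_mono_ae ?_)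
        filter_upwards [ek] with y hy
        by_cases h0 : φ.normed volume (x + t • h - y) = 0
        · simp [h0]
        have h1 : ‖x + t • h - y‖ < φ.rOut := by
          rw [← mem_ball_zero_iff, ← φ.support_normed_eq (μ := volume)]; exact h0
        have h2 : ‖t • h‖ ≤ ‖h‖ := by
          rw [norm_smul, Real.norm_of_nonneg ht.1]; exact mul_le_of_le_one_left (norm_nonneg _) ht.2
        rw [← hy, indicator_of_mem (mem_cthickening_of_dist_le y x _ _ hx (by
          rw [dist_comm, dist_eq_norm, show x - y = x + t • h - y - t • h by abel]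
          linarith [norm_sub_le (x + t • h - y) (t • h)])), enorm_mul, mul_comm ‖h‖ₑ]
        gcongr
        simpa only [← ofReal_norm, ← ENNReal.ofReal_mul (norm_nonneg _)] using
          ENNReal.ofReal_le_ofReal (norm_inner_le_norm (𝕜 := ℝ) (G y) h)
    _ ≤ _ := setLIntegral_le_lintegral _ _
    _ = _ := by
        rw [line_avg m.lintegral_prod_right', ENNReal.ofReal_one, one_mul,
          lintegral_lintegral_swap m.aemeasurable, ← lintegral_indicator hW, lintegral_congr_ae ek,
          ← lintegral_const_mul _ mk]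
        refine lintegral_congr fun x => ?_
        dsimp only
        rw [lintegral_const_mul (f := fun y => ‖φ.normed volume (y - x)‖ₑ) _
          (c.comp (measurable_sub_const x)),
          lintegral_sub_right_eq_self (fun y => ‖φ.normed volume y‖ₑ), e, mul_one]

lemma jen {K : E d → E d → ℝ} (hK : Measurable (Function.uncurry K)) {ε : ℝ} (hε : 0 < ε)
    (U : Set (E d)) {M : ℝ≥0∞} (h : ∀ v ∈ ball (0 : E d) ε, ∫⁻ x in U, ‖K x v‖ₑ ≤ M) :
    ∫⁻ x in U, ‖(∫ v in ball (0 : E d) ε, K x v) / (volume (ball (0 : E d) ε)).toReal‖ₑ ≤ M := by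
  have h0 := (measure_ball_pos volume (0 : E d) hε).ne'
  have h1 := (measure_ball_lt_top (μ := volume) (x := (0 : E d)) (r := ε)).ne
  calc _ ≤ ∫⁻ x in U, (volume (ball (0 : E d) ε))⁻¹ * ∫⁻ v in ball (0 : E d) ε, ‖K x v‖ₑ := by
        refine lintegral_mono fun x => ?_
        rw [div_eq_inv_mul, enorm_mul, ← ENNReal.toReal_inv, Real.enorm_toReal (by simpa)]
        exact mul_le_mul' le_rfl (enorm_integral_le_lintegral_enorm _)
    _ ≤ (volume (ball (0 : E d) ε))⁻¹ * ∫⁻ _ in ball (0 : E d) ε, M := by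
        rw [lintegral_const_mul' _ _ (by simpa), lintegral_lintegral_swap hK.enorm.aemeasurable]
        exact mul_le_mul' le_rfl (setLIntegral_mono' measurableSet_ball h)
    _ = M := by
        rw [setLIntegral_const, mul_comm M, ← mul_assoc, ENNReal.inv_mul_cancel h0 h1, one_mul]

lemma av0 (g : E d → ℝ) (x : E d) (ε : ℝ) :
    av g x ε = (∫ v in ball (0 : E d) ε, g (x + v)) / (volume (ball (0 : E d) ε)).toReal := by
  rw [av, Measure.addHaar_ball_center, ← (measurePreserving_add_left volume x).setIntegral_preimage_emb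
    (measurableEmbedding_addLeft x)]
  simp

lemma grad_le {u : E d → ℝ} (hu : Continuous u) (U : Set (E d)) {M : ℝ≥0∞} {δ : ℝ} (hδ : 0 < δ)
    (h : ∀ v : E d, ‖v‖ ≤ δ → ∫⁻ x in U, ‖u (x + v) - u x‖ₑ ≤ ‖v‖ₑ * M) :
    ∫⁻ x in U, ‖fderiv ℝ u x‖ₑ ≤ d * M := by
  have a : ∀ e : E d, ‖e‖ = 1 → ∫⁻ x in U, ‖fderiv ℝ u x e‖ₑ ≤ M := fun e he => by
    calc _ ≤ ∫⁻ x in U, liminf (fun c : ℝ => ‖c • (u (x + c⁻¹ • e) - u x)‖ₑ) atTop := by
          refine lintegral_mono fun x => ?_
          by_cases hx : DifferentiableAt ℝ u x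
          · exact (hx.hasFDerivAt.lim_real e).enorm.liminf_eq.ge
          · simp [fderiv_zero_of_not_differentiableAt hx]
      _ ≤ _ := lintegral_liminf_le fun c => Continuous.measurable (by fun_prop)
      _ ≤ M := liminf_le_of_frequently_le' (Eventually.frequently ?_)
    filter_upwards [eventually_ge_atTop δ⁻¹] with c hc
    have c0 : 0 < c := (inv_pos.2 hδ).trans_le hc
    have n : ‖c⁻¹ • e‖ = c⁻¹ := by simp [norm_smul, he, c0.le]
    simp only [enorm_smul]
    rw [lintegral_const_mul' _ _ enorm_ne_top]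
    refine (mul_le_mul' le_rfl (h _ (n.trans_le (inv_le_of_inv_le₀ hδ hc)))).trans_eq ?_
    rw [← mul_assoc, ← enorm_smul, smul_inv_smul₀ c0.ne', ← ofReal_norm, he]
    simp
  calc _ ≤ ∫⁻ x in U, ∑ i : Fin d, ‖fderiv ℝ u x (EuclideanSpace.basisFun (Fin d) ℝ i)‖ₑ := by
        refine lintegral_mono fun x => ?_
        simp only [← ofReal_norm]
        rw [← ENNReal.ofReal_sum_of_nonneg fun _ _ => norm_nonneg _]
        refine ENNReal.ofReal_le_ofReal (opNorm_le_bound _ (by positivity) fun y => ?_)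
        conv_lhs => rw [← (EuclideanSpace.basisFun (Fin d) ℝ).sum_repr y, map_sum]
        rw [Finset.sum_mul]
        refine (norm_sum_le _ _).trans (Finset.sum_le_sum fun i _ => ?_)
        rw [map_smul, norm_smul, mul_comm]
        gcongr
        exact PiLp.norm_apply_le y i
    _ ≤ ∑ _ : Fin d, M := by
        rw [lintegral_finsetSum _ fun i _ => (measurable_fderiv_apply_const ℝ u _).enorm]
        exact Finset.sum_le_sum fun i _ => a _ ((EuclideanSpace.basisFun (Fin d) ℝ).norm_eq_one i)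
    _ = _ := by simp

/-- translation modulus -/
noncomputable def al (g : E d → ℝ) (v : E d) : ℝ≥0∞ := ∫⁻ z, ‖g (z + v) - g z‖ₑ

/-- scale average of the translation modulus -/
noncomputable def Av2 (g : E d → ℝ) (s : ℝ) : ℝ≥0∞ :=
  ENNReal.ofReal (s ^ (d + 1))⁻¹ * ∫⁻ v in ball (0 : E d) s, al g v

lemma Av2_step {g : E d → ℝ} (hg : Measurable g) {s : ℝ} (hs : 0 < s) :
    tt g s + Av2 g (2 * s) ≤ Av2 g s := by
  have := Th_lint 0 two_pos (al g) s
  simp only [zero_add] at this
  have e : 2 * Av2 g (2 * s) =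
      ENNReal.ofReal (s ^ (d + 1))⁻¹ * ∫⁻ v in ball (0 : E d) s, al g ((2 : ℝ) • v) := by
    rw [this, Av2, ← mul_assoc, ← mul_assoc]
    congr 1
    rw [← ENNReal.ofReal_ofNat 2,
      ← ENNReal.ofReal_mul zero_le_two, ← ENNReal.ofReal_mul (by positivity)]
    congr 1
    rw [mul_pow, pow_succ (2 : ℝ)]; field_simp
  refine (ENNReal.mul_le_mul_iff_right two_ne_zero ENNReal.ofNat_ne_top).1 ?_
  rw [mul_add, e, tt, Av2, mul_left_comm, ← mul_add, mul_left_comm,
    ← lintegral_const_mul' _ _ ENNReal.ofNat_ne_top, ← lintegral_const_mul' _ _ ENNReal.ofNat_ne_top,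
    ← lintegral_add_left ((Ph_meas hg).const_mul _)]
  exact mul_le_mul' le_rfl (lintegral_mono fun v => Ph_le hg v)

lemma Av2_le {g : E d → ℝ} {V : ℝ≥0∞} (hT : Tb g V) {L : ℝ} (hL : 0 < L) :
    Av2 g L ≤ volume (ball (0 : E d) 1) * V := by
  calc _ ≤ ENNReal.ofReal (L ^ (d + 1))⁻¹ * ∫⁻ _ in ball (0 : E d) L, ENNReal.ofReal L * V := by
        refine mul_le_mul' le_rfl (setLIntegral_mono' measurableSet_ball fun v hv => ?_)
        refine (hT v).trans (mul_le_mul' ?_ le_rfl)
        rw [← ofReal_norm]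
        exact ENNReal.ofReal_le_ofReal (mem_ball_zero_iff.1 hv).le
    _ = _ := by
        rw [setLIntegral_const, Measure.addHaar_ball_of_pos _ _ hL, finrank_euclideanSpace,
          Fintype.card_fin]
        have : ENNReal.ofReal (L ^ (d + 1))⁻¹ * (ENNReal.ofReal L * ENNReal.ofReal (L ^ d)) = 1 := by
          rw [← ENNReal.ofReal_mul hL.le, ← ENNReal.ofReal_mul (by positivity), ← pow_succ',
            inv_mul_cancel₀ (by positivity), ENNReal.ofReal_one]
        calc _ = ENNReal.ofReal (L ^ (d + 1))⁻¹ * (ENNReal.ofReal L * ENNReal.ofReal (L ^ d)) *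
              (volume (ball (0 : E d) 1) * V) := by ring
          _ = _ := by rw [this, one_mul]

variable {g : E d → ℝ} (hg : Measurable g) (hi : Integrable g) {ε : ℝ} (hε : 0 < ε)
include hg hi hε

lemma avs (h : E d) (U : Set (E d)) {M : ℝ≥0∞}
    (H : ∀ v ∈ ball (0 : E d) ε, ∫⁻ x in U, ‖g (x + v + h) - g (x + v)‖ₑ ≤ M) :
    ∫⁻ x in U, ‖av g (x + h) ε - av g x ε‖ₑ ≤ M := by
  refine le_trans (le_of_eq (lintegral_congr fun x => ?_))
    (jen (K := fun x v => g (x + v + h) - g (x + v)) (by unfold Function.uncurry; fun_prop) hε U H)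
  simp only [av0, add_right_comm x _ h]
  rw [integral_sub (hi.comp_add_left _).integrableOn (hi.comp_add_left _).integrableOn, sub_div]

lemma al_av (h : E d) : al (fun x => av g x ε) h ≤ al g h := by
  simpa [al] using avs hg hi hε h univ (M := al g h) fun v _ => by
    rw [Measure.restrict_univ]
    exact (lintegral_add_right_eq_self (fun x => ‖g (x + h) - g x‖ₑ) v).le

lemma al_ge {V : ℝ≥0∞} (hT : Tb g V) (hc : Continuous fun x => av g x ε) (h : E d) :
    al g h ≤ al (fun x => av g x ε) h + 2 * (ENNReal.ofReal ε * V) := by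
  have a : ∫⁻ x, ‖av g x ε - g x‖ₑ ≤ ENNReal.ofReal ε * V := by
    have := jen (K := fun x v => g (x + v) - g x) (by unfold Function.uncurry; fun_prop) hε univ
      (M := ENNReal.ofReal ε * V) fun v hv => by
        rw [Measure.restrict_univ]
        refine (hT v).trans (mul_le_mul' ?_ le_rfl)
        rw [← ofReal_norm]
        exact ENNReal.ofReal_le_ofReal (mem_ball_zero_iff.1 hv).le
    rw [Measure.restrict_univ] at this
    refine le_trans (le_of_eq (lintegral_congr fun x => ?_)) this
    rw [av0, integral_sub (hi.comp_add_left _).integrableOn (integrableOn_const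
      measure_ball_lt_top.ne), sub_div, setIntegral_const, smul_eq_mul, Measure.real,
      mul_div_cancel_left₀ _ (ENNReal.toReal_pos (measure_ball_pos _ _ hε).ne'
        measure_ball_lt_top.ne).ne']
  have m := hc.measurable
  calc _ ≤ ∫⁻ x, ‖av g (x + h) ε - av g x ε‖ₑ +
        (‖av g (x + h) ε - g (x + h)‖ₑ + ‖av g x ε - g x‖ₑ) := lintegral_mono fun x => by
        rw [show g (x + h) - g x = av g (x + h) ε - av g x ε -
          (av g (x + h) ε - g (x + h) - (av g x ε - g x)) by ring]
        exact enorm_sub_le.trans (add_le_add le_rfl enorm_sub_le)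
    _ ≤ _ := by
        rw [lintegral_add_right _ (by fun_prop), lintegral_add_right _ (by fun_prop), two_mul,
          lintegral_add_right_eq_self (fun x => ‖av g x ε - g x‖ₑ) h]
        exact add_le_add le_rfl (add_le_add a a)

end Mol

open Mol

theorem locStmt (d : ℕ) : LocStmt d := fun f G hf hi hG h U hU => by
  rcases (norm_nonneg h).eq_or_lt with h0 | h0
  · simp [norm_eq_zero.1 h0.symm]
  let φ : ℕ → ContDiffBump (0 : E d) := fun n =>
    ⟨1 / (n + 1) / 2, 1 / (n + 1), by positivity, half_lt_self (by positivity)⟩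
  have a := ContDiffBump.ae_convolution_tendsto_right_of_locallyIntegrable (φ := φ) (l := atTop)
    (K := 2) tendsto_one_div_add_atTop_nhds_zero_nat
    (.of_forall fun n => (mul_div_cancel₀ _ two_ne_zero).ge) hf
  have b := (measurePreserving_add_right volume h).quasiMeasurePreserving.ae a
  have c := fun n => ((φ n).hasCompactSupport_normed (μ := volume)).continuous_convolution_left
    (lsmul ℝ ℝ) (φ n).continuous_normed hf
  calc _ = ∫⁻ x in U, liminf (fun n => ‖((φ n).normed volume ⋆[lsmul ℝ ℝ] f) (x + h) -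
          ((φ n).normed volume ⋆[lsmul ℝ ℝ] f) x‖ₑ) atTop := by
        refine lintegral_congr_ae (ae_restrict_of_ae ?_)
        filter_upwards [a, b] with x h1 h2 using (h2.sub h1).enorm.liminf_eq.symm
    _ ≤ _ := lintegral_liminf_le fun n =>
        (((c n).comp (continuous_add_const h)).sub (c n)).enorm.measurable
    _ ≤ _ := liminf_le_of_frequently_le' (((tendsto_one_div_add_atTop_nhds_zero_nat.eventually_le_const
        h0).mono fun n hn => conv_loc hf hi hG (φ n) hn hU).frequently)

theorem molStmt (_hd : 2 ≤ d) : MolStmt d := fun g G hg hi g0 hG hL => by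
  have hV : ∫⁻ x, ‖G x‖ₑ ≠ ∞ := hG.2.ne
  have hT : Tb g (∫⁻ x, ‖G x‖ₑ) := fun h => by
    simpa using (hL h univ .univ).trans (mul_le_mul' le_rfl (setLIntegral_le_lintegral _ _))
  have p : ∀ n : ℕ, (0 : ℝ) < 1 / (n + 1) := fun n => by positivity
  have lip : ∀ n, ∃ K : ℝ≥0, LipschitzWith K (gn g n) := fun n =>
    ⟨⟨(∫⁻ x, ‖G x‖ₑ).toReal / ((1 / (n + 1)) ^ d * (volume (ball (0 : E d) 1)).toReal),
      by positivity⟩, LipschitzWith.of_le_add_mul _ fun x y => by
        have := TU.av_tr hi hV hT (p n) le_rfl x (y - x)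
        rwa [← dist_eq_norm, dist_comm, add_sub_cancel] at this⟩
  have c : ∀ n, Continuous (gn g n) := fun n => (lip n).choose_spec.continuous
  refine ⟨fun n => ⟨lip n, ⟨(c n).aestronglyMeasurable, lt_of_le_of_lt ?_ hi.2⟩, fun x =>
    div_nonneg (integral_nonneg g0) ENNReal.toReal_nonneg, fun h => (al_av hg hi (p n) h).trans (hT h),
    fun U hU => grad_le (c n) U (half_pos (p n)) fun h hh => avs hg hi (p n) h U fun v hv => ?_⟩,
    fun L ε k0 L0 ε0 => ?_⟩
  · simpa [gn, av0] using jen (K := fun x v => g (x + v)) (by unfold Function.uncurry; fun_prop)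
      (p n) univ (M := ∫⁻ x, ‖g x‖ₑ) fun v _ => by
        rw [Measure.restrict_univ]
        exact (lintegral_add_right_eq_self (fun x => ‖g x‖ₑ) v).le
  · have := (measurePreserving_add_right volume v).setLIntegral_comp_preimage_emb
      (measurableEmbedding_addRight v) (fun x => ‖g (x + h) - g x‖ₑ) ((· - v) ⁻¹' U)
    simp only [preimage_preimage, add_sub_cancel_right, preimage_id'] at this
    rw [this]
    refine (hL h _ (measurable_sub_const v hU)).trans (mul_le_mul' le_rfl (lintegral_mono_set ?_))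
    refine (cthickening_subset_of_subset _ fun y hy => mem_cthickening_of_dist_le y (y - v)
      (1 / (n + 1)) U hy (by simpa using (mem_ball_zero_iff.1 hv).le)).trans
      ((cthickening_cthickening_subset (by positivity) (p n).le U).trans (cthickening_mono ?_ U))
    rw [← one_add_one_eq_two (R := ℝ), add_div (1 : ℝ)]
    linarith
  have st : ∀ {u : E d → ℝ}, Measurable u → ∀ j : ℤ,
      tt u (2 ^ j * L) + Av2 u (2 ^ (j + 1) * L) ≤ Av2 u (2 ^ j * L) := fun hu j => by
    rw [zpow_add_one₀ two_ne_zero, mul_comm _ (2 : ℝ), mul_assoc]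
    exact Av2_step hu (by positivity)
  obtain ⟨B, hB⟩ : ∃ B, B = ⨆ j : ℤ, Av2 g (2 ^ j * L) := ⟨_, rfl⟩
  have B1 : B ≠ ∞ := ne_top_of_le_ne_top (ENNReal.mul_ne_top measure_ball_lt_top.ne hV)
    (hB ▸ iSup_le fun j => Av2_le hT (by positivity))
  have B2 : ∀ n (j : ℤ), Av2 (gn g n) (2 ^ j * L) ≤ B := fun n j =>
    (mul_le_mul' le_rfl (lintegral_mono fun v => al_av hg hi (p n) v)).trans
      (hB ▸ le_iSup (fun j : ℤ => Av2 g (2 ^ j * L)) j)
  have h2 := ENNReal.half_pos ε0.ne'
  have := ENNReal.lt_add_right B1 h2.ne'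
  nth_rewrite 2 [hB] at this
  rw [ENNReal.iSup_add, lt_iSup_iff] at this
  obtain ⟨j, hj⟩ := this
  obtain ⟨k, hk, hj⟩ : ∃ k ≤ k0, B ≤ Av2 g (2 ^ (k + 1) * L) + ε / 2 :=
    ⟨min k0 (j - 1), min_le_left _ _, hj.le.trans (add_le_add_left (antitone_int_of_succ_le
      (f := fun j : ℤ => Av2 g (2 ^ j * L)) (fun j => le_add_self.trans (st hg j)) (by omega)) _)⟩
  obtain ⟨s, hs⟩ : ∃ s : ℝ, s = 2 ^ (k + 1) * L := ⟨_, rfl⟩
  have t : Tendsto (fun n : ℕ => ENNReal.ofReal (1 / (n + 1)) * (ENNReal.ofReal (s ^ (d + 1))⁻¹ *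
      (2 * ∫⁻ x, ‖G x‖ₑ) * volume (ball (0 : E d) s))) atTop (𝓝 0) := by
    simpa using ENNReal.Tendsto.mul_const
      (ENNReal.tendsto_ofReal (tendsto_one_div_add_atTop_nhds_zero_nat (𝕜 := ℝ)))
      (Or.inr (ENNReal.mul_ne_top (ENNReal.mul_ne_top ENNReal.ofReal_ne_top
        (ENNReal.mul_ne_top ENNReal.ofNat_ne_top hV)) measure_ball_lt_top.ne))
  refine ⟨k, hk, (t.eventually_le_const h2).mono fun n hn =>
    ENNReal.tsum_le_of_sum_range_le fun N => ?_⟩
  have key : ∀ N : ℕ, ∑ j ∈ Finset.range N, tt (gn g n) (2 ^ (k - j) * L) + Av2 (gn g n) s ≤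
      Av2 (gn g n) (2 ^ (k - N + 1) * L) := fun N => by
    induction N with
    | zero => simp [hs]
    | succ N ih =>
      rw [Finset.sum_range_succ_comm, add_assoc, show k - (N + 1 : ℕ) + 1 = k - N by omega]
      exact (add_le_add le_rfl ih).trans (st (c n).measurable _)
  have lo : Av2 g s ≤ Av2 (gn g n) s + ε / 2 := by
    refine (mul_le_mul' le_rfl (lintegral_mono fun v => al_ge hg hi (p n) hT (c n) v)).trans ?_
    rw [lintegral_add_right _ measurable_const, setLIntegral_const, mul_add]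
    exact add_le_add le_rfl (le_of_eq_of_le (by ring) hn)
  refine (ENNReal.add_le_add_iff_right (ne_top_of_le_ne_top B1 (hs ▸ B2 n _))).1
    (((key N).trans (B2 n _)).trans (hj.trans ?_))
  rw [← hs, add_comm ε]
  exact (add_le_add_left lo _).trans_eq (by rw [add_assoc, ENNReal.add_halves])

end Vale.Agent.P137
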