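import Vale.Agent.P137.CBase

open MeasureTheory Metric Set Filter
open scoped ENNReal NNReal RealInnerProductSpace Topology

namespace Vale.Agent.P137

variable {d : ℕ}

namespace Ng

lemma joint {g : E d → ℝ} (hg : Measurable g) (L w : ℝ) :
    MeasurableSet ({x : ℝ × (E d × E d) | x.2 ∈ Bad {y | x.1 < g y}} ∩
      Prod.snd ⁻¹' (ball (0 : E d) L ×ˢ ball (0 : E d) w)) :=
  (badJ_meas hg).inter (measurable_snd (measurableSet_ball.prod measurableSet_ball))

lemma bw_meas {g : E d → ℝ} (hg : Measurable g) (L w : ℝ) :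
    Measurable fun t => bw {y | t < g y} L w :=
  measurable_measure_prodMk_left (ν := (volume : Measure (E d × E d))) (joint hg L w)

lemma bw_int {g : E d → ℝ} (hg : Measurable g) (L w : ℝ) :
    ∫⁻ t, bw {y | t < g y} L w ≤
      ∫⁻ z in ball (0 : E d) L, ∫⁻ v in ball (0 : E d) w, dl g z v := by
  have hB : MeasurableSet (ball (0 : E d) L ×ˢ ball (0 : E d) w) :=
    measurableSet_ball.prod measurableSet_ball
  have hJ := joint hg L w
  have h1 := Measure.prod_apply (μ := (volume : Measure ℝ)) (ν := (volume : Measure (E d × E d))) hJ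
  rw [Measure.prod_apply_symm hJ] at h1
  calc ∫⁻ t, bw {y | t < g y} L w = _ := h1.symm
    _ ≤ ∫⁻ p : E d × E d, (ball (0 : E d) L ×ˢ ball (0 : E d) w).indicator
          (fun p => dl g p.1 p.2) p := by
        refine lintegral_mono fun p => ?_
        by_cases hp : p ∈ ball (0 : E d) L ×ˢ ball (0 : E d) w
        · rw [indicator_of_mem hp]
          exact le_trans (measure_mono fun t ht => ht.1) (bad_le _ _ _)
        · rw [indicator_of_notMem hp, nonpos_iff_eq_zero]
          exact measure_mono_null (t := ∅) (fun t ht => hp ht.2) measure_empty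
    _ = _ := by
        rw [lintegral_indicator hB, Measure.volume_eq_prod, ← Measure.prod_restrict,
          lintegral_prod _ (dl_meas hg).aemeasurable]

lemma TS_meas {g : E d → ℝ} (hg : Measurable g) (ϑ L : ℝ) :
    Measurable fun t => TS {y | t < g y} ϑ L :=
  Measurable.ennreal_tsum fun _ => (bw_meas hg _ _).const_mul _

lemma TS_int {g : E d → ℝ} (hg : Measurable g) (ϑ L : ℝ) :
    ∫⁻ t, TS {y | t < g y} ϑ L ≤ TG g ϑ L := by
  simp only [TS, TG]
  rw [lintegral_tsum fun _ => ((bw_meas hg _ _).const_mul _).aemeasurable]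
  refine ENNReal.tsum_le_tsum fun m => ?_
  rw [lintegral_const_mul _ (bw_meas hg _ _)]
  exact mul_le_mul' le_rfl (bw_int hg _ _)

lemma sum_Ico (T : ℝ → ℝ≥0∞) (a : ℝ) {η : ℝ} (hη : 0 < η) (n : ℕ) :
    ∑ i ∈ Finset.range n, ∫⁻ θ in Ico 0 η, T (a + θ + i * η) = ∫⁻ s in Ico a (a + n * η), T s := by
  induction n with
  | zero => simp
  | succ n ih =>
    have h1 := (measurePreserving_add_left volume (a + n * η)).setLIntegral_comp_preimage_emb
      (measurableEmbedding_addLeft (a + n * η)) T (Ico (a + n * η) (a + (n + 1 : ℕ) * η))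
    have h2 : (fun x => a + n * η + x) ⁻¹' Ico (a + n * η) (a + (n + 1 : ℕ) * η) = Ico 0 η := by
      ext x
      simp only [mem_preimage, mem_Ico, Nat.cast_succ]
      constructor <;> rintro ⟨h, h'⟩ <;> constructor <;> linarith
    have h3 : 0 ≤ (n : ℝ) * η := by positivity
    rw [h2] at h1
    rw [Finset.sum_range_succ, ih, ← Ico_union_Ico_eq_Ico (b := a + n * η) (c := a + (n + 1 : ℕ) * η) (by linarith)
      (by push_cast; linarith), lintegral_union measurableSet_Ico (Ico_disjoint_Ico_same), ← h1]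
    congr 1
    exact lintegral_congr fun θ => by rw [add_right_comm]

lemma pick {T : ℝ → ℝ≥0∞} (hT : Measurable T) (a : ℝ) {η : ℝ} (hη : 0 < η) (n : ℕ) :
    ∃ θ ∈ Ico 0 η, ∑ i ∈ Finset.range n, T (a + θ + i * η) ≤ (∫⁻ s, T s) / ENNReal.ofReal η := by
  have hv : volume (Ico 0 η) = ENNReal.ofReal η := by rw [Real.volume_Ico, sub_zero]
  have hm : ∀ i : ℕ, Measurable fun θ => T (a + θ + i * η) := fun i => hT.comp (by fun_prop)
  obtain ⟨θ, h1, h2⟩ := exists_le_setLAverage (μ := volume) (s := Ico 0 η)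
    (f := fun θ => ∑ i ∈ Finset.range n, T (a + θ + i * η))
    (by rw [hv]; exact (ENNReal.ofReal_pos.2 hη).ne') (by rw [hv]; exact ENNReal.ofReal_ne_top)
    (Finset.measurable_sum _ fun i _ => hm i).aemeasurable
  refine ⟨θ, h1, h2.trans ?_⟩
  rw [setLAverage_eq, hv, lintegral_finsetSum _ fun i _ => hm i, sum_Ico T a hη]
  exact ENNReal.div_le_div_right (setLIntegral_le_lintegral _ _) _

lemma clamp (n : ℕ) (u : ℝ) :
    |max 0 (min u n) - ∑ i ∈ Finset.range n, (if (i : ℝ) < u then (1 : ℝ) else 0)| ≤ 1 := by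
  have h1 : (Finset.range n).filter (fun i : ℕ => (i : ℝ) < u) = Finset.range (min n ⌈u⌉₊) := by
    ext i
    simp [Nat.lt_ceil]
  rw [Finset.sum_ite, Finset.sum_const_zero, add_zero, Finset.sum_const, h1, Finset.card_range,
    nsmul_eq_mul, mul_one, Nat.cast_min]
  have h0 : (0 : ℝ) ≤ n := Nat.cast_nonneg n
  rcases le_total u 0 with h | h
  · rw [Nat.ceil_eq_zero.2 h, Nat.cast_zero, min_eq_right h0, max_eq_left ((min_le_left _ _).trans h)]
    simp
  · have h2 := Nat.le_ceil u
    have h3 := Nat.ceil_lt_add_one h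
    rw [max_eq_right (le_min h h0), abs_le]
    simp only [min_def]
    split_ifs <;> constructor <;> linarith

lemma av_aff {g γ : E d → ℝ} (hg : Continuous g) {x : E d} {r b η : ℝ} (hr : 0 < r)
    (h : ∀ y ∈ ball x r, γ y = (g y - b) / η) : av γ x r = (av g x r - b) / η := by
  have hv : (volume (ball x r)).toReal ≠ 0 :=
    ENNReal.toReal_ne_zero.2 ⟨(measure_ball_pos _ _ hr).ne', measure_ball_lt_top.ne⟩
  have hi : IntegrableOn g (ball x r) :=
    (hg.continuousOn.integrableOn_compact (isCompact_closedBall x r)).mono_set ball_subset_closedBall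
  rw [av, av, setIntegral_congr_fun measurableSet_ball h, integral_div,
    integral_sub hi (integrableOn_const measure_ball_lt_top.ne), setIntegral_const, smul_eq_mul,
    measureReal_def]
  field_simp

lemma loc (hD : DiscStmt d) (hV : VStmt d) (hR : DerStmt d) {c ρ ε : ℝ} (hc : 0 < c) (hc1 : c ≤ 1)
    (hρ : 10 ≤ ρ) (hε : 0 < ε) : ∃ (ϑ L : ℝ) (C : ℝ≥0∞), 0 < ϑ ∧ ϑ < 1 ∧ 0 < L ∧ C ≠ ∞ ∧
      ∀ (g : E d → ℝ) (K : ℝ≥0) (ξ : E d), LipschitzWith K g → ‖ξ‖ = 1 → Cone g ξ c 5 ρ ε →
        ∫⁻ x in ball (0 : E d) (1 / 10), ENNReal.ofReal (-fderiv ℝ (vv g) x ξ) ≤ C * TG g ϑ L := by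
  obtain ⟨ϑ, L, C, w0, h1, h2, h3, hC, hw0, hw1, H⟩ := hD c ρ ε hc hc1 hρ hε
  obtain ⟨C', hC', H'⟩ := hR
  refine ⟨ϑ, L, ENNReal.ofReal (C' * C), h1, h2, h3, ENNReal.ofReal_ne_top, ?_⟩
  intro g K ξ hg hξ hcone
  by_cases hT : TG g ϑ L = ∞
  · rw [hT, ENNReal.mul_top (ENNReal.ofReal_pos.2 (by positivity)).ne']; exact le_top
  have hgm : Measurable g := hg.continuous.measurable
  set t := (TG g ϑ L).toReal with ht
  have ht0 : 0 ≤ t := ENNReal.toReal_nonneg
  set v := (volume (ball (0 : E d) (1 / 10))).toReal with hv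
  have hv0 : 0 ≤ v := ENNReal.toReal_nonneg
  have main : ∀ (M : ℕ) (η : ℝ), 0 < η →
      ∫⁻ x in ball (0 : E d) (1 / 10), ENNReal.ofReal (-fderiv ℝ (vv g) x ξ) ≤
        ENNReal.ofReal (C' * C * t + (η * (C' * C) +
          (η * (C' * C * (M + 1)) + (C' * C + C') * K * (w0 / 2 ^ M)) * v)) := by
    intro M η hη
    set a := g 0 - 3 * K - η with ha
    set n := ⌈(6 * K + η) / η⌉₊ with hn
    obtain ⟨θ, hθ, hsum⟩ := pick (TS_meas hgm ϑ L) a hη n
    set F : ℕ → Set (E d) := fun i => {y | a + θ + i * η < g y} with hF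
    have hFm : ∀ i, MeasurableSet (F i) := fun i => measurableSet_lt (by fun_prop) hgm
    have hFa : Antitone F := fun i j hij y (hy : a + θ + j * η < g y) => by
      have : (i : ℝ) * η ≤ j * η := by gcongr
      show a + θ + i * η < g y
      linarith
    obtain ⟨Z, ⟨hZm, hZ0, hZi⟩, hZ⟩ := H M n F ξ (t / η) hFm hFa hξ (by positivity)
      (hsum.trans (by
        rw [ENNReal.ofReal_div_of_pos hη, ht, ENNReal.ofReal_toReal hT]
        exact ENNReal.div_le_div_right (TS_int hgm ϑ L) _))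
      (fun i _ ν h hν hh hvol => hcone _ ν h hν hh hvol)
    set γ : E d → ℝ := fun y => max 0 (min ((g y - (a + θ)) / η) n) with hγ
    set K' : ℝ≥0 := ⟨K / η, by positivity⟩ with hK'
    have hK2 : (K' : ℝ) = K / η := rfl
    have hγL : LipschitzWith K' γ := by
      refine LipschitzWith.const_max (LipschitzWith.min_const
        (LipschitzWith.of_dist_le_mul fun y z => ?_) _) _
      rw [Real.dist_eq, ← sub_div, sub_sub_sub_cancel_right, abs_div, abs_of_pos hη, hK2,
        div_mul_eq_mul_div]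
      gcongr
      exact hg.dist_le_mul y z
    have hγc : ∀ y, |γ y - cnt F n y| ≤ 1 := fun y => by
      have := clamp n ((g y - (a + θ)) / η)
      refine le_trans (le_of_eq ?_) this
      congr 2
      refine Finset.sum_congr rfl fun i _ => ?_
      have e : y ∈ F i ↔ (i : ℝ) < (g y - (a + θ)) / η := by
        rw [lt_div_iff₀ hη]
        exact ⟨fun h : a + θ + i * η < g y => by linarith, fun h => by
          show a + θ + i * η < g y; linarith⟩
      by_cases k : y ∈ F i
      · rw [indicator_of_mem k, if_pos (e.1 k)]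
      · rw [indicator_of_notMem k, if_neg fun j => k (e.2 j)]
    have hγe : ∀ y ∈ ball (0 : E d) 3, γ y = (g y - (a + θ)) / η := fun y hy => by
      have k1 := hg.dist_le_mul y 0
      rw [Real.dist_eq, abs_le] at k1
      have k2 : (K : ℝ) * dist y 0 ≤ K * 3 := by gcongr; exact (mem_ball.1 hy).le
      have k3 : (6 * K + η) / η ≤ n := Nat.le_ceil _
      have k4 : (g y - (a + θ)) / η ≤ n := le_trans (by gcongr; linarith [hθ.1, k1.2]) k3
      simp only [hγ]
      rw [min_eq_left k4, max_eq_right (div_nonneg (by linarith [hθ.2, k1.1]) hη.le)]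
    have hav : ∀ x ∈ ball (0 : E d) (1 / 10), ∀ r ∈ Icc (1 : ℝ) 2,
        av γ x r = (av g x r - (a + θ)) / η := fun x hx r hr =>
      av_aff hg.continuous (by linarith [hr.1]) fun y hy => hγe y (ball_subset_ball'
        (by linarith [hr.2, mem_ball.1 hx]) hy)
    obtain ⟨-, g1, g2⟩ := hV g K hg
    obtain ⟨-, k1, k2⟩ := hV γ K' hγL
    have hvv : ∀ x ∈ ball (0 : E d) (1 / 10), vv γ x = (vv g x - (a + θ)) / η := fun x hx => by
      obtain ⟨r, hr, e⟩ := g2 x
      obtain ⟨r', hr', e'⟩ := k2 x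
      refine le_antisymm ?_ ?_
      · rw [e', hav x hx r' hr']
        gcongr
        exact g1 x r' hr'
      · rw [e, ← hav x hx r hr]
        exact k1 x r hr
    set w := w0 / 2 ^ M with hw
    have hw2 : 0 < w := by positivity
    have hw3 : w ≤ 1 / 100 := (div_le_self hw0.le (one_le_pow₀ one_le_two)).trans hw1
    have hpt : ∀ x ∈ ball (0 : E d) (1 / 10), -fderiv ℝ (vv g) x ξ ≤
        η * C' * Z x + (η * (C' * C * (M + 1)) + (C' * C + C') * K * w) := fun x hx => by
      have z0 := hZ0 x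
      by_cases hdf : DifferentiableAt ℝ (vv g) x
      swap
      · rw [fderiv_zero_of_not_differentiableAt hdf, ContinuousLinearMap.zero_apply, neg_zero]
        positivity
      have e1 : vv γ =ᶠ[𝓝 x] fun y => η⁻¹ • (vv g y - (a + θ)) := by
        filter_upwards [isOpen_ball.mem_nhds hx] with y hy
        rw [hvv y hy, smul_eq_mul, div_eq_inv_mul]
      have e2 : HasFDerivAt (vv γ) (η⁻¹ • fderiv ℝ (vv g) x) x :=
        ((hdf.hasFDerivAt.sub_const _).const_smul η⁻¹).congr_of_eventuallyEq e1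
      obtain ⟨r, hr, e⟩ := k2 x
      have a1 := H' γ K' ξ x r w hγL hξ hr hw2 hw3 e e2.differentiableAt
      have a2 := hZ γ K' hγL hγc x hx r hr fun r' hr' => e ▸ k1 x r' hr'
      rw [e2.fderiv, ContinuousLinearMap.smul_apply, smul_eq_mul] at a1
      have a3 : max (-sF γ ξ x (r / Real.exp w) (Real.exp w)) 0 ≤
          Z x + C * (M + 1) + C * K' * w := max_le a2 (by positivity)
      have a4 := mul_le_mul_of_nonneg_left (a1.trans (add_le_add
        (mul_le_mul_of_nonneg_left a3 hC'.le) le_rfl)) hη.le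
      rw [hK2] at a4
      refine le_trans (le_of_eq ?_) (a4.trans (le_of_eq ?_)) <;> field_simp
      ring
    calc _ ≤ ∫⁻ x in ball (0 : E d) (1 / 10), (ENNReal.ofReal (η * C') * ENNReal.ofReal (Z x) +
          ENNReal.ofReal (η * (C' * C * (M + 1)) + (C' * C + C') * K * w)) := by
          refine setLIntegral_mono' measurableSet_ball fun x hx => ?_
          rw [← ENNReal.ofReal_mul (by positivity),
            ← ENNReal.ofReal_add (mul_nonneg (by positivity) (hZ0 x)) (by positivity)]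
          exact ENNReal.ofReal_le_ofReal (hpt x hx)
      _ ≤ ENNReal.ofReal (η * C') * ENNReal.ofReal (C * (t / η + 1)) +
          ENNReal.ofReal (η * (C' * C * (M + 1)) + (C' * C + C') * K * w) * ENNReal.ofReal v := by
          rw [lintegral_add_right _ measurable_const,
            lintegral_const_mul' _ _ ENNReal.ofReal_ne_top, setLIntegral_const, hv,
            ENNReal.ofReal_toReal measure_ball_lt_top.ne]
          gcongr
      _ = _ := by
          rw [← ENNReal.ofReal_mul (by positivity), ← ENNReal.ofReal_mul (by positivity),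
            ← ENNReal.ofReal_add (by positivity) (by positivity)]
          congr 1
          field_simp
          ring
  have lim1 : ∀ M : ℕ, ∫⁻ x in ball (0 : E d) (1 / 10), ENNReal.ofReal (-fderiv ℝ (vv g) x ξ) ≤
      ENNReal.ofReal (C' * C * t + (0 * (C' * C) +
          (0 * (C' * C * (M + 1)) + (C' * C + C') * K * (w0 / 2 ^ M)) * v)) := fun M => by
    refine ge_of_tendsto (x := 𝓝[>] (0 : ℝ)) (f := fun η => ENNReal.ofReal (C' * C * t +
      (η * (C' * C) + (η * (C' * C * (M + 1)) + (C' * C + C') * K * (w0 / 2 ^ M)) * v))) ?_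
      (eventually_nhdsWithin_of_forall fun η hη => main M η hη)
    exact (Continuous.tendsto (ENNReal.continuous_ofReal.comp (by fun_prop)) 0).mono_left
      nhdsWithin_le_nhds
  have lim2 : ∫⁻ x in ball (0 : E d) (1 / 10), ENNReal.ofReal (-fderiv ℝ (vv g) x ξ) ≤
      ENNReal.ofReal (C' * C * t + (C' * C + C') * K * 0 * v) := by
    refine ge_of_tendsto' (x := atTop) (f := fun M : ℕ => ENNReal.ofReal (C' * C * t +
      (C' * C + C') * K * (w0 / 2 ^ M) * v)) ?_ fun M => by simpa using lim1 M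
    refine (ENNReal.continuous_ofReal.tendsto _).comp (tendsto_const_nhds.add
      (Tendsto.mul_const _ (Tendsto.const_mul _ ?_)))
    exact tendsto_const_nhds.div_atTop (tendsto_pow_atTop_atTop_of_one_lt one_lt_two)
  rwa [mul_zero, zero_mul, add_zero, ENNReal.ofReal_mul (by positivity), ht,
    ENNReal.ofReal_toReal hT] at lim2

lemma lint_tr (q : E d) (k : E d → ℝ≥0∞) (s : ℝ) :
    ∫⁻ y in ball (0 : E d) s, k (q + y) = ∫⁻ y in ball q s, k y := by
  simpa using Th_lint q one_pos k s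

lemma vv_tr (g : E d → ℝ) (q : E d) : vv (fun y => g (q + y)) = fun x => vv g (q + x) := by
  funext x
  have : av (fun y => g (q + y)) x = av g (q + x) := funext fun r => by
    simpa using Th_av g q one_pos x r
  rw [vv, vv, this]

lemma TG_tr (g : E d → ℝ) (ϑ : ℝ) {L ρ1 : ℝ} {q : E d} (hq : ‖q‖ ≤ ρ1) :
    TG (fun y => g (q + y)) ϑ L ≤ TG g ϑ (L + ρ1) := by
  refine ENNReal.tsum_le_tsum fun m => mul_le_mul' le_rfl ?_
  have h : ∀ z v, dl (fun y => g (q + y)) z v = dl g (q + z) v := by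
    intro z v
    simp only [dl, add_assoc, add_sub_assoc]
  have h0 : 0 ≤ ρ1 := (norm_nonneg q).trans hq
  simp only [h]
  rw [lint_tr q fun z => ∫⁻ v in ball (0 : E d) (L / 2 ^ m), dl g z v]
  exact (lintegral_mono fun _ => lintegral_mono_set (ball_subset_ball (by gcongr; linarith))).trans
    (lintegral_mono_set (ball_subset_ball' (by rw [dist_zero_right]; linarith)))

lemma cone_tr {g : E d → ℝ} {ξ : E d} {c ρ1 ρ ρ' ε : ℝ} (h : Cone g ξ c (ρ1 + 5) ρ ε) {q : E d}
    (hq : ‖q‖ ≤ ρ1) (hρ : ρ + ρ1 ≤ ρ') : Cone (fun y => g (q + y)) ξ c 5 ρ' ε := by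
  intro s ν a hν ha hv
  refine h s ν (a + ⟪q, ν⟫) hν ((abs_add_le _ _).trans ?_) (le_trans ?_ hv)
  · linarith [abs_inner_le hν q]
  rw [← vol_add q]
  refine measure_mono fun y hy => ⟨?_, ?_⟩
  · rcases hy.1 with ⟨k1, k2⟩ | ⟨k1, k2⟩
    · exact Or.inl ⟨k1, by rw [inner_add_left] at k2; linarith⟩
    · exact Or.inr ⟨k1, by rw [inner_add_left] at k2; linarith⟩
  · have k := mem_ball_zero_iff.1 hy.2
    rw [mem_ball_zero_iff]
    have : ‖y‖ ≤ ‖q + y‖ + ‖q‖ := by simpa using norm_sub_le (q + y) q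
    linarith

end Ng

theorem negStmt (hD : DiscStmt d) (hV : VStmt d) (hR : DerStmt d) : NegStmt d := by
  intro c ρ1 ρ ε hc hc1 hρ1 hρ hε
  obtain ⟨ϑ, L, C, h1, h2, h3, hC, H⟩ := Ng.loc hD hV hR hc hc1 (le_max_left 10 (ρ + ρ1)) hε
  obtain ⟨t, ht1, ht2, ht3⟩ := finite_cover_balls_of_compact (isCompact_closedBall (0 : E d) ρ1)
    (e := 1 / 10) (by norm_num)
  have := ht2.fintype
  refine ⟨ϑ, L + ρ1, Fintype.card t * C, h1, h2, by linarith,
    ENNReal.mul_ne_top (ENNReal.natCast_ne_top _) hC, fun g K ξ hg hξ hcone => ?_⟩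
  rw [biUnion_eq_iUnion] at ht3
  refine (lintegral_mono_set (ball_subset_closedBall.trans ht3)).trans
    ((lintegral_iUnion_le _ _).trans ?_)
  rw [tsum_fintype, mul_assoc, ← nsmul_eq_mul, ← Finset.card_univ, ← Finset.sum_const]
  refine Finset.sum_le_sum fun q _ => ?_
  have hq : ‖(q : E d)‖ ≤ ρ1 := mem_closedBall_zero_iff.1 (ht1 q.2)
  have hL : LipschitzWith K fun y => g (q + y) := by
    simpa [Function.comp_def] using hg.comp (isometry_add_left (q : E d)).lipschitz
  have := H _ K ξ hL hξ (Ng.cone_tr hcone hq (le_max_right _ _))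
  rw [Ng.vv_tr] at this
  simp only [fderiv_comp_add_left] at this
  rw [Ng.lint_tr (q : E d) fun x => ENNReal.ofReal (-fderiv ℝ (vv g) x ξ)] at this
  exact this.trans (mul_le_mul' le_rfl (Ng.TG_tr g ϑ hq))

end Vale.Agent.P137
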