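import Vale.Agent.P137.CBase

open MeasureTheory Metric Set Filter
open scoped ENNReal NNReal Topology

namespace Vale.Agent.P137

namespace OneD

lemma lint_le {f g : ℝ → ℝ} {A S : Set ℝ} (hA : MeasurableSet A) (hS : MeasurableSet S)
    (hAS : A ⊆ S) (hg : IntegrableOn g S) (h : ∀ᵐ s, s ∈ S → 0 ≤ g s ∧ (s ∈ A → f s ≤ g s)) :
    ∫⁻ s in A, ENNReal.ofReal (f s) ≤ ENNReal.ofReal (∫ s in S, g s) := by
  rw [ofReal_integral_eq_lintegral_ofReal hg
    ((ae_restrict_iff' hS).2 (h.mono fun s hs hs' => (hs hs').1))]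
  refine le_trans ?_ (lintegral_mono_set hAS)
  exact setLIntegral_mono_ae' hA
    (h.mono fun s hs hs' => ENNReal.ofReal_le_ofReal ((hs (hAS hs')).2 hs'))

lemma ftc {H : ℝ → ℝ} {K : ℝ≥0} {a b : ℝ} (hab : a ≤ b) (h : LipschitzOnWith K H (Icc a b)) :
    IntegrableOn (deriv H) (Icc a b) ∧ ∫ s in Icc a b, deriv H s = H b - H a ∧
      ∀ᵐ s, s ∈ Icc a b → DifferentiableAt ℝ H s := by
  rw [← uIcc_of_le hab] at h
  have h1 := h.absolutelyContinuousOnInterval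
  refine ⟨(intervalIntegrable_iff_integrableOn_Icc_of_le hab).1 h1.intervalIntegrable_deriv, ?_,
    by simpa only [uIcc_of_le hab] using h1.ae_differentiableAt⟩
  rw [← h1.integral_deriv_eq_sub, intervalIntegral.integral_of_le hab, integral_Icc_eq_integral_Ioc]

lemma der_right {H : ℝ → ℝ} {s δ : ℝ} (hd : DifferentiableAt ℝ H s) (hδ : 0 < δ)
    (h : ∀ t, 0 < t → t < δ → H s ≤ H (s + t)) : 0 ≤ deriv H s := by
  refine ge_of_tendsto hd.hasDerivAt.tendsto_slope_zero_right ?_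
  filter_upwards [Ioo_mem_nhdsGT hδ] with t ht
  exact mul_nonneg (inv_nonneg.2 ht.1.le) (sub_nonneg.2 (h t ht.1 ht.2))

lemma der_left {H : ℝ → ℝ} {s δ : ℝ} (hd : DifferentiableAt ℝ H s) (hδ : 0 < δ)
    (h : ∀ t, -δ < t → t < 0 → H s ≤ H (s + t)) : deriv H s ≤ 0 := by
  refine le_of_tendsto hd.hasDerivAt.tendsto_slope_zero_left ?_
  filter_upwards [Ioo_mem_nhdsLT (neg_lt_zero.2 hδ)] with t ht
  exact mul_nonpos_of_nonpos_of_nonneg (inv_nonpos.2 ht.2.le) (sub_nonneg.2 (h t ht.1 ht.2))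

lemma der_touch {H G : ℝ → ℝ} {s L : ℝ} (hH : DifferentiableAt ℝ H s) (hG : DifferentiableAt ℝ G s)
    (hs : s < L) (h : ∀ t ≤ L, H t ≤ G t) (e : H s = G s) : deriv H s = deriv G s := by
  have h1 : IsLocalMin (G - H) s := by
    filter_upwards [Iio_mem_nhds hs] with t ht
    have := h t (le_of_lt ht)
    simp only [Pi.sub_apply]; linarith
  have h2 := h1.deriv_eq_zero
  rw [deriv_sub hG hH] at h2
  linarith

lemma lip_abs {φ : ℝ → ℝ} {K : ℝ≥0} (h : LipschitzWith K φ) (s t : ℝ) :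
    φ s ≤ φ t + K * |s - t| := by
  simpa [Real.dist_eq] using h.le_add_mul s t

lemma near {φ : ℝ → ℝ} (h : Continuous φ) {s ε : ℝ} (hε : 0 < ε) :
    ∃ δ > 0, ∀ t, |t - s| < δ → |φ t - φ s| < ε := by
  obtain ⟨δ, h1, h2⟩ := Metric.continuous_iff.1 h s ε hε
  exact ⟨δ, h1, fun t ht => h2 t ht⟩

/-- the rising sun envelope -/
lemma env {φ ψ : ℝ → ℝ} {K : ℝ≥0} (hφ : LipschitzWith K φ) (hψ : LipschitzWith K ψ)
    (P : ℝ → Prop) {L : ℝ} (hL : P L) (hP : ∀ s ≤ L, ∀ τ ≤ s, P τ → P s) (hle : ∀ s, ψ s ≤ φ s) :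
    ∃ H : ℝ → ℝ, LipschitzOnWith K H (Iic L) ∧
      (∀ s c τ, τ ∈ Icc s L → P τ → c ≤ ψ τ → (∀ t ∈ Icc s τ, c ≤ φ t) → c ≤ H s) ∧
      ∀ s ≤ L, ∀ c < H s, ∃ τ ∈ Icc s L, P τ ∧ c < ψ τ ∧ ∀ t ∈ Icc s τ, c < φ t := by
  let S : ℝ → Set ℝ := fun s => {c | ∃ τ ∈ Icc s L, P τ ∧ c ≤ ψ τ ∧ ∀ t ∈ Icc s τ, c ≤ φ t}
  have hb : ∀ s, BddAbove (S s) := fun s =>
    ⟨φ s, fun c ⟨τ, h1, _, _, h2⟩ => h2 s ⟨le_rfl, h1.1⟩⟩
  have hn : ∀ s ≤ L, (S s).Nonempty := fun s hs =>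
    ⟨ψ L - K * (L - s), L, ⟨hs, le_rfl⟩, hL, sub_le_self _ (by positivity [sub_nonneg.2 hs]),
      fun t ht => by
        have h1 := lip_abs hψ L t
        rw [abs_of_nonneg (sub_nonneg.2 ht.2)] at h1
        have h2 : (K : ℝ) * (L - t) ≤ K * (L - s) := by gcongr; exact ht.1
        linarith [hle t]⟩
  refine ⟨fun s => sSup (S s), LipschitzOnWith.of_le_add_mul K fun s hs s' hs' => ?_,
    fun s c τ h1 h2 h3 h4 => le_csSup (hb s) ⟨τ, h1, h2, h3, h4⟩, fun s hs c hc => ?_⟩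
  · refine csSup_le (hn s hs) fun c ⟨τ, h1, h2, h3, h4⟩ => ?_
    rw [← sub_le_iff_le_add, Real.dist_eq]
    have hK : 0 ≤ (K : ℝ) * |s - s'| := by positivity
    refine le_csSup (hb s') ?_
    by_cases hτ : s' ≤ τ
    · refine ⟨τ, ⟨hτ, h1.2⟩, h2, by linarith, fun t ht => ?_⟩
      by_cases hts : s ≤ t
      · linarith [h4 t ⟨hts, ht.2⟩]
      · have h5 := lip_abs hφ s t
        have h6 : (K : ℝ) * |s - t| ≤ K * |s - s'| := by
          refine mul_le_mul_of_nonneg_left ?_ K.2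
          rw [abs_of_nonneg (by linarith), abs_of_nonneg (by linarith [ht.1])]; linarith [ht.1]
        linarith [h4 s ⟨le_rfl, h1.1⟩]
    · have h5 := lip_abs hψ τ s'
      have h6 : (K : ℝ) * |τ - s'| ≤ K * |s - s'| := by
        refine mul_le_mul_of_nonneg_left ?_ K.2
        rw [abs_of_nonpos (by linarith), abs_of_nonpos (by linarith [h1.1])]; linarith [h1.1]
      refine ⟨s', ⟨le_rfl, hs'⟩, hP s' hs' τ (by linarith) h2, by linarith, fun t ht => ?_⟩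
      rw [le_antisymm ht.2 ht.1]; linarith [hle s']
  · obtain ⟨c', ⟨τ, h1, h2, h3, h4⟩, h5⟩ := exists_lt_of_lt_csSup (hn s hs) hc
    exact ⟨τ, h1, h2, h5.trans_le h3, fun t ht => h5.trans_le (h4 t ht)⟩

end OneD

open OneD in
theorem od1Stmt : OD1Stmt := by
  intro φ K L l η A hφ hA hAL h
  rcases lt_or_ge L 0 with hL | hL
  · rw [Icc_eq_empty (not_le.2 hL), subset_empty_iff] at hAL
    simp [hAL]
  rcases eq_or_ne η ∞ with rfl | hη
  · simp
  obtain ⟨H, hH, h1, h2⟩ := env hφ hφ (fun τ => τ = L) (L := L) rfl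
    (fun s hs τ hτ e => le_antisymm hs (e ▸ hτ)) fun _ => le_rfl
  have h3 : ∀ s ≤ L, ∀ c, (∀ t ∈ Icc s L, c ≤ φ t) → c ≤ H s := fun s hs c hc =>
    h1 s c L ⟨hs, le_rfl⟩ rfl (hc L ⟨hs, le_rfl⟩) hc
  have h4 : ∀ s, ∀ t ∈ Icc s L, H s ≤ φ t := fun s t ht => by
    by_contra hc
    obtain ⟨τ, -, rfl, -, h5⟩ := h2 s (ht.1.trans ht.2) _ (not_le.1 hc)
    exact lt_irrefl _ (h5 t ht)
  have h5 : ∀ s t, s ≤ t → t ≤ L → H s ≤ H t := fun s t hst ht =>
    h3 t ht _ fun r hr => h4 s r ⟨hst.trans hr.1, hr.2⟩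
  have h6 : H L = φ L := le_antisymm (h4 L L ⟨le_rfl, le_rfl⟩)
    (h3 L le_rfl _ fun t ht => by rw [le_antisymm ht.2 ht.1])
  have hH' : ∀ a b, b ≤ L → LipschitzOnWith K H (Icc a b) := fun a b hb =>
    hH.mono fun t ht => ht.2.trans hb
  obtain ⟨a, b, ha, hab, hb, hab', hS⟩ : ∃ a b, 0 ≤ a ∧ a ≤ b ∧ b ≤ L ∧ H b - H a ≤ η.toReal ∧
      ∀ s ∈ Icc 0 L, H s ∈ Icc (l - η.toReal) l → s ∈ Icc a b := by
    have hc : IsCompact (Icc 0 L ∩ H ⁻¹' Icc (l - η.toReal) l) :=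
      isCompact_Icc.of_isClosed_subset
        ((hH' 0 L le_rfl).continuousOn.preimage_isClosed_of_isClosed isClosed_Icc isClosed_Icc)
        inter_subset_left
    rcases (Icc 0 L ∩ H ⁻¹' Icc (l - η.toReal) l).eq_empty_or_nonempty with he | hn
    · refine ⟨0, 0, le_rfl, le_rfl, hL, by simp, fun s hs hs' => ?_⟩
      exact absurd (he ▸ (⟨hs, hs'⟩ : s ∈ Icc 0 L ∩ H ⁻¹' Icc (l - η.toReal) l)) (notMem_empty s)
    · obtain ⟨a, ha⟩ := hc.exists_isLeast hn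
      obtain ⟨b, hb⟩ := hc.exists_isGreatest hn
      exact ⟨a, b, ha.1.1.1, ha.2 hb.1, hb.1.1.2, by linarith [ha.1.2.1, hb.1.2.2],
        fun s hs hs' => ⟨ha.2 ⟨hs, hs'⟩, hb.2 ⟨hs, hs'⟩⟩⟩
  obtain ⟨i1, e1, d1⟩ := ftc hL (hφ.lipschitzOnWith (s := Icc 0 L))
  obtain ⟨i2, e2, d2⟩ := ftc hL (hH' 0 L le_rfl)
  obtain ⟨-, e3, -⟩ := ftc hab (hH' a b hb)
  have i3 : IntegrableOn (fun s => max (-deriv φ s) 0) (Icc 0 L) := i1.neg.pos_part
  have i4 : IntegrableOn ((Icc a b).indicator (deriv H)) (Icc 0 L) := i2.indicator measurableSet_Icc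
  have i5 : IntegrableOn (fun s => deriv φ s - deriv H s) (Icc 0 L) := i1.sub i2
  have i6 : IntegrableOn (fun s => max (-deriv φ s) 0 + (deriv φ s - deriv H s)) (Icc 0 L) :=
    i3.add i5
  refine (lint_le (g := fun s => max (-deriv φ s) 0 + (deriv φ s - deriv H s) +
    (Icc a b).indicator (deriv H) s) hA measurableSet_Icc hAL (i6.add i4) ?_).trans ?_
  · filter_upwards [d1, d2, compl_mem_ae_iff.2 (measure_singleton L)] with s hd1 hd2 hsL hs
    have hlt : s < L := lt_of_le_of_ne hs.2 hsL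
    have p1 : 0 ≤ deriv H s := der_right (hd2 hs) (sub_pos.2 hlt) fun t ht ht' =>
      h5 _ _ (by linarith) (by linarith)
    have p2 : 0 ≤ (Icc a b).indicator (deriv H) s := indicator_apply_nonneg fun _ => p1
    have p3 := le_max_left (-deriv φ s) 0
    have p4 := le_max_right (-deriv φ s) 0
    rcases (h4 s s ⟨le_rfl, hs.2⟩).eq_or_lt with e | e
    · have p5 := der_touch (hd2 hs) (hd1 hs) hlt (fun t ht => h4 t t ⟨le_rfl, ht⟩) e
      refine ⟨by linarith, fun hsA => ?_⟩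
      have p6 := (h s hsA).2 fun t ht => e ▸ h4 s t ht
      have p7 := (ENNReal.ofReal_le_iff_le_toReal hη).1 p6
      rw [indicator_of_mem (hS s hs ⟨by linarith, e ▸ (h s hsA).1⟩)]
      linarith
    · obtain ⟨δ, hδ, hδ'⟩ := near hφ.continuous (s := s) (sub_pos.2 e)
      have p5 : deriv H s ≤ 0 := der_left (hd2 hs) hδ fun t ht ht' =>
        h3 _ (by linarith) _ fun r hr => by
          by_cases hrs : s ≤ r
          · exact h4 s r ⟨hrs, hr.2⟩
          · have := abs_lt.1 (hδ' r (abs_lt.2 ⟨by linarith [hr.1], by linarith⟩))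
            linarith [this.1]
      exact ⟨by linarith, fun _ => by linarith⟩
  · rw [integral_add i6 i4, integral_add i3 i5, integral_sub i1 i2,
      e1, e2, setIntegral_indicator measurableSet_Icc,
      inter_eq_right.2 (Icc_subset_Icc ha hb), e3]
    have p1 := h4 0 0 ⟨le_rfl, hL⟩
    refine (ENNReal.ofReal_le_ofReal (show _ ≤ (∫ s in Icc 0 L, max (-deriv φ s) 0) + η.toReal by
      linarith)).trans (ENNReal.ofReal_add_le.trans ?_)
    rw [ENNReal.ofReal_toReal hη, ofReal_integral_eq_lintegral_ofReal i3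
      (Eventually.of_forall fun s => le_max_right _ _)]
    simp only [ENNReal.ofReal_max, ENNReal.ofReal_zero, zero_le, max_eq_left, le_refl]

open OneD in
theorem od2Stmt : OD2Stmt := by
  intro φ ψ K L A hφ hψ hle hA hAL h
  rcases lt_or_ge L 0 with hL | hL
  · rw [Icc_eq_empty (not_le.2 hL), subset_empty_iff] at hAL
    simp [hAL]
  obtain ⟨H, hH, h1, h2⟩ := env hφ hψ (fun _ => True) (L := L) trivial (fun _ _ _ _ _ => trivial) hle
  have h3 : ∀ s ≤ L, ψ s ≤ H s := fun s hs => h1 s _ s ⟨le_rfl, hs⟩ trivial le_rfl fun t ht => by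
    rw [le_antisymm ht.2 ht.1]; exact hle s
  have h4 : ∀ s ≤ L, H s ≤ φ s := fun s hs => by
    by_contra hc
    obtain ⟨τ, h5, -, -, h6⟩ := h2 s hs _ (not_le.1 hc)
    exact lt_irrefl _ (h6 s ⟨le_rfl, h5.1⟩)
  have h5 : H L ≤ ψ L := by
    by_contra hc
    obtain ⟨τ, h5, -, h6, -⟩ := h2 L le_rfl _ (not_le.1 hc)
    rw [le_antisymm h5.2 h5.1] at h6
    exact lt_irrefl _ h6
  obtain ⟨-, -, d0⟩ := ftc hL (hφ.lipschitzOnWith (s := Icc 0 L))
  obtain ⟨i1, e1, d1⟩ := ftc hL (hψ.lipschitzOnWith (s := Icc 0 L))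
  obtain ⟨i2, e2, d2⟩ := ftc hL (hH.mono (Icc_subset_Iic_self (a := 0)))
  have i3 : IntegrableOn (fun s => ‖deriv ψ s‖) (Icc 0 L) := i1.norm
  refine (lint_le (g := fun s => deriv H s + ‖deriv ψ s‖) hA measurableSet_Icc hAL (i2.add i3)
    ?_).trans ?_
  · filter_upwards [d0, d1, d2, compl_mem_ae_iff.2 (measure_singleton L)] with s hd0 hd1 hd2 hsL hs
    have hlt : s < L := lt_of_le_of_ne hs.2 hsL
    refine ⟨?_, fun hsA => ?_⟩
    · rcases (h3 s hs.2).eq_or_lt with e | e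
      · rw [← der_touch (hd1 hs) (hd2 hs) hlt h3 e, Real.norm_eq_abs]
        linarith [neg_abs_le (deriv ψ s)]
      · obtain ⟨δ, hδ, hδ'⟩ := near hψ.continuous (s := s) (half_pos (sub_pos.2 e))
        refine add_nonneg (der_right (hd2 hs) hδ fun t ht ht' => ?_) (norm_nonneg _)
        refine le_of_forall_lt_imp_le_of_dense fun c hc => ?_
        obtain ⟨τ, p1, -, p2, p3⟩ := h2 s hs.2 (max c ((H s + ψ s) / 2))
          (max_lt hc (by linarith))
        have p4 : s + t ≤ τ := by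
          by_contra p5
          have := abs_lt.1 (hδ' τ (abs_lt.2 ⟨by linarith [p1.1], by linarith⟩))
          linarith [this.2, le_max_right c ((H s + ψ s) / 2)]
        exact h1 _ c τ ⟨p4, p1.2⟩ trivial ((le_max_left _ _).trans p2.le) fun r hr =>
          (le_max_left _ _).trans (p3 r ⟨by linarith [hr.1], hr.2⟩).le
    · obtain ⟨τ, p1, p2, p3⟩ := h s hsA
      rw [← der_touch (hd2 hs) (hd0 hs) hlt h4
        (le_antisymm (h4 s hs.2) (h1 s _ τ p1 trivial p2 p3))]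
      exact le_add_of_nonneg_right (norm_nonneg _)
  · rw [integral_add i2 i3, e2, ← ofReal_integral_norm_eq_lintegral_enorm i1, two_mul,
      ← ENNReal.ofReal_add (integral_nonneg fun _ => norm_nonneg _)
        (integral_nonneg fun _ => norm_nonneg _)]
    refine ENNReal.ofReal_le_ofReal ?_
    have p1 := norm_integral_le_integral_norm (μ := volume.restrict (Icc 0 L)) (deriv ψ)
    rw [e1] at p1
    linarith [Real.le_norm_self (ψ L - ψ 0), h3 0 hL]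

end Vale.Agent.P137
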