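import Vale.Agent.P137.CBase

open MeasureTheory Metric Set Filter
open scoped ENNReal NNReal RealInnerProductSpace Topology

namespace Vale.Agent.P137

variable {d : ℕ}

namespace Od

lemma side {ι : Type} [LinearOrder ι] [Nonempty ι] (P : Finset ι) (n : ℕ) (hn : 1 ≤ n) :
    ∃ i : ι, n ≤ P.card → i ∈ P ∧ (∀ B : Finset ι, B.card < n → ∃ j ∈ P, j ∉ B ∧ i ≤ j) ∧
      ∀ A : Finset ι, A ⊆ P → n ≤ A.card → ∃ j ∈ A, j ≤ i := by
  by_cases h : n ≤ P.card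
  swap
  · exact ⟨Classical.arbitrary ι, fun h' => absurd h' h⟩
  have hlt : ∀ i ∈ P, ∀ j ∈ P, i < j → (P.filter (j ≤ ·)).card < (P.filter (i ≤ ·)).card := by
    intro i hi j _ hij
    refine Finset.card_lt_card ⟨fun k hk => ?_, fun hs => ?_⟩
    · simp only [Finset.mem_filter] at hk ⊢; exact ⟨hk.1, hij.le.trans hk.2⟩
    · have := hs (Finset.mem_filter.2 ⟨hi, le_rfl⟩)
      exact absurd (Finset.mem_filter.1 this).2 (not_le.2 hij)
  obtain ⟨i, hi, e⟩ := Finset.surj_on_of_inj_on_of_card_le (s := P) (t := Finset.Icc 1 P.card)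
    (fun i _ => (P.filter (i ≤ ·)).card)
    (fun i hi => Finset.mem_Icc.2 ⟨Finset.card_pos.2 ⟨i, Finset.mem_filter.2 ⟨hi, le_rfl⟩⟩,
      Finset.card_filter_le _ _⟩)
    (fun i j hi hj e => by
      rcases lt_trichotomy i j with h | h | h
      · exact absurd e (hlt i hi j hj h).ne'
      · exact h
      · exact absurd e (hlt j hj i hi h).ne)
    (by simp) n (Finset.mem_Icc.2 ⟨hn, h⟩)
  refine ⟨i, fun _ => ⟨hi, fun B hB => ?_, fun A hA hn' => ?_⟩⟩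
  · obtain ⟨j, hj, hj'⟩ := Finset.exists_mem_notMem_of_card_lt_card (e ▸ hB)
    exact ⟨j, (Finset.mem_filter.1 hj).1, hj', (Finset.mem_filter.1 hj).2⟩
  · by_contra hc
    push Not at hc
    have : A ⊆ (P.filter (i ≤ ·)).erase i := fun j hj =>
      Finset.mem_erase.2 ⟨(hc j hj).ne', Finset.mem_filter.2 ⟨hA hj, (hc j hj).le⟩⟩
    have h2 := Finset.card_le_card this
    rw [Finset.card_erase_of_mem (Finset.mem_filter.2 ⟨hi, le_rfl⟩), ← e] at h2
    omega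

lemma side' (P : Finset ℕ) (n : ℕ) (hn : 1 ≤ n) :
    ∃ i : ℕ, n ≤ P.card → i ∈ P ∧ (∀ B : Finset ℕ, B.card < n → ∃ j ∈ P, j ∉ B ∧ j ≤ i) ∧
      ∀ A : Finset ℕ, A ⊆ P → n ≤ A.card → ∃ j ∈ A, i ≤ j := side (ι := ℕᵒᵈ) P n hn

lemma test {F G : Set (E d)} {ν μ z : E d} {h k σ η : ℝ} (hFG : G ⊆ F) (hν : ‖ν‖ = 1)
    (hμ : ‖μ‖ = 1) (hη : 0 < η) (hη1 : η ≤ 1 / 100) (hσ : σ ≤ η / 4)
    (h1 : volume (dev F ν h σ ∩ ball 0 10) ≤
      ENNReal.ofReal ((volume (ball (0 : E d) 1)).toReal / (4 * 4 ^ d) * η ^ d))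
    (h2 : volume (dev G μ k σ ∩ ball 0 10) ≤
      ENNReal.ofReal ((volume (ball (0 : E d) 1)).toReal / (4 * 4 ^ d) * η ^ d))
    (hz : ‖z‖ ≤ 9) (a1 : ⟪z, ν⟫ - h ≤ -(η / 2)) (a2 : η / 2 ≤ ⟪z, μ⟫ - k) : False := by
  have hs : ball z (η / 4) ⊆ (dev F ν h σ ∩ ball 0 10) ∪ (dev G μ k σ ∩ ball 0 10) := by
    intro y hy
    rw [mem_ball_iff_norm] at hy
    have hb : y ∈ ball (0 : E d) 10 := by
      rw [mem_ball_zero_iff]
      have := norm_add_le (y - z) z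
      rw [sub_add_cancel] at this
      linarith
    have b1 := abs_le.1 (abs_inner_le hν (y - z))
    have b2 := abs_le.1 (abs_inner_le hμ (y - z))
    rw [inner_sub_left] at b1 b2
    by_cases hF : y ∈ F
    · exact Or.inl ⟨Or.inr ⟨hF, by linarith [b1.2]⟩, hb⟩
    · exact Or.inr ⟨Or.inl ⟨fun hG => hF (hFG hG), by linarith [b2.1]⟩, hb⟩
  have h3 := (measure_mono hs).trans ((measure_union_le _ _).trans (add_le_add h1 h2))
  set om := (volume (ball (0 : E d) 1)).toReal with hom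
  have hp : 0 < om := ENNReal.toReal_pos (measure_ball_pos _ _ one_pos).ne' measure_ball_lt_top.ne
  rw [Measure.addHaar_ball_of_pos _ _ (by positivity : 0 < η / 4), finrank_euclideanSpace_fin,
    ← ENNReal.ofReal_toReal (measure_ball_lt_top (x := (0 : E d)) (r := 1)).ne, ← hom,
    ← ENNReal.ofReal_mul (by positivity), ← ENNReal.ofReal_add (by positivity) (by positivity),
    ENNReal.ofReal_le_ofReal_iff (by positivity), div_pow] at h3
  have h4 : 0 < η ^ d / 4 ^ d * om := by positivity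
  have h5 : om / (4 * 4 ^ d) * η ^ d = η ^ d / 4 ^ d * om / 4 := by field_simp
  rw [h5] at h3
  linarith

lemma geom {q : ℝ} (h0 : 0 ≤ q) (h1 : q < 1) (M : ℕ) : ∑ m ∈ Finset.range M, q ^ m ≤ (1 - q)⁻¹ := by
  rw [← tsum_geometric_of_lt_one h0 h1]
  exact (summable_geometric_of_lt_one h0 h1).sum_le_tsum _ fun i _ => by positivity

end Od

open Od

theorem ordStmt (_hd : 2 ≤ d) : OrdStmt d := by
  have hp : 0 < (volume (ball (0 : E d) 1)).toReal :=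
    ENNReal.toReal_pos (measure_ball_pos _ _ one_pos).ne' measure_ball_lt_top.ne
  refine ⟨(volume (ball (0 : E d) 1)).toReal / (4 * 4 ^ d), by positivity, ?_⟩
  intro F ν h s σ η N hF hν hη hη1 hσ hN hv
  have nz : ∀ (x : E d) (a : ℝ) (i : ℕ), ‖x‖ < 1 / 10 → |a| ≤ 3 → ‖x + a • ν i‖ ≤ 9 := by
    intro x a i hx ha
    have := norm_add_le x (a • ν i)
    rw [norm_smul, hν, Real.norm_eq_abs] at this
    linarith
  have ii : ∀ i, ⟪ν i, ν i⟫ = 1 := fun i => by rw [real_inner_self_eq_norm_sq, hν]; norm_num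
  have ij : ∀ i j, |⟪ν i, ν j⟫| ≤ 1 := fun i j => by simpa [hν] using abs_inner_le (hν j) (ν i)
  have tA : ∀ i ∈ s, ∀ j ∈ s, i ≤ j → ∀ (x : E d) (a : ℝ), ‖x‖ < 1 / 10 → η ≤ a → a ≤ 3 →
      a ≤ ⟪x, ν j⟫ - h j → a - η ≤ ⟪x, ν i⟫ - h i := by
    intro i hi j hj hij x a hx a1 a2 a3
    by_contra hc
    refine test (z := x + (-(a - η / 2)) • ν i) (hF hij) (hν i) (hν j) hη hη1 hσ (hv i hi)
      (hv j hj) (nz _ _ _ hx (abs_le.2 ⟨by linarith, by linarith⟩)) ?_ ?_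
    · rw [inner_add_left, real_inner_smul_left, ii]; linarith
    · rw [inner_add_left, real_inner_smul_left]
      nlinarith [(abs_le.1 (ij i j)).2]
  have tB : ∀ i ∈ s, ∀ j ∈ s, i ≤ j → ∀ (x : E d) (a : ℝ), ‖x‖ < 1 / 10 → η ≤ a → a ≤ 3 →
      a ≤ -(⟪x, ν i⟫ - h i) → a - η ≤ -(⟪x, ν j⟫ - h j) := by
    intro i hi j hj hij x a hx a1 a2 a3
    by_contra hc
    refine test (z := x + (a - η / 2) • ν j) (hF hij) (hν i) (hν j) hη hη1 hσ (hv i hi)
      (hv j hj) (nz _ _ _ hx (abs_le.2 ⟨by linarith, by linarith⟩)) ?_ ?_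
    · rw [inner_add_left, real_inner_smul_left]
      nlinarith [(abs_le.1 (ij j i)).2]
    · rw [inner_add_left, real_inner_smul_left, ii]; linarith
  obtain ⟨i1, h1⟩ := side (s.filter fun i => h i < 0) (⌊N / 16⌋₊ + 1) (by omega)
  obtain ⟨i2, h2⟩ := side' (s.filter fun i => 0 < h i) (⌊N / 16⌋₊ + 1) (by omega)
  refine ⟨ν i1, -ν i2, h i1, -h i2, Or.inl (hν _), Or.inl (by rw [norm_neg, hν]), ?_⟩
  intro x hx r hr hA hB
  rw [mem_ball_zero_iff] at hx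
  obtain ⟨r1, r2⟩ := hr
  have hxν : ∀ i, -(1 / 10) < ⟪x, ν i⟫ ∧ ⟪x, ν i⟫ < 1 / 10 := fun i =>
    abs_lt.1 ((abs_inner_le (hν i) x).trans_lt hx)
  unfold nr at hA hB
  set B := s.filter fun i => |⟪x, ν i⟫ - h i| ≤ r - 2 * η with hBd
  set Ap := s.filter fun i => r - 2 * η < ⟪x, ν i⟫ - h i ∧ ⟪x, ν i⟫ - h i ≤ r + η with hAp
  set Am := s.filter fun i => r - 2 * η < -(⟪x, ν i⟫ - h i) ∧ -(⟪x, ν i⟫ - h i) ≤ r + η with hAm
  have hB' : B.card < ⌊N / 16⌋₊ + 1 := Nat.lt_succ_of_le (Nat.le_floor hB)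
  have hc : (s.filter fun i => |⟪x, ν i⟫ - h i| ≤ r + η).card ≤ B.card + Ap.card + Am.card := by
    refine le_trans (Finset.card_le_card (t := B ∪ Ap ∪ Am) fun i hi => ?_)
      ((Finset.card_union_le _ _).trans (by gcongr; exact Finset.card_union_le _ _))
    simp only [Finset.mem_union, hBd, hAp, hAm, Finset.mem_filter] at hi ⊢
    obtain ⟨hi, hi'⟩ := hi
    by_cases hb : |⟪x, ν i⟫ - h i| ≤ r - 2 * η
    · exact Or.inl (Or.inl ⟨hi, hb⟩)
    · rcases lt_abs.1 (not_le.1 hb) with h' | h'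
      · exact Or.inl (Or.inr ⟨hi, h', (abs_le.1 hi').2⟩)
      · exact Or.inr ⟨hi, h', by linarith [(abs_le.1 hi').1]⟩
  have hc' : ⌊N / 16⌋₊ + 1 ≤ Ap.card ∨ ⌊N / 16⌋₊ + 1 ≤ Am.card := by
    by_contra hh
    push Not at hh
    have e1 : (Ap.card : ℝ) ≤ N / 16 :=
      (Nat.le_floor_iff (by positivity)).1 (Nat.lt_succ_iff.1 hh.1)
    have e2 : (Am.card : ℝ) ≤ N / 16 :=
      (Nat.le_floor_iff (by positivity)).1 (Nat.lt_succ_iff.1 hh.2)
    have e3 : ((s.filter fun i => |⟪x, ν i⟫ - h i| ≤ r + η).card : ℝ) ≤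
        B.card + Ap.card + Am.card := by exact_mod_cast hc
    linarith
  rcases hc' with hc' | hc'
  · left
    have hs : Ap ⊆ s.filter fun i => h i < 0 := fun i hi => by
      simp only [hAp, Finset.mem_filter] at hi ⊢
      exact ⟨hi.1, by linarith [hi.2.1, (hxν i).2]⟩
    obtain ⟨m1, m2, m3⟩ := h1 (hc'.trans (Finset.card_le_card hs))
    obtain ⟨j, hj, hjB, hij⟩ := m2 B hB'
    obtain ⟨k, hk, hki⟩ := m3 Ap hs hc'
    simp only [hAp, hBd, Finset.mem_filter, not_and, not_le] at hj hjB hk m1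
    have b1 : r - 2 * η ≤ ⟪x, ν j⟫ - h j := by
      rcases lt_abs.1 (hjB hj.1) with h' | h'
      · exact h'.le
      · linarith [hj.2, (hxν j).1]
    have b2 := tA i1 m1.1 j hj.1 hij x _ hx (by linarith) (by linarith) b1
    refine abs_le.2 ⟨?_, by linarith⟩
    by_contra hh
    have b3 := tA k hk.1 i1 m1.1 hki x (r + 3 * η) hx (by linarith) (by linarith) (by linarith)
    linarith [hk.2.2]
  · right
    have hs : Am ⊆ s.filter fun i => 0 < h i := fun i hi => by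
      simp only [hAm, Finset.mem_filter] at hi ⊢
      exact ⟨hi.1, by linarith [hi.2.1, (hxν i).1]⟩
    obtain ⟨m1, m2, m3⟩ := h2 (hc'.trans (Finset.card_le_card hs))
    obtain ⟨j, hj, hjB, hij⟩ := m2 B hB'
    obtain ⟨k, hk, hki⟩ := m3 Am hs hc'
    have hj' := Finset.mem_filter.1 hj
    have m1' := Finset.mem_filter.1 m1
    have hk' := Finset.mem_filter.1 hk
    have hjB' : r - 2 * η < |⟪x, ν j⟫ - h j| := not_le.1 fun hh =>
      hjB (Finset.mem_filter.2 ⟨hj'.1, hh⟩)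
    have b1 : r - 2 * η ≤ -(⟪x, ν j⟫ - h j) := by
      rcases lt_abs.1 hjB' with h' | h'
      · linarith [hj'.2, (hxν j).2]
      · exact h'.le
    have b2 := tB j hj'.1 i2 m1'.1 hij x _ hx (by linarith) (by linarith) b1
    rw [inner_neg_right]
    refine abs_le.2 ⟨?_, by linarith⟩
    by_contra hh
    have b3 := tB i2 m1'.1 k hk'.1 hki x (r + 3 * η) hx (by linarith) (by linarith) (by linarith)
    linarith [hk'.2.2]

theorem parStmt (d : ℕ) : ParStmt d := by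
  obtain ⟨ϑ, t0, t1, tK⟩ : ∃ ϑ : ℝ, 0 < ϑ ∧ ϑ < 1 ∧ 9 / 10 ≤ ϑ ^ (96 * d + 420) := by
    have hK : (1 : ℝ) ≤ ((96 * d + 420 : ℕ) : ℝ) := by exact_mod_cast (by omega)
    generalize 96 * d + 420 = K at hK
    have h1 : 1 / (10 * (K : ℝ)) ≤ 1 / 10 := by gcongr; linarith
    have h2 : 0 < 1 / (10 * (K : ℝ)) := by positivity
    refine ⟨1 + -(1 / (10 * K)), by linarith, by linarith, ?_⟩
    refine le_trans (le_of_eq ?_) (one_add_mul_le_pow (by linarith) K)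
    field_simp; ring
  have tl : ∀ k ≤ 96 * d + 420, 9 / 10 ≤ ϑ ^ k := fun k hk =>
    tK.trans (pow_le_pow_of_le_one t0.le t1.le hk)
  refine ⟨ϑ, t0, t1, fun a κ L ha hκ hL => ?_⟩
  obtain ⟨p, p0, p1, p2⟩ : ∃ p : ℝ, 0 < p ∧ p ≤ 1 / 2 ∧ p ^ 4 ≤ κ * (a ^ 4) ^ (d + 1) := by
    refine ⟨min (1 / 2) (κ * (a ^ 4) ^ (d + 1)), by positivity, min_le_left _ _, ?_⟩
    refine le_trans ?_ (min_le_right (1 / 2) _)
    exact pow_le_of_le_one (by positivity) ((min_le_left _ _).trans (by norm_num)) (by norm_num)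
  obtain ⟨m0, hm0⟩ := pow_unbounded_of_one_lt (100 * L / p ^ 4) (one_lt_two (α := ℝ))
  have hp4 : p ^ 4 ≤ 1 := pow_le_one₀ p0.le (by linarith)
  have key : ∀ m : ℕ, 100 * (L / 2 ^ (m + m0 + 1)) ≤ p ^ 4 * (1 / 2) ^ m := by
    intro m
    rw [div_lt_iff₀ (by positivity)] at hm0
    have e : 100 * (L / 2 ^ (m + m0 + 1)) = 100 * L / (2 ^ m0 * 2) * (1 / 2) ^ m := by
      rw [one_div_pow]; field_simp; ring
    rw [e]
    gcongr
    rw [div_le_iff₀ (by positivity)]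
    nlinarith [show (0 : ℝ) < 2 ^ m0 * p ^ 4 by positivity]
  have an : ∀ (c : ℝ) (k : ℕ), 0 < c → Antitone fun m : ℕ => c * (ϑ ^ k) ^ m := fun c k hc m n hmn =>
    mul_le_mul_of_nonneg_left (pow_le_pow_of_le_one (by positivity)
      (pow_le_one₀ t0.le t1.le) hmn) hc.le
  have g1 : 0 < (1 - ϑ)⁻¹ := inv_pos.2 (by linarith)
  refine ⟨m0, fun m => a * (ϑ ^ 2) ^ m, fun m => p * (ϑ ^ (8 * d + 35)) ^ m, fun m => (3 / 4) ^ m,
    a * (1 - ϑ)⁻¹ + p / (a ^ 4) ^ (d + 4) * (1 - ϑ)⁻¹ + (1 / p ^ 12 + 1) * (1 - 5 / 6)⁻¹,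
    an a 2 ha, an p _ p0, fun m => ⟨by positivity, by positivity, by positivity, ?_, ?_, ?_, ?_, ?_⟩,
    fun M => ⟨?_, ?_, ?_⟩⟩
  · simpa using an a 2 ha (Nat.zero_le m)
  · exact le_trans (by simpa using an p _ p0 (Nat.zero_le m)) p1
  · simp only [mul_pow, ← pow_mul, ← mul_assoc]
    rw [← pow_mul] at p2
    exact mul_le_mul p2 (pow_le_pow_of_le_one t0.le t1.le (by nlinarith)) (by positivity)
      (by positivity)
  · refine (key m).trans ?_
    rw [mul_pow, pow_right_comm, ← pow_mul ϑ]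
    gcongr
    linarith [tl ((8 * d + 35) * 4) (by omega)]
  · have h1 := key m
    have h2 : (0 : ℝ) < L / 2 ^ (m + m0 + 1) := by positivity
    have h3 : (1 / 2 : ℝ) ^ m ≤ ((3 / 4) ^ m) ^ 2 := by
      rw [pow_right_comm]; gcongr; norm_num
    have h4 : p ^ 4 * (1 / 2 : ℝ) ^ m ≤ (1 / 2) ^ m := mul_le_of_le_one_left (by positivity) hp4
    show _ ≤ ((3 / 4 : ℝ) ^ m) ^ 2
    linarith
  · have : ∀ m ∈ Finset.range M, a * (ϑ ^ 2) ^ m / ϑ ^ m = a * ϑ ^ m := fun m _ => by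
      rw [pow_right_comm]; field_simp
    rw [Finset.sum_congr rfl this, ← Finset.mul_sum]
    have := mul_le_mul_of_nonneg_left (geom t0.le t1 M) ha.le
    have : 0 < p / (a ^ 4) ^ (d + 4) * (1 - ϑ)⁻¹ + (1 / p ^ 12 + 1) * (1 - 5 / 6)⁻¹ := by
      positivity
    linarith
  · have : ∀ m ∈ Finset.range M, p * (ϑ ^ (8 * d + 35)) ^ m /
        ((ϑ ^ m) ^ 2 * ((a * (ϑ ^ 2) ^ m) ^ 4) ^ (d + 4)) = p / (a ^ 4) ^ (d + 4) * ϑ ^ m :=
      fun m _ => by
        simp only [mul_pow, ← pow_mul]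
        field_simp
        ring
    rw [Finset.sum_congr rfl this, ← Finset.mul_sum]
    have := mul_le_mul_of_nonneg_left (geom t0.le t1 M)
      (by positivity : 0 ≤ p / (a ^ 4) ^ (d + 4))
    have : 0 < a * (1 - ϑ)⁻¹ + (1 / p ^ 12 + 1) * (1 - 5 / 6)⁻¹ := by positivity
    linarith
  · have q : ∀ k ≤ 96 * d + 420, ∀ m : ℕ, (3 / 4 : ℝ) ^ m * (1 / (ϑ ^ k) ^ m) ≤ (5 / 6) ^ m := by
      intro k hk m
      rw [mul_one_div, ← div_pow]
      refine pow_le_pow_left₀ (by positivity) ?_ m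
      rw [div_le_iff₀ (by positivity)]
      linarith [tl k hk]
    have : ∀ m ∈ Finset.range M, (3 / 4 : ℝ) ^ m *
        (1 / ((p * (ϑ ^ (8 * d + 35)) ^ m) ^ 4) ^ 3 + 1 / ϑ ^ m) ≤ (1 / p ^ 12 + 1) * (5 / 6) ^ m :=
      fun m _ => by
        have e : 1 / ((p * (ϑ ^ (8 * d + 35)) ^ m) ^ 4) ^ 3 =
            1 / p ^ 12 * (1 / (ϑ ^ (96 * d + 420)) ^ m) := by
          simp only [mul_pow, ← pow_mul]
          field_simp
          ring
        have q1 := mul_le_mul_of_nonneg_left (q _ le_rfl m) (by positivity : 0 ≤ 1 / p ^ 12)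
        have q2 := q 1 (by omega) m
        rw [pow_one] at q2
        rw [e]
        nlinarith
    refine (Finset.sum_le_sum this).trans ?_
    rw [← Finset.mul_sum]
    have := mul_le_mul_of_nonneg_left (geom (q := 5 / 6) (by norm_num) (by norm_num) M)
      (by positivity : 0 ≤ 1 / p ^ 12 + 1)
    have : 0 < a * (1 - ϑ)⁻¹ + p / (a ^ 4) ^ (d + 4) * (1 - ϑ)⁻¹ := by positivity
    linarith

end Vale.Agent.P137
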