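import Vale.Agent.P137.CBase

/-! Module Osc: the oscillation of the cut-off defect is controlled by doubling. -/

open MeasureTheory Metric Set Filter
open scoped ENNReal NNReal RealInnerProductSpace Topology

namespace Vale.Agent.P137

namespace Os

variable {d : ℕ} {F : Set (E d)} {ν : E d} {h σ : ℝ}

/-- points away from the plane -/
def U (ν : E d) (h σ s : ℝ) : Set (E d) := {y | ‖y‖ < 3 + s ∧ 9 / 10 * σ - s < |⟪y, ν⟫ - h|}

/-- pairs with a colour change -/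
def Ch (F : Set (E d)) (ν : E d) (h σ s : ℝ) : Set (E d × E d) :=
  {p | p.1 ∈ U ν h σ s ∧ ¬ (p.1 ∈ F ↔ p.1 + p.2 ∈ F)}

lemma U_meas (ν : E d) (h σ s : ℝ) : MeasurableSet (U ν h σ s) :=
  (measurableSet_lt (f := fun y : E d => ‖y‖) (g := fun _ => 3 + s) (by fun_prop)
    (by fun_prop)).inter (measurableSet_lt (f := fun _ => 9 / 10 * σ - s)
      (g := fun y : E d => |⟪y, ν⟫ - h|) (by fun_prop) (by fun_prop))

lemma ch_meas (hF : MeasurableSet F) (ν : E d) (h σ s : ℝ) : MeasurableSet (Ch F ν h σ s) :=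
  (measurable_fst (U_meas ν h σ s)).inter (MeasurableSet.compl (measurableSet_setOfPred.2
    ((measurable_mem.2 hF |>.comp measurable_fst).iff
      (measurable_mem.2 hF |>.comp (measurable_fst.add measurable_snd)))))

noncomputable def D (F : Set (E d)) (ν : E d) (h σ s : ℝ) (v : E d) : ℝ≥0∞ :=
  volume {z | (z, v) ∈ Ch F ν h σ s}

noncomputable def J (F : Set (E d)) (ν : E d) (h σ s : ℝ) : ℝ≥0∞ :=
  ∫⁻ v in ball (0 : E d) s, D F ν h σ s v

lemma D_meas (hF : MeasurableSet F) (s : ℝ) : Measurable (D F ν h σ s) :=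
  measurable_measure_prodMk_right (ch_meas hF ν h σ s)

lemma rho (hν : ‖ν‖ = 1) (y : E d) {v : E d} {s : ℝ} (hv : ‖v‖ < s) :
    ⟪y, ν⟫ - s < ⟪y + v, ν⟫ ∧ ⟪y + v, ν⟫ < ⟪y, ν⟫ + s := by
  have := abs_le.1 (abs_inner_le hν v)
  rw [inner_add_left]
  constructor <;> linarith [this.1, this.2]

lemma U_add (hν : ‖ν‖ = 1) {y v : E d} {s : ℝ} (hy : y ∈ U ν h σ s) (hv : ‖v‖ < s) :
    y + v ∈ U ν h σ (2 * s) := by
  obtain ⟨a1, a2⟩ := rho hν y hv
  refine ⟨(norm_add_le _ _).trans_lt (by linarith [hy.1]), ?_⟩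
  rcases lt_abs.1 hy.2 with b | b
  · exact lt_abs.2 (Or.inl (by linarith))
  · exact lt_abs.2 (Or.inr (by linarith))

lemma D_step (hF : MeasurableSet F) (hν : ‖ν‖ = 1) {L s : ℝ} {v : E d} (hv : v ∈ ball (0 : E d) s)
    (h1 : 3 + 2 * s ≤ L) : 2 * D F ν h σ s v ≤ D F ν h σ (2 * s) ((2 : ℝ) • v) +
      2 * volume {z | (z, v) ∈ Bad F ∩ ball (0 : E d) L ×ˢ ball (0 : E d) s} := by
  have v4 := hv
  rw [mem_ball_zero_iff] at hv
  have s0 : 0 < s := (norm_nonneg v).trans_lt hv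
  let A1 : Set (E d) := {z | z + -v ∈ {y | (y, v) ∈ Ch F ν h σ s}}
  let A2 : Set (E d) := {z | (z, v) ∈ Ch F ν h σ s}
  have a1 : D F ν h σ s v = volume A1 := (St.vadd (-v) _).symm
  have b1 : ∀ z ∈ A1, z - v ∈ U ν h σ s ∧ ¬ (z - v ∈ F ↔ z ∈ F) := fun z hz => by
    have h2 : z + -v ∈ U ν h σ s ∧ ¬ (z + -v ∈ F ↔ z + -v + v ∈ F) := hz
    rwa [neg_add_cancel_right, ← sub_eq_add_neg] at h2
  have b2 : ∀ z ∈ A1 ∪ A2, z ∈ ball (0 : E d) L ∧ z - v ∈ U ν h σ (2 * s) := by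
    rintro z (hz | hz)
    · have c1 := (b1 z hz).1
      have c2 := (U_add hν c1 hv).1
      rw [sub_add_cancel] at c2
      exact ⟨mem_ball_zero_iff.2 (by linarith), by linarith [c1.1], by linarith [c1.2]⟩
    · refine ⟨mem_ball_zero_iff.2 (by linarith [hz.1.1]), ?_⟩
      rw [sub_eq_add_neg]
      exact U_add hν hz.1 (by rwa [norm_neg])
  have a3 : A1 ∩ A2 ⊆ {z | (z, v) ∈ Bad F ∩ ball (0 : E d) L ×ˢ ball (0 : E d) s} :=
    fun z hz => ⟨⟨by have := (b1 z hz.1).2; have := hz.2.2; tauto, hz.2.2⟩,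
      (b2 z (Or.inl hz.1)).1, v4⟩
  have a4 : A1 ∪ A2 ⊆ {z | z + -v ∈ {y | (y, (2 : ℝ) • v) ∈ Ch F ν h σ (2 * s)}} ∪
      {z | (z, v) ∈ Bad F ∩ ball (0 : E d) L ×ˢ ball (0 : E d) s} := fun z hz => by
    by_cases b : z + v ∈ F ↔ z - v ∈ F
    · exact .inr ⟨⟨b, hz.elim (fun h h' => (b1 z h).2 (h'.trans b).symm) And.right⟩,
        (b2 z hz).1, v4⟩
    · refine .inl ⟨by rw [← sub_eq_add_neg]; exact (b2 z hz).2, ?_⟩
      rw [show z + -v + (2 : ℝ) • v = z + v by module, ← sub_eq_add_neg]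
      exact fun h => b h.symm
  calc 2 * D F ν h σ s v = volume A1 + volume A2 := by rw [two_mul, ← a1]; rfl
    _ = volume (A1 ∪ A2) + volume (A1 ∩ A2) :=
      (measure_union_add_inter _ (measurable_prodMk_right (ch_meas hF ν h σ s))).symm
    _ ≤ _ := by
      rw [two_mul (volume _), ← add_assoc]
      refine add_le_add ((measure_mono a4).trans ((measure_union_le _ _).trans_eq ?_))
        (measure_mono a3)
      rw [St.vadd]; rfl

lemma J_step (hF : MeasurableSet F) (hν : ‖ν‖ = 1) {L s : ℝ} (h1 : 3 + 2 * s ≤ L) :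
    2 * J F ν h σ s ≤ (2 ^ d)⁻¹ * J F ν h σ (2 * s) + 2 * bw F L s := by
  have hS : MeasurableSet (Bad F ∩ ball (0 : E d) L ×ˢ ball (0 : E d) s) :=
    (bad_meas hF).inter (measurableSet_ball.prod measurableSet_ball)
  have m2 : Measurable fun v : E d => (2 : ℝ) • v := measurable_const_smul _
  rw [J, ← lintegral_const_mul _ (D_meas hF s)]
  refine (setLIntegral_mono' measurableSet_ball fun v hv => D_step hF hν hv h1).trans ?_
  rw [lintegral_add_left (f := fun v => D F ν h σ (2 * s) ((2 : ℝ) • v)) ((D_meas hF _).comp m2),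
    lintegral_const_mul' _ _ (by simp)]
  refine add_le_add (le_of_eq ?_) (mul_le_mul_right ((setLIntegral_le_lintegral _ _).trans_eq
    (by rw [bw, Measure.volume_eq_prod, Measure.prod_apply_symm hS]; rfl)) _)
  have := setLIntegral_map (μ := volume) (s := ball (0 : E d) (2 * s)) measurableSet_ball
    (D_meas (ν := ν) (h := h) (σ := σ) hF (2 * s)) m2
  rw [Measure.map_addHaar_smul _ two_ne_zero, Measure.restrict_smul, lintegral_smul_measure,
    finrank_euclideanSpace_fin, abs_of_pos (by positivity), ENNReal.ofReal_inv_of_pos (by positivity),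
    ENNReal.ofReal_pow zero_le_two, ENNReal.ofReal_ofNat, smul_eq_mul] at this
  rw [J, this]
  congr 2
  ext v
  simp [norm_smul]

/-- the measure of the defect -/
noncomputable def Dv (F : Set (E d)) (ν : E d) (h σ : ℝ) : ℝ≥0∞ :=
  volume (dev F ν h (σ / 2) ∩ ball 0 10)

lemma J_top (hν : ‖ν‖ = 1) (h1 : σ ≤ 1) {s : ℝ} (hs : s ≤ σ / 10) :
    J F ν h σ s ≤ 2 * Dv F ν h σ * volume (ball (0 : E d) s) := by
  rw [← setLIntegral_const]
  refine setLIntegral_mono' measurableSet_ball fun v hv => ?_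
  rw [mem_ball_zero_iff] at hv
  rw [two_mul, Dv]
  conv_rhs => enter [2]; rw [← St.vadd v]
  refine (measure_mono fun z hz => ?_).trans (measure_union_le _ _)
  obtain ⟨⟨b1, b2⟩, b3⟩ := hz
  obtain ⟨a1, a2⟩ := rho hν z hv
  have c1 : z ∈ ball (0 : E d) 10 := mem_ball_zero_iff.2 (by linarith)
  have c2 : z + v ∈ ball (0 : E d) 10 :=
    mem_ball_zero_iff.2 ((norm_add_le _ _).trans_lt (by linarith))
  by_cases zF : z ∈ F
  · have zF' : z + v ∉ F := fun c => b3 (iff_of_true zF c)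
    rcases lt_abs.1 b2 with b | b
    · exact Or.inr ⟨Or.inl ⟨zF', by linarith⟩, c2⟩
    · exact Or.inl ⟨Or.inr ⟨zF, by linarith⟩, c1⟩
  · have zF' : z + v ∈ F := by_contra fun c => b3 (iff_of_false zF c)
    rcases lt_abs.1 b2 with b | b
    · exact Or.inl ⟨Or.inl ⟨zF, by linarith⟩, c1⟩
    · exact Or.inr ⟨Or.inr ⟨zF', by linarith⟩, c2⟩

lemma wt (m : ℕ) : ENNReal.ofReal (((2 : ℝ) ^ m) ^ (d + 1)) = (2 ^ m) ^ (d + 1) := by
  rw [ENNReal.ofReal_pow (by positivity), ENNReal.ofReal_pow zero_le_two, ENNReal.ofReal_ofNat]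

lemma vbm (L : ℝ) (m : ℕ) :
    volume (ball (0 : E d) L) = (2 ^ m) ^ d * volume (ball (0 : E d) (L / 2 ^ m)) := by
  have := St.vb (d := d) (2 ^ m) (by positivity) (L / 2 ^ m)
  push_cast at this
  rwa [mul_div_cancel₀ _ (by positivity)] at this

/-- the main term -/
noncomputable def MT (F : Set (E d)) (ν : E d) (h σ L : ℝ) : ℝ≥0∞ :=
  ENNReal.ofReal L * volume (ball (0 : E d) L) * (Dv F ν h σ * ENNReal.ofReal (1 / σ))

lemma big (h0 : 0 < σ) {L : ℝ} (hL : 10 ≤ L) (m : ℕ) (hs : σ / 20 ≤ L / 2 ^ m) :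
    (2 ^ m) ^ (d + 1) * (2 * Dv F ν h σ * volume (ball (0 : E d) (L / 2 ^ m))) ≤
      40 * MT F ν h σ L := by
  have e : (2 : ℝ≥0∞) ^ m ≤ 20 * (ENNReal.ofReal L * ENNReal.ofReal (1 / σ)) := by
    rw [← ENNReal.ofReal_mul (by linarith), ← ENNReal.ofReal_ofNat 20,
      ← ENNReal.ofReal_mul (by norm_num), ← ENNReal.ofReal_ofNat 2,
      ← ENNReal.ofReal_pow zero_le_two]
    refine ENNReal.ofReal_le_ofReal ?_
    rw [div_le_div_iff₀ (by norm_num) (by positivity)] at hs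
    rw [mul_one_div, ← mul_div_assoc, le_div_iff₀ h0]
    linarith
  calc _ = 2 ^ m * (2 * Dv F ν h σ * ((2 ^ m) ^ d * volume (ball (0 : E d) (L / 2 ^ m)))) := by
        ring
    _ ≤ 20 * (ENNReal.ofReal L * ENNReal.ofReal (1 / σ)) *
        (2 * Dv F ν h σ * volume (ball (0 : E d) L)) := by rw [← vbm]; gcongr
    _ = _ := by rw [MT]; ring

lemma J_iter (hF : MeasurableSet F) (hν : ‖ν‖ = 1) (h0 : 0 < σ) (h1 : σ ≤ 1) {L : ℝ}
    (hL : 10 ≤ L) (m : ℕ) (hs : L / 2 ^ m ≤ σ / 10) :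
    (2 ^ m) ^ (d + 1) * J F ν h σ (L / 2 ^ m) ≤ 40 * MT F ν h σ L +
      ∑ j ∈ Finset.range (m + 1), (2 ^ j) ^ (d + 1) * bw F L (L / 2 ^ j) := by
  induction m with
  | zero => exfalso; rw [pow_zero, div_one] at hs; linarith
  | succ m ih =>
    have e : 2 * (L / 2 ^ (m + 1)) = L / 2 ^ m := by rw [pow_succ]; field_simp
    by_cases hc : L / 2 ^ m ≤ σ / 10
    · have a := J_step (h := h) (σ := σ) (L := L) (s := L / 2 ^ (m + 1)) hF hν (by linarith)
      rw [e] at a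
      rw [Finset.sum_range_succ, ← add_assoc]
      calc _ = (2 ^ m) ^ (d + 1) * 2 ^ d * (2 * J F ν h σ (L / 2 ^ (m + 1))) := by ring
        _ ≤ (2 ^ m) ^ (d + 1) * 2 ^ d * ((2 ^ d)⁻¹ * J F ν h σ (L / 2 ^ m) +
            2 * bw F L (L / 2 ^ (m + 1))) := by gcongr
        _ = (2 ^ d)⁻¹ * 2 ^ d * ((2 ^ m) ^ (d + 1) * J F ν h σ (L / 2 ^ m)) +
            (2 ^ (m + 1)) ^ (d + 1) * bw F L (L / 2 ^ (m + 1)) := by ring
        _ ≤ 1 * (40 * MT F ν h σ L +
            ∑ j ∈ Finset.range (m + 1), (2 ^ j) ^ (d + 1) * bw F L (L / 2 ^ j)) +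
            (2 ^ (m + 1)) ^ (d + 1) * bw F L (L / 2 ^ (m + 1)) := by
          gcongr
          exacts [ENNReal.inv_mul_le_one _, ih hc]
        _ = _ := by rw [one_mul]
    · refine le_add_right (le_trans ?_ (big h0 hL (m + 1) (by linarith)))
      gcongr
      exact J_top hν h1 hs

lemma lint_le {f : E d → ℝ} {S A B : Set (E d)} (hS : MeasurableSet S) (hA : MeasurableSet A)
    (hB : MeasurableSet B) (c : ℝ)
    (H : ∀ y ∈ S, (y ∈ A ∧ f y ≤ 1) ∨ (y ∈ B ∧ f y ≤ c) ∨ f y = 0) :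
    ∫⁻ y in S, ENNReal.ofReal (f y) ≤ volume A + ENNReal.ofReal c * volume B := by
  rw [← lintegral_indicator_one hA, ← lintegral_indicator_const hB,
    ← lintegral_add_left (measurable_one.indicator hA)]
  refine (setLIntegral_mono' hS fun y hy => ?_).trans (setLIntegral_le_lintegral _ _)
  rcases H y hy with ⟨a, b⟩ | ⟨a, b⟩ | a
  · rw [indicator_of_mem a]
    exact le_add_right (ENNReal.ofReal_le_one.2 b)
  · rw [indicator_of_mem a]
    exact le_add_left (ENNReal.ofReal_le_ofReal b)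
  · rw [a]; simp

lemma kk_diff (h0 : 0 < σ) (y z : E d) : |kk F ν h σ y - kk F ν h σ z| ≤ 1 :=
  abs_le.2 ⟨by linarith [kk_nonneg F ν h h0 y, kk_le_one F ν h σ z],
    by linarith [kk_nonneg F ν h h0 z, kk_le_one F ν h σ y]⟩

lemma kk_zero {y : E d} (hy : y ∉ dev F ν h σ) : kk F ν h σ y = 0 := indicator_of_notMem hy _

lemma kk_eq (h0 : 0 < σ) {y : E d} (hy : y ∈ dev F ν h (σ / 2)) :
    kk F ν h σ y = max (min 1 ((|⟪y, ν⟫ - h| - σ) / σ)) 0 := by
  by_cases hc : y ∈ dev F ν h σ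
  · have := kk_nonneg F ν h h0 y
    rw [kk, indicator_of_mem hc] at this ⊢
    rw [max_eq_left this]
  · rw [kk_zero hc, max_eq_right]
    refine (min_le_right _ _).trans (div_nonpos_of_nonpos_of_nonneg ?_ h0.le)
    rw [sub_nonpos, abs_le]
    rcases hy with ⟨a, b⟩ | ⟨a, b⟩
    · have : ¬ h + σ < ⟪y, ν⟫ := fun c => hc (Or.inl ⟨a, c⟩)
      constructor <;> linarith
    · have : ¬ ⟪y, ν⟫ < h - σ := fun c => hc (Or.inr ⟨a, c⟩)
      constructor <;> linarith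

lemma ptA (hν : ‖ν‖ = 1) (h0 : 0 < σ) {s : ℝ} (hs : s ≤ σ / 10) {y v : E d}
    (hy : y ∈ ball (0 : E d) 3) (hv : ‖v‖ < s) :
    ((y, v) ∈ Ch F ν h σ s ∧ |kk F ν h σ (y + v) - kk F ν h σ y| ≤ 1) ∨
      (y ∈ dev F ν h (σ / 2) ∩ ball 0 10 ∧ |kk F ν h σ (y + v) - kk F ν h σ y| ≤ s / σ) ∨
      |kk F ν h σ (y + v) - kk F ν h σ y| = 0 := by
  have s0 : 0 < s := (norm_nonneg v).trans_lt hv
  obtain ⟨a1, a2⟩ := rho hν y hv
  have y3 := mem_ball_zero_iff.1 hy
  by_cases hf : y ∈ F ↔ y + v ∈ F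
  · by_cases hd : y ∈ dev F ν h (σ / 2) ∧ y + v ∈ dev F ν h (σ / 2)
    · refine Or.inr (Or.inl ⟨⟨hd.1, ball_subset_ball (by norm_num) hy⟩, ?_⟩)
      rw [kk_eq h0 hd.1, kk_eq h0 hd.2]
      refine (abs_max_sub_max_le_abs _ _ _).trans ((abs_min_sub_min_le_max _ _ _ _).trans
        (max_le (by rw [sub_self, abs_zero]; positivity) ?_))
      rw [← sub_div, abs_div, abs_of_pos h0, sub_sub_sub_cancel_right]
      gcongr
      refine (abs_abs_sub_abs_le_abs_sub _ _).trans (abs_le.2 ⟨by linarith, by linarith⟩)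
    · refine Or.inr (Or.inr ?_)
      rw [kk_zero, kk_zero, sub_self, abs_zero]
      · rintro (⟨b, c⟩ | ⟨b, c⟩)
        · exact hd ⟨Or.inl ⟨b, by linarith⟩, Or.inl ⟨fun e => b (hf.2 e), by linarith⟩⟩
        · exact hd ⟨Or.inr ⟨b, by linarith⟩, Or.inr ⟨hf.1 b, by linarith⟩⟩
      · rintro (⟨b, c⟩ | ⟨b, c⟩)
        · exact hd ⟨Or.inl ⟨fun e => b (hf.1 e), by linarith⟩, Or.inl ⟨b, by linarith⟩⟩
        · exact hd ⟨Or.inr ⟨hf.2 b, by linarith⟩, Or.inr ⟨b, by linarith⟩⟩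
  · by_cases hU : 9 / 10 * σ - s < |⟪y, ν⟫ - h|
    · exact Or.inl ⟨⟨⟨by linarith, hU⟩, hf⟩, kk_diff h0 _ _⟩
    · refine Or.inr (Or.inr ?_)
      obtain ⟨c1, c2⟩ := abs_le.1 (not_lt.1 hU)
      rw [kk_zero, kk_zero, sub_self, abs_zero]
      · rintro (⟨_, c⟩ | ⟨_, c⟩) <;> linarith
      · rintro (⟨_, c⟩ | ⟨_, c⟩) <;> linarith

/-- the double integral of the oscillation -/
noncomputable def I (F : Set (E d)) (ν : E d) (h σ s : ℝ) : ℝ≥0∞ :=
  ∫⁻ v in ball (0 : E d) s, ∫⁻ y in ball (0 : E d) 3,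
    ENNReal.ofReal |kk F ν h σ (y + v) - kk F ν h σ y|

lemma I_bd (hF : MeasurableSet F) (hν : ‖ν‖ = 1) (h0 : 0 < σ) (h1 : σ ≤ 1) {L : ℝ}
    (hL : 10 ≤ L) (m : ℕ) (hm : L / 2 ^ m ≤ 2) :
    (2 ^ m) ^ (d + 1) * I F ν h σ (L / 2 ^ m) ≤ 41 * MT F ν h σ L +
      ∑ j ∈ Finset.range (m + 1), (2 ^ j) ^ (d + 1) * bw F L (L / 2 ^ j) := by
  have hD : MeasurableSet (dev F ν h (σ / 2) ∩ ball 0 10) :=
    (dev_meas hF ν h _).inter measurableSet_ball
  by_cases hs : L / 2 ^ m ≤ σ / 10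
  · have a : I F ν h σ (L / 2 ^ m) ≤ J F ν h σ (L / 2 ^ m) +
        ENNReal.ofReal (L / 2 ^ m / σ) * Dv F ν h σ * volume (ball (0 : E d) (L / 2 ^ m)) := by
      rw [← setLIntegral_const, J, ← lintegral_add_left (D_meas hF _)]
      exact setLIntegral_mono' measurableSet_ball fun v hv => lint_le measurableSet_ball
        (measurable_prodMk_right (ch_meas hF ν h σ _)) hD _
        fun y hy => ptA hν h0 hs hy (mem_ball_zero_iff.1 hv)
    have e : (2 : ℝ≥0∞) ^ m * ENNReal.ofReal (L / 2 ^ m / σ) =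
        ENNReal.ofReal L * ENNReal.ofReal (1 / σ) := by
      rw [← ENNReal.ofReal_mul (by linarith), ← ENNReal.ofReal_ofNat 2,
        ← ENNReal.ofReal_pow zero_le_two, ← ENNReal.ofReal_mul (by positivity)]
      congr 1; field_simp
    calc _ ≤ (2 ^ m) ^ (d + 1) * (J F ν h σ (L / 2 ^ m) + ENNReal.ofReal (L / 2 ^ m / σ) *
          Dv F ν h σ * volume (ball (0 : E d) (L / 2 ^ m))) := by gcongr
      _ = (2 ^ m) ^ (d + 1) * J F ν h σ (L / 2 ^ m) + 2 ^ m * ENNReal.ofReal (L / 2 ^ m / σ) *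
          ((2 ^ m) ^ d * volume (ball (0 : E d) (L / 2 ^ m))) * Dv F ν h σ := by ring
      _ = (2 ^ m) ^ (d + 1) * J F ν h σ (L / 2 ^ m) + MT F ν h σ L := by
        rw [e, ← vbm, MT]; ring
      _ ≤ 40 * MT F ν h σ L + ∑ j ∈ Finset.range (m + 1), (2 ^ j) ^ (d + 1) * bw F L (L / 2 ^ j) +
          MT F ν h σ L := by gcongr; exact J_iter hF hν h0 h1 hL m hs
      _ = _ := by ring
  · refine le_add_right (le_trans ?_ ((big (F := F) (ν := ν) (h := h) h0 hL m (by linarith)).trans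
      (by gcongr; norm_num)))
    gcongr
    rw [← setLIntegral_const]
    refine setLIntegral_mono' measurableSet_ball fun v hv => ?_
    rw [mem_ball_zero_iff] at hv
    refine (lint_le measurableSet_ball hD ((measurable_add_const v) hD) 1 fun y hy => ?_).trans_eq
      (by rw [ENNReal.ofReal_one, one_mul, measure_preimage_add_right, two_mul, Dv])
    have y3 := mem_ball_zero_iff.1 hy
    by_cases c1 : y ∈ dev F ν h σ
    · exact Or.inl ⟨⟨dev_anti F ν h (by linarith) c1, ball_subset_ball (by norm_num) hy⟩,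
        kk_diff h0 _ _⟩
    by_cases c2 : y + v ∈ dev F ν h σ
    · exact Or.inr (Or.inl ⟨⟨dev_anti F ν h (by linarith) c2,
        mem_ball_zero_iff.2 ((norm_add_le _ _).trans_lt (by linarith))⟩, kk_diff h0 _ _⟩)
    · exact Or.inr (Or.inr (by rw [kk_zero c1, kk_zero c2, sub_self, abs_zero]))

lemma osc_int (hF : MeasurableSet F) (h0 : 0 < σ) {w : ℝ} (hw : 0 < w) :
    volume (ball (0 : E d) w) * ∫⁻ y in ball (0 : E d) 3, ENNReal.ofReal (osc (kk F ν h σ) w y) =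
      I F ν h σ (2 * w) := by
  have hk := kk_bm hF ν h h0
  have hm := hk.1
  rw [I, lintegral_lintegral_swap (Measurable.aemeasurable (by fun_prop)),
    ← lintegral_const_mul' _ _ measure_ball_lt_top.ne]
  refine lintegral_congr fun y => ?_
  rw [osc, ENNReal.ofReal_div_of_pos
    (ENNReal.toReal_pos (measure_ball_pos _ _ hw).ne' measure_ball_lt_top.ne),
    ENNReal.ofReal_toReal measure_ball_lt_top.ne,
    ENNReal.mul_div_cancel (measure_ball_pos _ _ hw).ne' measure_ball_lt_top.ne,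
    ofReal_integral_eq_lintegral_ofReal
      ((((hk.comp (by fun_prop)).sub (BM.const _)).abs).integrableOn measure_ball_lt_top.ne)
      (Eventually.of_forall fun _ => abs_nonneg _)]

end Os

open Os in
theorem oscStmt {d : ℕ} (_hd : 2 ≤ d) : OscStmt d := by
  intro L hL
  have b0 : 0 < (volume (ball (0 : E d) L)).toReal :=
    ENNReal.toReal_pos (measure_ball_pos _ _ (by linarith)).ne' measure_ball_lt_top.ne
  obtain ⟨b, hb⟩ : ∃ b, b = (volume (ball (0 : E d) L)).toReal := ⟨_, rfl⟩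
  rw [← hb] at b0
  have hb' : volume (ball (0 : E d) L) = ENNReal.ofReal b := by
    rw [hb, ENNReal.ofReal_toReal measure_ball_lt_top.ne]
  have L0 : 0 < L := by linarith
  refine ⟨2 ^ (d + 1) * (41 * (L * b) + 1) / (L * b), by positivity, ?_⟩
  intro F ν h σ j0 hF hν h0 h1 hW
  have e : 2 * (L / 2 ^ (j0 + 1)) = L / 2 ^ j0 := by rw [pow_succ]; field_simp
  have a1 := osc_int (ν := ν) (h := h) hF h0 (w := L / 2 ^ (j0 + 1)) (by positivity)
  have a2 := I_bd (h := h) hF hν h0 h1 hL j0 (by linarith)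
  rw [e] at a1
  simp only [wt]
  set X := ∫⁻ y in ball (0 : E d) 3, ENNReal.ofReal (osc (kk F ν h σ) (L / 2 ^ (j0 + 1)) y)
  set S := ∑ j ∈ Finset.range (j0 + 1), (2 ^ j) ^ (d + 1) * bw F L (L / 2 ^ j)
  have a3 : 2 ^ j0 * ENNReal.ofReal b * X ≤ 2 ^ d * (ENNReal.ofReal (41 * (L * b) + 1) *
      (Dv F ν h σ * ENNReal.ofReal (1 / σ) + S)) := by
    calc _ = 2 ^ d * ((2 ^ j0) ^ (d + 1) * I F ν h σ (L / 2 ^ j0)) := by
          rw [← a1, ← hb', vbm L (j0 + 1)]; ring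
      _ ≤ 2 ^ d * (41 * MT F ν h σ L + S) := by gcongr
      _ ≤ _ := by
        rw [MT, hb', mul_add (ENNReal.ofReal _), ← ENNReal.ofReal_mul L0.le, ← mul_assoc 41,
          ← ENNReal.ofReal_ofNat 41, ← ENNReal.ofReal_mul (by norm_num)]
        have t1 : S ≤ ENNReal.ofReal (41 * (L * b) + 1) * S :=
          le_mul_of_one_le_left' (ENNReal.one_le_ofReal.2 (by nlinarith [mul_pos L0 b0]))
        gcongr
        linarith
  have n0 : (2 : ℝ≥0∞) ^ j0 * ENNReal.ofReal b ≠ 0 :=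
    mul_ne_zero (by simp) (ENNReal.ofReal_pos.2 b0).ne'
  rw [← ENNReal.mul_le_mul_iff_right n0 (by finiteness)]
  refine a3.trans_eq ?_
  rw [← mul_assoc (2 ^ d : ℝ≥0∞), ← mul_assoc (2 ^ j0 * ENNReal.ofReal b), Dv]
  congr 1
  rw [← ENNReal.ofReal_ofNat 2, ← ENNReal.ofReal_pow zero_le_two, ← ENNReal.ofReal_pow zero_le_two,
    ← ENNReal.ofReal_mul (by positivity), ← ENNReal.ofReal_mul (by positivity),
    ← ENNReal.ofReal_mul (by positivity)]
  congr 1
  field_simp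
  ring

end Vale.Agent.P137
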