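import Vale.Agent.P137.CBase

open MeasureTheory Metric Set Filter
open scoped ENNReal NNReal RealInnerProductSpace Topology

namespace Vale.Agent.P137

namespace Pf

variable {d : ℕ}

/-- affine shear -/
noncomputable def SS (e : E d) (t h : ℝ) (l y : E d) : E d := t • e + sh e 1 h l y

/-- cylinder -/
def Cy (e : E d) (r : ℝ) : Set (E d) := {y | ‖pp e y‖ < r ∧ |⟪y, e⟫| < r}

noncomputable def bc (e : E d) (G : Set (E d)) : ℝ≥0∞ := volume (Bad G ∩ Cy e 8 ×ˢ Cy e 8)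

def Inv (e : E d) (ε : ℝ≥0∞) (G : Set (E d)) : Prop :=
  volume (Gᶜ ∩ (Cy e 1 ∩ {y | 0 < ⟪y, e⟫})) ≤ 4 * ε ∧ volume (G ∩ (Cy e 1 ∩ {y | ⟪y, e⟫ < 0})) ≤ 4 * ε

def St (d : ℕ) (ε c0 : ℝ≥0∞) : Prop :=
  ∀ G : Set (E d), MeasurableSet G → bb G 8 ≤ c0 → ∃ (ν : E d) (t : ℝ), ‖ν‖ = 1 ∧
    volume (Gᶜ ∩ ball 0 2 ∩ {y | t < ⟪y, ν⟫}) ≤ ε ∧ volume (G ∩ ball 0 2 ∩ {y | ⟪y, ν⟫ < t}) ≤ ε

def DS (e : E d) (G : Set (E d)) (l : E d) (t δ : ℝ) : Set (E d) :=
  {y | ‖pp e y‖ < 1 / 4 ∧ ((y ∉ G ∧ δ < ⟪y, e + l⟫ - t ∧ ⟪y, e + l⟫ - t ≤ 4 / 5) ∨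
    (y ∈ G ∧ -(4 / 5) ≤ ⟪y, e + l⟫ - t ∧ ⟪y, e + l⟫ - t < -δ))}

lemma sm_det (R : ℝ) : LinearMap.det (R • (LinearMap.id : E d →ₗ[ℝ] E d)) = R ^ d := by
  rw [LinearMap.det_smul]; simp

lemma sm_vol {R : ℝ} (hR : 0 < R) (S : Set (E d)) :
    volume S = ENNReal.ofReal (R ^ d) * volume ((fun y => R • y) ⁻¹' S) := by
  have := lin_pre volume (f := R • (LinearMap.id : E d →ₗ[ℝ] E d))
    (by rw [sm_det]; positivity) S
  rwa [sm_det] at this

lemma sm_bb {R : ℝ} (hR : 1 ≤ R) (F : Set (E d)) (r : ℝ) :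
    bb ((fun y => R • y) ⁻¹' F) r ≤ bb F (R * r) := by
  have := bb_lin (f := R • (LinearMap.id : E d →ₗ[ℝ] E d)) (by rw [sm_det]; positivity) F
    (r := r) (s := R * r) (by
      intro y hy
      rw [mem_ball_zero_iff] at hy ⊢
      simp only [LinearMap.smul_apply, LinearMap.id_apply, norm_smul]
      rw [Real.norm_of_nonneg (by linarith)]
      gcongr)
  rw [sm_det] at this
  refine le_trans ?_ this
  have h1 : 1 ≤ ENNReal.ofReal (R ^ d) := ENNReal.one_le_ofReal.2 (one_le_pow₀ hR)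
  exact le_mul_of_one_le_left' (one_le_mul h1 h1)

lemma st_of (hd : 1 ≤ d) {ε : ℝ≥0∞} (hε : 0 < ε) : ∃ c0, 0 < c0 ∧ St d ε c0 := by
  have h2 : ENNReal.ofReal ((2 : ℝ) ^ d) ≠ 0 := by simp
  obtain ⟨c0, hc0, h⟩ := stabStmt hd (ε / ENNReal.ofReal (2 ^ d))
    (ENNReal.div_pos hε.ne' ENNReal.ofReal_ne_top)
  refine ⟨c0, hc0, fun G hG hb => ?_⟩
  obtain ⟨ν, t, hν, a, b⟩ := h ((fun y => (2 : ℝ) • y) ⁻¹' Gᶜ)
    ((measurable_const_smul _) hG.compl) (by
      refine (sm_bb (by norm_num) _ _).trans ?_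
      rw [bb_compl]; norm_num; exact hb)
  refine ⟨ν, 2 * t, hν, ?_, ?_⟩
  · rw [sm_vol two_pos, ← ENNReal.mul_div_cancel h2 ENNReal.ofReal_ne_top (b := ε)]
    gcongr
    refine le_trans (measure_mono ?_) a
    rintro y ⟨⟨y1, y2⟩, y3⟩
    simp only [mem_ball_zero_iff, norm_smul, mem_ofPred_eq, real_inner_smul_left,
      Real.norm_ofNat] at y2 y3
    exact ⟨⟨y1, mem_ball_zero_iff.2 (by linarith)⟩, by simp only [mem_ofPred_eq]; linarith⟩
  · rw [sm_vol two_pos, ← ENNReal.mul_div_cancel h2 ENNReal.ofReal_ne_top (b := ε)]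
    gcongr
    refine le_trans (measure_mono ?_) b
    rintro y ⟨⟨y1, y2⟩, y3⟩
    simp only [mem_ball_zero_iff, norm_smul, mem_ofPred_eq, real_inner_smul_left,
      Real.norm_ofNat] at y2 y3
    exact ⟨⟨fun hh => hh y1, mem_ball_zero_iff.2 (by linarith)⟩,
      by simp only [mem_ofPred_eq]; linarith⟩

variable {e : E d}

lemma pp_e (he : ‖e‖ = 1) (y : E d) : ⟪e, pp e y⟫ = (0 : ℝ) := by
  rw [pp, inner_sub_right, real_inner_smul_right, ee he, real_inner_comm]; ring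

lemma pp_add (y z : E d) : pp e (y + z) = pp e y + pp e z := by
  simp only [pp, inner_add_left]; module

lemma pp_se (he : ‖e‖ = 1) (t : ℝ) : pp e (t • e) = 0 := by
  simp [pp, real_inner_smul_left, he]

lemma SS_pp (he : ‖e‖ = 1) (t h : ℝ) (l y : E d) : pp e (SS e t h l y) = pp e y := by
  rw [SS, pp_add, pp_se he, pp_sh he]; simp

lemma SS_e (he : ‖e‖ = 1) (t h : ℝ) (l y : E d) :
    ⟪SS e t h l y, e⟫ = t + h * ⟪y, e⟫ - ⟪y, l⟫ := by
  rw [SS, inner_add_left, sh_e he, real_inner_smul_left, ee he]; ring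

lemma SS_o {k : E d} (hk : ⟪e, k⟫ = (0 : ℝ)) (t h : ℝ) (l y : E d) :
    ⟪SS e t h l y, k⟫ = ⟪y, k⟫ := by
  rw [SS, inner_add_left, sh_o hk, real_inner_smul_left, hk]; ring

lemma in_l {l : E d} (hl : ⟪e, l⟫ = (0 : ℝ)) (y : E d) : |⟪y, l⟫| ≤ ‖pp e y‖ * ‖l‖ := by
  rw [← pp_o hl]; exact abs_real_inner_le_norm _ _

lemma nrm (he : ‖e‖ = 1) {y : E d} {a b r : ℝ} (h1 : ‖pp e y‖ < a) (h2 : |⟪y, e⟫| ≤ b)
    (hr : 0 ≤ r) (h : a ^ 2 + b ^ 2 ≤ r ^ 2) : y ∈ ball (0 : E d) r := by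
  rw [mem_ball_zero_iff]
  have := pp_sq he y
  have h3 : ‖pp e y‖ ^ 2 < a ^ 2 := by gcongr
  have h4 : ⟪y, e⟫ ^ 2 ≤ b ^ 2 := by rw [← sq_abs]; gcongr
  exact lt_of_pow_lt_pow_left₀ 2 hr (by linarith)

lemma SS_meas (t h : ℝ) (l : E d) : Measurable (SS e t h l) :=
  (sh_meas e 1 h l).const_add _

lemma SS_vol (he : ‖e‖ = 1) {l : E d} (hl : ⟪e, l⟫ = (0 : ℝ)) (t : ℝ) {h : ℝ} (hh : 0 < h)
    (A : Set (E d)) : volume A = ENNReal.ofReal h * volume (SS e t h l ⁻¹' A) := by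
  rw [← vol_add (t • e) A, vol_pre he hl one_pos hh, DD]
  simp only [one_pow, div_one, one_mul]
  rfl

lemma SS_bad (he : ‖e‖ = 1) {l : E d} (hl : ⟪e, l⟫ = (0 : ℝ)) (t : ℝ) {h : ℝ} (hh : 0 < h)
    (F : Set (E d)) {A B : Set (E d)} (h1 : ∀ y ∈ A, SS e t h l y ∈ B)
    (h2 : ∀ y ∈ A, SS e 0 h l y ∈ B) :
    ENNReal.ofReal h * ENNReal.ofReal h * volume (Bad (SS e t h l ⁻¹' F) ∩ A ×ˢ A) ≤
      volume (Bad F ∩ B ×ˢ B) := by
  have : (volume : Measure (E d × E d)).IsAddHaarMeasure := by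
    rw [Measure.volume_eq_prod]; infer_instance
  have hd : LinearMap.det (sh e 1 h l) = h := by rw [sh_det he hl one_ne_zero]; simp
  have a := lin_pre (volume : Measure (E d × E d)) (f := (sh e 1 h l).prodMap (sh e 1 h l))
    (by rw [LinearMap.det_prodMap, hd]; positivity)
    ((fun p => ((t • e, 0) : E d × E d) + p) ⁻¹' (Bad F ∩ B ×ˢ B))
  rw [LinearMap.det_prodMap, hd, ENNReal.ofReal_mul hh.le, measure_preimage_add] at a
  rw [a]
  gcongr
  rintro ⟨z, v⟩ ⟨b1, b2, b3⟩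
  have c3 := h2 _ b3
  simp only [SS, zero_smul, zero_add] at c3
  refine ⟨?_, h1 _ b2, by simpa using c3⟩
  simpa [Bad, SS, add_assoc, add_sub_assoc] using b1

lemma pp_cont : Continuous (pp e) := by
  unfold pp
  fun_prop

lemma bb_bc (he : ‖e‖ = 1) (G : Set (E d)) : bb G 8 ≤ bc e G := by
  have : ball (0 : E d) 8 ⊆ Cy e 8 := fun y hy => by
    rw [mem_ball_zero_iff] at hy
    exact ⟨(pp_le he y).trans_lt hy, (abs_inner_le he y).trans_lt hy⟩
  exact measure_mono (inter_subset_inter_right _ (prod_mono this this))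

lemma step (he : ‖e‖ = 1) {ε c0 : ℝ≥0∞} (hS : St d ε c0)
    (h5 : 5 * ε < volume (ball (0 : E d) (1 / 200))) {G : Set (E d)} (hG : MeasurableSet G)
    (hI : Inv e ε G) (hb : bc e G ≤ c0) : ∃ (μ : E d) (t : ℝ), ⟪e, μ⟫ = (0 : ℝ) ∧ ‖μ‖ ≤ 1 / 18 ∧
      |t| ≤ 1 / 90 ∧ Inv e ε (SS e t (1 / 4) μ ⁻¹' G) := by
  obtain ⟨ν, t, hν, a, b⟩ := hS G hG ((bb_bc he G).trans hb)
  have cy : ∀ p : E d, ‖p‖ ≤ 1 / 2 → ∀ y ∈ ball p (1 / 200), y ∈ Cy e 1 ∧ y ∈ ball (0 : E d) 2 ∧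
      |⟪y, e⟫ - ⟪p, e⟫| < 1 / 200 ∧ |⟪y, ν⟫ - ⟪p, ν⟫| < 1 / 200 := by
    intro p hp y hy
    rw [mem_ball_iff_norm] at hy
    have n1 : ‖y‖ < 1 := by linarith [norm_le_norm_add_norm_sub' y p]
    refine ⟨⟨(pp_le he y).trans_lt n1, (abs_inner_le he y).trans_lt n1⟩,
      mem_ball_zero_iff.2 (by linarith), ?_, ?_⟩
    · rw [← inner_sub_left]; exact (abs_inner_le he _).trans_lt hy
    · rw [← inner_sub_left]; exact (abs_inner_le hν _).trans_lt hy
  have up : ∀ p : E d, ‖p‖ ≤ 1 / 2 → 1 / 200 ≤ ⟪p, e⟫ → t - 1 / 200 < ⟪p, ν⟫ := by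
    intro p hp hp'
    by_contra hc
    refine absurd h5 (not_lt.2 ?_)
    rw [← Measure.addHaar_ball_center volume p]
    calc volume (ball p (1 / 200)) ≤ volume ((Gᶜ ∩ (Cy e 1 ∩ {y | 0 < ⟪y, e⟫})) ∪
          (G ∩ ball 0 2 ∩ {y | ⟪y, ν⟫ < t})) := by
          refine measure_mono fun y hy => ?_
          obtain ⟨c1, c2, c3, c4⟩ := cy p hp y hy
          by_cases hy : y ∈ G
          · exact Or.inr ⟨⟨hy, c2⟩, by
              simp only [mem_ofPred_eq]; linarith [(abs_lt.1 c4).2, not_lt.1 hc]⟩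
          · exact Or.inl ⟨hy, c1, by simp only [mem_ofPred_eq]; linarith [(abs_lt.1 c3).1]⟩
      _ ≤ 4 * ε + ε := (measure_union_le _ _).trans (add_le_add hI.1 b)
      _ = 5 * ε := by ring
  have dn : ∀ p : E d, ‖p‖ ≤ 1 / 2 → ⟪p, e⟫ ≤ -(1 / 200) → ⟪p, ν⟫ < t + 1 / 200 := by
    intro p hp hp'
    by_contra hc
    refine absurd h5 (not_lt.2 ?_)
    rw [← Measure.addHaar_ball_center volume p]
    calc volume (ball p (1 / 200)) ≤ volume ((G ∩ (Cy e 1 ∩ {y | ⟪y, e⟫ < 0})) ∪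
          (Gᶜ ∩ ball 0 2 ∩ {y | t < ⟪y, ν⟫})) := by
          refine measure_mono fun y hy => ?_
          obtain ⟨c1, c2, c3, c4⟩ := cy p hp y hy
          by_cases hy : y ∈ G
          · exact Or.inl ⟨hy, c1, by simp only [mem_ofPred_eq]; linarith [(abs_lt.1 c3).2]⟩
          · exact Or.inr ⟨⟨hy, c2⟩, by
              simp only [mem_ofPred_eq]; linarith [(abs_lt.1 c4).1, not_lt.1 hc]⟩
      _ ≤ 4 * ε + ε := (measure_union_le _ _).trans (add_le_add hI.2 a)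
      _ = 5 * ε := by ring
  set n : ℝ := ⟪e, ν⟫ with hn
  have n1 := abs_le.1 ((abs_inner_le hν e).trans he.le)
  have ns : ∀ c : ℝ, ‖c • e‖ = |c| := fun c => by rw [norm_smul, he, mul_one, Real.norm_eq_abs]
  have t1 := up ((1 / 200 : ℝ) • e) (by rw [ns]; norm_num) (by rw [real_inner_smul_left, ee he]; norm_num)
  have t2 := dn ((-(1 / 200) : ℝ) • e) (by rw [ns]; norm_num)
    (by rw [real_inner_smul_left, ee he]; norm_num)
  have t3 := up ((1 / 2 : ℝ) • e) (by rw [ns]; norm_num) (by rw [real_inner_smul_left, ee he]; norm_num)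
  rw [real_inner_smul_left] at t1 t2 t3
  set q := pp e ν with hq
  have q0 : ⟪e, q⟫ = (0 : ℝ) := pp_e he ν
  have qν : ν = q + n • e := by rw [hq, pp, hn, real_inner_comm]; abel
  have qq : ⟪q, ν⟫ = ‖q‖ ^ 2 := by
    rw [qν, inner_add_right, real_inner_smul_right, real_inner_comm e q, q0,
      real_inner_self_eq_norm_sq]
    ring
  have t4 := up ((1 / 200 : ℝ) • e - (2 / 5 * ‖q‖⁻¹) • q) (by
      refine (norm_sub_le _ _).trans ?_
      rw [ns, norm_smul, Real.norm_of_nonneg (by positivity), mul_assoc]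
      have : ‖q‖⁻¹ * ‖q‖ ≤ 1 := inv_mul_le_one_of_le₀ le_rfl (norm_nonneg _)
      rw [abs_of_pos (by norm_num)]; linarith)
    (by rw [inner_sub_left, real_inner_smul_left, real_inner_smul_left, ee he, real_inner_comm, q0]
        norm_num)
  rw [inner_sub_left, real_inner_smul_left, real_inner_smul_left, qq] at t4
  have t5 : ‖q‖⁻¹ * ‖q‖ ^ 2 = ‖q‖ := by
    by_cases h0 : ‖q‖ = 0
    · simp [h0]
    · field_simp
  have q1 : ‖q‖ < 1 / 20 := by nlinarith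
  have q2 := pp_sq he ν
  rw [← hq, hν, real_inner_comm, ← hn] at q2
  have n2 : 9 / 10 ≤ n := by nlinarith [norm_nonneg q]
  have n0 : 0 < n := by linarith
  have hμ : ⟪e, n⁻¹ • q⟫ = (0 : ℝ) := by rw [real_inner_smul_right, q0, mul_zero]
  have hμ1 : ‖n⁻¹ • q‖ ≤ 1 / 18 := by
    rw [norm_smul, Real.norm_of_nonneg (by positivity), inv_mul_le_iff₀ n0]; linarith
  have ht : |t / n| ≤ 1 / 90 := by
    rw [abs_div, abs_of_pos n0, div_le_iff₀ n0, abs_le]; constructor <;> linarith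
  have key : ∀ y ∈ Cy e 1, SS e (t / n) (1 / 4) (n⁻¹ • q) y ∈ ball (0 : E d) 2 ∧
      ⟪SS e (t / n) (1 / 4) (n⁻¹ • q) y, ν⟫ = t + n / 4 * ⟪y, e⟫ := by
    intro y hy
    constructor
    · refine nrm he (a := 1) (b := 1) (by rw [SS_pp he]; exact hy.1) ?_ (by norm_num) (by norm_num)
      rw [SS_e he]
      have c1 := abs_le.1 ((in_l hμ y).trans (mul_le_mul hy.1.le hμ1 (norm_nonneg _) zero_le_one))
      have c2 := abs_lt.1 hy.2
      have c3 := abs_le.1 ht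
      rw [abs_le]; constructor <;> linarith
    · conv_lhs => rw [qν]
      rw [inner_add_right, SS_o q0, real_inner_smul_right, SS_e he, real_inner_smul_right]
      field_simp
      ring
  have vol : ∀ A : Set (E d), volume A ≤ ε →
      volume (SS e (t / n) (1 / 4) (n⁻¹ • q) ⁻¹' A) ≤ 4 * ε := by
    intro A hA
    rw [SS_vol he hμ (t / n) (h := 1 / 4) (by norm_num)] at hA
    calc _ = 4 * (ENNReal.ofReal (1 / 4) * volume (SS e (t / n) (1 / 4) (n⁻¹ • q) ⁻¹' A)) := by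
          rw [← mul_assoc, ← ENNReal.ofReal_ofNat 4, ← ENNReal.ofReal_mul (by norm_num)]; simp
      _ ≤ _ := by gcongr
  refine ⟨n⁻¹ • q, t / n, hμ, hμ1, ht, le_trans (measure_mono ?_) (vol _ a),
    le_trans (measure_mono ?_) (vol _ b)⟩
  · rintro y ⟨y1, y2, y3⟩
    refine ⟨⟨y1, (key y y2).1⟩, ?_⟩
    simp only [mem_ofPred_eq] at y3 ⊢
    rw [(key y y2).2]; nlinarith
  · rintro y ⟨y1, y2, y3⟩
    refine ⟨⟨y1, (key y y2).1⟩, ?_⟩
    simp only [mem_ofPred_eq] at y3 ⊢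
    rw [(key y y2).2]; nlinarith

lemma layer (he : ‖e‖ = 1) {ε : ℝ≥0∞} (h16 : 16 * ε ≤ volume (ball (0 : E d) (1 / 10)))
    {G : Set (E d)} (hG : MeasurableSet G) (hI : Inv e ε G) {l : E d} (hl : ⟪e, l⟫ = (0 : ℝ))
    (hl1 : ‖l‖ ≤ 2 / 27) {t : ℝ} (ht : |t| ≤ 2 / 135) :
    volume (DS e G l t (1 / 5)) ≤ 4 / volume (ball (0 : E d) (1 / 10)) * bc e G := by
  have cp := pp_cont (e := e)
  have m : ∀ a b : ℝ, MeasurableSet {y : E d | ‖pp e y‖ < 1 / 4 ∧ a < ⟪y, e⟫ ∧ ⟪y, e⟫ < b} :=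
    fun a b => by
      have c1 : Continuous fun y : E d => ⟪y, e⟫ := by fun_prop
      exact ((isOpen_lt cp.norm continuous_const).inter
        ((isOpen_lt continuous_const c1).inter (isOpen_lt c1 continuous_const))).measurableSet
  have sb : ∀ a b : ℝ, -1 ≤ a → b ≤ 1 →
      {y : E d | ‖pp e y‖ < 1 / 4 ∧ a < ⟪y, e⟫ ∧ ⟪y, e⟫ < b} ⊆ ball 0 8 := fun a b ha hb y hy =>
    nrm he (b := 1) hy.1 (abs_le.2 ⟨by linarith [hy.2.1], by linarith [hy.2.2]⟩) (by norm_num)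
      (by norm_num)
  have mv : ∀ z v : E d, ‖pp e z‖ < 1 / 4 → v ∈ ball (0 : E d) (1 / 10) →
      ‖pp e (z + v)‖ < 1 ∧ |⟪z + v, e⟫ - ⟪z, e⟫| < 1 / 10 := by
    intro z v hz hv
    rw [mem_ball_zero_iff] at hv
    constructor
    · rw [pp_add]
      linarith [norm_add_le (pp e z) (pp e v), pp_le he v]
    · rw [inner_add_left, add_sub_cancel_left]
      exact (abs_inner_le he v).trans_lt hv
  have a := l1 hG.compl (m (1 / 10) (9 / 10)) (W := Cy e 1 ∩ {y | 0 < ⟪y, e⟫}) (s := 1 / 10) (r := 8)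
    (fun z hz v hv => by
      obtain ⟨c1, c2⟩ := mv z v hz.1 hv
      have c3 := abs_lt.1 c2
      exact ⟨⟨c1, abs_lt.2 ⟨by linarith [hz.2.1], by linarith [hz.2.2]⟩⟩, by
        simp only [mem_ofPred_eq]; linarith [hz.2.1]⟩)
    (le_trans (by calc 4 * _ ≤ 4 * (4 * ε) := by gcongr; exact hI.1
      _ = 16 * ε := by ring) h16) (sb _ _ (by norm_num) (by norm_num)) (by norm_num)
  have b := l1 hG (m (-(9 / 10)) (-(1 / 10))) (W := Cy e 1 ∩ {y | ⟪y, e⟫ < 0}) (s := 1 / 10) (r := 8)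
    (fun z hz v hv => by
      obtain ⟨c1, c2⟩ := mv z v hz.1 hv
      have c3 := abs_lt.1 c2
      exact ⟨⟨c1, abs_lt.2 ⟨by linarith [hz.2.1], by linarith [hz.2.2]⟩⟩, by
        simp only [mem_ofPred_eq]; linarith [hz.2.2]⟩)
    (le_trans (by calc 4 * _ ≤ 4 * (4 * ε) := by gcongr; exact hI.2
      _ = 16 * ε := by ring) h16) (sb _ _ (by norm_num) (by norm_num)) (by norm_num)
  rw [bb_compl] at a
  have p0 : volume (ball (0 : E d) (1 / 10)) ≠ 0 := (measure_ball_pos _ _ (by norm_num)).ne'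
  have p1 : volume (ball (0 : E d) (1 / 10)) ≠ ∞ := measure_ball_lt_top.ne
  refine le_div_mul p0 p1 ?_
  calc _ ≤ (volume (Gᶜ ∩ {y : E d | ‖pp e y‖ < 1 / 4 ∧ 1 / 10 < ⟪y, e⟫ ∧ ⟪y, e⟫ < 9 / 10}) +
        volume (G ∩ {y : E d | ‖pp e y‖ < 1 / 4 ∧ -(9 / 10) < ⟪y, e⟫ ∧ ⟪y, e⟫ < -(1 / 10)})) *
          volume (ball (0 : E d) (1 / 10)) := by
        gcongr
        refine le_trans (measure_mono ?_) (measure_union_le _ _)
        rintro y ⟨y1, y2⟩
        have c1 := abs_le.1 ((in_l hl y).trans (mul_le_mul y1.le hl1 (norm_nonneg _) (by norm_num)))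
        have c2 := abs_le.1 ht
        rw [inner_add_right] at y2
        rcases y2 with ⟨y2, y3, y4⟩ | ⟨y2, y3, y4⟩
        · exact Or.inl ⟨y2, y1, by linarith, by linarith⟩
        · exact Or.inr ⟨y2, y1, by linarith, by linarith⟩
    _ ≤ 2 * bb G 8 + 2 * bb G 8 := by rw [add_mul]; exact add_le_add a b
    _ = 4 * bb G 8 := by ring
    _ ≤ _ := by gcongr; exact bb_bc he G

/-- geometric sums -/
def aa : ℕ → ℕ
  | 0 => 1
  | i + 1 => 1 + 4 * aa i

lemma aa_le (i : ℕ) : aa i + 1 ≤ 2 * 4 ^ i := by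
  induction i with
  | zero => simp [aa]
  | succ i ih => rw [aa, pow_succ]; omega

lemma four (x : ℝ≥0∞) : 4 * (ENNReal.ofReal (1 / 4) * x) = x := by
  rw [← mul_assoc, ← ENNReal.ofReal_ofNat 4, ← ENNReal.ofReal_mul (by norm_num)]; simp

lemma chain (he : ‖e‖ = 1) {ε c0 : ℝ≥0∞} (hS : St d ε c0)
    (h5 : 5 * ε < volume (ball (0 : E d) (1 / 200)))
    (h16 : 16 * ε ≤ volume (ball (0 : E d) (1 / 10))) (N : ℕ) :
    ∀ G : Set (E d), MeasurableSet G → Inv e ε G → ∃ (l : E d) (t : ℝ), ⟪e, l⟫ = (0 : ℝ) ∧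
      ‖l‖ ≤ 2 / 27 ∧ |t| ≤ 2 / 135 ∧ ∀ i ≤ N, 16 ^ i * bc e G ≤ c0 →
        volume (DS e G l t (1 / 4 ^ i / 5)) ≤
          aa i * (4 / volume (ball (0 : E d) (1 / 10)) * bc e G) := by
  have base : ∀ G : Set (E d), MeasurableSet G → Inv e ε G →
      volume (DS e G 0 0 (1 / 4 ^ 0 / 5)) ≤
        aa 0 * (4 / volume (ball (0 : E d) (1 / 10)) * bc e G) := fun G hG hI => by
    simpa [aa] using layer he h16 hG hI (l := 0) (by simp) (by norm_num) (t := 0) (by norm_num)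
  induction N with
  | zero =>
    intro G hG hI
    refine ⟨0, 0, by simp, by norm_num, by norm_num, fun i hi _ => ?_⟩
    obtain rfl : i = 0 := by omega
    exact base G hG hI
  | succ N ih =>
    intro G hG hI
    by_cases hb : bc e G ≤ c0
    swap
    · refine ⟨0, 0, by simp, by norm_num, by norm_num, fun i _ hi => ?_⟩
      exact absurd ((le_mul_of_one_le_left' (one_le_pow₀ (by norm_num))).trans hi) hb
    obtain ⟨μ, s, hμ, hμ1, hs, hI'⟩ := step he hS h5 hG hI hb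
    obtain ⟨l, t, hl, hl1, ht, H⟩ := ih _ (SS_meas s (1 / 4) μ hG) hI'
    have hL : ⟪e, μ + (1 / 4 : ℝ) • l⟫ = (0 : ℝ) := by
      rw [inner_add_right, real_inner_smul_right, hμ, hl]; ring
    have hL1 : ‖μ + (1 / 4 : ℝ) • l‖ ≤ 2 / 27 := by
      refine (norm_add_le _ _).trans ?_
      rw [norm_smul, Real.norm_of_nonneg (by norm_num)]; linarith
    have hT : |s + t / 4| ≤ 2 / 135 := by
      have c1 := abs_le.1 hs
      have c2 := abs_le.1 ht
      rw [abs_le]; constructor <;> linarith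
    have L0 := layer he h16 hG hI hL hL1 hT
    refine ⟨_, _, hL, hL1, hT, fun i hi hc => ?_⟩
    rcases i with _ | i
    · simpa [aa] using L0
    have cy : ∀ s' : ℝ, |s'| ≤ 1 → ∀ y ∈ Cy e 8, SS e s' (1 / 4) μ y ∈ Cy e 8 := by
      intro s' hs' y hy
      refine ⟨by rw [SS_pp he]; exact hy.1, ?_⟩
      rw [SS_e he]
      have c1 := abs_le.1 ((in_l hμ y).trans (mul_le_mul hy.1.le hμ1 (norm_nonneg _) (by norm_num)))
      have c2 := abs_lt.1 hy.2
      have c3 := abs_le.1 hs'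
      rw [abs_lt]; constructor <;> linarith
    have b16 : bc e (SS e s (1 / 4) μ ⁻¹' G) ≤ 16 * bc e G := by
      have := SS_bad he hμ s (h := 1 / 4) (by norm_num) G (cy s (hs.trans (by norm_num)))
        (cy 0 (by norm_num))
      calc _ = 4 * (4 * (ENNReal.ofReal (1 / 4) * (ENNReal.ofReal (1 / 4) *
            bc e (SS e s (1 / 4) μ ⁻¹' G)))) := by rw [four, four]
        _ = 16 * (ENNReal.ofReal (1 / 4) * ENNReal.ofReal (1 / 4) *
            bc e (SS e s (1 / 4) μ ⁻¹' G)) := by ring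
        _ ≤ _ := by gcongr; exact this
    have H' := H i (by omega) (le_trans (by
      calc 16 ^ i * _ ≤ 16 ^ i * (16 * bc e G) := by gcongr
        _ = 16 ^ (i + 1) * bc e G := by ring) hc)
    have ph : ∀ y, ⟪SS e s (1 / 4) μ y, e + (μ + (1 / 4 : ℝ) • l)⟫ - (s + t / 4) =
        (⟪y, e + l⟫ - t) / 4 := by
      intro y
      rw [inner_add_right, SS_o hL, SS_e he, inner_add_right, inner_add_right,
        real_inner_smul_right]
      ring
    set D1 := DS e G (μ + (1 / 4 : ℝ) • l) (s + t / 4) (1 / 4 ^ (i + 1) / 5) with hD1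
    set D0 := DS e G (μ + (1 / 4 : ℝ) • l) (s + t / 4) (1 / 5) with hD0
    have sub : SS e s (1 / 4) μ ⁻¹' (D1 \ D0) ⊆ DS e (SS e s (1 / 4) μ ⁻¹' G) l t (1 / 4 ^ i / 5) := by
      rintro y ⟨⟨y1, y2⟩, y3⟩
      have y4 : ¬ _ := fun hh => y3 ⟨y1, hh⟩
      rw [SS_pp he] at y1
      rw [ph, pow_succ] at y2
      rw [ph] at y4
      have p4 : (1 : ℝ) / (4 ^ i * 4) / 5 = 1 / 4 ^ i / 5 / 4 := by field_simp
      have p5 : (0 : ℝ) < 1 / 4 ^ i / 5 := by positivity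
      rw [p4] at y2
      refine ⟨y1, ?_⟩
      rcases y2 with ⟨y2, y5, y6⟩ | ⟨y2, y5, y6⟩
      · refine Or.inl ⟨y2, by linarith, ?_⟩
        by_contra hh
        exact y4 (Or.inl ⟨y2, by linarith, y6⟩)
      · refine Or.inr ⟨y2, ?_, by linarith⟩
        by_contra hh
        exact y4 (Or.inr ⟨y2, y5, by linarith⟩)
    have v1 : volume (D1 \ D0) ≤ 4 * aa i * (4 / volume (ball (0 : E d) (1 / 10)) * bc e G) := by
      rw [SS_vol he hμ s (h := 1 / 4) (by norm_num)]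
      calc _ ≤ ENNReal.ofReal (1 / 4) *
            (aa i * (4 / volume (ball (0 : E d) (1 / 10)) * (16 * bc e G))) := by
            gcongr
            exact (measure_mono sub).trans (H'.trans (by gcongr))
        _ = 4 * (ENNReal.ofReal (1 / 4) *
            (4 * aa i * (4 / volume (ball (0 : E d) (1 / 10)) * bc e G))) := by ring
        _ = _ := four _
    calc volume D1 ≤ volume (D0 ∪ D1 \ D0) := measure_mono fun y hy => by
          by_cases h : y ∈ D0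
          · exact Or.inl h
          · exact Or.inr ⟨hy, h⟩
      _ ≤ _ := (measure_union_le _ _).trans (add_le_add L0 v1)
      _ = _ := by rw [aa]; push_cast; ring

lemma pf0 (hd : 1 ≤ d) : ∃ c0 K : ℝ≥0∞, 0 < c0 ∧ K ≠ ∞ ∧ ∀ F : Set (E d), MeasurableSet F →
    ∀ N : ℕ, ∃ (ν : E d) (h : ℝ), ‖ν‖ = 1 ∧ ∀ i ≤ N, 16 ^ i * bb F 20 ≤ c0 →
      volume (dev F ν h (1 / 4 ^ i) ∩ ball 0 (1 / 4)) ≤ K * 4 ^ i * bb F 20 := by
  have p1 : 0 < volume (ball (0 : E d) (1 / 200)) := measure_ball_pos _ _ (by norm_num)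
  have p0 : volume (ball (0 : E d) (1 / 10)) ≠ 0 := (measure_ball_pos _ _ (by norm_num)).ne'
  have p2 : volume (ball (0 : E d) (1 / 10)) ≠ ∞ := measure_ball_lt_top.ne
  obtain ⟨ε, hε, h⟩ := ENNReal.exists_nnreal_pos_mul_lt (a := 16) (by norm_num) p1.ne'
  have h5 : 5 * (ε : ℝ≥0∞) < volume (ball (0 : E d) (1 / 200)) :=
    lt_of_le_of_lt (by rw [mul_comm]; gcongr; norm_num) h
  have h16 : 16 * (ε : ℝ≥0∞) ≤ volume (ball (0 : E d) (1 / 10)) := by
    rw [mul_comm]; exact h.le.trans (measure_mono (ball_subset_ball (by norm_num)))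
  have h4 : 4 * (ε : ℝ≥0∞) ≤ volume (ball (0 : E d) (1 / 10)) :=
    le_trans (by gcongr; norm_num) h16
  obtain ⟨c0, hc0, hS⟩ := st_of hd (ε := ε) (by exact_mod_cast hε)
  set K := 4 / volume (ball (0 : E d) (1 / 10)) with hK
  refine ⟨c0, 2 * K, hc0, ENNReal.mul_ne_top (by norm_num) (ENNReal.div_ne_top (by norm_num) p0),
    fun F hF N => ?_⟩
  by_cases hb : bb F 20 ≤ c0
  swap
  · refine ⟨EuclideanSpace.single ⟨0, hd⟩ 1, 0, by simp, fun i _ hi => ?_⟩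
    exact absurd ((le_mul_of_one_le_left' (one_le_pow₀ (by norm_num))).trans hi) hb
  obtain ⟨e, s, he, a, b⟩ := hS F hF ((bb_mono F (by norm_num)).trans hb)
  have triv : ∀ H : Set (E d), MeasurableSet H → bb H 8 = bb F 8 →
      volume (H ∩ ball 0 (1 / 2)) ≤ ε → ∀ i : ℕ,
      volume (H ∩ ball 0 (1 / 4)) ≤ 2 * K * 4 ^ i * bb F 20 := by
    intro H hH e1 e2 i
    have := l1 hH (U := ball 0 (1 / 4)) measurableSet_ball (W := ball 0 (1 / 2)) (s := 1 / 10) (r := 8)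
      (fun z hz v hv => by
        rw [mem_ball_zero_iff] at hz hv ⊢
        linarith [norm_add_le z v])
      (le_trans (by gcongr) h4) (ball_subset_ball (by norm_num)) (by norm_num)
    calc _ ≤ K * bb F 20 := by
          refine le_div_mul p0 p2 (this.trans ?_)
          rw [e1]
          exact mul_le_mul' (by norm_num) (bb_mono F (by norm_num))
      _ ≤ _ := by
          gcongr
          exact (le_mul_of_one_le_left' (by norm_num)).trans
            (le_mul_of_one_le_right' (one_le_pow₀ (by norm_num)))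
  have p4 : ∀ i : ℕ, (0 : ℝ) < 1 / 4 ^ i := fun i => by positivity
  by_cases s1 : 1 / 2 < s
  · refine ⟨e, s, he, fun i _ _ => le_trans (measure_mono ?_)
      (triv F hF rfl (le_trans (measure_mono ?_) b) i)⟩
    · rintro y ⟨y1, y2⟩
      have c := abs_le.1 ((abs_inner_le he y).trans (mem_ball_zero_iff.1 y2).le)
      rcases y1 with y1 | y1
      · linarith [y1.2, p4 i]
      · exact ⟨y1.1, y2⟩
    · rintro y ⟨y1, y2⟩
      have c := abs_le.1 ((abs_inner_le he y).trans (mem_ball_zero_iff.1 y2).le)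
      exact ⟨⟨y1, ball_subset_ball (by norm_num) y2⟩, by simp only [mem_ofPred_eq]; linarith⟩
  by_cases s2 : s < -(1 / 2)
  · refine ⟨e, s, he, fun i _ _ => le_trans (measure_mono ?_)
      (triv Fᶜ hF.compl (bb_compl _ _) (le_trans (measure_mono ?_) a) i)⟩
    · rintro y ⟨y1, y2⟩
      have c := abs_le.1 ((abs_inner_le he y).trans (mem_ball_zero_iff.1 y2).le)
      rcases y1 with y1 | y1
      · exact ⟨y1.1, y2⟩
      · linarith [y1.2, p4 i]
    · rintro y ⟨y1, y2⟩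
      have c := abs_le.1 ((abs_inner_le he y).trans (mem_ball_zero_iff.1 y2).le)
      exact ⟨⟨y1, ball_subset_ball (by norm_num) y2⟩, by simp only [mem_ofPred_eq]; linarith⟩
  have h0 : ⟪e, (0 : E d)⟫ = (0 : ℝ) := inner_zero_right _
  have se : ∀ (s' : ℝ) y, ⟪SS e s' 1 0 y, e⟫ = s' + ⟪y, e⟫ := fun s' y => by rw [SS_e he]; simp
  have sv : ∀ A : Set (E d), volume A = volume (SS e s 1 0 ⁻¹' A) := fun A => by
    simpa using SS_vol he h0 s one_pos A
  have b2 : ∀ y ∈ Cy e 1, SS e s 1 0 y ∈ ball (0 : E d) 2 := fun y hy =>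
    nrm he (a := 1) (b := 3 / 2) (by rw [SS_pp he]; exact hy.1) (by
      have c := abs_lt.1 hy.2
      rw [se, abs_le]; constructor <;> linarith) (by norm_num) (by norm_num)
  have e4 : (ε : ℝ≥0∞) ≤ 4 * ε := le_mul_of_one_le_left' (by norm_num)
  have hI : Inv e ε (SS e s 1 0 ⁻¹' F) := by
    rw [sv] at a b
    refine ⟨le_trans (measure_mono ?_) (a.trans e4), le_trans (measure_mono ?_) (b.trans e4)⟩
    · rintro y ⟨y1, y2, y3⟩
      exact ⟨⟨y1, b2 y y2⟩, by simp only [mem_ofPred_eq] at y3 ⊢; rw [se]; linarith⟩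
    · rintro y ⟨y1, y2, y3⟩
      exact ⟨⟨y1, b2 y y2⟩, by simp only [mem_ofPred_eq] at y3 ⊢; rw [se]; linarith⟩
  have b20 : ∀ s' : ℝ, |s'| ≤ 1 → ∀ y ∈ Cy e 8, SS e s' 1 0 y ∈ ball (0 : E d) 20 :=
    fun s' hs' y hy => nrm he (a := 8) (b := 9) (by rw [SS_pp he]; exact hy.1) (by
      have c := abs_lt.1 hy.2
      have c' := abs_le.1 hs'
      rw [se, abs_le]; constructor <;> linarith) (by norm_num) (by norm_num)
  have hbc : bc e (SS e s 1 0 ⁻¹' F) ≤ bb F 20 := by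
    have := SS_bad he h0 s one_pos F (b20 s (abs_le.2 ⟨by linarith, by linarith⟩))
      (b20 0 (by norm_num))
    rw [ENNReal.ofReal_one, one_mul, one_mul] at this
    exact this
  obtain ⟨l, t, hl, hl1, ht, H⟩ := chain he hS h5 h16 N _ (SS_meas s 1 0 hF) hI
  set n := ‖e + l‖ with hn
  have n1 : 1 ≤ n := by
    have := abs_inner_le he (e + l)
    rw [inner_add_left, ee he, real_inner_comm, hl] at this
    simpa using this
  have n2 : n ≤ 29 / 27 := by linarith [norm_add_le e l]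
  have n0 : 0 < n := by linarith
  refine ⟨n⁻¹ • (e + l), (s + t) / n, by
    rw [norm_smul, Real.norm_of_nonneg (by positivity), ← hn, inv_mul_cancel₀ n0.ne'], ?_⟩
  intro i hi hc
  have H' := H i hi (le_trans (by gcongr) hc)
  calc _ ≤ volume (DS e (SS e s 1 0 ⁻¹' F) l t (1 / 4 ^ i / 5)) := by
        rw [sv]
        refine measure_mono ?_
        rintro y ⟨y1, y2⟩
        rw [mem_ball_zero_iff] at y2
        have c1 : ⟪SS e s 1 0 y, e + l⟫ = s + ⟪y, e + l⟫ := by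
          rw [inner_add_right, inner_add_right, se, SS_o hl]; ring
        have c2 := abs_real_inner_le_norm (SS e s 1 0 y) (e + l)
        have c3 : ‖SS e s 1 0 y‖ * ‖e + l‖ ≤ 1 / 4 * (29 / 27) :=
          mul_le_mul y2.le n2 (norm_nonneg _) (by norm_num)
        have c4 := abs_le.1 (c2.trans c3)
        have c5 := abs_le.1 ht
        have c6 := p4 i
        have c7 : 1 / 4 ^ i ≤ 1 / 4 ^ i * n := le_mul_of_one_le_right c6.le n1
        refine ⟨by rw [← SS_pp he s 1 0]; exact (pp_le he _).trans_lt y2, ?_⟩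
        simp only [dev, mem_ofPred_eq, real_inner_smul_right, c1] at y1
        rw [c1] at c4
        rcases y1 with ⟨y1, y3⟩ | ⟨y1, y3⟩
        · refine Or.inl ⟨y1, ?_, by linarith⟩
          rw [inv_mul_eq_div, lt_div_iff₀ n0, add_mul, div_mul_cancel₀ _ n0.ne'] at y3
          linarith
        · refine Or.inr ⟨y1, by linarith, ?_⟩
          rw [inv_mul_eq_div, div_lt_iff₀ n0, sub_mul, div_mul_cancel₀ _ n0.ne'] at y3
          linarith
    _ ≤ aa i * (K * bb F 20) := H'.trans (by gcongr)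
    _ ≤ (2 * 4 ^ i) * (K * bb F 20) := by
        gcongr
        exact_mod_cast (Nat.le_succ _).trans (aa_le i)
    _ = _ := by ring

end Pf

open Pf in
theorem pfStmt {d : ℕ} (hd : 2 ≤ d) : PFStmt d := by
  intro ρ hρ
  obtain ⟨c0, K, hc0, hK, H⟩ := pf0 (d := d) (by omega)
  set R := max 1 (4 * ρ) with hR
  have R1 : 1 ≤ R := le_max_left _ _
  have R2 : 4 * ρ ≤ R := le_max_right _ _
  have R0 : 0 < R := by linarith
  have m0 : min c0 1 ≠ ∞ := ((min_le_right _ _).trans_lt ENNReal.one_lt_top).ne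
  have m1 : 0 < (min c0 1).toReal := ENNReal.toReal_pos (lt_min hc0 one_pos).ne' m0
  refine ⟨(min c0 1).toReal / (16 * R ^ 2), R ^ d * (4 * R) * (K.toReal + 1), 20 * R,
    by positivity, by positivity, by linarith, fun F hF σ0 hσ0 => ?_⟩
  obtain ⟨N, hN⟩ := pow_unbounded_of_one_lt (4 * R / σ0) (by norm_num : (1 : ℝ) < 4)
  obtain ⟨ν, h, hν, H'⟩ := H ((fun y => R • y) ⁻¹' F) (measurable_const_smul _ hF) N
  refine ⟨ν, R * h, hν, fun σ h1 h2 hb => ?_⟩
  have σ1 : 0 < σ := by linarith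
  obtain ⟨j, j1, j2⟩ := exists_nat_pow_near (x := R / σ) (y := 4)
    ((one_le_div σ1).2 (by linarith)) (by norm_num)
  have j3 : (4 : ℝ) ^ (j + 1) ≤ 4 * R / σ := by rw [pow_succ, mul_div_assoc]; linarith
  have jN : j + 1 ≤ N := by
    have : (4 : ℝ) ^ (j + 1) < 4 ^ N := j3.trans_lt (lt_of_le_of_lt (by gcongr) hN)
    exact ((pow_lt_pow_iff_right₀ (by norm_num)).1 this).le
  have b1 : bb ((fun y => R • y) ⁻¹' F) 20 ≤ bb F (20 * R) := by
    rw [mul_comm]; exact sm_bb R1 F 20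
  have c4 : (4 : ℝ≥0∞) ^ (j + 1) = ENNReal.ofReal (4 ^ (j + 1)) := by
    rw [ENNReal.ofReal_pow (by norm_num)]; simp
  have c16 : (16 : ℝ≥0∞) ^ (j + 1) = ENNReal.ofReal ((4 ^ (j + 1)) ^ 2) := by
    rw [← pow_mul, mul_comm, pow_mul, ENNReal.ofReal_pow (by norm_num)]; norm_num
  have H2 := H' (j + 1) jN (by
    calc _ ≤ ENNReal.ofReal ((4 * R / σ) ^ 2) *
          ENNReal.ofReal ((min c0 1).toReal / (16 * R ^ 2) * σ ^ 2) := by
          rw [c16]; gcongr; exact b1.trans hb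
      _ = ENNReal.ofReal (min c0 1).toReal := by
          rw [← ENNReal.ofReal_mul (by positivity)]; congr 1; field_simp; norm_num
      _ ≤ c0 := by rw [ENNReal.ofReal_toReal m0]; exact min_le_left _ _)
  have j4 : R * (1 / 4 ^ (j + 1)) ≤ σ := by
    rw [div_lt_iff₀ σ1] at j2
    rw [mul_one_div, div_le_iff₀ (by positivity)]; linarith
  calc _ = ENNReal.ofReal (R ^ d) * volume ((fun y => R • y) ⁻¹' (dev F ν (R * h) σ ∩ ball 0 ρ)) *
        ENNReal.ofReal σ := by rw [← sm_vol R0]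
    _ ≤ ENNReal.ofReal (R ^ d) * (ENNReal.ofReal (K.toReal + 1) * ENNReal.ofReal (4 * R / σ) *
        bb F (20 * R)) * ENNReal.ofReal σ := by
        gcongr
        refine le_trans (measure_mono ?_) (H2.trans ?_)
        · rintro y ⟨y1, y2⟩
          simp only [mem_ball_zero_iff, norm_smul, Real.norm_of_nonneg R0.le] at y2
          refine ⟨?_, mem_ball_zero_iff.2 (by nlinarith)⟩
          simp only [dev, mem_ofPred_eq, real_inner_smul_left] at y1
          rcases y1 with ⟨y1, y3⟩ | ⟨y1, y3⟩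
          · exact Or.inl ⟨y1, by nlinarith⟩
          · exact Or.inr ⟨y1, by nlinarith⟩
        · rw [c4]
          gcongr
          calc K = ENNReal.ofReal K.toReal := (ENNReal.ofReal_toReal hK).symm
            _ ≤ _ := by gcongr; linarith
    _ = ENNReal.ofReal (R ^ d) * ENNReal.ofReal (K.toReal + 1) * ENNReal.ofReal (4 * R / σ) *
        ENNReal.ofReal σ * bb F (20 * R) := by ring
    _ = _ := by
        rw [← ENNReal.ofReal_mul (by positivity), ← ENNReal.ofReal_mul (by positivity),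
          ← ENNReal.ofReal_mul (by positivity)]
        congr 2
        field_simp

end Vale.Agent.P137
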