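import Vale.Agent.P137.CBase

open MeasureTheory Metric Set Filter
open scoped ENNReal NNReal RealInnerProductSpace Topology Pointwise

namespace Vale.Agent.P137

variable {d : ℕ}

namespace Rf

lemma exR {ξ : E d} (hξ : ‖ξ‖ = 1) :
    ∃ R : E d ≃ₗᵢ[ℝ] E d, ∀ z, R z = z - (2 * ⟪z, ξ⟫) • ξ := by
  refine ⟨(Submodule.reflection (ℝ ∙ ξ)).trans (LinearIsometryEquiv.neg ℝ), fun z => ?_⟩
  rw [LinearIsometryEquiv.trans_apply, LinearIsometryEquiv.coe_neg,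
    Submodule.reflection_singleton_apply, hξ, real_inner_comm, two_smul, two_mul, add_smul]
  simp only [RCLike.ofReal_real_eq_id, id, one_pow, div_one, neg_sub]

lemma int_R (R : E d ≃ₗᵢ[ℝ] E d) (f : E d → ℝ) (s : ℝ) :
    ∫ z in Sh0 d s, f (R z) = ∫ z in Sh0 d s, f z := by
  have e : R ⁻¹' Sh0 d s = Sh0 d s := by
    ext z; simp only [mem_preimage, mem_Sh0, R.norm_map]
  rw [← R.measurePreserving.setIntegral_preimage_emb
    R.toHomeomorph.measurableEmbedding f (Sh0 d s), e]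

/-- the indicator of a set -/
noncomputable def ind (F : Set (E d)) : E d → ℝ := F.indicator fun _ => (1 : ℝ)

/-- the symmetrised integrand -/
noncomputable def GG (F : Set (E d)) (ν : E d) (h ς : ℝ) (y y' : E d) (t : ℝ) : ℝ :=
  (ind F y - ind F y') * t + kk F ν h ς y + kk F ν h ς y'

lemma GG_cases (F : Set (E d)) (ν : E d) (h : ℝ) {ς : ℝ} (hς : 0 < ς) (y y' : E d) {t : ℝ}
    (ht : |t| ≤ 1) :
    (-|t| ≤ GG F ν h ς y y' t) ∧
    (0 ≤ t → (h + 2 * ς ≤ ⟪y, ν⟫ ∨ ⟪y', ν⟫ ≤ h - 2 * ς) → 0 ≤ GG F ν h ς y y' t) ∧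
    (t ≤ 0 → (h + 2 * ς ≤ ⟪y', ν⟫ ∨ ⟪y, ν⟫ ≤ h - 2 * ς) → 0 ≤ GG F ν h ς y y' t) ∧
    (h + 2 * ς ≤ ⟪y, ν⟫ → ⟪y', ν⟫ ≤ h - 2 * ς → t ≤ GG F ν h ς y y' t) := by
  have k1 := kk_nonneg F ν h hς y
  have k2 := kk_nonneg F ν h hς y'
  have a1 := fun H => kk_eq_one (F := F) (ν := ν) (h := h) hς (y := y) H
  have a2 := fun H => kk_eq_one (F := F) (ν := ν) (h := h) hς (y := y') H
  have t1 := le_abs_self t
  have t2 := neg_abs_le t
  have t3 := abs_nonneg t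
  unfold GG ind
  by_cases p : y ∈ F <;> by_cases q : y' ∈ F
  · rw [indicator_of_mem p, indicator_of_mem q]
    refine ⟨by linarith, fun _ _ => by linarith, fun _ _ => by linarith, fun _ H => ?_⟩
    linarith [a2 (Or.inr ⟨q, H⟩)]
  · rw [indicator_of_mem p, indicator_of_notMem q]
    refine ⟨by linarith, fun _ _ => by linarith, fun _ H => ?_, fun _ _ => by linarith⟩
    rcases H with H | H
    · linarith [a2 (Or.inl ⟨q, H⟩)]
    · linarith [a1 (Or.inr ⟨p, H⟩)]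
  · rw [indicator_of_notMem p, indicator_of_mem q]
    refine ⟨by linarith, fun _ H => ?_, fun _ _ => by linarith, fun H H' => ?_⟩
    · rcases H with H | H
      · linarith [a1 (Or.inl ⟨p, H⟩)]
      · linarith [a2 (Or.inr ⟨q, H⟩)]
    · linarith [a1 (Or.inl ⟨p, H⟩), a2 (Or.inr ⟨q, H'⟩)]
  · rw [indicator_of_notMem p, indicator_of_notMem q]
    refine ⟨by linarith, fun _ _ => by linarith, fun _ _ => by linarith, fun H _ => ?_⟩
    linarith [a1 (Or.inl ⟨p, H⟩)]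

lemma sym {F : Set (E d)} (hF : MeasurableSet F) (ν : E d) (h : ℝ) {ς : ℝ} (hς : 0 < ς)
    {ξ : E d} (hξ : ‖ξ‖ = 1) (R : E d ≃ₗᵢ[ℝ] E d) (hR : ∀ z, R z = z - (2 * ⟪z, ξ⟫) • ξ)
    (x : E d) (a s : ℝ) :
    ∫ z in Sh0 d s, GG F ν h ς (x + a • z) (x + a • R z) (cs ξ z) =
      2 * ((∫ z in Sh0 d s, ind F (x + a • z) * cs ξ z) +
        ∫ z in Sh0 d s, kk F ν h ς (x + a • z)) := by
  have hc : ∀ z, cs ξ (R z) = -cs ξ z := fun z => by
    rw [cs, cs, R.norm_map, hR, inner_sub_left, real_inner_smul_left, ee hξ]; ring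
  have mR : Measurable R := R.continuous.measurable
  have b1 : BM fun z => ind F (x + a • z) * cs ξ z :=
    ((BM.indicator hF).comp (by fun_prop)).mul (cs_bm hξ)
  have b2 : BM fun z => kk F ν h ς (x + a • z) := (kk_bm hF ν h hς).comp (by fun_prop)
  have b3 := (b1.add b2).integrableOn (Sh0_lt s)
  have b4 := ((b1.add b2).comp mR).integrableOn (Sh0_lt s)
  rw [← integral_add (b1.integrableOn (Sh0_lt s)) (b2.integrableOn (Sh0_lt s)), two_mul]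
  nth_rewrite 3 [← int_R R]
  rw [← integral_add b3 b4]
  refine integral_congr_ae (Eventually.of_forall fun z => ?_)
  simp only [GG, hc]; ring

lemma avg_ge {G : E d → ℝ} (hG : BM G) {s A B r : ℝ} (hs : 1 ≤ s) (hA : 0 ≤ A) (hB : 0 ≤ B)
    (hr : 0 < r) {W : Set (E d)} (hW : MeasurableSet W)
    (hc : ∀ z, ∀ t : ℝ, 0 < t → (t • z ∈ W ↔ z ∈ W)) {p : E d} (hp : ball p r ⊆ W ∩ ball 0 1)
    (h1 : ∀ z ∈ Sh0 d s, -B ≤ G z) (h2 : ∀ z ∈ Sh0 d s, z ∈ W → A ≤ G z) :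
    (A * r ^ d - B) * (volume (Sh0 d s)).toReal ≤ ∫ z in Sh0 d s, G z := by
  have b1 : BM fun z => A * W.indicator (fun _ => (1 : ℝ)) z := (BM.const A).mul (BM.indicator hW)
  have e1 : ∫ z in Sh0 d s, (A * W.indicator (fun _ => (1 : ℝ)) z - B) =
      A * (volume (W ∩ Sh0 d s)).toReal - B * (volume (Sh0 d s)).toReal := by
    rw [integral_sub (b1.integrableOn (Sh0_lt s)) ((BM.const B).integrableOn (Sh0_lt s)),
      integral_const_mul, setIntegral_indicator hW, setIntegral_const, setIntegral_const,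
      inter_comm]
    simp [Measure.real, mul_comm]
  have h3 : r ^ d * (volume (Sh0 d s)).toReal ≤ (volume (W ∩ Sh0 d s)).toReal := by
    rw [cone_frac hW hc hs, Sh0_vol hs]
    have h4 : r ^ d * (volume (ball (0 : E d) 1)).toReal ≤ (volume (W ∩ ball 0 1)).toReal := by
      refine le_trans (le_of_eq ?_) (ENNReal.toReal_mono
        ((measure_mono inter_subset_right).trans_lt measure_ball_lt_top).ne (measure_mono hp))
      rw [Measure.addHaar_ball_of_pos _ p hr, ENNReal.toReal_mul,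
        ENNReal.toReal_ofReal (by positivity), finrank_euclideanSpace_fin]
    have h5 : 0 ≤ s ^ d - 1 := sub_nonneg.2 (one_le_pow₀ hs)
    nlinarith
  refine le_trans ?_ (setIntegral_mono_on ((b1.sub (BM.const B)).integrableOn (Sh0_lt s))
    (hG.integrableOn (Sh0_lt s)) (Sh0_meas s) fun z hz => ?_)
  · rw [e1]; nlinarith
  · by_cases hz' : z ∈ W
    · rw [indicator_of_mem hz']; linarith [h2 z hz hz']
    · rw [indicator_of_notMem hz']; linarith [h1 z hz]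

lemma exn {ξ ν : E d} (hξ : ‖ξ‖ = 1) (hν : ‖ν‖ = 1) {c a δ ρ : ℝ} (hc : 0 < c)
    (hκ : c ≤ ⟪ξ, ν⟫) (ha : 1 / 2 ≤ a) (ha2 : a ≤ 2) (hδ : 0 < δ) (hρ : |ρ| ≤ a - δ) :
    ∃ n : E d, ‖n‖ = 1 ∧ δ / 2 ≤ ⟪n, ξ⟫ ∧ c * δ ≤ ρ + a * ⟪n, ν⟫ ∧
      ρ + a * (⟪n, ν⟫ - 2 * ⟪n, ξ⟫ * ⟪ξ, ν⟫) ≤ -(c * δ) := by
  set κ := ⟪ξ, ν⟫ with hκd
  have hκ1 : κ ≤ 1 := (le_abs_self _).trans ((abs_inner_le hν ξ).trans hξ.le)
  have ha0 : 0 < a := by linarith
  set τ := -ρ / a with hτ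
  have hτa : a * τ = -ρ := by rw [hτ]; field_simp
  have hτ1 : a * |τ| ≤ a - δ := by
    rw [← abs_of_pos ha0, ← abs_mul, hτa, abs_neg, abs_of_pos ha0]; exact hρ
  have hτ2 : |τ| ≤ 1 := by nlinarith
  have hτ3 : τ ^ 2 ≤ 1 := by rw [← sq_abs]; nlinarith [abs_nonneg τ]
  have hp2 : ‖pp ξ ν‖ ^ 2 = 1 - κ ^ 2 := by rw [pp_sq hξ, hν, real_inner_comm]; ring
  have hpξ : ⟪pp ξ ν, ξ⟫ = 0 := by rw [pp, inner_sub_left, real_inner_smul_left, ee hξ]; ring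
  have hpν : ⟪pp ξ ν, ν⟫ = 1 - κ ^ 2 := by
    rw [pp, inner_sub_left, real_inner_smul_left, ee hν, real_inner_comm ξ ν]; ring
  have hq : 0 ≤ 1 - τ ^ 2 * (1 - κ ^ 2) := by nlinarith [sq_nonneg κ, sq_nonneg τ]
  set α := √(1 - τ ^ 2 * (1 - κ ^ 2)) with hα
  have hα2 : α ^ 2 = 1 - τ ^ 2 * (1 - κ ^ 2) := Real.sq_sqrt hq
  have hα0 : 0 ≤ α := Real.sqrt_nonneg _
  have hα3 : 1 - |τ| + |τ| * κ ≤ α := by
    refine abs_le_of_sq_le_sq' ?_ hα0 |>.2
    rw [hα2, ← sq_abs τ]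
    have h1 : 0 ≤ |τ| * (1 - |τ|) * (1 - κ) :=
      mul_nonneg (mul_nonneg (abs_nonneg τ) (by linarith)) (by linarith)
    nlinarith
  have hnξ : ⟪α • ξ + τ • pp ξ ν, ξ⟫ = α := by
    rw [inner_add_left, real_inner_smul_left, real_inner_smul_left, ee hξ, hpξ]; ring
  have hnν : ⟪α • ξ + τ • pp ξ ν, ν⟫ = α * κ + τ * (1 - κ ^ 2) := by
    rw [inner_add_left, real_inner_smul_left, real_inner_smul_left, hpν]
  have hκ0 : 0 < κ := by linarith
  have h5 : δ ≤ a * (α - |τ| * κ) := by nlinarith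
  have h6 : c * δ ≤ κ * (a * (α - |τ| * κ)) := by gcongr
  have t1 := mul_le_mul_of_nonneg_left (le_abs_self τ) (by positivity : 0 ≤ a * κ * κ)
  have t2 := mul_le_mul_of_nonneg_left (neg_abs_le τ) (by positivity : 0 ≤ a * κ * κ)
  refine ⟨α • ξ + τ • pp ξ ν, ?_, ?_, ?_, ?_⟩
  · refine (pow_left_inj₀ (norm_nonneg _) zero_le_one two_ne_zero).1 ?_
    rw [norm_add_sq_real, real_inner_smul_left, real_inner_smul_right, real_inner_comm, hpξ,
      norm_smul, norm_smul, mul_pow, mul_pow, hp2, hξ, Real.norm_eq_abs, Real.norm_eq_abs, sq_abs,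
      sq_abs, hα2]
    ring
  · rw [hnξ]
    have := mul_nonneg (abs_nonneg τ) hκ0.le
    nlinarith
  · rw [hnν]; nlinarith
  · rw [hnν, hnξ]; nlinarith

lemma gain {F : Set (E d)} (hF : MeasurableSet F) {ν ξ : E d} (hν : ‖ν‖ = 1) (hξ : ‖ξ‖ = 1)
    {h ς c a s δ B : ℝ} (hς : 0 < ς) (hc : 0 < c) (hc1 : c ≤ 1) (hκ : c ≤ ⟪ξ, ν⟫)
    (ha : 1 / 2 ≤ a) (ha2 : a ≤ 2) (hs : 1 < s) (hs1 : s ≤ 1 + ς) (hδ : 0 < δ) (hδ1 : δ ≤ 1)
    (hςδ : ς ≤ c * δ / 20) (hB : 0 ≤ B) (R : E d ≃ₗᵢ[ℝ] E d)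
    (hR : ∀ z, R z = z - (2 * ⟪z, ξ⟫) • ξ) {x : E d} (hρ : |⟪x, ν⟫ - h| ≤ a - δ)
    (h1 : ∀ z ∈ Sh0 d s, -B ≤ GG F ν h ς (x + a • z) (x + a • R z) (cs ξ z)) :
    (δ / 6 * (c * δ / 96) ^ d - B) * (volume (Sh0 d s)).toReal ≤
      ∫ z in Sh0 d s, GG F ν h ς (x + a • z) (x + a • R z) (cs ξ z) := by
  obtain ⟨n, hn, n1, n2, n3⟩ := exn hξ hν hc hκ ha ha2 hδ hρ
  have mR : Measurable R := R.continuous.measurable
  have hcδ : c * δ ≤ δ := by nlinarith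
  have hcδ0 : 0 < c * δ := by positivity
  refine avg_ge (W := {z | ‖z - ‖z‖ • n‖ < c * δ / 12 * ‖z‖}) (p := (1 / 2 : ℝ) • n) ?_ hs.le
    (by positivity) hB (by positivity) (measurableSet_lt (by fun_prop) (by fun_prop)) ?_ ?_ h1 ?_
  · exact (((((BM.indicator hF).comp (by fun_prop)).sub ((BM.indicator hF).comp
      (by fun_prop))).mul (cs_bm hξ)).add ((kk_bm hF ν h hς).comp (by fun_prop))).add
      ((kk_bm hF ν h hς).comp (by fun_prop))
  · intro z t ht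
    simp only [mem_setOf_eq]
    rw [norm_smul, Real.norm_of_nonneg ht.le, mul_smul, ← smul_sub, norm_smul,
      Real.norm_of_nonneg ht.le, mul_left_comm, mul_lt_mul_iff_right₀ ht]
  · intro z hz
    rw [mem_ball_iff_norm] at hz
    have e1 : ‖(1 / 2 : ℝ) • n‖ = 1 / 2 := by rw [norm_smul, hn]; norm_num
    have h2 := abs_norm_sub_norm_le z ((1 / 2 : ℝ) • n)
    rw [e1] at h2
    have h3 := abs_le.1 h2
    have h4 : ‖z - ‖z‖ • n‖ ≤ ‖z - (1 / 2 : ℝ) • n‖ + |‖z‖ - 1 / 2| := by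
      calc _ = ‖(z - (1 / 2 : ℝ) • n) - (‖z‖ - 1 / 2) • n‖ := by congr 1; module
        _ ≤ _ := by
          refine (norm_sub_le _ _).trans ?_
          rw [norm_smul, hn, mul_one, Real.norm_eq_abs]
    refine ⟨?_, ?_⟩
    · simp only [mem_setOf_eq]; nlinarith
    · rw [mem_ball_zero_iff]; linarith
  · intro z hz hW
    obtain ⟨z1, z2⟩ := mem_Sh0.1 hz
    simp only [mem_setOf_eq] at hW
    have h2 : ‖z - n‖ ≤ c * δ / 6 := by
      have h3 : ‖z - n‖ ≤ ‖z - ‖z‖ • n‖ + (‖z‖ - 1) := by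
        calc _ = ‖(z - ‖z‖ • n) + (‖z‖ - 1) • n‖ := by congr 1; module
          _ ≤ _ := by
            refine (norm_add_le _ _).trans ?_
            rw [norm_smul, hn, mul_one, Real.norm_of_nonneg (by linarith)]
      nlinarith
    have h3 := abs_le.1 ((abs_inner_le hν (z - n)).trans h2)
    have h4 := abs_le.1 ((abs_inner_le hν (R (z - n))).trans ((R.norm_map _).le.trans h2))
    rw [inner_sub_left] at h3
    rw [map_sub, inner_sub_left, hR n, inner_sub_left, real_inner_smul_left] at h4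
    have h5 : δ / 6 ≤ cs ξ z := by
      have h6 := (abs_le.1 ((abs_inner_le hξ (z - ‖z‖ • n)).trans hW.le)).1
      rw [inner_sub_left, real_inner_smul_left] at h6
      rw [cs, le_div_iff₀ (by linarith)]
      nlinarith
    refine h5.trans ((GG_cases F ν h hς _ _ (abs_cs_le hξ z)).2.2.2 ?_ ?_)
    · rw [inner_add_left, real_inner_smul_left]; nlinarith
    · rw [inner_add_left, real_inner_smul_left]; nlinarith

lemma deep {ν ξ x z : E d} (hν : ‖ν‖ = 1) (hξ : ‖ξ‖ = 1) {h ς c a η : ℝ} (hς : 0 < ς)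
    (hc : 0 < c) (hc1 : c ≤ 1) (hκ : c ≤ ⟪ξ, ν⟫) (ha : 1 / 2 ≤ a) (ha2 : a ≤ 2) (hη : 0 < η)
    (hη1 : η ≤ c ^ 2 / 8) (hςη : ς ≤ c * η / 20) (z1 : ‖z‖ ≤ 1 + ς)
    (h1 : |⟪x + a • z, ν⟫ - h| ≤ 2 * ς) (h2 : |⟪z, ξ⟫| ≤ η / 5) :
    |⟪x, ν⟫ - h| ≤ a - c ^ 2 / 8 := by
  have hκ1 : |⟪ξ, ν⟫| ≤ 1 := (abs_inner_le hν ξ).trans hξ.le
  have e1 : ⟪z, ν⟫ = ⟪z, pp ξ ν⟫ + ⟪ξ, ν⟫ * ⟪z, ξ⟫ := by
    rw [pp, inner_sub_right, real_inner_smul_right, real_inner_comm ξ ν]; ring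
  have h3 : ‖pp ξ ν‖ ≤ 1 - c ^ 2 / 2 := by
    refine abs_le_of_sq_le_sq' ?_ (by nlinarith) |>.2
    rw [pp_sq hξ, hν, real_inner_comm]
    nlinarith [sq_nonneg (c ^ 2)]
  have h4 : |⟪z, ν⟫| ≤ (1 + ς) * (1 - c ^ 2 / 2) + η / 5 := by
    rw [e1]
    refine (abs_add_le _ _).trans (add_le_add ((abs_real_inner_le_norm _ _).trans ?_) ?_)
    · gcongr
    · rw [abs_mul]; nlinarith [abs_nonneg ⟪z, ξ⟫]
  have h5 : |⟪x, ν⟫ - h| ≤ 2 * ς + a * |⟪z, ν⟫| := by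
    rw [inner_add_left, real_inner_smul_left] at h1
    calc _ = |(⟪x, ν⟫ + a * ⟪z, ν⟫ - h) - a * ⟪z, ν⟫| := by congr 1; ring
      _ ≤ _ := by
        refine (abs_sub _ _).trans ?_
        rw [abs_mul, abs_of_pos (by linarith : 0 < a)]; linarith
  have h6 : ς ≤ η / 20 := by nlinarith
  have h7 : |⟪z, ν⟫| ≤ 1 - c ^ 2 / 2 + η / 4 := by nlinarith [sq_nonneg c]
  have h8 := mul_le_mul_of_nonneg_left h7 (by linarith : 0 ≤ a)
  nlinarith [sq_nonneg c]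

lemma one {F : Set (E d)} (hF : MeasurableSet F) {ν ξ x : E d} (hν : ‖ν‖ = 1) (hξ : ‖ξ‖ = 1)
    {h ς c a s η : ℝ} (hς : 0 < ς) (hc : 0 < c) (hc1 : c ≤ 1) (hκ : |h| ≤ 5 → c ≤ ⟪ξ, ν⟫)
    (ha : 1 / 2 ≤ a) (ha2 : a ≤ 2) (hs : 1 < s) (hs1 : s ≤ 1 + ς) (hη : 0 < η)
    (hη1 : η ≤ c ^ 2 / 8) (hη2 : η / 5 ≤ c ^ 2 / 8 / 6 * (c * (c ^ 2 / 8) / 96) ^ d / 2)
    (hςη : ς ≤ c * η / 20) (hx : ‖x‖ < 1 / 10) :
    (if |⟪x, ν⟫ - h| ≤ a - η then (c / 96) ^ d / 24 * η ^ (d + 1) else 0) *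
      (volume (Sh0 d s)).toReal ≤ (∫ z in Sh0 d s, ind F (x + a • z) * cs ξ z) +
        ∫ z in Sh0 d s, kk F ν h ς (x + a • z) := by
  obtain ⟨R, hR⟩ := exR hξ
  have hV : 0 ≤ (volume (Sh0 d s)).toReal := ENNReal.toReal_nonneg
  have hc2 : c ^ 2 ≤ 1 := by nlinarith
  have h6 : ς ≤ η / 20 := by nlinarith
  have e := sym hF ν h hς hξ R hR x a s
  have e2 : η / 6 * (c * η / 96) ^ d = 4 * ((c / 96) ^ d / 24 * η ^ (d + 1)) := by
    rw [mul_div_right_comm c, mul_pow]; ring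
  have hA : 0 ≤ (c / 96) ^ d / 24 * η ^ (d + 1) := by positivity
  by_cases h0 : ∀ z ∈ Sh0 d s, 0 ≤ GG F ν h ς (x + a • z) (x + a • R z) (cs ξ z)
  · split_ifs with hd
    · have h5 : |h| ≤ 5 := by
        have h1 := abs_le.1 ((abs_inner_le hν x).trans hx.le)
        have h2 := abs_le.1 hd
        rw [abs_le]; constructor <;> linarith [h1.1, h1.2, h2.1, h2.2]
      have := gain hF hν hξ hς hc hc1 (hκ h5) ha ha2 hs hs1 hη (by linarith) hςη le_rfl R hR hd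
        (by simpa using h0)
      rw [e, e2] at this
      nlinarith [mul_nonneg hA hV]
    · have := setIntegral_nonneg (μ := volume) (Sh0_meas s) h0
      rw [e] at this; linarith
  -- bad points are close to the plane and to the equator
  have bad : ∀ z ∈ Sh0 d s, GG F ν h ς (x + a • z) (x + a • R z) (cs ξ z) < 0 →
      |h| ≤ 5 ∧ |⟪x + a • z, ν⟫ - h| ≤ 2 * ς ∧ |⟪z, ξ⟫| ≤ η / 5 := by
    intro z hz hG
    obtain ⟨z1, z2⟩ := mem_Sh0.1 hz
    obtain ⟨-, g1, g2, -⟩ := GG_cases F ν h hς (x + a • z) (x + a • R z) (abs_cs_le hξ z)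
    have hb : ∀ w : E d, ‖w‖ < s → |⟪x + a • w, ν⟫| ≤ 3 := fun w hw => by
      refine (abs_inner_le hν _).trans ((norm_add_le _ _).trans ?_)
      rw [norm_smul, Real.norm_of_nonneg (by linarith)]
      nlinarith [norm_nonneg w]
    have b1 := abs_le.1 (hb z z1)
    have b2 := abs_le.1 (hb (R z) (by rwa [R.norm_map]))
    have e3 : ⟪x + a • R z, ν⟫ = ⟪x + a • z, ν⟫ - 2 * a * ⟪ξ, ν⟫ * ⟪z, ξ⟫ := by
      rw [hR, inner_add_left, inner_add_left, real_inner_smul_left, real_inner_smul_left,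
        inner_sub_left, real_inner_smul_left]; ring
    have hη5 : 4 * ς ≤ c * (η / 5) := by linarith
    rcases le_total 0 ⟪z, ξ⟫ with t | t
    · have g := mt (g1 (div_nonneg t (norm_nonneg _))) (not_le.2 hG)
      rw [not_or, not_le, not_le] at g
      have h5 : |h| ≤ 5 := by rw [abs_le]; constructor <;> linarith [g.1, g.2, b1.1, b2.2]
      have h7 : c * ⟪z, ξ⟫ ≤ 2 * a * ⟪ξ, ν⟫ * ⟪z, ξ⟫ :=
        mul_le_mul_of_nonneg_right (by nlinarith [hκ h5]) t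
      have h8 := mul_nonneg hc.le t
      refine ⟨h5, by rw [abs_le]; constructor <;> linarith [g.1, g.2], ?_⟩
      rw [abs_of_nonneg t]
      exact le_of_mul_le_mul_left (by linarith [g.1, g.2]) hc
    · have g := mt (g2 (div_nonpos_of_nonpos_of_nonneg t (norm_nonneg _))) (not_le.2 hG)
      rw [not_or, not_le, not_le] at g
      have h5 : |h| ≤ 5 := by rw [abs_le]; constructor <;> linarith [g.1, g.2, b2.1, b1.2]
      have h7 : c * -⟪z, ξ⟫ ≤ 2 * a * ⟪ξ, ν⟫ * -⟪z, ξ⟫ :=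
        mul_le_mul_of_nonneg_right (by nlinarith [hκ h5]) (by linarith)
      have h8 := mul_nonneg hc.le (neg_nonneg.2 t)
      refine ⟨h5, by rw [abs_le]; constructor <;> linarith [g.1, g.2], ?_⟩
      rw [abs_of_nonpos t]
      exact le_of_mul_le_mul_left (by linarith [g.1, g.2]) hc
  push Not at h0
  obtain ⟨z0, hz0, hG0⟩ := h0
  obtain ⟨h5, b1, b2⟩ := bad z0 hz0 hG0
  have hd := deep hν hξ hς hc hc1 (hκ h5) ha ha2 hη hη1 hςη
    ((mem_Sh0.1 hz0).1.le.trans hs1) b1 b2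
  have key := gain (B := η / 5) hF hν hξ hς hc hc1 (hκ h5) ha ha2 hs hs1 (by positivity)
    (by linarith) (hςη.trans (by gcongr)) (by positivity) R hR hd (by
      intro z hz
      by_contra hG
      have h1 := (bad z hz (by linarith)).2.2
      have h2 := (GG_cases F ν h hς (x + a • z) (x + a • R z) (abs_cs_le hξ z)).1
      have h3 : |cs ξ z| ≤ |⟪z, ξ⟫| := by
        rw [cs, abs_div, abs_norm]; exact div_le_self (abs_nonneg _) (mem_Sh0.1 hz).2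
      linarith)
  have h7 : η / 6 * (c * η / 96) ^ d ≤ c ^ 2 / 8 / 6 * (c * (c ^ 2 / 8) / 96) ^ d := by gcongr
  rw [e] at key
  have h8 : (if |⟪x, ν⟫ - h| ≤ a - η then (c / 96) ^ d / 24 * η ^ (d + 1) else 0) ≤
      (c / 96) ^ d / 24 * η ^ (d + 1) := by split_ifs <;> linarith
  have h9 := mul_le_mul_of_nonneg_right h8 hV
  have h10 : 2 * ((c / 96) ^ d / 24 * η ^ (d + 1)) ≤
      c ^ 2 / 8 / 6 * (c * (c ^ 2 / 8) / 96) ^ d - η / 5 := by linarith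
  have h11 := mul_le_mul_of_nonneg_right h10 hV
  linarith

end Rf

open Rf in
theorem refStmt (hd : 2 ≤ d) : RefStmt d := by
  intro c hc hc1
  refine ⟨min (1 / 100) (min (c ^ 2 / 8) (5 * (c ^ 2 / 8 / 6 * (c * (c ^ 2 / 8) / 96) ^ d / 2))),
    (c / 96) ^ d / 24, by positivity, min_le_left _ _, by positivity, ?_, ?_⟩
  · have : (c / 96) ^ d ≤ 1 := pow_le_one₀ (by positivity) (by linarith)
    linarith
  intro η ς s a x ξ n F ν h γ hη hη0 hς hςη hs hs1 ha ha2 hx hξ hF hν hγ hγ1 hκ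
  have hη1 := hη0.trans ((min_le_right _ _).trans (min_le_left _ _))
  have hη2 := hη0.trans ((min_le_right _ _).trans (min_le_right _ _))
  have hV : 0 < (volume (Sh0 d s)).toReal := by
    rw [Sh0_vol hs.le]
    exact mul_pos (sub_pos.2 (one_lt_pow₀ hs (by omega)))
      (ENNReal.toReal_pos (measure_ball_pos _ _ one_pos).ne' measure_ball_lt_top.ne)
  have b1 : ∀ i, BM fun z => ind (F i) (x + a • z) * cs ξ z := fun i =>
    ((BM.indicator (hF i)).comp (by fun_prop)).mul (cs_bm hξ)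
  have b2 : ∀ i, BM fun z => kk (F i) (ν i) (h i) ς (x + a • z) := fun i =>
    (kk_bm (hF i) _ _ hς).comp (by fun_prop)
  have b3 : BM fun z => γ (x + a • z) * cs ξ z := (hγ.comp (by fun_prop)).mul (cs_bm hξ)
  have h1 := Finset.sum_le_sum fun i (hi : i ∈ Finset.range n) =>
    one (hF i) (hν i) hξ hς hc hc1 (hκ i (Finset.mem_range.1 hi)) ha ha2 hs hs1 hη hη1
      (by linarith) hςη (mem_ball_zero_iff.1 hx)
  rw [← Finset.sum_mul, ← Finset.sum_filter, Finset.sum_const, nsmul_eq_mul,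
    Finset.sum_add_distrib, ← integral_finsetSum _ fun i _ => (b1 i).integrableOn (Sh0_lt s),
    ← integral_finsetSum _ fun i _ => (b2 i).integrableOn (Sh0_lt s)] at h1
  have h2 : ∫ z in Sh0 d s, ∑ i ∈ Finset.range n, ind (F i) (x + a • z) * cs ξ z ≤
      (∫ z in Sh0 d s, γ (x + a • z) * cs ξ z) + (volume (Sh0 d s)).toReal := by
    have e : (volume (Sh0 d s)).toReal = ∫ _ in Sh0 d s, (1 : ℝ) := by
      rw [setIntegral_const, smul_eq_mul, mul_one]; rfl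
    rw [e, ← integral_add (b3.integrableOn (Sh0_lt s)) ((BM.const 1).integrableOn (Sh0_lt s))]
    refine setIntegral_mono ((BM.sum _ fun i _ => b1 i).integrableOn (Sh0_lt s))
      ((b3.add (BM.const 1)).integrableOn (Sh0_lt s)) fun z => ?_
    have h3 : |(γ (x + a • z) - cnt F n (x + a • z)) * cs ξ z| ≤ 1 := by
      rw [abs_mul]; exact mul_le_one₀ (hγ1 _) (abs_nonneg _) (abs_cs_le hξ z)
    have h4 := (abs_le.1 h3).1
    have e2 : ∑ i ∈ Finset.range n, ind (F i) (x + a • z) * cs ξ z =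
        cnt F n (x + a • z) * cs ξ z := by rw [cnt, Finset.sum_mul]; rfl
    change ∑ i ∈ Finset.range n, ind (F i) (x + a • z) * cs ξ z ≤ γ (x + a • z) * cs ξ z + 1
    rw [e2]; linarith
  unfold sF sP sa nr
  rw [div_add_one hV.ne', ← add_div, le_div_iff₀ hV]
  linarith

end Vale.Agent.P137
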