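import Vale.Agent.P137.Base

open MeasureTheory Metric Set
open scoped ENNReal NNReal RealInnerProductSpace

namespace Vale.Agent.P137

variable {d : ℕ}

/-- shear box map -/
noncomputable def sh (e : E d) (w h : ℝ) (l : E d) : E d →ₗ[ℝ] E d where
  toFun y := w • y + ((h - w) * ⟪y, e⟫ - w * ⟪y, l⟫) • e
  map_add' x y := by simp only [inner_add_left]; module
  map_smul' c y := by simp only [real_inner_smul_left, RingHom.id_apply]; module

lemma sh_apply (e : E d) (w h : ℝ) (l y : E d) :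
    sh e w h l y = w • y + ((h - w) * ⟪y, e⟫ - w * ⟪y, l⟫) • e := rfl

lemma ee {e : E d} (he : ‖e‖ = 1) : ⟪e, e⟫ = (1 : ℝ) := by
  rw [real_inner_self_eq_norm_sq, he]; norm_num

lemma sh_e {e : E d} (he : ‖e‖ = 1) (w h : ℝ) (l y : E d) :
    ⟪sh e w h l y, e⟫ = h * ⟪y, e⟫ - w * ⟪y, l⟫ := by
  simp only [sh_apply, inner_add_left, real_inner_smul_left, ee he]; ring

lemma sh_o {e k : E d} (hk : ⟪e, k⟫ = (0 : ℝ)) (w h : ℝ) (l y : E d) :
    ⟪sh e w h l y, k⟫ = w * ⟪y, k⟫ := by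
  simp only [sh_apply, inner_add_left, real_inner_smul_left, hk]; ring

lemma sh_nu {e l : E d} (he : ‖e‖ = 1) (hl : ⟪e, l⟫ = (0 : ℝ)) (w h : ℝ) (y : E d) :
    ⟪sh e w h l y, e + l⟫ = h * ⟪y, e⟫ := by
  rw [inner_add_right, sh_e he, sh_o hl]; ring

lemma sh_comp {e l : E d} (he : ‖e‖ = 1) (hl : ⟪e, l⟫ = (0 : ℝ)) {w : ℝ} (hw : w ≠ 0)
    (h w2 h2 : ℝ) (l2 y : E d) :
    sh e w h l (sh e w2 h2 l2 y) = sh e (w * w2) (h * h2) (l + (h / w) • l2) y := by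
  rw [sh_apply e w, sh_e he, sh_o hl, sh_apply, sh_apply]
  simp only [inner_add_right, real_inner_smul_right]
  have : (h * h2 - w * w2) * ⟪y, e⟫ - w * w2 * (⟪y, l⟫ + h / w * ⟪y, l2⟫) =
      w * ((h2 - w2) * ⟪y, e⟫ - w2 * ⟪y, l2⟫) +
        ((h - w) * (h2 * ⟪y, e⟫ - w2 * ⟪y, l2⟫) - w * (w2 * ⟪y, l⟫)) := by
    field_simp; ring
  rw [this]; module

lemma sh_det {e l : E d} (he : ‖e‖ = 1) (hl : ⟪e, l⟫ = (0 : ℝ)) {w : ℝ} (hw : w ≠ 0) (h : ℝ) :
    LinearMap.det (sh e w h l) = w ^ d * (h / w) := by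
  let f : Module.Dual ℝ (E d) := ((h - w) / w) • (innerₛₗ ℝ e) - innerₛₗ ℝ l
  have : sh e w h l = w • LinearMap.transvection f e := by
    refine LinearMap.ext fun y => ?_
    simp only [sh_apply, LinearMap.smul_apply, LinearMap.transvection.apply, f,
      LinearMap.sub_apply, innerₛₗ_apply_apply, smul_eq_mul, smul_add, smul_smul,
      real_inner_comm e y, real_inner_comm l y]
    congr 2
    field_simp
  rw [this, LinearMap.det_smul, LinearMap.transvection.det]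
  simp only [f, LinearMap.sub_apply, LinearMap.smul_apply, innerₛₗ_apply_apply, smul_eq_mul,
    ee he, real_inner_comm e l, hl, finrank_euclideanSpace, Fintype.card_fin]
  field_simp; ring

/-- component orthogonal to `e` -/
noncomputable def pp (e y : E d) : E d := y - ⟪y, e⟫ • e

lemma pp_sq {e : E d} (he : ‖e‖ = 1) (y : E d) : ‖pp e y‖ ^ 2 = ‖y‖ ^ 2 - ⟪y, e⟫ ^ 2 := by
  rw [pp, norm_sub_sq_real, real_inner_smul_right, norm_smul, he, Real.norm_eq_abs, mul_one, sq_abs]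
  ring

lemma pp_le {e : E d} (he : ‖e‖ = 1) (y : E d) : ‖pp e y‖ ≤ ‖y‖ := by
  have := pp_sq he y
  exact abs_le_of_sq_le_sq' (by nlinarith [sq_nonneg ⟪y, e⟫]) (norm_nonneg _) |>.2

lemma le_pp {e : E d} (he : ‖e‖ = 1) (y : E d) : ‖y‖ ≤ ‖pp e y‖ + |⟪y, e⟫| := by
  calc ‖y‖ = ‖pp e y + ⟪y, e⟫ • e‖ := by rw [pp, sub_add_cancel]
    _ ≤ _ := by
      refine (norm_add_le _ _).trans ?_
      rw [norm_smul, he, mul_one, Real.norm_eq_abs]

lemma pp_o {e k : E d} (hk : ⟪e, k⟫ = (0 : ℝ)) (y : E d) : ⟪pp e y, k⟫ = ⟪y, k⟫ := by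
  rw [pp, inner_sub_left, real_inner_smul_left, hk]; ring

lemma pp_sh {e : E d} (he : ‖e‖ = 1) (w h : ℝ) (l y : E d) :
    pp e (sh e w h l y) = w • pp e y := by
  rw [pp, sh_e he, sh_apply, pp]; module

lemma abs_inner_le {e : E d} (he : ‖e‖ = 1) (y : E d) : |⟪y, e⟫| ≤ ‖y‖ := by
  simpa [he] using abs_real_inner_le_norm y e

lemma sh_norm {e : E d} (he : ‖e‖ = 1) {w h : ℝ} (hw : 0 ≤ w) (hh : 0 ≤ h) (l y : E d) :
    ‖sh e w h l y‖ ≤ (w + h + w * ‖l‖) * ‖y‖ := by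
  refine (le_pp he _).trans ?_
  rw [pp_sh he, sh_e he, norm_smul, Real.norm_of_nonneg hw]
  have h1 := pp_le he y
  have h2 := abs_inner_le he y
  have h3 := abs_real_inner_le_norm y l
  have h4 : |h * ⟪y, e⟫ - w * ⟪y, l⟫| ≤ h * ‖y‖ + w * (‖y‖ * ‖l‖) := by
    refine (abs_sub _ _).trans ?_
    rw [abs_mul, abs_mul, abs_of_nonneg hw, abs_of_nonneg hh]
    gcongr
  nlinarith [mul_le_mul_of_nonneg_left h1 hw]

lemma sh_inv {e l : E d} (he : ‖e‖ = 1) (hl : ⟪e, l⟫ = (0 : ℝ)) {w h : ℝ} (hw : 0 < w)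
    (hh : 0 < h) (y : E d) :
    ‖y‖ ≤ ‖sh e w h l y‖ / w + (1 + ‖l‖) * ‖sh e w h l y‖ / h := by
  refine (le_pp he _).trans (add_le_add ?_ ?_)
  · rw [le_div_iff₀ hw]
    have := pp_le he (sh e w h l y)
    rw [pp_sh he, norm_smul, Real.norm_of_nonneg hw.le] at this
    linarith
  · rw [le_div_iff₀ hh]
    have h1 := abs_real_inner_le_norm (sh e w h l y) (e + l)
    rw [sh_nu he hl, abs_mul, abs_of_pos hh] at h1
    have h2 : ‖e + l‖ ≤ 1 + ‖l‖ := by simpa [he] using norm_add_le e l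
    nlinarith [mul_le_mul_of_nonneg_left h2 (norm_nonneg (sh e w h l y))]

/-- volume factor -/
noncomputable def DD (d : ℕ) (w h : ℝ) : ℝ≥0∞ := ENNReal.ofReal (w ^ d * (h / w))

lemma DD_ne_top (w h : ℝ) : DD d w h ≠ ∞ := ENNReal.ofReal_ne_top

lemma DD_ne_zero {w h : ℝ} (hw : 0 < w) (hh : 0 < h) : DD d w h ≠ 0 := by
  rw [DD]; simp only [ne_eq, ENNReal.ofReal_eq_zero, not_le]; positivity

lemma lin_pre {V : Type*} [NormedAddCommGroup V] [NormedSpace ℝ V] [MeasurableSpace V]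
    [BorelSpace V] [FiniteDimensional ℝ V] (μ : Measure V) [μ.IsAddHaarMeasure]
    {f : V →ₗ[ℝ] V} (hf : 0 < LinearMap.det f) (S : Set V) :
    μ S = ENNReal.ofReal (LinearMap.det f) * μ (f ⁻¹' S) := by
  rw [Measure.addHaar_preimage_linearMap μ hf.ne', ← mul_assoc, ← ENNReal.ofReal_mul hf.le,
    abs_of_pos (inv_pos.2 hf), mul_inv_cancel₀ hf.ne']
  simp

lemma vol_pre {e l : E d} (he : ‖e‖ = 1) (hl : ⟪e, l⟫ = (0 : ℝ)) {w h : ℝ} (hw : 0 < w)
    (hh : 0 < h) (S : Set (E d)) : volume S = DD d w h * volume (sh e w h l ⁻¹' S) := by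
  have := lin_pre volume (f := sh e w h l) (by rw [sh_det he hl hw.ne']; positivity) S
  rwa [sh_det he hl hw.ne'] at this

lemma vol_img {e l : E d} (he : ‖e‖ = 1) (hl : ⟪e, l⟫ = (0 : ℝ)) {w h : ℝ} (hw : 0 < w)
    (hh : 0 < h) (S : Set (E d)) : volume (sh e w h l '' S) = DD d w h * volume S := by
  rw [Measure.addHaar_image_linearMap, sh_det he hl hw.ne', abs_of_pos (by positivity), DD]

lemma bb_lin {f : E d →ₗ[ℝ] E d} (hf : 0 < LinearMap.det f) (F : Set (E d)) {r s : ℝ}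
    (hrs : ∀ y ∈ ball (0 : E d) r, f y ∈ ball (0 : E d) s) :
    ENNReal.ofReal (LinearMap.det f) * ENNReal.ofReal (LinearMap.det f) * bb (f ⁻¹' F) r ≤
      bb F s := by
  have : (volume : Measure (E d × E d)).IsAddHaarMeasure := by
    rw [Measure.volume_eq_prod]; infer_instance
  have h := lin_pre (volume : Measure (E d × E d)) (f := f.prodMap f)
    (by rw [LinearMap.det_prodMap]; positivity) (Bad F ∩ ball (0 : E d) s ×ˢ ball (0 : E d) s)
  rw [LinearMap.det_prodMap, ENNReal.ofReal_mul hf.le] at h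
  rw [bb, bb, h]
  gcongr
  rintro ⟨z, v⟩ ⟨h1, h2, h3⟩
  refine ⟨?_, hrs _ h2, hrs _ h3⟩
  simpa [Bad] using h1

lemma bb_pre {e l : E d} (he : ‖e‖ = 1) (hl : ⟪e, l⟫ = (0 : ℝ)) (hl1 : ‖l‖ ≤ 1) {w h : ℝ}
    (hw : 0 < w) (hh : 0 < h) (hhw : h ≤ w) (F : Set (E d)) :
    DD d w h * bb (sh e w h l ⁻¹' F) 4 ≤ (DD d w h)⁻¹ * bb F (12 * w) := by
  have := bb_lin (f := sh e w h l) (by rw [sh_det he hl hw.ne']; positivity) F (r := 4)
    (s := 12 * w) (by
      intro y hy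
      rw [mem_ball_zero_iff] at hy ⊢
      refine (sh_norm he hw.le hh.le l y).trans_lt ?_
      have h1 : w + h + w * ‖l‖ ≤ 3 * w := by nlinarith
      have h2 : 0 < w + h + w * ‖l‖ := by positivity
      nlinarith)
  rw [sh_det he hl hw.ne'] at this
  change DD d w h * DD d w h * _ ≤ _ at this
  calc _ = (DD d w h)⁻¹ * (DD d w h * DD d w h * bb (sh e w h l ⁻¹' F) 4) := by
        rw [mul_assoc, ← mul_assoc, ENNReal.inv_mul_cancel (DD_ne_zero hw hh) (DD_ne_top _ _),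
          one_mul]
    _ ≤ _ := by gcongr

lemma sh_meas (e : E d) (w h : ℝ) (l : E d) : Measurable (sh e w h l) :=
  (sh e w h l).continuous_of_finiteDimensional.measurable

end Vale.Agent.P137
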