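import Vale.Agent.P137.Defs

open MeasureTheory Metric Set
open scoped ENNReal NNReal

namespace Vale.Agent.P137

abbrev E (d : ℕ) := EuclideanSpace ℝ (Fin d)

variable {d : ℕ}

/-- pairs (midpoint z, half step v) where the ends z + v, z - v have the same colour and
z has the other colour -/
def Bad (F : Set (E d)) : Set (E d × E d) :=
  {p | (p.1 + p.2 ∈ F ↔ p.1 - p.2 ∈ F) ∧ ¬ (p.1 ∈ F ↔ p.1 + p.2 ∈ F)}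

noncomputable def bb (F : Set (E d)) (r : ℝ) : ℝ≥0∞ :=
  volume (Bad F ∩ ball (0 : E d) r ×ˢ ball (0 : E d) r)

/-- average over a ball -/
noncomputable def av (g : E d → ℝ) (c : E d) (r : ℝ) : ℝ :=
  (∫ y in ball c r, g y) / (volume (ball c r)).toReal

/-- truncated uncentered maximal function (closed containment, radii at least `δ`) -/
noncomputable def uu (g : E d → ℝ) (δ : ℝ) (x : E d) : ℝ :=
  sSup {a | ∃ c r, δ ≤ r ∧ ‖c - x‖ ≤ r ∧ a = av g c r}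

/-- translation bound -/
def Tb (g : E d → ℝ) (V : ℝ≥0∞) : Prop :=
  ∀ h : E d, ∫⁻ x, ‖g (x + h) - g x‖ₑ ≤ ‖h‖ₑ * V

/-- Module T -/
def TrStmt (d : ℕ) : Prop :=
  ∀ (f : E d → ℝ) (G : E d → E d), LocallyIntegrable f → Integrable G → WGrad f G →
    Tb f (∫⁻ x, ‖G x‖ₑ)

/-- Module S -/
def StabStmt (d : ℕ) : Prop :=
  ∀ ε : ℝ≥0∞, 0 < ε → ∃ c0 : ℝ≥0∞, 0 < c0 ∧ ∀ F : Set (E d), MeasurableSet F → bb F 4 ≤ c0 →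
    ∃ (ν : E d) (t : ℝ), ‖ν‖ = 1 ∧
      volume (F ∩ ball 0 1 ∩ {y | t < inner ℝ y ν}) ≤ ε ∧
      volume (Fᶜ ∩ ball 0 1 ∩ {y | inner ℝ y ν < t}) ≤ ε

/-- Module U -/
def UStmt (d : ℕ) : Prop :=
  ∀ (g : E d → ℝ) (V : ℝ≥0∞) (δ : ℝ), Integrable g → (∀ x, 0 ≤ g x) → V ≠ ∞ → Tb g V → 0 < δ →
    (∃ K : ℝ≥0, LipschitzWith K (uu g δ)) ∧
    (∀ x c r, δ ≤ r → ‖c - x‖ ≤ r → av g c r ≤ uu g δ x) ∧
    (∀ x, 0 ≤ uu g δ x) ∧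
    (∀ x, 0 < uu g δ x → ∃ c r, δ ≤ r ∧ ‖c - x‖ ≤ r ∧ uu g δ x = av g c r)

/-- Module G (helper16) -/
def GradStmt (d : ℕ) : Prop :=
  ∃ C : ℝ≥0, ∀ (g : E d → ℝ) (V : ℝ≥0∞), Measurable g → Integrable g → (∀ x, 0 ≤ g x) →
    V ≠ ∞ → Tb g V →
    (∀ δ, 0 < δ → ∫⁻ x, ‖fderiv ℝ (uu g δ) x‖ₑ ≤ C * V) ∧
    (∀ ε : ℝ≥0∞, 0 < ε → ∃ δ0, 0 < δ0 ∧ ∀ δ δ', 0 < δ' → δ' ≤ δ → δ ≤ δ0 →
      ∫⁻ x in {x | uu g δ x < uu g δ' x}, ‖fderiv ℝ (uu g δ') x‖ₑ ≤ ε)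

/-- Module F: the target -/
def FinStmt (d : ℕ) : Prop :=
  ∃ C : ℝ, ∀ (f : E d → ℝ) (G : E d → E d), Integrable f → Integrable G → WGrad f G →
    (∀ᵐ x, Mu f x < ∞) ∧ LocallyIntegrable (fun x => (Mu f x).toReal) ∧
    ∃ H : E d → E d, Integrable H ∧ WGrad (fun x => (Mu f x).toReal) H ∧
      ∫ x, ‖H x‖ ≤ C * ∫ x, ‖G x‖

end Vale.Agent.P137
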