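import Vale.Agent.P137.Base

/-! Module S: few bad midpoint triples force a set to be close to a half space. -/

open MeasureTheory Metric Set Filter Topology
open scoped ENNReal NNReal

namespace Vale.Agent.P137

namespace St

variable {d : ℕ}

/-- pairs `(z, v)` with a colour change between `z` and `z + v` -/
def Ch (F : Set (E d)) (r : ℝ) : Set (E d × E d) :=
  {p | p.1 ∈ ball (0 : E d) r ∧ ¬ (p.1 ∈ F ↔ p.1 + p.2 ∈ F)}

lemma ch_meas {F : Set (E d)} (hF : MeasurableSet F) (r : ℝ) : MeasurableSet (Ch F r) :=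
  (measurable_fst measurableSet_ball).inter (MeasurableSet.compl (measurableSet_setOfPred.2
    ((measurable_mem.2 hF |>.comp measurable_fst).iff
      (measurable_mem.2 hF |>.comp (measurable_fst.add measurable_snd)))))

noncomputable def D (F : Set (E d)) (r : ℝ) (v : E d) : ℝ≥0∞ := volume {z | (z, v) ∈ Ch F r}

noncomputable def J (F : Set (E d)) (r s : ℝ) : ℝ≥0∞ := ∫⁻ v in ball (0 : E d) s, D F r v

variable {F : Set (E d)}

lemma D_meas (hF : MeasurableSet F) (r : ℝ) : Measurable (D F r) :=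
  measurable_measure_prodMk_right (ch_meas hF r)

lemma vadd (z : E d) (A : Set (E d)) : volume {v | v + z ∈ A} = volume A :=
  measure_preimage_add_right volume z A

lemma D_step (hF : MeasurableSet F) {r s : ℝ} {v : E d} (hv : v ∈ ball (0 : E d) s) (h1 : r + s ≤ 4)
    (h2 : s ≤ 4) : 2 * D F r v ≤ D F (r + 2 * s) ((2 : ℝ) • v) +
      2 * volume {z | (z, v) ∈ Bad F ∩ ball (0 : E d) 4 ×ˢ ball (0 : E d) 4} := by
  have v4 := ball_subset_ball h2 hv
  rw [mem_ball_zero_iff] at hv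
  let A1 : Set (E d) := {z | z ∈ ball (0 : E d) (r + s) ∧ ¬ (z - v ∈ F ↔ z ∈ F)}
  let A2 : Set (E d) := {z | (z, v) ∈ Ch F (r + s)}
  have a1 : D F r v ≤ volume A1 := by
    rw [← vadd v A1]
    refine measure_mono fun z hz => ⟨mem_ball_zero_iff.2 ((norm_add_le _ _).trans_lt
      (add_lt_add (mem_ball_zero_iff.1 hz.1) hv)), ?_⟩
    rw [add_sub_cancel_right]; exact hz.2
  have a2 : D F r v ≤ volume A2 := measure_mono fun z hz =>
    ⟨ball_subset_ball (by linarith [norm_nonneg v]) hz.1, hz.2⟩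
  have a3 : A1 ∩ A2 ⊆ {z | (z, v) ∈ Bad F ∩ ball (0 : E d) 4 ×ˢ ball (0 : E d) 4} :=
    fun z ⟨⟨b1, b2⟩, _, b3⟩ => ⟨⟨by tauto, b3⟩, ball_subset_ball h1 b1, v4⟩
  have a4 : A1 ∪ A2 ⊆ {z | z + -v ∈ {y | (y, (2 : ℝ) • v) ∈ Ch F (r + 2 * s)}} ∪
      {z | (z, v) ∈ Bad F ∩ ball (0 : E d) 4 ×ˢ ball (0 : E d) 4} := fun z hz => by
    have b1 : z ∈ ball (0 : E d) (r + s) := hz.elim And.left And.left
    by_cases b : z + v ∈ F ↔ z - v ∈ F
    · exact .inr ⟨⟨b, hz.elim (fun h h' => h.2 (h'.trans b).symm) And.right⟩,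
        ball_subset_ball h1 b1, v4⟩
    · refine .inl ⟨mem_ball_zero_iff.2 ((norm_add_le _ _).trans_lt ?_), ?_⟩
      · rw [norm_neg]; linarith [mem_ball_zero_iff.1 b1]
      · rw [show z + -v + (2 : ℝ) • v = z + v by module, ← sub_eq_add_neg]
        exact fun h => b h.symm
  calc 2 * D F r v ≤ volume A1 + volume A2 := by rw [two_mul]; gcongr
    _ = volume (A1 ∪ A2) + volume (A1 ∩ A2) :=
      (measure_union_add_inter _ (measurable_prodMk_right (ch_meas hF _))).symm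
    _ ≤ _ := by
      rw [two_mul (volume _), ← add_assoc]
      refine add_le_add ((measure_mono a4).trans ((measure_union_le _ _).trans_eq ?_))
        (measure_mono a3)
      rw [vadd]; rfl

lemma vb (a : ℕ) (a0 : 0 < a) (s : ℝ) :
    volume (ball (0 : E d) (a * s)) = a ^ d * volume (ball (0 : E d) s) := by
  rw [Measure.addHaar_ball_mul_of_pos _ _ (by positivity), finrank_euclideanSpace_fin,
    ENNReal.ofReal_pow (by positivity), ENNReal.ofReal_natCast]

lemma J_step (hF : MeasurableSet F) {r s : ℝ} (h1 : r + s ≤ 4) (h2 : s ≤ 4) :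
    2 * J F r s ≤ (2 ^ d)⁻¹ * J F (r + 2 * s) (2 * s) + 2 * bb F 4 := by
  have hS : MeasurableSet (Bad F ∩ ball (0 : E d) 4 ×ˢ ball (0 : E d) 4) :=
    (bad_meas hF).inter (measurableSet_ball.prod measurableSet_ball)
  have m2 : Measurable fun v : E d => (2 : ℝ) • v := measurable_const_smul _
  rw [J, ← lintegral_const_mul _ (D_meas hF r)]
  refine (setLIntegral_mono' measurableSet_ball fun v hv => D_step hF hv h1 h2).trans ?_
  rw [lintegral_add_left (f := fun v => D F (r + 2 * s) ((2 : ℝ) • v)) ((D_meas hF _).comp m2),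
    lintegral_const_mul' _ _ (by simp)]
  refine add_le_add (le_of_eq ?_) (mul_le_mul_right ((setLIntegral_le_lintegral _ _).trans_eq
    (by rw [bb, Measure.volume_eq_prod, Measure.prod_apply_symm hS]; rfl)) _)
  have := setLIntegral_map (μ := volume) (s := ball (0 : E d) (2 * s)) measurableSet_ball
    (D_meas hF (r + 2 * s)) m2
  rw [Measure.map_addHaar_smul _ two_ne_zero, Measure.restrict_smul, lintegral_smul_measure,
    finrank_euclideanSpace_fin, abs_of_pos (by positivity), ENNReal.ofReal_inv_of_pos (by positivity),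
    ENNReal.ofReal_pow zero_le_two, ENNReal.ofReal_ofNat, smul_eq_mul] at this
  rw [J, this]
  congr 2
  ext v
  simp [norm_smul]

lemma J_iter (hF : MeasurableSet F) (k : ℕ) : ∀ r s : ℝ, 0 ≤ r → 0 ≤ s →
    r + (2 ^ (k + 1) - 2) * s ≤ 4 → 2 ^ k * J F r s ≤
      volume (ball (0 : E d) 4) * volume (ball (0 : E d) s) + k * 2 ^ k * bb F 4 := by
  induction k with
  | zero =>
    intro r s _ _ h
    rw [← setLIntegral_const, pow_zero, one_mul]
    exact le_add_right (lintegral_mono fun v => measure_mono fun z hz =>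
      ball_subset_ball (by simpa using h) hz.1)
  | succ k ih =>
    intro r s r0 s0 h
    have p : (1 : ℝ) ≤ 2 ^ k := one_le_pow₀ one_le_two
    rw [pow_succ, pow_succ] at h
    have a := ih (r + 2 * s) (2 * s) (by positivity) (by positivity) (by rw [pow_succ]; linarith)
    have e := vb (d := d) 2 two_pos s
    rw [Nat.cast_ofNat, Nat.cast_ofNat] at e
    have c1 : (2 ^ d : ℝ≥0∞)⁻¹ ≤ 1 := ENNReal.inv_le_one.2 (one_le_pow₀ one_le_two)
    calc 2 ^ (k + 1) * J F r s = 2 ^ k * (2 * J F r s) := by ring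
      _ ≤ 2 ^ k * ((2 ^ d)⁻¹ * J F (r + 2 * s) (2 * s) + 2 * bb F 4) := by
        gcongr; exact J_step hF (by nlinarith) (by nlinarith)
      _ = (2 ^ d)⁻¹ * (2 ^ k * J F (r + 2 * s) (2 * s)) + 2 ^ (k + 1) * bb F 4 := by ring
      _ ≤ (2 ^ d)⁻¹ * (volume (ball (0 : E d) 4) * (2 ^ d * volume (ball (0 : E d) s)) +
          k * 2 ^ k * bb F 4) + 2 ^ (k + 1) * bb F 4 := by rw [← e]; gcongr
      _ = (2 ^ d)⁻¹ * 2 ^ d * (volume (ball (0 : E d) 4) * volume (ball (0 : E d) s)) +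
          (2 ^ d)⁻¹ * (k * 2 ^ k * bb F 4) + 2 ^ (k + 1) * bb F 4 := by ring
      _ ≤ 1 * (volume (ball (0 : E d) 4) * volume (ball (0 : E d) s)) +
          2 * (k * 2 ^ k * bb F 4) + 2 ^ (k + 1) * bb F 4 := by
        gcongr
        exacts [ENNReal.inv_mul_le_one _, c1.trans one_le_two]
      _ = _ := by push_cast; ring

lemma vpos (z : E d) {r : ℝ} (r0 : 0 < r) : 0 < volume (ball z r) := measure_ball_pos _ _ r0

lemma pure : ∃ σ : ℝ, 0 < σ ∧ ∃ C κ : ℝ≥0∞, C ≠ ∞ ∧ 0 < κ ∧ ∀ F : Set (E d), MeasurableSet F →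
    C * bb F 4 < κ → ∃ z ∈ ball (0 : E d) 1,
      volume (F ∩ ball z σ) * volume (ball (0 : E d) σ) ≤ 2 * bb F 4 ∨
      volume (Fᶜ ∩ ball z σ) * volume (ball (0 : E d) σ) ≤ 2 * bb F 4 := by
  obtain ⟨σ, hσ⟩ : ∃ σ : ℝ, σ = (2 ^ (3 * d + 3 + 1))⁻¹ := ⟨_, rfl⟩
  have σ0 : 0 < σ := hσ ▸ by positivity
  have σ1 : 2 ^ (3 * d + 3 + 1) * σ = 1 := hσ ▸ mul_inv_cancel₀ (by positivity)
  have σ2 : σ ≤ 1 := hσ ▸ inv_le_one_of_one_le₀ (one_le_pow₀ one_le_two)
  refine ⟨σ, σ0, (3 * d + 3 : ℕ) * 2 ^ (3 * d + 3), 8 ^ d * (volume (ball (0 : E d) 1) *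
    volume (ball (0 : E d) σ)), by finiteness, by
      have := vpos (0 : E d) one_pos; have := vpos (0 : E d) σ0; positivity, fun F hF h => ?_⟩
  have k : ∀ G : Set (E d), MeasurableSet G → ∀ z ∈ ball (0 : E d) 1,
      4 * volume (G ∩ ball z (2 * σ)) ≤ volume (ball (0 : E d) σ) →
      volume (G ∩ ball z σ) * volume (ball (0 : E d) σ) ≤ 2 * bb G 4 := fun G hG z hz h =>
    l1 hG measurableSet_ball (fun y hy v hv => by
      rw [mem_ball_iff_norm] at *
      rw [show y + v - z = y - z + (v - 0) by abel]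
      exact (norm_add_le _ _).trans_lt (by linarith)) h
      (ball_subset_ball' (by linarith [mem_ball.1 hz])) (by linarith)
  by_contra hc
  push Not at hc
  have hT : MeasurableSet (Ch F 1 ∩ {p | p.2 ∈ ball (0 : E d) (2 * σ)}) :=
    (ch_meas hF 1).inter (measurable_snd measurableSet_ball)
  have a := slice_le hT measurableSet_ball (c := volume (ball (0 : E d) σ) / 4)
    (A := ball 0 1) fun z hz => by
      rw [ENNReal.div_le_iff' (by simp) (by simp)]
      have m : ∀ v, z + v ∈ ball z (2 * σ) ↔ v ∈ ball (0 : E d) (2 * σ) := fun v => by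
        simp
      by_cases zF : z ∈ F
      · refine (not_le.1 fun h => (hc z hz).2.not_ge (bb_compl F 4 ▸ k _ hF.compl z hz h)).le.trans ?_
        rw [← vol_add z]
        refine mul_le_mul_right (measure_mono fun v hv => ?_) _
        exact ⟨⟨hz, fun h => hv.1 (h.1 zF)⟩, (m v).1 hv.2⟩
      · refine (not_le.1 fun h => (hc z hz).1.not_ge (k _ hF z hz h)).le.trans ?_
        rw [← vol_add z]
        refine mul_le_mul_right (measure_mono fun v hv => ?_) _
        exact ⟨⟨hz, fun h => zF (h.2 hv.1)⟩, (m v).1 hv.2⟩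
  have e : volume (Ch F 1 ∩ {p | p.2 ∈ ball (0 : E d) (2 * σ)}) = J F 1 (2 * σ) := by
    rw [Measure.volume_eq_prod, Measure.prod_apply_symm hT, J,
      ← lintegral_indicator measurableSet_ball]
    refine lintegral_congr fun v => ?_
    by_cases hv : v ∈ ball (0 : E d) (2 * σ)
    · rw [indicator_of_mem hv, D]; congr 1; ext z; exact and_iff_left hv
    · rw [indicator_of_notMem hv]
      exact measure_mono_null (fun z hz => hv hz.2) measure_empty
  have b := J_iter hF (3 * d + 3) 1 (2 * σ) zero_le_one (by positivity) (by nlinarith)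
  have e1 := vb (d := d) 2 two_pos σ
  have e2 := vb (d := d) 4 four_pos 1
  rw [Nat.cast_ofNat, Nat.cast_ofNat] at e1 e2
  rw [mul_one] at e2
  rw [← e, e1, e2] at b
  have c := ((mul_le_mul_right a _).trans b).trans_lt
    (ENNReal.add_lt_add_left (by finiteness) h)
  refine c.ne ?_
  have e3 : (4 : ℝ≥0∞) * 4⁻¹ = 1 := ENNReal.mul_inv_cancel (by simp) (by simp)
  have e4 : (8 : ℝ≥0∞) ^ d = 4 ^ d * 2 ^ d := by rw [← mul_pow]; norm_num
  calc _ = (4 * 4⁻¹) * 2 * (2 ^ 3) ^ d * (volume (ball (0 : E d) 1) *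
      volume (ball (0 : E d) σ)) := by rw [div_eq_mul_inv, pow_add, pow_mul]; ring
    _ = _ := by rw [e3, show (2 : ℝ≥0∞) ^ 3 = 8 by norm_num, e4]; ring

lemma conv {K : Set (E d)} (hK : IsClosed K) (h : ∀ a ∈ K, ∀ c ∈ K, (2 : ℝ)⁻¹ • (a + c) ∈ K) :
    Convex ℝ K := by
  refine convex_iff_segment_subset.2 fun x hx y hy => ?_
  rw [segment_eq_image']
  rintro _ ⟨t, ht, rfl⟩
  have k : ∀ k : ℕ, ∃ a : ℝ, a ≤ t ∧ t ≤ a + 2⁻¹ ^ k ∧ x + a • (y - x) ∈ K ∧
      x + (a + 2⁻¹ ^ k) • (y - x) ∈ K := fun k => by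
    induction k with
    | zero => exact ⟨0, ht.1, by simpa using ht.2, by simpa, by simpa⟩
    | succ k ih =>
      obtain ⟨a, a1, a2, a3, a4⟩ := ih
      have m : x + (a + 2⁻¹ ^ (k + 1)) • (y - x) ∈ K := by
        have := h _ a3 _ a4
        rwa [show (2 : ℝ)⁻¹ • (x + a • (y - x) + (x + (a + 2⁻¹ ^ k) • (y - x))) =
          x + (a + 2⁻¹ ^ (k + 1)) • (y - x) by rw [pow_succ]; module] at this
      have e : a + 2⁻¹ ^ (k + 1) + 2⁻¹ ^ (k + 1) = a + 2⁻¹ ^ k := by ring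
      rcases le_total t (a + 2⁻¹ ^ (k + 1)) with b | b
      exacts [⟨a, a1, b, a3, m⟩, ⟨_, b, e ▸ a2, m, e ▸ a4⟩]
  choose a a1 a2 a3 _ using k
  have l : Tendsto a atTop (𝓝 t) := tendsto_of_tendsto_of_tendsto_of_le_of_le
    (by simpa using (tendsto_pow_atTop_nhds_zero_of_lt_one (r := (2 : ℝ)⁻¹) (by norm_num)
      (by norm_num)).const_sub t) tendsto_const_nhds (fun k => sub_le_iff_le_add.2 (a2 k)) a1
  exact hK.mem_of_tendsto ((l.smul_const _).const_add x) (.of_forall a3)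

section geo
variable {X Y : Set (E d)}

/-- the midpoint rule -/
def Mid (X Y : Set (E d)) : Prop :=
  ∀ c ∈ Y, ∀ a ∈ ball (0 : E d) 2, a ∉ X → (2 : ℝ)⁻¹ • (a + c) ∈ Y

lemma Mid.cl (h : Mid X Y) (hY : Y.Nonempty) {a : E d} (ha : a ∈ ball (0 : E d) 2) (aX : a ∉ X) :
    a ∈ closure Y := by
  obtain ⟨c, hc⟩ := hY
  have k : ∀ k : ℕ, a + (2 : ℝ)⁻¹ ^ k • (c - a) ∈ Y := fun k => by
    induction k with
    | zero => simpa
    | succ k ih =>
      have := h _ ih a ha aX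
      rwa [show (2 : ℝ)⁻¹ • (a + (a + (2 : ℝ)⁻¹ ^ k • (c - a))) = a + (2 : ℝ)⁻¹ ^ (k + 1) • (c - a) by
        rw [pow_succ]; module] at this
  refine mem_closure_of_tendsto (b := atTop) ?_ (.of_forall k)
  simpa using ((tendsto_pow_atTop_nhds_zero_of_lt_one (r := (2 : ℝ)⁻¹) (by norm_num)
    (by norm_num)).smul_const (c - a)).const_add a

lemma Mid.conv (h : Mid X Y) (hB : Y ⊆ ball 0 2) (hd : Disjoint X Y) : Convex ℝ (closure Y) :=
  St.conv isClosed_closure fun _ ha _ hc => map_mem_closure₂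
    (f := fun a c : E d => (2 : ℝ)⁻¹ • (a + c)) (by fun_prop) ha hc fun a ha c hc =>
      h c hc a (hB ha) (disjoint_right.1 hd ha)

lemma Mid.all (h : Mid ∅ Y) (hY : Y.Nonempty) : ball (0 : E d) 2 ⊆ Y := fun p hp => by
  have o : IsOpen {c : E d | (2 : ℝ) • p - c ∈ ball (0 : E d) 2} :=
    isOpen_ball.preimage (by fun_prop)
  obtain ⟨c, c1, c2⟩ := mem_closure_iff.1 (h.cl hY hp id) _ o (by
    rwa [mem_ofPred_eq, two_smul, add_sub_cancel_right])
  have := h c c2 _ c1 id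
  rwa [sub_add_cancel, smul_smul, inv_mul_cancel₀ two_ne_zero, one_smul] at this

lemma geo (hd : 1 ≤ d) (oX : IsOpen X) (oY : IsOpen Y) (bX : X ⊆ ball 0 2) (bY : Y ⊆ ball 0 2)
    (dj : Disjoint X Y) (h1 : Mid X Y) (h2 : Mid Y X) (ne : X.Nonempty ∨ Y.Nonempty) :
    ∃ (ν : E d) (t : ℝ), ‖ν‖ = 1 ∧ ball 0 2 ∩ {y | t < inner ℝ y ν} ⊆ X ∧
      ball 0 2 ∩ {y | inner ℝ y ν < t} ⊆ Y := by
  have n1 : ‖(EuclideanSpace.single ⟨0, hd⟩ 1 : E d)‖ = 1 := by simp
  have b : ∀ y ∈ ball (0 : E d) 2, |inner ℝ y (EuclideanSpace.single ⟨0, hd⟩ 1 : E d)| < 2 :=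
    fun y hy => (abs_real_inner_le_norm _ _).trans_lt (by simpa [n1] using hy)
  rcases X.eq_empty_or_nonempty with rfl | nX
  · exact ⟨_, 2, n1, fun y hy => (abs_lt.1 (b y hy.1)).2.not_gt hy.2,
      inter_subset_left.trans (h1.all (by simpa using ne))⟩
  rcases Y.eq_empty_or_nonempty with rfl | nY
  · exact ⟨_, -2, n1, inter_subset_left.trans (h2.all nX),
      fun y hy => (abs_lt.1 (b y hy.1)).1.not_gt hy.2⟩
  obtain ⟨f, u, f1, f2⟩ := geometric_hahn_banach_open (h2.conv bX dj.symm).interior isOpen_interior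
    (h1.conv bY dj) (((dj.closure_left oY).mono_left interior_subset).closure_right isOpen_interior)
  have f3 : ∀ a ∈ X, f a < u := fun a ha => f1 a (interior_maximal subset_closure oX ha)
  obtain ⟨w, hw⟩ : ∃ w : E d, ∀ y, inner ℝ y w = f y :=
    ⟨(InnerProductSpace.toDual ℝ _).symm f, fun y => by
      rw [real_inner_comm, InnerProductSpace.toDual_symm_apply]⟩
  have w0 : 0 < ‖w‖ := norm_pos_iff.2 fun e => by
    have a1 := f3 _ nX.some_mem
    have a2 := f2 _ (subset_closure nY.some_mem)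
    rw [← hw, e, inner_zero_right] at a1 a2
    linarith
  have e : ∀ y, inner ℝ y (-‖w‖⁻¹ • w) = -‖w‖⁻¹ * f y := fun y => by rw [inner_smul_right, hw]
  have i := inv_pos.2 w0
  refine ⟨-‖w‖⁻¹ • w, -‖w‖⁻¹ * u, by simp [norm_smul, w0.ne'], fun y hy => ?_, fun y hy => ?_⟩
  · by_contra hc
    have a1 := f2 y (h1.cl nY hy.1 hc)
    have a2 := hy.2
    rw [mem_ofPred_eq, e] at a2
    nlinarith
  · by_contra hc
    have a1 : f y ≤ u := closure_minimal (t := {y | f y ≤ u}) (fun a ha => (f3 a ha).le)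
      (isClosed_le f.continuous continuous_const) (h2.cl nX hy.1 hc)
    have a2 := hy.2
    rw [mem_ofPred_eq, e] at a2
    nlinarith

end geo

/-- asymptotically null sequence of sets -/
def Nu (S : ℕ → Set (E d)) : Prop := Tendsto (fun n => volume (S n)) (hyperfilter ℕ) (𝓝 0)

lemma Nu.mono {S T : ℕ → Set (E d)} (h : Nu T) (h' : ∀ n, S n ⊆ T n) : Nu S :=
  tendsto_of_tendsto_of_tendsto_of_le_of_le tendsto_const_nhds h (fun _ => zero_le)
    fun n => measure_mono (h' n)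

lemma Nu.union {S T : ℕ → Set (E d)} (h : Nu S) (h' : Nu T) : Nu fun n => S n ∪ T n :=
  tendsto_of_tendsto_of_tendsto_of_le_of_le tendsto_const_nhds (by simpa using h.add h')
    (fun _ => zero_le) fun n => measure_union_le _ _

lemma nu_of {S : ℕ → Set (E d)} {b : ℕ → ℝ≥0∞} {c : ℝ≥0∞} (c0 : 0 < c) (c1 : c ≠ ∞)
    (hb : Tendsto b (hyperfilter ℕ) (𝓝 0)) (h : ∀ᶠ n in hyperfilter ℕ, volume (S n) * c ≤ b n) :
    Nu S :=
  tendsto_of_tendsto_of_tendsto_of_le_of_le' tendsto_const_nhds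
    (by simpa using ENNReal.Tendsto.div_const hb (.inr c0.ne')) (.of_forall fun _ => zero_le)
    (h.mono fun n hn => (ENNReal.le_div_iff_mul_le (.inl c0.ne') (.inl c1)).2 hn)

/-- points near which `F n` is asymptotically null -/
def XX (F : ℕ → Set (E d)) : Set (E d) :=
  {y | y ∈ ball (0 : E d) 2 ∧ ∃ r > 0, Nu fun n => F n ∩ ball y r}

variable {G : ℕ → Set (E d)}

lemma XX_open : IsOpen (XX G) := isOpen_iff_mem_nhds.2 fun y ⟨h1, r, r0, h2⟩ => by
  filter_upwards [isOpen_ball.mem_nhds h1, ball_mem_nhds y (half_pos r0)] with z z1 z2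
  exact ⟨z1, r / 2, half_pos r0, h2.mono fun n => inter_subset_inter_right _
    (ball_subset_ball' (by linarith [mem_ball.1 z2]))⟩

lemma XX_disj : Disjoint (XX G) (XX fun n => (G n)ᶜ) :=
  disjoint_left.2 fun y ⟨_, r, r0, h⟩ ⟨_, s, s0, h'⟩ => by
    have : Nu fun _ => ball y (min r s) := (h.union h').mono fun n z hz => by
      by_cases e : z ∈ G n
      exacts [.inl ⟨e, ball_subset_ball (min_le_left _ _) hz⟩,
        .inr ⟨e, ball_subset_ball (min_le_right _ _) hz⟩]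
    exact (vpos y (lt_min r0 s0)).ne' (tendsto_nhds_unique tendsto_const_nhds this)

lemma XX_mid (hG : ∀ n, MeasurableSet (G n))
    (hb : Tendsto (fun n => bb (G n) 4) (hyperfilter ℕ) (𝓝 0)) :
    Mid (XX G) (XX fun n => (G n)ᶜ) := by
  rintro c ⟨c2, r, r0, hc⟩ a a2 ha
  obtain ⟨ρ, ρ0, ρ1, ρ2⟩ : ∃ ρ : ℝ, 0 < ρ ∧ ρ ≤ 1 ∧ 3 * ρ ≤ r :=
    ⟨min 1 (r / 3), by positivity, min_le_left _ _, by linarith [min_le_right 1 (r / 3)]⟩
  have m2 : (2 : ℝ)⁻¹ • (a + c) ∈ ball (0 : E d) 2 := by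
    rw [smul_add]; exact convex_ball _ _ a2 c2 (by norm_num) (by norm_num) (by norm_num)
  obtain ⟨η, η0, hη⟩ : ∃ η > 0, ∀ᶠ n in hyperfilter ℕ, η ≤ volume (G n ∩ ball a ρ) := by
    by_contra h
    push Not at h
    exact ha ⟨a2, ρ, ρ0, ENNReal.tendsto_nhds_zero.2 fun ε ε0 =>
      (h ε ε0).mono fun n hn => hn.le⟩
  obtain ⟨θ, θ0, θ1, θ2⟩ : ∃ θ : ℝ≥0∞, 0 < θ ∧ θ ≠ ∞ ∧ θ + θ ≤ η :=
    ⟨min 1 (η / 2), lt_min one_pos (ENNReal.half_pos η0.ne'),
      ne_top_of_le_ne_top ENNReal.one_ne_top (min_le_left _ _),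
      (add_le_add (min_le_right _ _) (min_le_right _ _)).trans_eq (ENNReal.add_halves η)⟩
  refine ⟨m2, ρ, ρ0, nu_of θ0 θ1 hb ?_⟩
  filter_upwards [hη, ENNReal.tendsto_nhds_zero.1 hc θ θ0] with n h1 h2
  refine slice_le ((bad_meas (hG n)).inter (measurableSet_ball.prod measurableSet_ball))
    ((hG n).compl.inter measurableSet_ball) fun z hz => ?_
  rw [← ENNReal.add_le_add_iff_right θ1]
  refine (θ2.trans h1).trans (le_trans ?_ (add_le_add_right h2 _))
  rw [← vol_add z, ← vol_sub z ((G n)ᶜ ∩ _)]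
  refine (measure_mono fun v hv => ?_).trans (measure_union_le _ _)
  have z1 := mem_ball_iff_norm.1 hz.2
  have z2 := mem_ball_iff_norm.1 hv.2
  by_cases e : z - v ∈ G n
  · refine .inl ⟨⟨iff_of_true hv.1 e, fun h => hz.1 (h.2 hv.1)⟩,
      ball_subset_ball' (by linarith [mem_ball.1 m2]) hz.2, mem_ball_zero_iff.2 ?_⟩
    have b : ‖(2 : ℝ)⁻¹ • (a - c)‖ < 2 := by
      rw [norm_smul, norm_inv, Real.norm_two]
      linarith [norm_sub_le a c, mem_ball_zero_iff.1 a2, mem_ball_zero_iff.1 c2]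
    rw [show v = z + v - a - (z - (2 : ℝ)⁻¹ • (a + c)) + (2 : ℝ)⁻¹ • (a - c) by module]
    exact (norm_add_le_of_le (norm_sub_le _ _) le_rfl).trans_lt (by linarith)
  · refine .inr ⟨e, mem_ball_iff_norm.2 ?_⟩
    rw [show z - v - c = (z - (2 : ℝ)⁻¹ • (a + c)) + (z - (2 : ℝ)⁻¹ • (a + c)) - (z + v - a) by module]
    exact (norm_sub_le_of_le (norm_add_le _ _) le_rfl).trans_lt (by linarith)

lemma XX_ne (hG : ∀ n, MeasurableSet (G n))
    (hb : Tendsto (fun n => bb (G n) 4) (hyperfilter ℕ) (𝓝 0)) :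
    (XX G).Nonempty ∨ (XX fun n => (G n)ᶜ).Nonempty := by
  obtain ⟨σ, σ0, C, κ, C1, κ0, h⟩ := pure (d := d)
  have e : ∀ᶠ n in hyperfilter ℕ, C * bb (G n) 4 < κ :=
    (by simpa using ENNReal.Tendsto.const_mul hb (.inr C1) :
      Tendsto (fun n => C * bb (G n) 4) _ (𝓝 0)).eventually_lt_const κ0
  choose! z z1 z2 using fun n => h (G n) (hG n)
  obtain ⟨p, p1, p2⟩ := (isCompact_closedBall (0 : E d) 1).ultrafilter_le_nhds
    ((hyperfilter ℕ).map z) (le_principal_iff.2 (e.mono fun n hn => ball_subset_closedBall (z1 n hn)))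
  have p3 : p ∈ ball (0 : E d) 2 := closedBall_subset_ball one_lt_two p1
  have k : ∀ S : ℕ → Set (E d), (∀ᶠ n in hyperfilter ℕ, volume (S n ∩ ball (z n) σ) *
      volume (ball (0 : E d) σ) ≤ 2 * bb (G n) 4) → p ∈ XX S := fun S hS =>
    ⟨p3, σ / 2, half_pos σ0, nu_of (vpos 0 σ0) measure_ball_lt_top.ne
      (by simpa using ENNReal.Tendsto.const_mul (a := 2) hb (.inr (by simp))) (by
        filter_upwards [hS, p2 (ball_mem_nhds p (half_pos σ0))] with n h1 h2
        exact (mul_le_mul_left (measure_mono (inter_subset_inter_right _ (ball_subset_ball'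
          (by linarith [mem_ball'.1 h2])))) _).trans h1)⟩
  exact (Ultrafilter.eventually_or.1 (e.mono z2)).imp (fun h => ⟨p, k _ h⟩) fun h => ⟨p, k _ h⟩

lemma XX_small {O : Set (E d)} (hO : MeasurableSet O) (h : O ⊆ XX G) {ε : ℝ≥0∞} (ε0 : 0 < ε) :
    ∀ᶠ n in hyperfilter ℕ, volume (G n ∩ O) ≤ ε := by
  have e0 := ENNReal.half_pos ε0.ne'
  obtain ⟨K, K1, K2, K3⟩ := hO.exists_isCompact_sdiff_lt (μ := volume)
    ((measure_mono fun y hy => (h hy).1).trans_lt measure_ball_lt_top).ne e0.ne'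
  have : Nu fun n => G n ∩ K := K2.induction_on (p := fun K => Nu fun n => G n ∩ K)
    (by simp [Nu]) (fun s t st ht => ht.mono fun n => inter_subset_inter_right _ st)
    (fun s t hs ht => (hs.union ht).mono fun n => (inter_union_distrib_left _ _ _).subset)
    fun y hy => by
      obtain ⟨_, r, r0, hr⟩ := h (K1 hy)
      exact ⟨_, mem_nhdsWithin_of_mem_nhds (ball_mem_nhds y r0), hr⟩
  filter_upwards [ENNReal.tendsto_nhds_zero.1 this _ e0] with n hn
  refine le_trans ?_ ((add_le_add hn K3.le).trans_eq (ENNReal.add_halves ε))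
  refine (measure_mono fun y hy => ?_).trans (measure_union_le _ _)
  by_cases e : y ∈ K
  exacts [.inl ⟨hy.1, e⟩, .inr ⟨hy.2, e⟩]

end St

open St in
theorem stabStmt {d : ℕ} (hd : 1 ≤ d) : StabStmt d := by
  intro ε ε0
  by_contra hc
  push Not at hc
  choose G hG hb hn using fun n : ℕ => hc (n : ℝ≥0∞)⁻¹ (by simp)
  have hb' : Tendsto (fun n => bb (G n) 4) (hyperfilter ℕ) (𝓝 0) :=
    tendsto_of_tendsto_of_tendsto_of_le_of_le tendsto_const_nhds
      (ENNReal.tendsto_inv_nat_nhds_zero.mono_left Nat.hyperfilter_le_atTop) (fun _ => zero_le) hb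
  obtain ⟨ν, t, n1, h1, h2⟩ := geo hd XX_open XX_open (fun _ h => h.1) (fun _ h => h.1) XX_disj
    (XX_mid hG hb') (by
      simpa only [compl_compl] using XX_mid (G := fun n => (G n)ᶜ) (fun n => (hG n).compl)
        (by simpa only [bb_compl] using hb')) (XX_ne hG hb')
  have b : ball (0 : E d) 1 ⊆ ball 0 2 := ball_subset_ball one_le_two
  obtain ⟨n, e1, e2⟩ := ((XX_small (measurableSet_ball.inter (measurableSet_lt measurable_const
    (by fun_prop))) ((inter_subset_inter_left _ b).trans h1) ε0).and (XX_small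
    (measurableSet_ball.inter (measurableSet_lt (by fun_prop) measurable_const))
    ((inter_subset_inter_left _ b).trans h2) ε0)).exists
  exact (hn n ν t n1 (by rwa [inter_assoc])).not_ge (by rwa [inter_assoc])

end Vale.Agent.P137
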