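import Vale.Agent.P137.Spec

/-! Modules T and U: the translation estimate, and the truncated maximal function. -/

open MeasureTheory Metric Set Filter Topology ContinuousLinearMap
open scoped ENNReal NNReal Convolution

namespace Vale.Agent.P137

variable {d : ℕ}

namespace TU

lemma c1_tr {F : E d → ℝ} (hF : ContDiff ℝ 1 F) (h : E d) :
    ∫⁻ x, ‖F (x + h) - F x‖ₑ ≤ ∫⁻ x, ‖fderiv ℝ F x h‖ₑ := by
  have c : Continuous fun p : E d × ℝ => fderiv ℝ F (p.1 + p.2 • h) h :=
    ((hF.continuous_fderiv one_ne_zero).comp (by fun_prop)).clm_apply continuous_const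
  calc _ ≤ ∫⁻ x, ∫⁻ t in Icc (0 : ℝ) 1, ‖fderiv ℝ F (x + t • h) h‖ₑ := lintegral_mono fun x => by
        have := enorm_sub_le_lintegral_deriv_of_contDiffOn_Icc (f := fun t : ℝ => F (x + t • h))
          (hF.comp (by fun_prop)).contDiffOn zero_le_one
        simp only [one_smul, zero_smul, add_zero] at this
        refine this.trans_eq (lintegral_congr fun t => congrArg _ ?_)
        simpa [Function.comp_def] using ((hF.differentiable one_ne_zero (x + t • h)).hasFDerivAt.comp_hasDerivAt t
          (((hasDerivAt_id t).smul_const h).const_add x)).deriv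
    _ = ∫⁻ t in Icc (0 : ℝ) 1, ∫⁻ x, ‖fderiv ℝ F (x + t • h) h‖ₑ :=
        lintegral_lintegral_swap c.enorm.aemeasurable
    _ = _ := by
        simp only [lintegral_add_right_eq_self fun x => ‖fderiv ℝ F x h‖ₑ]
        simp

lemma conv_der {f ρ : E d → ℝ} {G : E d → E d} (hf : LocallyIntegrable f) (hG : WGrad f G)
    (h1 : ContDiff ℝ (⊤ : ℕ∞) ρ) (h2 : HasCompactSupport ρ) (y h : E d) :
    fderiv ℝ (ρ ⋆[lsmul ℝ ℝ] f) y h = ∫ x, inner ℝ (G x) h * ρ (y - x) := by
  have h3 : ContDiff ℝ 1 ρ := h1.of_le (by simp)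
  have := hG (fun x => ρ (y - x)) (h1.comp (by fun_prop))
    (h2.comp_homeomorph (Homeomorph.subLeft y)) h
  rw [← convolution_flip, (h2.hasFDerivAt_convolution_right _ hf h3 y).fderiv,
    convolution_precompR_apply _ hf (h2.fderiv ℝ) (h3.continuous_fderiv one_ne_zero),
    convolution_def, ← neg_inj, ← this, ← integral_neg]
  refine integral_congr_ae (.of_forall fun x => ?_)
  have := ((h3.differentiable one_ne_zero (y - x)).hasFDerivAt.comp x
    ((hasFDerivAt_id x).const_sub y)).fderiv
  simp only [Function.comp_def, id] at this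
  simp [this, mul_comm]

lemma conv_tr {f : E d → ℝ} {G : E d → E d} (hf : LocallyIntegrable f) (hi : Integrable G)
    (hG : WGrad f G) (φ : ContDiffBump (0 : E d)) :
    Tb (φ.normed volume ⋆[lsmul ℝ ℝ] f) (∫⁻ x, ‖G x‖ₑ) := fun h => by
  refine (c1_tr (φ.hasCompactSupport_normed.contDiff_convolution_left _ φ.contDiff_normed hf)
    h).trans ?_
  have m := hi.1.enorm
  have e : ∫⁻ x, ‖φ.normed volume x‖ₑ = 1 := by
    rw [← ofReal_integral_norm_eq_lintegral_enorm φ.integrable_normed]
    simp [abs_of_nonneg (φ.nonneg_normed _), φ.integral_normed]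
  calc _ ≤ ∫⁻ y, ∫⁻ x, ‖h‖ₑ * ‖G x‖ₑ * ‖φ.normed volume (y - x)‖ₑ := lintegral_mono fun y => by
        rw [conv_der hf hG φ.contDiff_normed φ.hasCompactSupport_normed]
        refine (enorm_integral_le_lintegral_enorm _).trans (lintegral_mono fun x => ?_)
        rw [enorm_mul, mul_comm ‖h‖ₑ]
        gcongr
        simpa only [← ofReal_norm, ← ENNReal.ofReal_mul (norm_nonneg _)] using
          ENNReal.ofReal_le_ofReal (norm_inner_le_norm (𝕜 := ℝ) (G x) h)
    _ = ∫⁻ x, ∫⁻ y, ‖h‖ₑ * ‖G x‖ₑ * ‖φ.normed volume (y - x)‖ₑ :=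
        lintegral_lintegral_swap ((m.comp_snd.const_mul _).mul
          (φ.continuous_normed.comp (continuous_fst.sub continuous_snd)).enorm.aemeasurable)
    _ = _ := by
        rw [← lintegral_const_mul'' _ m]
        refine lintegral_congr fun x => ?_
        rw [lintegral_const_mul (f := fun y => ‖φ.normed volume (y - x)‖ₑ) _
          (φ.continuous_normed.comp (continuous_sub_right x)).enorm.measurable,
          lintegral_sub_right_eq_self (fun y => ‖φ.normed volume y‖ₑ), e, mul_one]

lemma vol_ball (c : E d) {r : ℝ} (hr : 0 < r) :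
    (volume (ball c r)).toReal = r ^ d * (volume (ball (0 : E d) 1)).toReal := by
  rw [Measure.addHaar_ball_of_pos _ _ hr, ENNReal.toReal_mul, ENNReal.toReal_ofReal (by positivity),
    finrank_euclideanSpace_fin]

lemma b1_pos : 0 < (volume (ball (0 : E d) 1)).toReal :=
  ENNReal.toReal_pos (measure_ball_pos _ _ one_pos).ne' measure_ball_lt_top.ne

variable {g : E d → ℝ} {V : ℝ≥0∞} {δ r : ℝ}

lemma div_vol {a b : ℝ} (c : E d) (h : a ≤ b) (b0 : 0 ≤ b) (hδ : 0 < δ) (hr : δ ≤ r) :
    a / (volume (ball c r)).toReal ≤ b / (δ ^ d * (volume (ball (0 : E d) 1)).toReal) := by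
  have := b1_pos (d := d)
  rw [vol_ball c (hδ.trans_le hr)]
  gcongr

lemma av_le (hg : Integrable g) (g0 : ∀ x, 0 ≤ g x) (hδ : 0 < δ) (hr : δ ≤ r) (c : E d) :
    av g c r ≤ (∫ y, g y) / (δ ^ d * (volume (ball (0 : E d) 1)).toReal) :=
  div_vol c (setIntegral_le_integral hg (.of_forall g0)) (integral_nonneg g0) hδ hr

lemma av_tr (hg : Integrable g) (hV : V ≠ ∞) (hT : Tb g V) (hδ : 0 < δ) (hr : δ ≤ r) (c h : E d) :
    av g c r ≤ av g (c + h) r + V.toReal / (δ ^ d * (volume (ball (0 : E d) 1)).toReal) * ‖h‖ := by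
  have i := hg.comp_add_right h
  have e : ∫ y in ball (c + h) r, g y = ∫ y in ball c r, g (y + h) := by
    rw [← (measurePreserving_add_right volume h).setIntegral_preimage_emb
      (measurableEmbedding_addRight h)]
    simp
  have a : ∫ y, ‖g (y + h) - g y‖ ≤ V.toReal * ‖h‖ := by
    rw [integral_norm_eq_lintegral_enorm (f := fun y => g (y + h) - g y) (i.sub hg).1, mul_comm,
      ← toReal_enorm, ← ENNReal.toReal_mul]
    exact ENNReal.toReal_mono (ENNReal.mul_ne_top enorm_ne_top hV) (hT h)
  rw [← sub_le_iff_le_add', av, av, Measure.addHaar_ball_center _ (c + h),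
    ← Measure.addHaar_ball_center _ c, ← sub_div, e, ← integral_sub hg.integrableOn i.integrableOn,
    div_mul_eq_mul_div]
  refine div_vol c ((le_abs_self _).trans ((norm_integral_le_integral_norm _).trans
    ((setIntegral_le_integral (hg.sub i).norm (.of_forall fun _ => norm_nonneg _)).trans
    (le_of_eq_of_le ?_ a)))) (by positivity) hδ hr
  simp only [Pi.sub_apply, norm_sub_rev]

lemma av_cont (hg : Integrable g) {p : E d × ℝ} (hp : 0 < p.2) :
    ContinuousAt (fun p : E d × ℝ => av g p.1 p.2) p := by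
  have := b1_pos (d := d)
  have a : ContinuousAt (fun p : E d × ℝ => ∫ y in ball p.1 p.2, g y) p := by
    simp only [← integral_indicator measurableSet_ball]
    refine continuousAt_of_dominated (bound := fun y => ‖g y‖)
      (.of_forall fun q => hg.1.indicator measurableSet_ball)
      (.of_forall fun q => .of_forall fun y => norm_indicator_le_norm_self _ _) hg.norm ?_
    filter_upwards [measure_eq_zero_iff_ae_notMem.1
      (Measure.addHaar_sphere_of_ne_zero volume p.1 hp.ne')] with y hy
    have c : ContinuousAt (fun q : E d × ℝ => dist y q.1) p := by fun_prop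
    rcases lt_or_gt_of_ne hy with h | h
    · exact continuousAt_const.congr ((c.eventually_lt continuousAt_snd h).mono fun q hq =>
        (indicator_of_mem (mem_ball.2 hq) g).symm)
    · exact continuousAt_const.congr ((continuousAt_snd.eventually_lt c h).mono fun q hq =>
        (indicator_of_notMem (mt mem_ball.1 hq.le.not_gt) g).symm)
  refine (a.div (g := fun q : E d × ℝ => q.2 ^ d * (volume (ball (0 : E d) 1)).toReal)
    (by fun_prop) (by positivity)).congr ?_
  exact (continuousAt_const.eventually_lt continuousAt_snd hp).mono fun q hq => by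
    simp only [av, vol_ball q.1 hq, Pi.div_apply]

end TU

open TU

theorem trStmt (d : ℕ) : TrStmt d := fun f G hf hi hG h => by
  let φ : ℕ → ContDiffBump (0 : E d) := fun n =>
    ⟨1 / (n + 1) / 2, 1 / (n + 1), by positivity, half_lt_self (by positivity)⟩
  have a := ContDiffBump.ae_convolution_tendsto_right_of_locallyIntegrable (φ := φ) (l := atTop)
    (K := 2) tendsto_one_div_add_atTop_nhds_zero_nat
    (.of_forall fun n => (mul_div_cancel₀ _ two_ne_zero).ge) hf
  have b := (measurePreserving_add_right volume h).quasiMeasurePreserving.ae a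
  have c := fun n => ((φ n).hasCompactSupport_normed (μ := volume)).continuous_convolution_left
    (lsmul ℝ ℝ) (φ n).continuous_normed hf
  calc _ = ∫⁻ x, liminf (fun n => ‖((φ n).normed volume ⋆[lsmul ℝ ℝ] f) (x + h) -
          ((φ n).normed volume ⋆[lsmul ℝ ℝ] f) x‖ₑ) atTop := by
        refine lintegral_congr_ae ?_
        filter_upwards [a, b] with x h1 h2 using (h2.sub h1).enorm.liminf_eq.symm
    _ ≤ _ := lintegral_liminf_le fun n =>
        (((c n).comp (continuous_add_right h)).sub (c n)).enorm.measurable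
    _ ≤ _ := liminf_le_of_frequently_le' (.of_forall fun n => conv_tr hf hi hG (φ n) h)

theorem uStmt (hd : 1 ≤ d) : UStmt d := fun g V δ hg g0 hV hT hδ => by
  have b1 := b1_pos (d := d)
  have h1 : ∀ x c r, δ ≤ r → ‖c - x‖ ≤ r → av g c r ≤ uu g δ x := fun x c r a b =>
    le_csSup ⟨_, by rintro _ ⟨c, r, a, -, rfl⟩; exact av_le hg g0 hδ a c⟩ ⟨c, r, a, b, rfl⟩
  have h2 : ∀ x b, (∀ c r, δ ≤ r → ‖c - x‖ ≤ r → av g c r ≤ b) → uu g δ x ≤ b := fun x b h =>
    csSup_le ⟨_, x, δ, le_rfl, by simpa using hδ.le, rfl⟩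
      (by rintro _ ⟨c, r, a, b, rfl⟩; exact h c r a b)
  refine ⟨⟨⟨V.toReal / (δ ^ d * (volume (ball (0 : E d) 1)).toReal), by positivity⟩,
    LipschitzWith.of_le_add_mul _ fun x y => h2 _ _ fun c r a b => ?_⟩, h1, fun x => ?_,
    fun x hx => ?_⟩
  · have := av_tr hg hV hT hδ a c (y - x)
    rw [← dist_eq_norm, dist_comm] at this
    exact this.trans (add_le_add_left (h1 _ _ _ a (by rwa [show c + (y - x) - y = c - x by abel])) _)
  · exact (div_nonneg (integral_nonneg g0) ENNReal.toReal_nonneg).trans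
      (h1 x x δ le_rfl (by simpa using hδ.le))
  obtain ⟨R, hR⟩ := ((eventually_ge_atTop δ).and (((tendsto_const_nhds (x := ∫ y, g y)).div_atTop
    ((tendsto_pow_atTop (by omega : d ≠ 0)).atTop_mul_const b1)).eventually_lt_const hx)).exists
  have K : IsCompact {p : E d × ℝ | δ ≤ p.2 ∧ ‖p.1 - x‖ ≤ p.2 ∧ p.2 ≤ R} :=
    ((isCompact_closedBall x R).prod (isCompact_Icc (a := δ) (b := R))).of_isClosed_subset
      ((isClosed_le continuous_const continuous_snd).inter
        ((isClosed_le (by fun_prop) continuous_snd).inter (isClosed_le continuous_snd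
          continuous_const))) fun p hp => ⟨mem_closedBall_iff_norm.2 (hp.2.1.trans hp.2.2),
        hp.1, hp.2.2⟩
  obtain ⟨p, p1, p2⟩ := K.exists_isMaxOn ⟨(x, δ), le_rfl, by simpa using hδ.le, hR.1⟩
    fun p hp => (av_cont hg (hδ.trans_le hp.1)).continuousWithinAt
  refine ⟨p.1, p.2, p1.1, p1.2.1, le_antisymm ?_ (h1 _ _ _ p1.1 p1.2.1)⟩
  refine (le_max_iff.1 (h2 x _ fun c r a b => ?_)).resolve_left hR.2.not_ge
  rcases le_total r R with h | h
  · exact le_max_of_le_right (p2 (a := (c, r)) ⟨a, b, h⟩)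
  · exact le_max_of_le_left (av_le hg g0 (hδ.trans_le hR.1) h c)

end Vale.Agent.P137
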