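import Vale.Agent.P137.DefsC
import Vale.Agent.P137.Grad
import Vale.Agent.P137.Stab
import Vale.Agent.P137.Tr
import Vale.Agent.P137.Fin

open MeasureTheory Metric Set Filter
open scoped ENNReal NNReal RealInnerProductSpace Topology

namespace Vale.Agent.P137

variable {d : ℕ}

/-- bounded measurable -/
def BM (φ : E d → ℝ) : Prop := Measurable φ ∧ ∃ B : ℝ, ∀ y, |φ y| ≤ B

/-- points on the wrong side of the plane, with margin `σ` -/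
def dev (F : Set (E d)) (ν : E d) (h σ : ℝ) : Set (E d) :=
  {y | (y ∉ F ∧ h + σ < ⟪y, ν⟫) ∨ (y ∈ F ∧ ⟪y, ν⟫ < h - σ)}

noncomputable def bw (F : Set (E d)) (L w : ℝ) : ℝ≥0∞ :=
  volume (Bad F ∩ ball (0 : E d) L ×ˢ ball (0 : E d) w)

noncomputable def TS (F : Set (E d)) (ϑ L : ℝ) : ℝ≥0∞ :=
  ∑' m : ℕ, ENNReal.ofReal (ϑ ^ m * (2 ^ m) ^ (d + 1)) * bw F L (L / 2 ^ m)

noncomputable def TG (g : E d → ℝ) (ϑ L : ℝ) : ℝ≥0∞ :=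
  ∑' m : ℕ, ENNReal.ofReal (ϑ ^ m * (2 ^ m) ^ (d + 1)) *
    ∫⁻ z in ball (0 : E d) L, ∫⁻ v in ball (0 : E d) (L / 2 ^ m), dl g z v

/-- the defect, cut off smoothly near the plane -/
noncomputable def kk (F : Set (E d)) (ν : E d) (h σ : ℝ) : E d → ℝ :=
  (dev F ν h σ).indicator fun y => min 1 ((|⟪y, ν⟫ - h| - σ) / σ)

noncomputable def osc (k : E d → ℝ) (w : ℝ) (y : E d) : ℝ :=
  (∫ v in ball (0 : E d) (2 * w), |k (y + v) - k y|) / (volume (ball (0 : E d) w)).toReal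

def Sh0 (d : ℕ) (t : ℝ) : Set (E d) := ball 0 t \ ball 0 1

noncomputable def sa (φ : E d → ℝ) (t : ℝ) : ℝ :=
  (∫ z in Sh0 d t, φ z) / (volume (Sh0 d t)).toReal

noncomputable def cs (ξ z : E d) : ℝ := ⟪z, ξ⟫ / ‖z‖

/-- average of `φ` over the shell `a ≤ ‖y - x‖ < a * t` -/
noncomputable def sP (φ : E d → ℝ) (x : E d) (a t : ℝ) : ℝ := sa (fun z => φ (x + a • z)) t

/-- average of `φ * cos` over the same shell -/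
noncomputable def sF (φ : E d → ℝ) (ξ x : E d) (a t : ℝ) : ℝ :=
  sa (fun z => φ (x + a • z) * cs ξ z) t

def ann (x : E d) (r δ : ℝ) : Set (E d) := {y | |‖y - x‖ - r| ≤ δ}

noncomputable def cnt (F : ℕ → Set (E d)) (n : ℕ) (y : E d) : ℝ :=
  ∑ i ∈ Finset.range n, (F i).indicator (fun _ => (1 : ℝ)) y

/-- number of planes within distance `a` of `x` -/
noncomputable def nr (ν : ℕ → E d) (h : ℕ → ℝ) (s : Finset ℕ) (x : E d) (a : ℝ) : ℝ :=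
  ((s.filter fun i => |⟪x, ν i⟫ - h i| ≤ a).card : ℝ)

noncomputable def vv (g : E d → ℝ) (x : E d) : ℝ := sSup (av g x '' Icc 1 2)

noncomputable def mc (g : E d → ℝ) (x : E d) : ℝ := sSup (av g x '' Ioi 0)

def Cone (g : E d → ℝ) (ξ : E d) (c R ρ ε : ℝ) : Prop :=
  ∀ (s : ℝ) (ν : E d) (h : ℝ), ‖ν‖ = 1 → |h| ≤ R →
    volume (dev {y | s < g y} ν h 1 ∩ ball 0 ρ) ≤ ENNReal.ofReal ε → c ≤ ⟪ξ, ν⟫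

def Hit (u g : E d → ℝ) (e : E d) (T : ℝ) : Set (E d) :=
  {x | ∃ τ ∈ Icc 0 T, u x ≤ g (x + τ • e) ∧ ∀ t ∈ Icc 0 τ, u x ≤ u (x + t • e)}

def LTb (g : E d → ℝ) (G : E d → E d) : Prop :=
  ∀ (h : E d) (U : Set (E d)), MeasurableSet U →
    ∫⁻ x in U, ‖g (x + h) - g x‖ₑ ≤ ‖h‖ₑ * ∫⁻ x in cthickening (2 * ‖h‖) U, ‖G x‖ₑ

/-- `Z` is a nonnegative measurable majorant with small integral over the ball of radius 1/10 -/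
def Maj (Z : E d → ℝ) (B : ℝ) : Prop :=
  Measurable Z ∧ (∀ x, 0 ≤ Z x) ∧
    ∫⁻ x in ball (0 : E d) (1 / 10), ENNReal.ofReal (Z x) ≤ ENNReal.ofReal B

/-- Module PF -/
def PFStmt (d : ℕ) : Prop :=
  ∀ ρ : ℝ, 0 < ρ → ∃ c1 C1 L : ℝ, 0 < c1 ∧ 0 < C1 ∧ ρ ≤ L ∧
    ∀ F : Set (E d), MeasurableSet F → ∀ σ0 : ℝ, 0 < σ0 → ∃ (ν : E d) (h : ℝ), ‖ν‖ = 1 ∧
      ∀ σ, σ0 ≤ σ → σ ≤ 1 → bb F L ≤ ENNReal.ofReal (c1 * σ ^ 2) →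
        volume (dev F ν h σ ∩ ball 0 ρ) * ENNReal.ofReal σ ≤ ENNReal.ofReal C1 * bb F L

/-- Module Osc, first part -/
def OscStmt (d : ℕ) : Prop :=
  ∀ L : ℝ, 10 ≤ L → ∃ C : ℝ, 0 < C ∧ ∀ (F : Set (E d)) (ν : E d) (h σ : ℝ) (j0 : ℕ),
    MeasurableSet F → ‖ν‖ = 1 → 0 < σ → σ ≤ 1 → L / 2 ^ (j0 + 1) ≤ 1 →
    ∫⁻ y in ball (0 : E d) 3, ENNReal.ofReal (osc (kk F ν h σ) (L / 2 ^ (j0 + 1)) y) ≤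
      ENNReal.ofReal (C * (L / 2 ^ (j0 + 1))) *
        (volume (dev F ν h (σ / 2) ∩ ball 0 10) * ENNReal.ofReal (1 / σ) +
          ∑ j ∈ Finset.range (j0 + 1), ENNReal.ofReal ((2 ^ j) ^ (d + 1)) * bw F L (L / 2 ^ j))

/-- Module Lev -/
def LevStmt (d : ℕ) : Prop :=
  ∀ ρ ε : ℝ, 10 ≤ ρ → 0 < ε → ∃ L C : ℝ, 10 ≤ L ∧ 0 < C ∧ ∀ ϑ : ℝ, 0 < ϑ → ϑ ≤ 1 →
    ∀ F : Set (E d), MeasurableSet F → ∀ σ0 T : ℝ, 0 < σ0 → 0 ≤ T →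
    TS F ϑ L ≤ ENNReal.ofReal T → ∃ (ν : E d) (h σF : ℝ), ‖ν‖ = 1 ∧
      ∀ σ, σ0 ≤ σ → σ ≤ 1 →
        (σF ≤ σ → volume (dev F ν h 1 ∩ ball 0 ρ) ≤ ENNReal.ofReal ε ∧
          volume (dev F ν h σ ∩ ball 0 10) ≤ ENNReal.ofReal (C * σ)) ∧
        ∫ y in ball (0 : E d) 3, kk F ν (if σF ≤ σ then h else 100) σ y ≤ C * T / σ ^ 3 ∧
        ∀ j0 : ℕ, L / 2 ^ (j0 + 1) ≤ 1 →
          ∫ y in ball (0 : E d) 3, osc (kk F ν (if σF ≤ σ then h else 100) σ) (L / 2 ^ (j0 + 1)) y ≤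
            C * (L / 2 ^ (j0 + 1)) * (T / σ ^ 3 + T / ϑ ^ j0)

/-- Module Geo -/
def GeoStmt (d : ℕ) : Prop :=
  ∃ C : ℝ, 0 < C ∧
    (∀ (ζ : E d) (a δ : ℝ), ‖ζ‖ = 1 → 0 < δ →
      volume (ball (0 : E d) 4 ∩ {z | |⟪z, ζ⟫ - a| ≤ δ}) ≤ ENNReal.ofReal (C * δ)) ∧
    (∀ (ν : E d) (a ψ : ℝ), (‖ν‖ = 1 ∨ ν = 0) → 0 < ψ → ψ ≤ 1 →
      volume (ball (0 : E d) 4 ∩ {z | |‖z‖ - ⟪z, ν⟫ - a| ≤ ψ ^ 4}) ≤ ENNReal.ofReal (C * ψ)) ∧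
    (∀ (ν x : E d) (h a s ψ : ℝ), ‖ν‖ = 1 → 0 < ψ → ψ ≤ 1 / 2 → 1 / 2 ≤ a → 1 < s →
      s ≤ 1 + ψ ^ 4 →
      sP ({y | |⟪y, ν⟫ - h| ≤ 3 * ψ ^ 4}.indicator fun _ => (1 : ℝ)) x a s ≤ C * ψ)

/-- Module CS, first part -/
def CSStmt (d : ℕ) : Prop :=
  ∃ C : ℝ, 0 < C ∧ ∀ (o : E d → ℝ) (μ ω δ : ℝ) (ξ : E d), BM o → (∀ y, 0 ≤ o y) → 0 < μ →
    ∫ y in ball (0 : E d) 3, o y ≤ μ → 0 < ω → 0 < δ → δ ≤ ω ^ 2 → δ ≤ 1 / 2 → ‖ξ‖ = 1 →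
    ∃ Z : E d → ℝ, Maj Z (C * ω * μ) ∧ ∀ x ∈ ball (0 : E d) (1 / 10), ∀ r ∈ Icc (1 : ℝ) 2,
      ∃ χ : ℝ, |χ| ≤ 1 ∧ ∫ y in ann x r δ, o y * |cs ξ (y - x) - χ| ≤ Z x

/-- Module CS, second part -/
def PinIntStmt (d : ℕ) : Prop :=
  ∃ C : ℝ, 0 < C ∧ ∀ (o : E d → ℝ) (μ α a : ℝ) (ν : E d), BM o → (∀ y, 0 ≤ o y) →
    ∫ y in ball (0 : E d) 3, o y ≤ μ → 0 < α → α ≤ 1 → (‖ν‖ = 1 ∨ ν = 0) →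
    ∃ Z : E d → ℝ, Maj Z (C * α * μ) ∧ ∀ x ∈ ball (0 : E d) (1 / 10), ∀ r ∈ Icc (1 : ℝ) 2,
      ∀ δ : ℝ, δ ≤ 1 / 2 → |r - (⟪x, ν⟫ - a)| + δ ≤ α ^ 4 → ∫ y in ann x r δ, o y ≤ Z x

/-- Module Ab, first part -/
def KStmt (d : ℕ) : Prop :=
  ∃ C : ℝ, 0 < C ∧ ∀ (x : E d) (r w : ℝ), r ∈ Icc (1 : ℝ) 2 → 0 < w → w ≤ 1 / 100 →
    (∀ K o : E d → ℝ, BM K → BM o → (∀ y, 0 ≤ o y) →
      (∀ y y', ‖y - y'‖ ≤ 8 * w → |K y - K y'| ≤ o y + o y') →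
      max (sP K x (r / Real.exp w) (Real.exp w)) (sP K x r (Real.exp w)) ≤
        max (sP K x (r / Real.exp (2 * w)) (Real.exp (2 * w))) (sP K x r (Real.exp (2 * w))) +
          C / w * ∫ y in ann x r (5 * w), o y) ∧
    (∀ K : E d → ℝ, BM K → (∀ y, 0 ≤ K y) → x ∈ ball (0 : E d) (1 / 10) →
      max (sP K x (r / Real.exp w) (Real.exp w)) (sP K x r (Real.exp w)) ≤
        C / w * ∫ y in ball (0 : E d) 3, K y) ∧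
    (∀ (γ : E d → ℝ) (Kl : ℝ≥0) (ξ : E d), LipschitzWith Kl γ → ‖ξ‖ = 1 →
      sF γ ξ x r (Real.exp w) ≤ sF γ ξ x (r / Real.exp w) (Real.exp w) + 4 * Kl * w)

/-- Module Ab, second part -/
def AbStmt (d : ℕ) : Prop :=
  ∃ C : ℝ, 0 < C ∧ ∀ (γ : E d → ℝ) (ξ x : E d) (r : ℝ), BM γ → ‖ξ‖ = 1 → r ∈ Icc (1 : ℝ) 2 →
    (∀ r' ∈ Icc (1 : ℝ) 2, av γ x r' ≤ av γ x r) → ∃ z : ℝ → ℝ,
      (∀ w, 0 < w → 1 ≤ r / Real.exp w → r * Real.exp w ≤ 2 →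
        min (sF γ ξ x (r / Real.exp w) (Real.exp w)) (sF γ ξ x r (Real.exp w)) ≤ z w ∧
        z w ≤ max (sF γ ξ x (r / Real.exp w) (Real.exp w)) (sF γ ξ x r (Real.exp w))) ∧
      ∀ (n : ℕ) (F : ℕ → Set (E d)) (ν : ℕ → E d) (h : ℕ → ℝ) (ψ w χ : ℝ),
        (∀ i, MeasurableSet (F i)) → (∀ i, ‖ν i‖ = 1) → (∀ y, |γ y - cnt F n y| ≤ 1) →
        0 < ψ → ψ ≤ 1 / 2 → 0 < w → 800 * w ≤ ψ ^ 4 → |χ| ≤ 1 →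
        1 ≤ r / Real.exp (2 * w) → r * Real.exp (2 * w) ≤ 2 →
        z (2 * w) ≤ z w + 4 + C * ψ * nr ν h (Finset.range n) x (r + 4 * ψ ^ 4) +
          C / w * ∫ y in ann x r (5 * w),
            (∑ i ∈ Finset.range n, osc (kk (F i) (ν i) (h i) (ψ ^ 4)) (8 * w) y) *
              |cs ξ (y - x) - χ|

/-- Module Ref -/
def RefStmt (d : ℕ) : Prop :=
  ∀ c : ℝ, 0 < c → c ≤ 1 → ∃ η0 c' : ℝ, 0 < η0 ∧ η0 ≤ 1 / 100 ∧ 0 < c' ∧ c' ≤ 1 ∧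
    ∀ (η ς s a : ℝ) (x ξ : E d) (n : ℕ) (F : ℕ → Set (E d)) (ν : ℕ → E d) (h : ℕ → ℝ)
      (γ : E d → ℝ), 0 < η → η ≤ η0 → 0 < ς → ς ≤ c * η / 20 → 1 < s → s ≤ 1 + ς →
      1 / 2 ≤ a → a ≤ 2 → x ∈ ball (0 : E d) (1 / 10) → ‖ξ‖ = 1 →
      (∀ i, MeasurableSet (F i)) → (∀ i, ‖ν i‖ = 1) → BM γ → (∀ y, |γ y - cnt F n y| ≤ 1) →
      (∀ i < n, |h i| ≤ 5 → c ≤ ⟪ξ, ν i⟫) →
      c' * η ^ (d + 1) * nr ν h (Finset.range n) x (a - η) ≤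
        sF γ ξ x a s + 1 + sP (fun y => ∑ i ∈ Finset.range n, kk (F i) (ν i) (h i) ς y) x a s

/-- Module Ord, first part -/
def OrdStmt (d : ℕ) : Prop :=
  ∃ c2 : ℝ, 0 < c2 ∧ ∀ (F : ℕ → Set (E d)) (ν : ℕ → E d) (h : ℕ → ℝ) (s : Finset ℕ) (σ η N : ℝ),
    Antitone F → (∀ i, ‖ν i‖ = 1) → 0 < η → η ≤ 1 / 100 → σ ≤ η / 4 → 16 ≤ N →
    (∀ i ∈ s, volume (dev (F i) (ν i) (h i) σ ∩ ball 0 10) ≤ ENNReal.ofReal (c2 * η ^ d)) →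
    ∃ (ν1 ν2 : E d) (a1 a2 : ℝ), (‖ν1‖ = 1 ∨ ν1 = 0) ∧ (‖ν2‖ = 1 ∨ ν2 = 0) ∧
      ∀ x ∈ ball (0 : E d) (1 / 10), ∀ r ∈ Icc (1 : ℝ) 2, N ≤ nr ν h s x (r + η) →
        nr ν h s x (r - 2 * η) ≤ N / 16 →
        |r - (⟪x, ν1⟫ - a1)| ≤ 3 * η ∨ |r - (⟪x, ν2⟫ - a2)| ≤ 3 * η

/-- Module Ord, second part -/
def ParStmt (d : ℕ) : Prop :=
  ∃ ϑ : ℝ, 0 < ϑ ∧ ϑ < 1 ∧ ∀ η0 κ L : ℝ, 0 < η0 → 0 < κ → 0 < L →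
    ∃ (m0 : ℕ) (α ψ ω : ℕ → ℝ) (S : ℝ), Antitone α ∧ Antitone ψ ∧
      (∀ m, 0 < α m ∧ 0 < ψ m ∧ 0 < ω m ∧ α m ≤ η0 ∧ ψ m ≤ 1 / 2 ∧
        ψ m ^ 4 ≤ κ * (α m ^ 4) ^ (d + 1) ∧ 100 * (L / 2 ^ (m + m0 + 1)) ≤ ψ m ^ 4 ∧
        L / 2 ^ (m + m0 + 1) ≤ ω m ^ 2) ∧
      ∀ M : ℕ, ∑ m ∈ Finset.range M, α m / ϑ ^ m ≤ S ∧
        ∑ m ∈ Finset.range M, ψ m / ((ϑ ^ m) ^ 2 * (α m ^ 4) ^ (d + 4)) ≤ S ∧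
        ∑ m ∈ Finset.range M, ω m * (1 / (ψ m ^ 4) ^ 3 + 1 / ϑ ^ m) ≤ S

/-- Module Disc (helper16) -/
def DiscStmt (d : ℕ) : Prop :=
  ∀ c ρ ε : ℝ, 0 < c → c ≤ 1 → 10 ≤ ρ → 0 < ε → ∃ ϑ L C w0 : ℝ, 0 < ϑ ∧ ϑ < 1 ∧ 0 < L ∧ 0 < C ∧
    0 < w0 ∧ w0 ≤ 1 / 100 ∧ ∀ (M n : ℕ) (F : ℕ → Set (E d)) (ξ : E d) (T : ℝ),
      (∀ i, MeasurableSet (F i)) → Antitone F → ‖ξ‖ = 1 → 0 ≤ T →
      ∑ i ∈ Finset.range n, TS (F i) ϑ L ≤ ENNReal.ofReal T →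
      (∀ i < n, ∀ (ν : E d) (h : ℝ), ‖ν‖ = 1 → |h| ≤ 5 →
        volume (dev (F i) ν h 1 ∩ ball 0 ρ) ≤ ENNReal.ofReal ε → c ≤ ⟪ξ, ν⟫) →
      ∃ Z : E d → ℝ, Maj Z (C * (T + 1)) ∧ ∀ (γ : E d → ℝ) (K : ℝ≥0), LipschitzWith K γ →
        (∀ y, |γ y - cnt F n y| ≤ 1) → ∀ x ∈ ball (0 : E d) (1 / 10), ∀ r ∈ Icc (1 : ℝ) 2,
        (∀ r' ∈ Icc (1 : ℝ) 2, av γ x r' ≤ av γ x r) →
        -sF γ ξ x (r / Real.exp (w0 / 2 ^ M)) (Real.exp (w0 / 2 ^ M)) ≤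
          Z x + C * (M + 1) + C * K * (w0 / 2 ^ M)

/-- Module VM, first part -/
def VStmt (d : ℕ) : Prop :=
  ∀ (g : E d → ℝ) (K : ℝ≥0), LipschitzWith K g →
    LipschitzWith K (vv g) ∧ (∀ x, ∀ r ∈ Icc (1 : ℝ) 2, av g x r ≤ vv g x) ∧
      ∀ x, ∃ r ∈ Icc (1 : ℝ) 2, vv g x = av g x r

/-- Module VM, second part -/
def MStmt (d : ℕ) : Prop :=
  ∀ (g : E d → ℝ) (K : ℝ≥0), LipschitzWith K g → Integrable g → (∀ x, 0 ≤ g x) →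
    LipschitzWith K (mc g) ∧ (∀ x r, 0 < r → av g x r ≤ mc g x) ∧ (∀ x, g x ≤ mc g x) ∧
      (∀ x, mc g x = g x ∨ ∃ r, 0 < r ∧ mc g x = av g x r) ∧
      ∀ x, ENNReal.ofReal (mc g x) = Mc g x

/-- Module VM, third part -/
def DerStmt (d : ℕ) : Prop :=
  ∃ C : ℝ, 0 < C ∧ ∀ (γ : E d → ℝ) (K : ℝ≥0) (ξ x : E d) (r w : ℝ), LipschitzWith K γ →
    ‖ξ‖ = 1 → r ∈ Icc (1 : ℝ) 2 → 0 < w → w ≤ 1 / 100 → vv γ x = av γ x r →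
    DifferentiableAt ℝ (vv γ) x →
    -fderiv ℝ (vv γ) x ξ ≤ C * max (-sF γ ξ x (r / Real.exp w) (Real.exp w)) 0 + C * K * w

/-- Module Neg -/
def NegStmt (d : ℕ) : Prop :=
  ∀ c ρ1 ρ ε : ℝ, 0 < c → c ≤ 1 → 0 < ρ1 → 0 < ρ → 0 < ε →
    ∃ (ϑ L : ℝ) (C : ℝ≥0∞), 0 < ϑ ∧ ϑ < 1 ∧ 0 < L ∧ C ≠ ∞ ∧
      ∀ (g : E d → ℝ) (K : ℝ≥0) (ξ : E d), LipschitzWith K g → ‖ξ‖ = 1 →
        Cone g ξ c (ρ1 + 5) ρ ε →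
        ∫⁻ x in ball (0 : E d) ρ1, ENNReal.ofReal (-fderiv ℝ (vv g) x ξ) ≤ C * TG g ϑ L

/-- Module OneD, first part -/
def OD1Stmt : Prop :=
  ∀ (φ : ℝ → ℝ) (K : ℝ≥0) (L l : ℝ) (η : ℝ≥0∞) (A : Set ℝ), LipschitzWith K φ →
    MeasurableSet A → A ⊆ Icc 0 L →
    (∀ s ∈ A, φ s ≤ l ∧ ((∀ t ∈ Icc s L, φ s ≤ φ t) → ENNReal.ofReal (l - φ s) ≤ η)) →
    ∫⁻ s in A, ENNReal.ofReal (deriv φ s) ≤ (∫⁻ s in Icc 0 L, ENNReal.ofReal (-deriv φ s)) + η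

/-- Module OneD, second part -/
def OD2Stmt : Prop :=
  ∀ (φ ψ : ℝ → ℝ) (K : ℝ≥0) (L : ℝ) (A : Set ℝ), LipschitzWith K φ → LipschitzWith K ψ →
    (∀ s, ψ s ≤ φ s) → MeasurableSet A → A ⊆ Icc 0 L →
    (∀ s ∈ A, ∃ τ ∈ Icc s L, φ s ≤ ψ τ ∧ ∀ t ∈ Icc s τ, φ s ≤ φ t) →
    ∫⁻ s in A, ENNReal.ofReal (deriv φ s) ≤ 2 * ∫⁻ s in Icc 0 L, ‖deriv ψ s‖ₑ

/-- Module Hit -/
def HitStmt (d : ℕ) : Prop :=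
  ∀ (u g : E d → ℝ) (K : ℝ≥0) (e : E d) (T : ℝ) (K0 : Set (E d)), LipschitzWith K u →
    LipschitzWith K g → (∀ x, g x ≤ u x) → ‖e‖ = 1 → 0 < T → MeasurableSet K0 →
    ∫⁻ x in K0 ∩ Hit u g e T, ENNReal.ofReal (fderiv ℝ u x e) ≤
      4 * ∫⁻ x in cthickening (2 * T) K0, ‖fderiv ℝ g x‖ₑ

/-- the auxiliary unit directions -/
noncomputable def dir2 (j i : Fin d × Bool) : E d :=
  ‖(2 * d : ℝ) • dir j + dir i‖⁻¹ • ((2 * d : ℝ) • dir j + dir i)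

/-- Module Exc, first part -/
def ConeStmt (d : ℕ) : Prop :=
  ∀ R : ℝ, 0 < R → ∃ ρ ε : ℝ, 0 < ρ ∧ 0 < ε ∧ ∀ g : E d → ℝ, ∃ j : Fin d × Bool,
    Cone g (dir j) (1 / (4 * d + 2)) R ρ ε ∧ ∀ i, Cone g (dir2 j i) (1 / (4 * d + 2)) R ρ ε

/-- Module Exc, second part -/
def ExcStmt (d : ℕ) : Prop :=
  ∀ c ρ ε : ℝ, 0 < c → c ≤ 1 → 0 < ρ → 0 < ε → ∃ (L : ℝ) (C : ℝ≥0∞), 0 < L ∧ C ≠ ∞ ∧
    ∀ (g : E d → ℝ) (e : E d), Measurable g → ‖e‖ = 1 → Cone g e c (8 / c + 9) ρ ε →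
      ∫⁻ x in ball (0 : E d) 2, ∫⁻ y in ball (0 : E d) 3,
        ENNReal.ofReal (g y - g (x + (8 / c + 1) • e)) ≤ C * Lam g 0 L

/-- Module Cell -/
def CellStmt (d : ℕ) : Prop :=
  ∃ (ϑ L t0 : ℝ) (C : ℝ≥0∞), 0 < ϑ ∧ ϑ < 1 ∧ 0 < L ∧ 0 < t0 ∧ C ≠ ∞ ∧
    ∀ (g u : E d → ℝ) (K : ℝ≥0) (A : Set (E d)), LipschitzWith K g → LipschitzWith K u →
      (∀ x, vv g x ≤ u x) → MeasurableSet A → A ⊆ ball 0 1 → (∀ x ∈ A, u x = vv g x) →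
      ∫⁻ x in A, ‖fderiv ℝ u x‖ₑ ≤ C * TG g ϑ L +
        C * ∑ j : Fin d × Bool, ∫⁻ x in A ∩ Hit u g (dir j) t0, ENNReal.ofReal (fderiv ℝ u x (dir j))

/-- Module Glob -/
def GlobStmt (d : ℕ) : Prop :=
  ∃ (C : ℝ≥0∞) (R L : ℝ), C ≠ ∞ ∧ 0 < R ∧ 0 < L ∧
    ∀ (g : E d → ℝ) (K : ℝ≥0) (V : ℝ≥0∞) (K0 : Set (E d)) (k1 : ℤ), LipschitzWith K g →
      Integrable g → (∀ x, 0 ≤ g x) → V ≠ ∞ → Tb g V → MeasurableSet K0 →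
      ∫⁻ x in K0, ‖fderiv ℝ (mc g) x‖ₑ ≤
        C * (∫⁻ x in cthickening (R * 2 ^ k1) K0, ‖fderiv ℝ g x‖ₑ) +
        C * (∑' j : ℕ, tt g (2 ^ (k1 - j) * L)) +
        C * (volume K0 * V * ENNReal.ofReal (((2 : ℝ) ^ k1) ^ d)⁻¹)

/-- Module Mol, first part -/
def LocStmt (d : ℕ) : Prop :=
  ∀ (f : E d → ℝ) (G : E d → E d), LocallyIntegrable f → Integrable G → WGrad f G → LTb f G

/-- ball averages with radius `1 / (n + 1)` -/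
noncomputable def gn (g : E d → ℝ) (n : ℕ) (x : E d) : ℝ := av g x (1 / (n + 1))

/-- Module Mol, second part -/
def MolStmt (d : ℕ) : Prop :=
  ∀ (g : E d → ℝ) (G : E d → E d), Measurable g → Integrable g → (∀ x, 0 ≤ g x) → Integrable G →
    LTb g G →
    (∀ n, (∃ K : ℝ≥0, LipschitzWith K (gn g n)) ∧ Integrable (gn g n) ∧ (∀ x, 0 ≤ gn g n x) ∧
      Tb (gn g n) (∫⁻ x, ‖G x‖ₑ) ∧ ∀ U, MeasurableSet U →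
        ∫⁻ x in U, ‖fderiv ℝ (gn g n) x‖ₑ ≤ d * ∫⁻ x in cthickening (2 / (n + 1)) U, ‖G x‖ₑ) ∧
    ∀ (L : ℝ) (ε : ℝ≥0∞) (k0 : ℤ), 0 < L → 0 < ε → ∃ k1 ≤ k0, ∀ᶠ n in atTop,
      ∑' j : ℕ, tt (gn g n) (2 ^ (k1 - j) * L) ≤ ε

/-- Module Weak -/
def WeakStmt (d : ℕ) : Prop :=
  ∀ (u : ℕ → E d → ℝ) (D : ℕ → E d → E d) (U : E d → ℝ) (W : ℝ≥0∞), W ≠ ∞ →
    (∀ n, Measurable (D n)) → (∀ n, ∫⁻ x, ‖D n x‖ₑ ≤ W) → (∀ n, WGrad (u n) (D n)) →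
    (∀ ψ : E d → ℝ, Continuous ψ → HasCompactSupport ψ →
      Tendsto (fun n => ∫ x, u n x * ψ x) atTop (𝓝 (∫ x, U x * ψ x))) →
    (∀ K : Set (E d), IsCompact K → volume K = 0 → ∀ ε : ℝ≥0∞, 0 < ε → ∃ δ : ℝ, 0 < δ ∧
      ∀ᶠ n in atTop, ∫⁻ x in cthickening δ K, ‖D n x‖ₑ ≤ ε) →
    ∃ H : E d → E d, Integrable H ∧ WGrad U H ∧ ∫⁻ x, ‖H x‖ₑ ≤ 2 * d * W

/-- Module Conv -/
def ConvStmt (d : ℕ) : Prop :=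
  ∀ g : E d → ℝ, Measurable g → Integrable g → (∀ x, 0 ≤ g x) → (∀ᵐ x, Mc g x < ∞) →
    LocallyIntegrable (fun x => (Mc g x).toReal) →
    (∀ n, (∃ K : ℝ≥0, LipschitzWith K (gn g n)) ∧ Integrable (gn g n) ∧ ∀ x, 0 ≤ gn g n x) →
    ∀ ψ : E d → ℝ, Continuous ψ → HasCompactSupport ψ →
      Tendsto (fun n => ∫ x, mc (gn g n) x * ψ x) atTop (𝓝 (∫ x, (Mc g x).toReal * ψ x))

/-- Module FinC: the target -/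
def FinCStmt (d : ℕ) : Prop :=
  ∃ C : ℝ, ∀ (f : E d → ℝ) (G : E d → E d), Integrable f → Integrable G → WGrad f G →
    (∀ᵐ x, Mc f x < ∞) ∧ LocallyIntegrable (fun x => (Mc f x).toReal) ∧
    ∃ H : E d → E d, Integrable H ∧ WGrad (fun x => (Mc f x).toReal) H ∧
      ∫ x, ‖H x‖ ≤ C * ∫ x, ‖G x‖

end Vale.Agent.P137
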