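import Vale.Agent.P137.Shear

open MeasureTheory Metric Set Filter
open scoped ENNReal NNReal RealInnerProductSpace

namespace Vale.Agent.P137

variable {d : ℕ}

def NB (ε : ℝ≥0∞) (G : Set (E d)) : Prop := 2 * ε ≤ volume (Gᶜ ∩ ball 0 (1 / 8000))

def Up (e : E d) (ε : ℝ≥0∞) (G : Set (E d)) : Prop :=
  volume (G ∩ ball 0 1 ∩ {y | 1 / 1000 < ⟪y, e⟫}) ≤ (DD d (1 / 2) (1 / 4))⁻¹ * ε

def HS (d : ℕ) (ε c0 : ℝ≥0∞) : Prop :=
  ∀ F : Set (E d), MeasurableSet F → bb F 4 ≤ c0 →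
    ∃ (ν : E d) (t : ℝ), ‖ν‖ = 1 ∧
      volume (F ∩ ball 0 1 ∩ {y | t < inner ℝ y ν}) ≤ ε ∧
      volume (Fᶜ ∩ ball 0 1 ∩ {y | inner ℝ y ν < t}) ≤ ε

/-- the next box maps the upper part into the half space -/
def Into (e μ ν : E d) (t : ℝ) : Prop :=
  ∀ y ∈ ball (0 : E d) 1, 1 / 1000 < ⟪y, e⟫ →
    sh e (1 / 2) (1 / 4) μ y ∈ ball (0 : E d) 1 ∧ t < ⟪sh e (1 / 2) (1 / 4) μ y, ν⟫

lemma stepA {e ν : E d} (he : ‖e‖ = 1) (hν : ‖ν‖ = 1) (h : ‖ν - e‖ ≤ 1 / 50) {t : ℝ}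
    (ht : t ≤ 1 / 8000) : ∃ μ, ⟪e, μ⟫ = (0 : ℝ) ∧ ‖μ‖ ≤ 1 / 40 ∧ Into e μ ν t := by
  set n := ⟪ν, e⟫ with hn
  have h1 : ‖ν - e‖ ^ 2 = 2 - 2 * n := by rw [norm_sub_sq_real, hν, he]; ring
  have h2 : 49 / 50 ≤ n := by nlinarith [norm_nonneg (ν - e)]
  have h3 : ‖pp e ν‖ ≤ 1 / 50 := by
    have := pp_sq he ν
    rw [hν, ← hn] at this
    refine le_trans (abs_le_of_sq_le_sq' ?_ (norm_nonneg (ν - e))).2 h
    nlinarith [sq_nonneg (1 - n)]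
  have hn0 : 0 < n := by linarith
  have h4 : ⟪e, n⁻¹ • pp e ν⟫ = (0 : ℝ) := by
    rw [real_inner_smul_right, pp, inner_sub_right, real_inner_smul_right, ee he,
      real_inner_comm ν e]; ring
  have h5 : ‖n⁻¹ • pp e ν‖ ≤ 1 / 40 := by
    rw [norm_smul, norm_inv, Real.norm_of_nonneg hn0.le, inv_mul_le_iff₀ hn0]
    linarith
  refine ⟨n⁻¹ • pp e ν, h4, h5, fun y hy hy2 => ⟨?_, ?_⟩⟩
  · rw [mem_ball_zero_iff] at hy ⊢
    refine (sh_norm he (by norm_num) (by norm_num) _ y).trans_lt ?_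
    nlinarith [norm_nonneg y, norm_nonneg (n⁻¹ • pp e ν)]
  · have h6 : ν = n • (e + n⁻¹ • pp e ν) := by
      rw [smul_add, smul_smul, mul_inv_cancel₀ hn0.ne', one_smul, pp, ← hn]; abel
    conv_rhs => rw [h6]
    rw [real_inner_smul_right, ← h6, sh_nu he h4]
    nlinarith

lemma stepB {e ν : E d} (he : ‖e‖ = 1) (hν : ‖ν‖ = 1) (h : 1 / 50 < ‖ν - e‖) (t : ℝ) :
    Into e 0 ν t ∨ ∃ p, ball p (1 / 1000) ⊆
      ball (0 : E d) 1 ∩ {y | 1 / 1000 < ⟪y, e⟫} ∩ {y | ⟪y, ν⟫ < t} := by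
  by_cases hI : Into e 0 ν t
  · exact Or.inl hI
  right
  simp only [Into, not_forall] at hI
  obtain ⟨y, hy, hy2, h3⟩ := hI
  set z := sh e (1 / 2) (1 / 4) 0 y with hz
  rw [mem_ball_zero_iff] at hy
  have hz1 : ‖z‖ ≤ 3 / 4 := by
    refine (sh_norm he (by norm_num) (by norm_num) _ y).trans ?_
    rw [norm_zero]; linarith
  have hz2 : ⟪z, ν⟫ ≤ t := by
    by_contra hc
    exact h3 ⟨by rw [mem_ball_zero_iff]; linarith, not_le.1 hc⟩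
  have hz3 : 0 < ⟪z, e⟫ := by
    rw [hz, sh_e he, inner_zero_right]; linarith
  set n := ‖ν - e‖ with hn
  have hn0 : 0 < n := by linarith
  have h1 : n ^ 2 = 2 - 2 * ⟪ν, e⟫ := by rw [hn, norm_sub_sq_real, hν, he]; ring
  refine ⟨z + (1 / 5 / n) • (e - ν), fun x hx => ?_⟩
  obtain ⟨k, hk, rfl⟩ : ∃ k : E d, ‖k‖ < 1 / 1000 ∧ x = z + (1 / 5 / n) • (e - ν) + k :=
    ⟨x - (z + (1 / 5 / n) • (e - ν)), by rwa [mem_ball, dist_eq_norm] at hx, by abel⟩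
  have h4 : ‖(1 / 5 / n) • (e - ν)‖ = 1 / 5 := by
    rw [norm_smul, norm_sub_rev, ← hn, Real.norm_of_nonneg (by positivity)]; field_simp
  have h5 : ⟪(1 / 5 / n) • (e - ν), e⟫ = n / 10 := by
    rw [real_inner_smul_left, inner_sub_left, ee he]
    field_simp; nlinarith
  have h6 : ⟪(1 / 5 / n) • (e - ν), ν⟫ = -(n / 10) := by
    rw [real_inner_smul_left, inner_sub_left, ee hν, real_inner_comm ν e]
    field_simp; nlinarith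
  have h7 := abs_le.1 (abs_inner_le he k)
  have h8 := abs_le.1 (abs_inner_le hν k)
  refine ⟨⟨?_, ?_⟩, ?_⟩
  · rw [mem_ball_zero_iff]
    have := norm_add₃_le (a := z) (b := (1 / 5 / n) • (e - ν)) (c := k)
    linarith
  · simp only [mem_ofPred_eq, inner_add_left, h5]; linarith [h7.1]
  · simp only [mem_ofPred_eq, inner_add_left, h6]; linarith [h8.2]

lemma up_of_into {e μ ν : E d} (he : ‖e‖ = 1) (hμ : ⟪e, μ⟫ = (0 : ℝ)) {t : ℝ} (h : Into e μ ν t)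
    {ε : ℝ≥0∞} {G : Set (E d)} (hG : volume (G ∩ ball 0 1 ∩ {y | t < inner ℝ y ν}) ≤ ε) :
    Up e ε (sh e (1 / 2) (1 / 4) μ ⁻¹' G) := by
  rw [vol_pre he hμ (w := 1 / 2) (h := 1 / 4) (by norm_num) (by norm_num)] at hG
  rw [Up, ← ENNReal.div_eq_inv_mul, ENNReal.le_div_iff_mul_le
    (Or.inl (DD_ne_zero (by norm_num) (by norm_num))) (Or.inl (DD_ne_top _ _)), mul_comm]
  refine le_trans ?_ hG
  gcongr
  rintro y ⟨⟨h1, h2⟩, h3⟩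
  exact ⟨⟨h1, (h y h2 h3).1⟩, (h y h2 h3).2⟩

lemma t_le {ε : ℝ≥0∞} (h0 : ε ≠ 0) (h1 : ε ≠ ∞) {G : Set (E d)} (hG : NB ε G) {ν : E d}
    (hν : ‖ν‖ = 1) {t : ℝ} (h : volume (Gᶜ ∩ ball 0 1 ∩ {y | inner ℝ y ν < t}) ≤ ε) :
    t ≤ 1 / 8000 := by
  by_contra hc
  have h2 : 2 * ε ≤ ε := by
    refine hG.trans (le_trans (measure_mono ?_) h)
    rintro y ⟨hy1, hy2⟩
    rw [mem_ball_zero_iff] at hy2
    refine ⟨⟨hy1, by rw [mem_ball_zero_iff]; linarith⟩, ?_⟩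
    have := (abs_le.1 (abs_inner_le hν y)).2
    simp only [mem_ofPred_eq]; linarith
  rw [two_mul] at h2
  exact absurd h2 (not_le.2 (ENNReal.lt_add_right h1 h0))

lemma step {ε c0 : ℝ≥0∞} (hS : HS d ε c0) (h0 : ε ≠ 0)
    (h1 : (DD d (1 / 2) (1 / 4))⁻¹ * ε + ε < volume (ball (0 : E d) (1 / 1000)))
    {e : E d} (he : ‖e‖ = 1) {G : Set (E d)} (hG : MeasurableSet G) (hb : bb G 4 ≤ c0)
    (hN : NB ε G) (hU : Up e ε G) :
    ∃ μ, ⟪e, μ⟫ = (0 : ℝ) ∧ ‖μ‖ ≤ 1 / 40 ∧ Up e ε (sh e (1 / 2) (1 / 4) μ ⁻¹' G) := by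
  obtain ⟨ν, t, hν, h2, h3⟩ := hS G hG hb
  have hε : ε ≠ ∞ := (le_add_self.trans_lt (h1.trans measure_ball_lt_top)).ne
  have ht := t_le h0 hε hN hν h3
  rcases le_or_gt ‖ν - e‖ (1 / 50) with h | h
  · obtain ⟨μ, h4, h5, h6⟩ := stepA he hν h ht
    exact ⟨μ, h4, h5, up_of_into he h4 h6 h2⟩
  rcases stepB he hν h t with h4 | ⟨p, hp⟩
  · exact ⟨0, inner_zero_right _, by simp, up_of_into he (inner_zero_right _) h4 h2⟩
  exfalso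
  refine absurd h1 (not_lt.2 ?_)
  rw [← Measure.addHaar_ball_center volume p]
  refine le_trans (measure_mono ?_) ((measure_union_le _ _).trans (add_le_add hU h3))
  intro y hy
  obtain ⟨⟨k1, k2⟩, k3⟩ := hp hy
  by_cases hyG : y ∈ G
  · exact Or.inl ⟨⟨hyG, k1⟩, k2⟩
  · exact Or.inr ⟨⟨hyG, k1⟩, k3⟩

lemma top {ε c0 : ℝ≥0∞} (hS : HS d ε c0) (h0 : ε ≠ 0) (hε : ε ≠ ∞)
    {G : Set (E d)} (hG : MeasurableSet G) (hb : bb G 4 ≤ c0) (hN : NB ε G) :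
    ∃ e μ, ‖e‖ = 1 ∧ ⟪e, μ⟫ = (0 : ℝ) ∧ ‖μ‖ ≤ 1 / 40 ∧
      Up e ε (sh e (1 / 2) (1 / 4) μ ⁻¹' G) := by
  obtain ⟨ν, t, hν, h2, h3⟩ := hS G hG hb
  obtain ⟨μ, h4, h5, h6⟩ := stepA hν hν (by simp) (t_le h0 hε hN hν h3)
  exact ⟨ν, μ, hν, h4, h5, up_of_into hν h4 h6 h2⟩

/-! closure under increasing unions -/

lemma bb_union {G : ℕ → Set (E d)} (hG : Monotone G) {r : ℝ} {c : ℝ≥0∞}
    (h : ∀ k, bb (G k) r ≤ c) : bb (⋃ k, G k) r ≤ c := by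
  let A : ℕ → Set (E d × E d) := fun n =>
    (⋂ k ≥ n, Bad (G k)) ∩ ball (0 : E d) r ×ˢ ball (0 : E d) r
  have hA : Monotone A := fun a b hab =>
    inter_subset_inter_left _ (biInter_subset_biInter_left fun k (hk : b ≤ k) => hab.trans hk)
  have ev : ∀ y, ∀ᶠ k in atTop, (y ∈ G k ↔ y ∈ ⋃ k, G k) := by
    intro y
    by_cases hy : y ∈ ⋃ k, G k
    · obtain ⟨j, hj⟩ := mem_iUnion.1 hy
      filter_upwards [eventually_ge_atTop j] with k hk using iff_of_true (hG hk hj) hy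
    · exact Eventually.of_forall fun k => iff_of_false (fun h => hy (mem_iUnion.2 ⟨k, h⟩)) hy
  calc bb (⋃ k, G k) r ≤ volume (⋃ n, A n) := by
        refine measure_mono ?_
        rintro p ⟨hp1, hp2⟩
        obtain ⟨n, hn⟩ := eventually_atTop.1 ((ev (p.1 + p.2)).and ((ev (p.1 - p.2)).and (ev p.1)))
        refine mem_iUnion.2 ⟨n, mem_iInter₂.2 fun k hk => ?_, hp2⟩
        obtain ⟨a1, a2, a3⟩ := hn k hk
        simp only [Bad, mem_ofPred_eq, a1, a2, a3] at hp1 ⊢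
        exact hp1
    _ = ⨆ n, volume (A n) := hA.measure_iUnion
    _ ≤ c := iSup_le fun n => le_trans (measure_mono (inter_subset_inter_left _
        (biInter_subset_of_mem (s := {k | k ≥ n}) (le_refl n)))) (h n)

lemma nb_union {G : ℕ → Set (E d)} (hG : Monotone G) (hm : ∀ k, MeasurableSet (G k))
    {ε : ℝ≥0∞} (h : ∀ k, NB ε (G k)) : NB ε (⋃ k, G k) := by
  rw [NB, compl_iUnion, iInter_inter, Antitone.measure_iInter]
  · exact le_iInf h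
  · exact fun a b hab => inter_subset_inter_left _ (compl_subset_compl.2 (hG hab))
  · exact fun k => ((hm k).compl.inter measurableSet_ball).nullMeasurableSet
  · exact ⟨0, ((measure_mono inter_subset_right).trans_lt measure_ball_lt_top).ne⟩

lemma up_union {G : ℕ → Set (E d)} (hG : Monotone G) {e : E d}
    {ε : ℝ≥0∞} (h : ∀ k, Up e ε (G k)) : Up e ε (⋃ k, G k) := by
  rw [Up, iUnion_inter, iUnion_inter, Monotone.measure_iUnion]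
  · exact iSup_le h
  · exact fun a b hab => inter_subset_inter_left _ (inter_subset_inter_left _ (hG hab))

lemma up_mono {e : E d} {ε : ℝ≥0∞} {F G : Set (E d)} (h : F ⊆ G) (hG : Up e ε G) : Up e ε F :=
  le_trans (measure_mono (inter_subset_inter_left _ (inter_subset_inter_left _ h))) hG

lemma cofinal {S : Set ℝ} (h1 : S.Nonempty) (h2 : BddAbove S) :
    ∃ u : ℕ → ℝ, Monotone u ∧ (∀ n, u n ∈ S) ∧ ∀ s ∈ S, ∃ n, s ≤ u n := by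
  by_cases h : sSup S ∈ S
  · exact ⟨fun _ => sSup S, monotone_const, fun _ => h, fun s hs => ⟨0, le_csSup h2 hs⟩⟩
  obtain ⟨u, hu, hl, hS⟩ := exists_seq_tendsto_sSup h1 h2
  refine ⟨u, hu, hS, fun s hs => ?_⟩
  have : s < sSup S := lt_of_le_of_ne (le_csSup h2 hs) fun e => h (e ▸ hs)
  exact (hl.eventually (eventually_ge_nhds this)).exists

lemma famStep {ε c0 : ℝ≥0∞} (hS : HS d ε c0) (h0 : ε ≠ 0)
    (h1 : (DD d (1 / 2) (1 / 4))⁻¹ * ε + ε < volume (ball (0 : E d) (1 / 1000)))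
    {e : E d} (he : ‖e‖ = 1) {G : ℝ → Set (E d)} (hG : Monotone G)
    (hm : ∀ s, MeasurableSet (G s)) (m : ℝ) :
    ∃ μ, ⟪e, μ⟫ = (0 : ℝ) ∧ ‖μ‖ ≤ 1 / 40 ∧ ∀ s < m, bb (G s) 4 ≤ c0 → NB ε (G s) →
      Up e ε (G s) → Up e ε (sh e (1 / 2) (1 / 4) μ ⁻¹' G s) := by
  by_cases hne : {s | s < m ∧ bb (G s) 4 ≤ c0 ∧ NB ε (G s) ∧ Up e ε (G s)}.Nonempty
  · obtain ⟨u, hu, k1, k2⟩ := cofinal hne ⟨m, fun s hs => hs.1.le⟩
    have hM : Monotone fun k => G (u k) := hG.comp hu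
    obtain ⟨μ, a1, a2, a3⟩ := step hS h0 h1 he (MeasurableSet.iUnion fun k => hm (u k))
      (bb_union hM fun k => (k1 k).2.1) (nb_union hM (fun k => hm _) fun k => (k1 k).2.2.1)
      (up_union hM fun k => (k1 k).2.2.2)
    refine ⟨μ, a1, a2, fun s b1 b2 b3 b4 => up_mono (preimage_mono ?_) a3⟩
    obtain ⟨n, hn⟩ := k2 s ⟨b1, b2, b3, b4⟩
    exact (hG hn).trans (subset_iUnion (fun k => G (u k)) n)
  · exact ⟨0, inner_zero_right _, by simp, fun s b1 b2 b3 b4 => (hne ⟨s, b1, b2, b3, b4⟩).elim⟩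

lemma famTop (hd : 1 ≤ d) {ε c0 : ℝ≥0∞} (hS : HS d ε c0) (h0 : ε ≠ 0) (hε : ε ≠ ∞)
    {G : ℝ → Set (E d)} (hG : Monotone G) (hm : ∀ s, MeasurableSet (G s)) (m : ℝ) :
    ∃ e μ, ‖e‖ = 1 ∧ ⟪e, μ⟫ = (0 : ℝ) ∧ ‖μ‖ ≤ 1 / 40 ∧ ∀ s < m, bb (G s) 4 ≤ c0 → NB ε (G s) →
      Up e ε (sh e (1 / 2) (1 / 4) μ ⁻¹' G s) := by
  by_cases hne : {s | s < m ∧ bb (G s) 4 ≤ c0 ∧ NB ε (G s)}.Nonempty
  · obtain ⟨u, hu, k1, k2⟩ := cofinal hne ⟨m, fun s hs => hs.1.le⟩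
    have hM : Monotone fun k => G (u k) := hG.comp hu
    obtain ⟨e, μ, a0, a1, a2, a3⟩ := top hS h0 hε (MeasurableSet.iUnion fun k => hm (u k))
      (bb_union hM fun k => (k1 k).2.1) (nb_union hM (fun k => hm _) fun k => (k1 k).2.2)
    refine ⟨e, μ, a0, a1, a2, fun s b1 b2 b3 => up_mono (preimage_mono ?_) a3⟩
    obtain ⟨n, hn⟩ := k2 s ⟨b1, b2, b3⟩
    exact (hG hn).trans (subset_iUnion (fun k => G (u k)) n)
  · exact ⟨EuclideanSpace.single ⟨0, hd⟩ 1, 0, by simp, inner_zero_right _, by simp,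
      fun s b1 b2 b3 => (hne ⟨s, b1, b2, b3⟩).elim⟩

end Vale.Agent.P137
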