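import Vale.Agent.P137.CBase

open MeasureTheory Metric Set Filter
open scoped ENNReal NNReal RealInnerProductSpace Topology

namespace Vale.Agent.P137

variable {d : ℕ}

namespace VM

lemma av_unit (g : E d → ℝ) (x : E d) {r : ℝ} (hr : 0 < r) :
    av g x r = av (fun y => g (x + r • y)) 0 1 := by
  rw [Th_av g x hr, smul_zero, add_zero, mul_one]

lemma av_diff {f g : E d → ℝ} (hf : Continuous f) (hg : Continuous g) {B : ℝ}
    (h : ∀ y ∈ ball (0 : E d) 1, f y ≤ g y + B) : av f 0 1 ≤ av g 0 1 + B := by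
  have hb := TU.b1_pos (d := d)
  have i1 : IntegrableOn f (ball (0 : E d) 1) :=
    (hf.continuousOn.integrableOn_compact (isCompact_closedBall 0 1)).mono_set
      ball_subset_closedBall
  have i2 : IntegrableOn g (ball (0 : E d) 1) :=
    (hg.continuousOn.integrableOn_compact (isCompact_closedBall 0 1)).mono_set
      ball_subset_closedBall
  have i3 : IntegrableOn (fun _ : E d => B) (ball (0 : E d) 1) :=
    integrableOn_const measure_ball_lt_top.ne
  have h1 := setIntegral_mono_on i1 (i2.add i3) measurableSet_ball h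
  simp only [Pi.add_apply] at h1
  rw [integral_add i2 i3, setIntegral_const, smul_eq_mul] at h1
  rw [av, av, div_add' _ _ _ hb.ne', div_le_div_iff_of_pos_right hb, mul_comm B]
  exact h1

lemma av_const (c : ℝ) : av (fun _ : E d => c) 0 1 = c := by
  have hb := TU.b1_pos (d := d)
  rw [av, setIntegral_const, smul_eq_mul, div_eq_iff hb.ne', mul_comm]
  rfl

variable {g : E d → ℝ} {K : ℝ≥0}

lemma lip_pt (hg : LipschitzWith K g) (x x' : E d) (r r' : ℝ) {y : E d}
    (hy : y ∈ ball (0 : E d) 1) :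
    g (x + r • y) ≤ g (x' + r' • y) + K * (dist x x' + |r - r'|) := by
  refine (hg.le_add_mul _ (x' + r' • y)).trans ?_
  gcongr
  refine (dist_add_add_le _ _ _ _).trans ?_
  gcongr
  rw [dist_eq_norm, ← sub_smul, norm_smul, Real.norm_eq_abs]
  exact mul_le_of_le_one_right (abs_nonneg _) (mem_ball_zero_iff.1 hy).le

lemma av_lip (hg : LipschitzWith K g) (x x' : E d) {r r' : ℝ} (hr : 0 < r) (hr' : 0 < r') :
    av g x r ≤ av g x' r' + K * (dist x x' + |r - r'|) := by
  have hc := hg.continuous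
  rw [av_unit g x hr, av_unit g x' hr']
  exact av_diff (by fun_prop) (by fun_prop) fun y hy => lip_pt hg x x' r r' hy

lemma av_le_pt (hg : LipschitzWith K g) (x : E d) {r : ℝ} (hr : 0 < r) :
    av g x r ≤ g x + K * r ∧ g x ≤ av g x r + K * r := by
  have hc := hg.continuous
  rw [av_unit g x hr]
  constructor
  · have := av_diff (f := fun y => g (x + r • y)) (g := fun _ => g x) (B := K * r) (by fun_prop)
      continuous_const fun y hy => by
        simpa [abs_of_pos hr] using lip_pt hg x x r 0 hy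
    rwa [av_const] at this
  · have := av_diff (g := fun y => g (x + r • y)) (f := fun _ => g x) (B := K * r)
      continuous_const (by fun_prop) fun y hy => by
        simpa [abs_of_pos hr] using lip_pt hg x x 0 r hy
    rwa [av_const] at this

lemma av_contOn (hg : LipschitzWith K g) (x : E d) : ContinuousOn (av g x) (Ioi 0) := by
  refine (LipschitzOnWith.of_le_add_mul K fun r hr r' hr' => ?_).continuousOn
  simpa [Real.dist_eq] using av_lip hg x x hr hr'

lemma av_contI (hg : LipschitzWith K g) (x : E d) {a b : ℝ} (ha : 0 < a) :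
    ContinuousOn (av g x) (Icc a b) := (av_contOn hg x).mono fun _ h => ha.trans_le h.1

lemma le_vv (hg : LipschitzWith K g) (x : E d) {r : ℝ} (hr : r ∈ Icc (1 : ℝ) 2) :
    av g x r ≤ vv g x :=
  le_csSup (isCompact_Icc.bddAbove_image (av_contI hg x one_pos)) (mem_image_of_mem _ hr)

lemma vv_eq (hg : LipschitzWith K g) (x : E d) : ∃ r ∈ Icc (1 : ℝ) 2, vv g x = av g x r :=
  isCompact_Icc.exists_sSup_image_eq (nonempty_Icc.2 one_le_two) (av_contI hg x one_pos)

lemma bdd (hg : LipschitzWith K g) (hi : Integrable g) (h0 : ∀ x, 0 ≤ g x) (x : E d) :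
    BddAbove (av g x '' Ioi 0) := by
  refine ⟨max (g x + K * 1) ((∫ y, g y) / (1 ^ d * (volume (ball (0 : E d) 1)).toReal)), ?_⟩
  rintro _ ⟨r, hr, rfl⟩
  rcases le_total r 1 with h | h
  · refine le_max_of_le_left ((av_le_pt hg x hr).1.trans ?_)
    gcongr
  · exact le_max_of_le_right (TU.av_le hi h0 one_pos h x)

lemma ne_Ioi (x : E d) : (av g x '' Ioi 0).Nonempty := ⟨_, 1, mem_Ioi.2 one_pos, rfl⟩

lemma mc_attained (hd : 2 ≤ d) (hg : LipschitzWith K g) (hi : Integrable g) (h0 : ∀ x, 0 ≤ g x)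
    (x : E d) (h : g x < mc g x) : ∃ r, 0 < r ∧ mc g x = av g x r := by
  have hb := TU.b1_pos (d := d)
  set om := (volume (ball (0 : E d) 1)).toReal
  set m := (g x + mc g x) / 2 with hm
  have m0 : 0 < m := by linarith [h0 x]
  have hK : (0 : ℝ) < K + 1 := by positivity
  set a := (m - g x) / (K + 1) with ha
  have a0 : 0 < a := div_pos (by linarith) hK
  set b := max (max 1 a) ((∫ y, g y) / (om * m)) with hb'
  have b1 : 1 ≤ b := (le_max_left _ _).trans (le_max_left _ _)
  have ab : a ≤ b := (le_max_right _ _).trans (le_max_left _ _)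
  obtain ⟨r, hr, hmax⟩ := isCompact_Icc.exists_isMaxOn (nonempty_Icc.2 ab) (av_contI hg x a0)
  have r0 : 0 < r := a0.trans_le hr.1
  refine ⟨r, r0, le_antisymm ?_ (le_csSup (bdd hg hi h0 x) ⟨r, r0, rfl⟩)⟩
  have key : mc g x ≤ max m (av g x r) := by
    refine csSup_le (ne_Ioi x) ?_
    rintro _ ⟨s, hs, rfl⟩
    rcases le_total s a with h1 | h1
    · refine le_max_of_le_left ((av_le_pt hg x hs).1.trans ?_)
      have h2 : (K + 1 : ℝ) * a = m - g x := by rw [ha]; field_simp
      have h3 : (K : ℝ) * s ≤ K * a := by gcongr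
      nlinarith
    · rcases le_total s b with h2 | h2
      · exact le_max_of_le_right (hmax ⟨h1, h2⟩)
      · refine le_max_of_le_left ((TU.av_le hi h0 (one_pos.trans_le b1) h2 x).trans ?_)
        have h3 : (∫ y, g y) ≤ b * (om * m) := (div_le_iff₀ (by positivity)).1 (le_max_right _ _)
        have h4 : b ≤ b ^ d := le_self_pow₀ b1 (by omega)
        rw [div_le_iff₀ (by positivity)]
        calc (∫ y, g y) ≤ b * (om * m) := h3
          _ ≤ b ^ d * (om * m) := by gcongr
          _ = _ := by ring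
  rcases le_max_iff.1 key with h1 | h1
  · linarith
  · exact h1

/-- the cut-off function -/
noncomputable def cut (x : E d) (a r : ℝ) (y : E d) : ℝ :=
  max (min ((r - a)⁻¹ * (r - ‖y - x‖)) 1) 0

lemma cut_lip (x : E d) (a r : ℝ) : ∃ D : ℝ≥0, LipschitzWith D (cut x a r) := by
  have h1 : LipschitzWith (‖(r - a)⁻¹‖₊ * 1) fun y : E d => (r - a)⁻¹ * (r - ‖y - x‖) := by
    refine (lipschitzWith_smul (r - a)⁻¹).comp (g := fun y : E d => r - ‖y - x‖) ?_
    refine LipschitzWith.of_dist_le_mul fun y z => ?_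
    rw [Real.dist_eq, sub_sub_sub_cancel_left, abs_sub_comm, NNReal.coe_one, one_mul,
      ← dist_eq_norm, ← dist_eq_norm]
    exact abs_dist_sub_le _ _ _
  exact ⟨_, (h1.min_const 1).max_const 0⟩

lemma cut_zero {x y : E d} {a r : ℝ} (h : a < r) (hy : r ≤ ‖y - x‖) : cut x a r y = 0 :=
  max_eq_right (min_le_of_left_le
    (mul_nonpos_of_nonneg_of_nonpos (inv_pos.2 (sub_pos.2 h)).le (sub_nonpos.2 hy)))

lemma cut_one {x y : E d} {a r : ℝ} (h : a < r) (hy : ‖y - x‖ ≤ a) : cut x a r y = 1 := by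
  rw [cut, min_eq_right, max_eq_left zero_le_one]
  rw [← div_eq_inv_mul, le_div_iff₀ (sub_pos.2 h)]
  linarith

lemma cut_mid {x y : E d} {a r : ℝ} (h : a < r) (hy : a ≤ ‖y - x‖) (hy' : ‖y - x‖ ≤ r) :
    cut x a r y = (r - a)⁻¹ * (r - ‖y - x‖) := by
  rw [cut, min_eq_left, max_eq_left]
  · exact mul_nonneg (inv_pos.2 (sub_pos.2 h)).le (sub_nonneg.2 hy')
  · rw [← div_eq_inv_mul, div_le_one (sub_pos.2 h)]
    linarith

lemma cut_supp (x : E d) {a r : ℝ} (h : a < r) : HasCompactSupport (cut x a r) :=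
  HasCompactSupport.intro (isCompact_closedBall x r) fun y hy =>
    cut_zero h (by rw [mem_closedBall, dist_eq_norm, not_le] at hy; exact hy.le)

lemma norm_der {z ξ : E d} (hz : z ≠ 0) :
    HasDerivAt (fun t : ℝ => ‖z + t • -ξ‖) (-cs ξ z) 0 := by
  have h1 : HasDerivAt (fun t : ℝ => z + t • -ξ) (-ξ) 0 := by
    simpa using ((hasDerivAt_id (0 : ℝ)).smul_const (-ξ)).const_add z
  have h2 := h1.norm_sq.sqrt (by simpa using hz)
  have h3 : ‖z‖ ≠ 0 := norm_ne_zero_iff.2 hz
  simp only [Real.sqrt_sq (norm_nonneg _), zero_smul, add_zero, inner_neg_right] at h2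
  refine h2.congr_deriv ?_
  rw [cs]
  field_simp

lemma cut_der {x y ξ : E d} {a r : ℝ} (h0 : 0 < a) (h : a < r) (h1 : ‖y - x‖ ≠ a)
    (h2 : ‖y - x‖ ≠ r) : lineDeriv ℝ (cut x a r) y (-ξ) =
      (ball x r \ ball x a).indicator (fun y => (r - a)⁻¹ * cs ξ (y - x)) y := by
  have hc : ContinuousAt (fun t : ℝ => ‖y + t • -ξ - x‖) 0 := by fun_prop
  have e0 : ‖y + (0 : ℝ) • -ξ - x‖ = ‖y - x‖ := by simp
  refine HasDerivAt.deriv ?_
  rcases lt_or_gt_of_ne h1 with k1 | k1
  · rw [indicator_of_notMem (fun hy => hy.2 (by rwa [mem_ball, dist_eq_norm]))]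
    refine (hasDerivAt_const (0 : ℝ) (1 : ℝ)).congr_of_eventuallyEq ?_
    filter_upwards [hc.eventually_lt continuousAt_const (e0.trans_lt k1)] with t ht
    exact cut_one h ht.le
  rcases lt_or_gt_of_ne h2 with k2 | k2
  · rw [indicator_of_mem (show y ∈ ball x r \ ball x a from
      ⟨by rwa [mem_ball, dist_eq_norm], by rw [mem_ball, dist_eq_norm]; exact k1.le.not_gt⟩)]
    have h3 := ((norm_der (ξ := ξ) (z := y - x)
      (norm_pos_iff.1 (h0.trans k1))).const_sub r).const_mul (r - a)⁻¹
    rw [neg_neg] at h3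
    refine h3.congr_of_eventuallyEq ?_
    filter_upwards [hc.eventually_lt continuousAt_const (e0.trans_lt k2),
      continuousAt_const.eventually_lt hc (k1.trans_eq e0.symm)] with t ht ht'
    rw [cut_mid h ht'.le ht.le, add_sub_right_comm]
  · rw [indicator_of_notMem (fun hy => k2.le.not_gt (by simpa [mem_ball, dist_eq_norm] using hy.1))]
    refine (hasDerivAt_const (0 : ℝ) (0 : ℝ)).congr_of_eventuallyEq ?_
    filter_upwards [continuousAt_const.eventually_lt hc (k2.trans_eq e0.symm)] with t ht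
    exact cut_zero h ht.le

lemma shell_int (φ : E d → ℝ) (x : E d) {a s : ℝ} (ha : 0 < a) :
    ∫ y in ball x (a * s) \ ball x a, φ y = a ^ d * ∫ z in Sh0 d s, φ (x + a • z) := by
  have h := (Th x ha).measurableEmbedding.setIntegral_map (μ := volume) φ
    (ball x (a * s) \ ball x a)
  have e : Th x ha ⁻¹' (ball x (a * s) \ ball x a) = Sh0 d s := by
    have h1 := Th_ball x ha 0 s
    have h2 := Th_ball x ha 0 1
    rw [smul_zero, add_zero] at h1 h2
    rw [mul_one] at h2
    rw [preimage_diff, h1, h2, Sh0]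
  rw [Th_map, Measure.restrict_smul, integral_smul_measure, smul_eq_mul, e,
    ENNReal.toReal_ofReal (by positivity)] at h
  simp only [Th_apply] at h
  rw [← h]
  field_simp

lemma parts {γ : E d → ℝ} (hγ : LipschitzWith K γ) (ξ x : E d) {a s : ℝ} (ha : 0 < a)
    (hs : 1 < s) (hd : d ≠ 0) : ∫ y, lineDeriv ℝ γ y ξ * cut x a (a * s) y =
      (a * s - a)⁻¹ * (a ^ d * ((s ^ d - 1) * (volume (ball (0 : E d) 1)).toReal)) *
        sF γ ξ x a s := by
  have h : a < a * s := by nlinarith
  obtain ⟨D, hD⟩ := cut_lip x a (a * s)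
  have hv : 0 < (s ^ d - 1) * (volume (ball (0 : E d) 1)).toReal :=
    mul_pos (sub_pos.2 (one_lt_pow₀ hs hd)) TU.b1_pos
  rw [hγ.integral_lineDeriv_mul_eq hD (cut_supp x h) ξ]
  have e1 : ∫ y, lineDeriv ℝ (cut x a (a * s)) y (-ξ) * γ y =
      ∫ y in ball x (a * s) \ ball x a, (a * s - a)⁻¹ * (γ y * cs ξ (y - x)) := by
    rw [← integral_indicator (measurableSet_ball.diff measurableSet_ball)]
    refine integral_congr_ae ?_
    filter_upwards [measure_eq_zero_iff_ae_notMem.1
      (Measure.addHaar_sphere_of_ne_zero volume x ha.ne'), measure_eq_zero_iff_ae_notMem.1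
      (Measure.addHaar_sphere_of_ne_zero volume x (ha.trans h).ne')] with y h1 h2
    rw [mem_sphere, dist_eq_norm] at h1 h2
    rw [cut_der ha h h1 h2]
    by_cases hy : y ∈ ball x (a * s) \ ball x a
    · rw [indicator_of_mem hy, indicator_of_mem hy]; ring
    · rw [indicator_of_notMem hy, indicator_of_notMem hy, zero_mul]
  rw [e1, integral_const_mul, shell_int _ x ha, sF, sa, Sh0_vol hs.le]
  simp only [add_sub_cancel_left, cs_smul _ _ ha]
  rw [mul_assoc, mul_assoc, mul_div_cancel₀ _ hv.ne']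

lemma der_low {γ : E d → ℝ} (hγ : LipschitzWith K γ) (ξ x : E d) {r : ℝ}
    (hr : r ∈ Icc (1 : ℝ) 2) (he : vv γ x = av γ x r) (hD : DifferentiableAt ℝ (vv γ) x) :
    ∫ y, lineDeriv ℝ γ y ξ * (ball x r).indicator (fun _ => (1 : ℝ)) y ≤
      (volume (ball x r)).toReal * fderiv ℝ (vv γ) x ξ := by
  have r0 : 0 < r := one_pos.trans_le hr.1
  have hv : 0 < (volume (ball x r)).toReal :=
    ENNReal.toReal_pos (measure_ball_pos _ _ r0).ne' measure_ball_lt_top.ne
  have i0 : Integrable ((ball x r).indicator fun _ => (1 : ℝ)) :=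
    (integrable_indicator_iff measurableSet_ball).2 (integrableOn_const measure_ball_lt_top.ne)
  have t1 := hγ.integral_inv_smul_sub_mul_tendsto_integral_lineDeriv_mul i0 ξ
  have t2 := ((hD.hasFDerivAt.hasLineDerivAt ξ).tendsto_slope_zero_right).const_mul
    (volume (ball x r)).toReal
  refine le_of_tendsto_of_tendsto t1 t2 (eventually_nhdsWithin_of_forall fun t (ht : 0 < t) => ?_)
  have hc := hγ.continuous
  have i1 : ∀ v : E d, IntegrableOn (fun y => γ (y + v)) (ball x r) := fun v =>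
    ((show Continuous fun y => γ (y + v) by fun_prop).continuousOn.integrableOn_compact
      (isCompact_closedBall x r)).mono_set ball_subset_closedBall
  have i2 : IntegrableOn γ (ball x r) := by simpa using i1 0
  have e : ∫ y in ball (x + t • ξ) r, γ y = ∫ y in ball x r, γ (y + t • ξ) := by
    rw [← (measurePreserving_add_right volume (t • ξ)).setIntegral_preimage_emb
      (measurableEmbedding_addRight (t • ξ))]
    simp
  have e2 : ∫ y, t⁻¹ • (γ (y + t • ξ) - γ y) * (ball x r).indicator (fun _ => (1 : ℝ)) y =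
      t⁻¹ * ((∫ y in ball x r, γ (y + t • ξ)) - ∫ y in ball x r, γ y) := by
    rw [← integral_sub (i1 _) i2, ← integral_const_mul, ← integral_indicator measurableSet_ball]
    refine integral_congr_ae (Eventually.of_forall fun y => ?_)
    by_cases hy : y ∈ ball x r <;> simp [hy]
  have h1 := le_vv hγ (x + t • ξ) hr
  rw [av, e, Measure.addHaar_ball_center _ (x + t • ξ), ← Measure.addHaar_ball_center _ x,
    div_le_iff₀ hv] at h1
  rw [av, eq_div_iff hv.ne'] at he
  dsimp only
  rw [e2, smul_eq_mul, mul_left_comm, ← he]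
  gcongr
  linarith

lemma err {γ : E d → ℝ} (hγ : LipschitzWith K γ) {ξ : E d} (hξ : ‖ξ‖ = 1) (x : E d) {a r : ℝ}
    (ha : 0 < a) (h : a < r) :
    ∫ y, lineDeriv ℝ γ y ξ * cut x a r y ≤
      (∫ y, lineDeriv ℝ γ y ξ * (ball x r).indicator (fun _ => (1 : ℝ)) y) +
        K * ((r ^ d - a ^ d) * (volume (ball (0 : E d) 1)).toReal) := by
  obtain ⟨D, hD⟩ := cut_lip x a r
  have hb : ∀ y, |lineDeriv ℝ γ y ξ| ≤ K := fun y => by
    simpa [hξ] using norm_lineDeriv_le_of_lipschitz ℝ (v := ξ) (x₀ := y) hγ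
  have hm : AEStronglyMeasurable (fun y => lineDeriv ℝ γ y ξ) volume :=
    aestronglyMeasurable_lineDeriv hγ.continuous volume
  have i0 : Integrable ((ball x r).indicator fun _ => (1 : ℝ)) :=
    (integrable_indicator_iff measurableSet_ball).2 (integrableOn_const measure_ball_lt_top.ne)
  have i1 : Integrable (cut x a r) := hD.continuous.integrable_of_hasCompactSupport (cut_supp x h)
  have hS : MeasurableSet (ball x r \ ball x a) := measurableSet_ball.diff measurableSet_ball
  have fS : volume (ball x r \ ball x a) ≠ ∞ :=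
    ((measure_mono sdiff_subset).trans_lt measure_ball_lt_top).ne
  have i2 : Integrable ((ball x r \ ball x a).indicator fun _ => (K : ℝ)) :=
    (integrable_indicator_iff hS).2 (integrableOn_const fS)
  have j0 := i0.bdd_mul hm (Eventually.of_forall hb)
  have j1 := i1.bdd_mul hm (Eventually.of_forall hb)
  have e : ∫ y, (ball x r \ ball x a).indicator (fun _ => (K : ℝ)) y =
      K * ((r ^ d - a ^ d) * (volume (ball (0 : E d) 1)).toReal) := by
    rw [integral_indicator hS, setIntegral_const, smul_eq_mul, mul_comm, Measure.real,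
      measure_sdiff (ball_subset_ball h.le) measurableSet_ball.nullMeasurableSet
        measure_ball_lt_top.ne, ENNReal.toReal_sub_of_le (measure_mono (ball_subset_ball h.le))
        measure_ball_lt_top.ne, TU.vol_ball x ha, TU.vol_ball x (ha.trans h), sub_mul]
  rw [← e, ← integral_add j0 i2]
  refine integral_mono j1 (j0.add i2) fun y => ?_
  have k := abs_le.1 (hb y)
  dsimp only
  by_cases h1 : y ∈ ball x r
  · by_cases h2 : y ∈ ball x a
    · rw [cut_one h (by simpa [mem_ball, dist_eq_norm] using (mem_ball.1 h2).le),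
        indicator_of_mem h1, indicator_of_notMem (fun hy => hy.2 h2), add_zero]
    · rw [indicator_of_mem h1, indicator_of_mem (show y ∈ ball x r \ ball x a from ⟨h1, h2⟩)]
      have c0 : 0 ≤ cut x a r y := le_max_right _ _
      have c1 : cut x a r y ≤ 1 := max_le (min_le_right _ _) zero_le_one
      nlinarith [k.1, k.2]
  · rw [cut_zero h (by simpa [mem_ball, dist_eq_norm] using h1), indicator_of_notMem h1,
      indicator_of_notMem (fun hy => h1 hy.1), add_zero]

end VM

open VM

theorem vStmt (d : ℕ) : VStmt d := by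
  intro g K hg
  refine ⟨LipschitzWith.of_le_add_mul K fun x y => ?_, fun x r hr => le_vv hg x hr, vv_eq hg⟩
  obtain ⟨r, hr, e⟩ := vv_eq hg x
  have r0 : 0 < r := one_pos.trans_le hr.1
  have h1 := av_lip hg x y r0 r0
  rw [sub_self, abs_zero, add_zero] at h1
  linarith [le_vv hg y hr]

theorem mStmt (hd : 2 ≤ d) : MStmt d := by
  intro g K hg hi h0
  have hle : ∀ x r, 0 < r → av g x r ≤ mc g x := fun x r hr =>
    le_csSup (bdd hg hi h0 x) ⟨r, hr, rfl⟩
  have hge : ∀ x, g x ≤ mc g x := fun x => by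
    refine le_of_forall_pos_le_add fun ε hε => ?_
    have hK : (0 : ℝ) < K + 1 := by positivity
    have r0 : 0 < ε / (K + 1) := div_pos hε hK
    have h1 := (av_le_pt hg x r0).2
    have h2 : (K + 1 : ℝ) * (ε / (K + 1)) = ε := by field_simp
    nlinarith [hle x _ r0]
  refine ⟨LipschitzWith.of_le_add_mul K fun x y => csSup_le (ne_Ioi x) ?_, hle, hge,
    fun x => (hge x).eq_or_lt.imp Eq.symm (mc_attained hd hg hi h0 x), fun x => ?_⟩
  · rintro _ ⟨r, hr, rfl⟩
    have h1 := av_lip hg x y hr hr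
    rw [sub_self, abs_zero, add_zero] at h1
    linarith [hle y r hr]
  · refine le_antisymm ?_ (iSup₂_le fun r hr => ?_)
    · by_cases hM : Mc g x = ∞
      · rw [hM]; exact le_top
      · refine (ENNReal.ofReal_le_iff_le_toReal hM).2 (csSup_le (ne_Ioi x) ?_)
        rintro _ ⟨r, hr, rfl⟩
        rw [← ENNReal.ofReal_le_iff_le_toReal hM, Fi.av_eq hi h0 x hr]
        exact le_iSup₂_of_le r hr le_rfl
    · rw [← Fi.av_eq hi h0 x hr]
      exact ENNReal.ofReal_le_ofReal (hle x r hr)

theorem derStmt (hd : 2 ≤ d) : DerStmt d := by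
  have d0 : (0 : ℝ) < d := by exact_mod_cast (by omega : 0 < d)
  refine ⟨d, d0, fun γ K ξ x r w hγ hξ hr hw _ he hD => ?_⟩
  have hb := TU.b1_pos (d := d)
  have r0 : 0 < r := one_pos.trans_le hr.1
  have s1 : 1 < Real.exp w := Real.one_lt_exp_iff.2 hw
  have s0 : 0 < Real.exp w := Real.exp_pos w
  have a0 : 0 < r / Real.exp w := div_pos r0 s0
  have ar : r / Real.exp w < r := div_lt_self r0 s1
  have h1 := der_low hγ ξ x hr he hD
  have h2 := err hγ hξ x a0 ar
  have h3 := parts hγ ξ x a0 s1 (by omega)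
  rw [div_mul_cancel₀ _ s0.ne'] at h3
  rw [TU.vol_ball x r0] at h1
  set u := Real.exp (-w) with hu
  have u0 : 0 < u := Real.exp_pos _
  have u1 : u < 1 := Real.exp_lt_one_iff.2 (by linarith)
  have uw : 1 - u ≤ w := by linarith [Real.add_one_le_exp (-w)]
  have ea : r / Real.exp w = r * u := by rw [hu, Real.exp_neg, div_eq_mul_inv]
  have eq1 : (r / Real.exp w) ^ d * (Real.exp w ^ d - 1) = r ^ d * (1 - u ^ d) := by
    rw [mul_sub, ← mul_pow, div_mul_cancel₀ _ s0.ne', ea, mul_pow]; ring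
  have q0 : 0 ≤ 1 - u ^ d := sub_nonneg.2 (pow_le_one₀ u0.le u1.le)
  have q1 : 1 - u ^ d ≤ d * (1 - u) := by
    have := one_add_mul_le_pow (a := u - 1) (by linarith) d
    rw [add_sub_cancel] at this
    linarith
  generalize sF γ ξ x (r / Real.exp w) (Real.exp w) = S at *
  generalize fderiv ℝ (vv γ) x ξ = D at *
  generalize (volume (ball (0 : E d) 1)).toReal = om at *
  rw [← mul_assoc ((r / Real.exp w) ^ d), eq1, ea] at h3
  rw [ea, h3, mul_pow] at h2
  have hp : 0 < r ^ d * om := by positivity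
  have hu1 : 0 < 1 - u := sub_pos.2 u1
  have key : (1 - u ^ d) / (r * (1 - u)) * S ≤ D + K * (1 - u ^ d) := by
    refine le_of_mul_le_mul_left ?_ hp
    have e1 : r ^ d * om * ((1 - u ^ d) / (r * (1 - u)) * S) =
        (r - r * u)⁻¹ * (r ^ d * (1 - u ^ d) * om) * S := by
      have : r - r * u = r * (1 - u) := by ring
      rw [this]; field_simp
    rw [e1]
    nlinarith
  have c0 : 0 ≤ (1 - u ^ d) / (r * (1 - u)) := by positivity
  have c1 : (1 - u ^ d) / (r * (1 - u)) ≤ d := by
    rw [div_le_iff₀ (by positivity)]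
    have : d * (1 - u) ≤ d * (r * (1 - u)) := by
      gcongr
      exact le_mul_of_one_le_left hu1.le hr.1
    linarith
  have c2 : (K : ℝ) * (1 - u ^ d) ≤ d * K * w := by
    calc (K : ℝ) * (1 - u ^ d) ≤ K * (d * w) := by
          gcongr
          exact q1.trans (by gcongr)
      _ = _ := by ring
  have c3 : (1 - u ^ d) / (r * (1 - u)) * -S ≤ d * max (-S) 0 :=
    (mul_le_mul_of_nonneg_left (le_max_left _ _) c0).trans
      (mul_le_mul_of_nonneg_right c1 (le_max_right _ _))
  linarith

end Vale.Agent.P137
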