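import Vale.Agent.P137.CBase

open MeasureTheory Metric Set Filter
open scoped ENNReal NNReal RealInnerProductSpace Topology CompactlySupported

namespace Vale.Agent.P137

variable {d : ℕ}

namespace Wk

lemma int_mul {a : E d → ℝ} (ha : Integrable a) (φ : C_c(E d, ℝ)) :
    Integrable fun x => φ x * a x := by
  obtain ⟨B, hB⟩ := φ.hasCompactSupport.exists_bound_of_continuous φ.continuous
  exact ha.bdd_mul φ.continuous.aestronglyMeasurable (Eventually.of_forall hB)

lemma ex_lim (a : ℕ → E d → ℝ) {W : ℝ} (hi : ∀ n, Integrable (a n)) (h0 : ∀ n x, 0 ≤ a n x)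
    (hW : ∀ n, ∫ x, a n x ≤ W) (𝒰 : Ultrafilter ℕ) (φ : C_c(E d, ℝ)) :
    ∃ l, Tendsto (fun n => ∫ x, φ x * a n x) 𝒰 (𝓝 l) := by
  obtain ⟨B, hB⟩ := φ.hasCompactSupport.exists_bound_of_continuous φ.continuous
  have hB0 : 0 ≤ B := (norm_nonneg _).trans (hB 0)
  have h1 : ∀ n, ∫ x, φ x * a n x ∈ closedBall (0 : ℝ) (B * W) := fun n => by
    rw [mem_closedBall_zero_iff]
    refine (norm_integral_le_of_norm_le ((hi n).const_mul B)
      (Eventually.of_forall fun x => ?_)).trans ?_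
    · rw [norm_mul, Real.norm_of_nonneg (h0 n x)]
      exact mul_le_mul_of_nonneg_right (hB x) (h0 n x)
    · rw [integral_const_mul]
      exact mul_le_mul_of_nonneg_left (hW n) hB0
  obtain ⟨l, -, hl⟩ := (isCompact_closedBall (0 : ℝ) (B * W)).ultrafilter_le_nhds
    (𝒰.map fun n => ∫ x, φ x * a n x)
    (le_principal_iff.2 (mem_map.2 (Eventually.of_forall h1)))
  exact ⟨l, hl⟩

lemma ex_fun (a : ℕ → E d → ℝ) {W : ℝ} (hi : ∀ n, Integrable (a n)) (h0 : ∀ n x, 0 ≤ a n x)
    (hW : ∀ n, ∫ x, a n x ≤ W) (𝒰 : Ultrafilter ℕ) :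
    ∃ Λ : PositiveLinearMap ℝ C_c(E d, ℝ) ℝ,
      ∀ φ, Tendsto (fun n => ∫ x, φ x * a n x) 𝒰 (𝓝 (Λ φ)) := by
  choose l hl using ex_lim a hi h0 hW 𝒰
  let L : C_c(E d, ℝ) →ₗ[ℝ] ℝ :=
    { toFun := l
      map_add' := fun φ ψ => by
        refine tendsto_nhds_unique (hl (φ + ψ)) ?_
        refine ((hl φ).add (hl ψ)).congr fun n => ?_
        rw [← integral_add (int_mul (hi n) φ) (int_mul (hi n) ψ)]
        simp [add_mul]
      map_smul' := fun c φ => by
        refine tendsto_nhds_unique (hl (c • φ)) ?_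
        refine ((hl φ).const_mul c).congr fun n => ?_
        rw [← integral_const_mul]
        simp [mul_assoc] }
  refine ⟨PositiveLinearMap.mk₀ L fun φ hφ => ?_, fun φ => hl φ⟩
  exact ge_of_tendsto' (hl φ) fun n => integral_nonneg fun x => mul_nonneg (hφ x) (h0 n x)

lemma key (a : ℕ → E d → ℝ) {W : ℝ≥0∞} (hW : W ≠ ∞) (hm : ∀ n, Measurable (a n))
    (h0 : ∀ n x, 0 ≤ a n x) (hb : ∀ n, ∫⁻ x, ENNReal.ofReal (a n x) ≤ W)
    (hK : ∀ K : Set (E d), IsCompact K → volume K = 0 → ∀ ε : ℝ≥0∞, 0 < ε → ∃ δ : ℝ, 0 < δ ∧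
      ∀ᶠ n in atTop, ∫⁻ x in cthickening δ K, ENNReal.ofReal (a n x) ≤ ε)
    (𝒰 : Ultrafilter ℕ) (hU : (𝒰 : Filter ℕ) ≤ atTop) :
    ∃ h : E d → ℝ, Integrable h ∧ (∀ x, 0 ≤ h x) ∧ ∫⁻ x, ENNReal.ofReal (h x) ≤ W ∧
      ∀ φ : C_c(E d, ℝ), Tendsto (fun n => ∫ x, φ x * a n x) 𝒰 (𝓝 (∫ x, φ x * h x)) := by
  have hi : ∀ n, Integrable (a n) := fun n =>
    ⟨(hm n).aestronglyMeasurable, (hasFiniteIntegral_iff_ofReal (Eventually.of_forall (h0 n))).2
      ((hb n).trans_lt hW.lt_top)⟩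
  have hW' : ∀ n, ∫ x, a n x ≤ W.toReal := fun n => by
    rw [integral_eq_lintegral_of_nonneg_ae (Eventually.of_forall (h0 n)) (hi n).1]
    exact ENNReal.toReal_mono hW (hb n)
  obtain ⟨Λ, hΛ⟩ := ex_fun a hi h0 hW' 𝒰
  set μ := RealRMK.rieszMeasure Λ
  have k1 : ∀ K V : Set (E d), IsCompact K → IsOpen V → K ⊆ V → ∀ ε : ℝ≥0∞,
      (∀ᶠ n in atTop, ∫⁻ x in V, ENNReal.ofReal (a n x) ≤ ε) → μ K ≤ ε := by
    intro K V hKc hV hKV ε hε
    obtain ⟨f, f1, f2, f3, f4⟩ := exists_continuousMap_one_of_isCompact_subset_isOpen hKc hV hKV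
    let φ : C_c(E d, ℝ) := ⟨f, hasCompactSupport_def.mpr f2⟩
    refine (RealRMK.rieszMeasure_le_of_eq_one Λ (f := φ) (fun x => (f4 x).1) hKc f1).trans ?_
    refine le_of_tendsto ((ENNReal.continuous_ofReal.tendsto _).comp (hΛ φ)) ?_
    filter_upwards [hU hε] with n hn
    refine le_trans ?_ hn
    rw [Function.comp_apply, ofReal_integral_eq_lintegral_ofReal (int_mul (hi n) φ)
      (Eventually.of_forall fun x => mul_nonneg (f4 x).1 (h0 n x)),
      ← lintegral_indicator hV.measurableSet]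
    refine lintegral_mono fun x => ?_
    by_cases hx : x ∈ V
    · rw [indicator_of_mem hx]
      exact ENNReal.ofReal_le_ofReal (mul_le_of_le_one_left (h0 n x) (f4 x).2)
    · have : φ x = 0 := image_eq_zero_of_notMem_tsupport (f := f) fun h => hx (f3 h)
      simp [this]
  have k2 : μ univ ≤ W := by
    rw [isOpen_univ.measure_eq_iSup_isCompact]
    refine iSup₂_le fun K _ => iSup_le fun hKc => k1 K univ hKc isOpen_univ (subset_univ _) _ ?_
    exact Eventually.of_forall fun n => by simpa using hb n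
  have : IsFiniteMeasure μ := ⟨k2.trans_lt hW.lt_top⟩
  have k3 : μ ≪ volume := by
    refine Measure.AbsolutelyContinuous.mk fun s hs hs0 => ?_
    rw [hs.measure_eq_iSup_isCompact_of_ne_top (measure_ne_top _ _)]
    refine le_antisymm (iSup₂_le fun K hKs => iSup_le fun hKc => ?_) zero_le
    refine le_of_forall_gt_imp_ge_of_dense fun ε hε => ?_
    obtain ⟨δ, hδ, h1⟩ := hK K hKc (measure_mono_null hKs hs0) ε hε
    refine k1 K (thickening δ K) hKc isOpen_thickening (self_subset_thickening hδ K) ε ?_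
    filter_upwards [h1] with n hn
    exact (lintegral_mono_set (thickening_subset_cthickening δ K)).trans hn
  refine ⟨fun x => (μ.rnDeriv volume x).toReal, Measure.integrable_toReal_rnDeriv,
    fun x => ENNReal.toReal_nonneg, ?_, fun φ => ?_⟩
  · exact (lintegral_mono fun x => ENNReal.ofReal_toReal_le).trans
      (Measure.lintegral_rnDeriv_le.trans k2)
  · have := hΛ φ
    rw [← RealRMK.integral_rieszMeasure, ← integral_rnDeriv_smul (ν := volume) k3] at this
    simpa only [smul_eq_mul, mul_comm] using this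

lemma dec (w v : E d) : ⟪w, v⟫ = ∑ j : Fin d × Bool, ⟪dir j, v⟫ * max ⟪w, dir j⟫ 0 := by
  rw [Fintype.sum_prod_type, PiLp.inner_apply]
  refine Finset.sum_congr rfl fun i _ => ?_
  simp only [dir, Fintype.sum_bool, EuclideanSpace.inner_single_left,
    EuclideanSpace.inner_single_right]
  rcases le_total 0 (w i) with h | h <;> simp [h, mul_comm]

end Wk

open Wk in
theorem weakStmt (d : ℕ) : WeakStmt d := by
  intro u D U W hW hm hb hw hu hK
  have l1 : ∀ (j : Fin d × Bool) (w : E d), ENNReal.ofReal (max ⟪w, dir j⟫ 0) ≤ ‖w‖ₑ := fun j w => by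
    rw [← ofReal_norm]
    refine ENNReal.ofReal_le_ofReal (max_le ?_ (norm_nonneg _))
    simpa [dir_norm] using real_inner_le_norm w (dir j)
  have hU : ((hyperfilter ℕ : Ultrafilter ℕ) : Filter ℕ) ≤ atTop := Nat.hyperfilter_le_atTop
  have := fun j : Fin d × Bool => key (fun n x => max ⟪D n x, dir j⟫ 0) hW
    (fun n => ((hm n).inner_const).max measurable_const) (fun n x => le_max_right _ _)
    (fun n => (lintegral_mono fun x => l1 j _).trans (hb n))
    (fun K h1 h2 ε hε => by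
      obtain ⟨δ, hδ, h3⟩ := hK K h1 h2 ε hε
      exact ⟨δ, hδ, h3.mono fun n hn => (lintegral_mono fun x => l1 j _).trans hn⟩) _ hU
  choose h hi h0 hh ht using this
  have hD : ∀ n, Integrable (D n) := fun n =>
    ⟨(hm n).aestronglyMeasurable, (hb n).trans_lt hW.lt_top⟩
  refine ⟨fun x => ∑ j, h j x • dir j, integrable_finsetSum _ fun j _ => (hi j).smul_const _,
    fun φ hφ hc v => ?_, ?_⟩
  · have c1 : Continuous fun x => fderiv ℝ φ x v :=
      (hφ.continuous_fderiv (by simp)).clm_apply continuous_const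
    have t1 := (hu _ c1 (hc.fderiv_apply ℝ v)).mono_left hU
    let φ' : C_c(E d, ℝ) := ⟨⟨φ, hφ.continuous⟩, hc⟩
    have t2 := (tendsto_finsetSum Finset.univ fun j _ => (ht j φ').const_mul ⟪dir j, v⟫).neg
    refine tendsto_nhds_unique t1 ?_
    have e1 : ∀ b : Fin d × Bool → E d → ℝ, (∀ j, Integrable (b j)) →
        ∑ j, ⟪dir j, v⟫ * ∫ x, φ' x * b j x = ∫ x, (∑ j, ⟪dir j, v⟫ * b j x) * φ x := by
      intro b hb
      simp only [← integral_const_mul]
      rw [← integral_finsetSum _ fun j _ => (int_mul (hb j) φ').const_mul _]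
      refine integral_congr_ae (Eventually.of_forall fun x => ?_)
      simp only [Finset.sum_mul]
      refine Finset.sum_congr rfl fun j _ => ?_
      change _ * (φ x * _) = _
      ring
    rw [e1 h hi] at t2
    simp only [sum_inner, real_inner_smul_left, mul_comm (h _ _)]
    refine t2.congr fun n => ?_
    rw [hw n φ hφ hc v, e1 _ fun j => ((hD n).inner_const _).pos_part]
    simp only [← dec]
  · calc ∫⁻ x, ‖∑ j, h j x • dir j‖ₑ ≤ ∫⁻ x, ∑ j, ENNReal.ofReal (h j x) := by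
          refine lintegral_mono fun x => (enorm_sum_le _ _).trans (le_of_eq ?_)
          refine Finset.sum_congr rfl fun j _ => ?_
          rw [← ofReal_norm, norm_smul, dir_norm, mul_one, Real.norm_of_nonneg (h0 j x)]
      _ = ∑ j, ∫⁻ x, ENNReal.ofReal (h j x) :=
          lintegral_finsetSum' _ fun j _ => (hi j).1.aemeasurable.ennreal_ofReal
      _ ≤ ∑ _j : Fin d × Bool, W := Finset.sum_le_sum fun j _ => hh j
      _ = 2 * d * W := by
          simp [mul_comm]

end Vale.Agent.P137
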